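import Mathlib

/-!
# P335: averaging operators over the fibres of a key
-/

open Finset
open scoped Classical

namespace Vale.Agent.P335

variable {Ω : Type*} [Fintype Ω] {K K' : Type*}

/-- The bilinear form `∑ f g`. -/
noncomputable def ip (f g : Ω → ℝ) : ℝ := ∑ x, f x * g x

lemma ip_comm (f g : Ω → ℝ) : ip f g = ip g f := by
  unfold ip; exact Finset.sum_congr rfl (fun x _ => mul_comm _ _)

lemma ip_add_left (f g h : Ω → ℝ) : ip (f + g) h = ip f h + ip g h := by
  simp [ip, add_mul, Finset.sum_add_distrib]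

lemma ip_add_right (f g h : Ω → ℝ) : ip f (g + h) = ip f g + ip f h := by
  simp [ip, mul_add, Finset.sum_add_distrib]

lemma ip_sub_left (f g h : Ω → ℝ) : ip (f - g) h = ip f h - ip g h := by
  simp [ip, sub_mul, Finset.sum_sub_distrib]

lemma ip_sub_right (f g h : Ω → ℝ) : ip f (g - h) = ip f g - ip f h := by
  simp [ip, mul_sub, Finset.sum_sub_distrib]

lemma ip_smul_left (a : ℝ) (f g : Ω → ℝ) : ip (a • f) g = a * ip f g := by
  simp [ip, Finset.mul_sum, mul_assoc]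

lemma ip_smul_right (a : ℝ) (f g : Ω → ℝ) : ip f (a • g) = a * ip f g := by
  rw [ip_comm, ip_smul_left, ip_comm]

lemma ip_zero_left (f : Ω → ℝ) : ip 0 f = 0 := by simp [ip]

lemma ip_zero_right (f : Ω → ℝ) : ip f 0 = 0 := by simp [ip]

lemma ip_neg_left (f g : Ω → ℝ) : ip (-f) g = - ip f g := by
  simp [ip]

lemma ip_sum_left {ι : Type*} (s : Finset ι) (F : ι → Ω → ℝ) (g : Ω → ℝ) :
    ip (∑ i ∈ s, F i) g = ∑ i ∈ s, ip (F i) g := by
  simp only [ip, Finset.sum_apply, Finset.sum_mul]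
  rw [Finset.sum_comm]

lemma ip_sum_right {ι : Type*} (s : Finset ι) (F : ι → Ω → ℝ) (g : Ω → ℝ) :
    ip g (∑ i ∈ s, F i) = ∑ i ∈ s, ip g (F i) := by
  rw [ip_comm, ip_sum_left]
  exact Finset.sum_congr rfl (fun i _ => ip_comm _ _)

lemma ip_self_nonneg (f : Ω → ℝ) : 0 ≤ ip f f :=
  Finset.sum_nonneg (fun x _ => mul_self_nonneg _)

lemma ip_self_eq_zero {f : Ω → ℝ} (h : ip f f = 0) : f = 0 := by
  unfold ip at h
  rw [Finset.sum_eq_zero_iff_of_nonneg (fun x _ => mul_self_nonneg _)] at h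
  funext x
  exact mul_self_eq_zero.mp (h x (Finset.mem_univ x))

/-- Cauchy–Schwarz. -/
lemma ip_sq_le (f g : Ω → ℝ) : ip f g ^ 2 ≤ ip f f * ip g g := by
  have h := Finset.sum_mul_sq_le_sq_mul_sq (Finset.univ : Finset Ω) f g
  unfold ip
  simpa [pow_two] using h

/-- The fibre of the key `κ` through `x`. -/
noncomputable def fib (κ : Ω → K) (x : Ω) : Finset Ω := Finset.univ.filter (fun y => κ y = κ x)

lemma mem_fib {κ : Ω → K} {x y : Ω} : y ∈ fib κ x ↔ κ y = κ x := by simp [fib]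

lemma self_mem_fib (κ : Ω → K) (x : Ω) : x ∈ fib κ x := by simp [fib]

lemma fib_congr {κ : Ω → K} {x y : Ω} (h : κ x = κ y) : fib κ x = fib κ y := by
  simp [fib, h]

lemma fib_card_pos (κ : Ω → K) (x : Ω) : (0 : ℝ) < ((fib κ x).card : ℝ) := by
  exact_mod_cast Finset.card_pos.mpr ⟨x, self_mem_fib κ x⟩

/-- Average of `f` over the fibres of `κ`. -/
noncomputable def avg (κ : Ω → K) : (Ω → ℝ) →ₗ[ℝ] (Ω → ℝ) where
  toFun f x := (∑ y ∈ fib κ x, f y) / ((fib κ x).card : ℝ)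
  map_add' f g := by
    funext x
    simp [Finset.sum_add_distrib, add_div]
  map_smul' a f := by
    funext x
    simp [← Finset.mul_sum, mul_div_assoc]

lemma avg_apply (κ : Ω → K) (f : Ω → ℝ) (x : Ω) :
    avg κ f x = (∑ y ∈ fib κ x, f y) / ((fib κ x).card : ℝ) := rfl

lemma sum_fib_eq (κ : Ω → K) (f : Ω → ℝ) (x : Ω) :
    ∑ y ∈ fib κ x, f y = avg κ f x * ((fib κ x).card : ℝ) := by
  rw [avg_apply, div_mul_cancel₀]
  exact (fib_card_pos κ x).ne'

/-- `avg κ f` is `κ`-measurable. -/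
lemma avg_meas (κ : Ω → K) (f : Ω → ℝ) {x y : Ω} (h : κ x = κ y) : avg κ f x = avg κ f y := by
  rw [avg_apply, avg_apply, fib_congr h]

/-- `avg κ` fixes `κ`-measurable functions. -/
lemma avg_of_meas {κ : Ω → K} {f : Ω → ℝ} (h : ∀ x y, κ x = κ y → f x = f y) : avg κ f = f := by
  funext x
  rw [avg_apply, Finset.sum_congr rfl (fun y hy => h y x (mem_fib.mp hy)), Finset.sum_const,
    nsmul_eq_mul, mul_div_assoc, mul_comm, div_mul_cancel₀]
  exact (fib_card_pos κ x).ne'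

lemma avg_idem (κ : Ω → K) (f : Ω → ℝ) : avg κ (avg κ f) = avg κ f :=
  avg_of_meas (fun _ _ h => avg_meas κ f h)

lemma avg_symm (κ : Ω → K) (f g : Ω → ℝ) : ip (avg κ f) g = ip f (avg κ g) := by
  have h1 : ip (avg κ f) g = ∑ x, ∑ y, (if κ y = κ x then f y * g x / ((fib κ x).card : ℝ) else 0) := by
    unfold ip
    refine Finset.sum_congr rfl (fun x _ => ?_)
    rw [avg_apply, ← Finset.sum_filter, div_mul_eq_mul_div, Finset.sum_mul, Finset.sum_div]
    rfl
  have h2 : ip f (avg κ g) = ∑ y, ∑ x, (if κ x = κ y then f y * g x / ((fib κ y).card : ℝ) else 0) := by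
    unfold ip
    refine Finset.sum_congr rfl (fun x _ => ?_)
    rw [avg_apply, ← Finset.sum_filter, mul_div_assoc', Finset.mul_sum, Finset.sum_div]
    rfl
  rw [h1, h2, Finset.sum_comm]
  refine Finset.sum_congr rfl (fun y _ => Finset.sum_congr rfl (fun x _ => ?_))
  by_cases h : κ x = κ y
  · rw [if_pos h, if_pos h.symm, fib_congr h]
  · rw [if_neg h, if_neg (fun h' => h h'.symm)]

/-- Averaging over a coarser key absorbs averaging over a finer key (outer coarse). -/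
lemma avg_tower {κ : Ω → K} {κ' : Ω → K'} (h : ∀ x y, κ x = κ y → κ' x = κ' y) (f : Ω → ℝ) :
    avg κ (avg κ' f) = avg κ' f :=
  avg_of_meas (fun x y hxy => avg_meas κ' f (h x y hxy))

/-- Two functions with the same `ip` against everything are equal. -/
lemma ext_ip {f g : Ω → ℝ} (h : ∀ k, ip f k = ip g k) : f = g := by
  have h1 : ip (f - g) (f - g) = 0 := by
    rw [ip_sub_left, h]; ring
  have := ip_self_eq_zero h1
  exact sub_eq_zero.mp this

lemma avg_tower' {κ : Ω → K} {κ' : Ω → K'} (h : ∀ x y, κ x = κ y → κ' x = κ' y) (f : Ω → ℝ) :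
    avg κ' (avg κ f) = avg κ' f := by
  apply ext_ip
  intro k
  rw [avg_symm, avg_symm, avg_tower h, ← avg_symm]

lemma ip_avg_self (κ : Ω → K) (f : Ω → ℝ) : ip (avg κ f) f = ip (avg κ f) (avg κ f) := by
  rw [← avg_symm, avg_idem]

lemma ip_avg_self_nonneg (κ : Ω → K) (f : Ω → ℝ) : 0 ≤ ip (avg κ f) f := by
  rw [ip_avg_self]; exact ip_self_nonneg _

lemma ip_avg_self_le (κ : Ω → K) (f : Ω → ℝ) : ip (avg κ f) f ≤ ip f f := by
  have h := ip_self_nonneg (f - avg κ f)
  rw [ip_sub_left, ip_sub_right, ip_sub_right, ip_comm f (avg κ f), ← ip_avg_self] at h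
  linarith

/-- Permutations preserving the key relation commute with averaging. -/
lemma avg_comp_perm (κ : Ω → K) (σ : Equiv.Perm Ω) (hσ : ∀ x y, κ x = κ y ↔ κ (σ x) = κ (σ y))
    (f : Ω → ℝ) (x : Ω) : avg κ f (σ x) = avg κ (fun z => f (σ z)) x := by
  have hfib : fib κ (σ x) = (fib κ x).map σ.toEmbedding := by
    ext y
    simp only [Finset.mem_map, mem_fib, Equiv.coe_toEmbedding]
    constructor
    · intro hy
      refine ⟨σ.symm y, ?_, by simp⟩
      rw [hσ]; simpa using hy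
    · rintro ⟨z, hz, rfl⟩
      exact (hσ z x).mp hz
  rw [avg_apply, avg_apply, hfib, Finset.sum_map, Finset.card_map]
  rfl

lemma avg_le_of_le (κ : Ω → K) {f : Ω → ℝ} {x : Ω} {C : ℝ} (h : ∀ y, κ y = κ x → f y ≤ C) :
    avg κ f x ≤ C := by
  rw [avg_apply, div_le_iff₀ (fib_card_pos κ x)]
  calc ∑ y ∈ fib κ x, f y ≤ ∑ _y ∈ fib κ x, C := Finset.sum_le_sum (fun y hy => h y (mem_fib.mp hy))
    _ = C * ((fib κ x).card : ℝ) := by rw [Finset.sum_const, nsmul_eq_mul, mul_comm]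

lemma abs_avg_le_of_le (κ : Ω → K) {f : Ω → ℝ} {x : Ω} {C : ℝ} (h : ∀ y, κ y = κ x → |f y| ≤ C) :
    |avg κ f x| ≤ C := by
  rw [abs_le]
  constructor
  · have h1 : avg κ (-f) x ≤ C := avg_le_of_le κ (fun y hy => by
      have := h y hy
      have h2 := (abs_le.mp this).1
      simp only [Pi.neg_apply]; linarith)
    rw [map_neg, Pi.neg_apply] at h1
    linarith
  · exact avg_le_of_le κ (fun y hy => (abs_le.mp (h y hy)).2)

end Vale.Agent.P335
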