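import Mathlib
import Vale.Agent.P335.Avg

/-!
# P335: extremal eigenfunctions of symmetric operators on an invariant subspace
-/

open Finset
open scoped Classical

namespace Vale.Agent.P335

variable {Ω : Type*} [Fintype Ω]

lemma isClosed_submodule (W : Submodule ℝ (Ω → ℝ)) : IsClosed (W : Set (Ω → ℝ)) :=
  Submodule.closed_of_finiteDimensional W

lemma continuous_ip_self : Continuous (fun f : Ω → ℝ => ip f f) := by
  unfold ip
  fun_prop

lemma continuous_ip_lin (T : (Ω → ℝ) →ₗ[ℝ] (Ω → ℝ)) : Continuous (fun f : Ω → ℝ => ip (T f) f) := by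
  have hT : Continuous T := LinearMap.continuous_of_finiteDimensional T
  unfold ip
  refine continuous_finset_sum _ (fun x _ => ?_)
  exact ((continuous_apply x).comp hT).mul (continuous_apply x)

/-- A symmetric operator on a nonzero invariant subspace has an eigenfunction for the maximum of its
Rayleigh quotient. -/
theorem exists_max_eigen (T : (Ω → ℝ) →ₗ[ℝ] (Ω → ℝ)) (hT : ∀ f g, ip (T f) g = ip f (T g))
    (W : Submodule ℝ (Ω → ℝ)) (hW : ∀ f ∈ W, T f ∈ W) (hne : ∃ f ∈ W, f ≠ 0) :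
    ∃ Λ : ℝ, ∃ f ∈ W, f ≠ 0 ∧ T f = Λ • f ∧ ∀ g ∈ W, ip (T g) g ≤ Λ * ip g g := by
  set S : Set (Ω → ℝ) := {f | f ∈ W ∧ ip f f = 1} with hS
  have hSc : IsCompact S := by
    apply Metric.isCompact_of_isClosed_isBounded
    · have h1 : IsClosed {f : Ω → ℝ | ip f f = 1} := isClosed_eq continuous_ip_self continuous_const
      exact (isClosed_submodule W).inter h1
    · rw [isBounded_iff_forall_norm_le]
      refine ⟨1, fun f hf => ?_⟩
      rw [pi_norm_le_iff_of_nonneg zero_le_one]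
      intro x
      have h2 : f x * f x ≤ ip f f :=
        Finset.single_le_sum (f := fun x => f x * f x) (fun y _ => mul_self_nonneg _)
          (Finset.mem_univ x)
      rw [hf.2] at h2
      rw [Real.norm_eq_abs]
      exact abs_le_one_iff_mul_self_le_one.mpr h2
  have hpos : ∀ f : Ω → ℝ, f ≠ 0 → 0 < ip f f := fun f hf =>
    lt_of_le_of_ne (ip_self_nonneg f) (fun h => hf (ip_self_eq_zero h.symm))
  have hnorm : ∀ f ∈ W, f ≠ 0 → ((Real.sqrt (ip f f))⁻¹ • f) ∈ S := by
    intro f hf hf0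
    refine ⟨W.smul_mem _ hf, ?_⟩
    rw [ip_smul_left, ip_smul_right, ← mul_assoc, ← mul_inv, Real.mul_self_sqrt (ip_self_nonneg f)]
    exact inv_mul_cancel₀ (hpos f hf0).ne'
  obtain ⟨f1, hf1W, hf10⟩ := hne
  have hSne : S.Nonempty := ⟨_, hnorm f1 hf1W hf10⟩
  obtain ⟨f0, hf0S, hmax⟩ := hSc.exists_isMaxOn hSne (continuous_ip_lin T).continuousOn
  set Λ := ip (T f0) f0 with hΛ
  have hle : ∀ g ∈ W, ip (T g) g ≤ Λ * ip g g := by
    intro g hg
    by_cases hg0 : g = 0
    · subst hg0; simp [ip_zero_right]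
    · have h3 := hmax (hnorm g hg hg0)
      simp only [Set.mem_setOf_eq] at h3
      rw [map_smul, ip_smul_left, ip_smul_right, ← mul_assoc, ← mul_inv,
        Real.mul_self_sqrt (ip_self_nonneg g), inv_mul_le_iff₀ (hpos g hg0)] at h3
      linarith [h3]
  have hf0W : f0 ∈ W := hf0S.1
  have hf01 : ip f0 f0 = 1 := hf0S.2
  refine ⟨Λ, f0, hf0W, ?_, ?_, hle⟩
  · rintro rfl
    rw [ip_zero_left] at hf01
    exact zero_ne_one hf01
  · -- the quadratic form Λ ip g g - ip (T g) g is nonnegative and vanishes at f0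
    have hB : ∀ g ∈ W, Λ * ip f0 g - ip (T f0) g = 0 := by
      intro g hg
      set B := Λ * ip f0 g - ip (T f0) g with hBdef
      set Q := Λ * ip g g - ip (T g) g with hQdef
      have hQ : 0 ≤ Q := by have := hle g hg; linarith
      have hexp : ∀ t : ℝ, 0 ≤ 2 * t * B + t ^ 2 * Q := by
        intro t
        have h4 := hle (f0 + t • g) (W.add_mem hf0W (W.smul_mem t hg))
        rw [map_add, map_smul] at h4
        simp only [ip_add_left, ip_add_right, ip_smul_left, ip_smul_right] at h4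
        have h5 : ip (T g) f0 = ip (T f0) g := by rw [hT, ip_comm]
        have h6 : ip g f0 = ip f0 g := ip_comm _ _
        rw [h5, h6, hf01] at h4
        rw [hBdef, hQdef]
        nlinarith [h4]
      have h7 := hexp (-B / (Q + 1))
      have hQ1 : (0:ℝ) < Q + 1 := by linarith
      have h8 : 2 * (-B / (Q + 1)) * B + (-B / (Q + 1)) ^ 2 * Q
          = - (B ^ 2 * (Q + 2)) / (Q + 1) ^ 2 := by
        field_simp; ring
      rw [h8] at h7
      have h9 : 0 ≤ - (B ^ 2 * (Q + 2)) := by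
        by_contra hcon
        push Not at hcon
        have := div_neg_of_neg_of_pos hcon (pow_pos hQ1 2)
        linarith
      have h10 : B ^ 2 = 0 := by nlinarith [sq_nonneg B]
      exact pow_eq_zero_iff (two_ne_zero) |>.mp h10
    have hmem : Λ • f0 - T f0 ∈ W := W.sub_mem (W.smul_mem _ hf0W) (hW _ hf0W)
    have h11 := hB _ hmem
    have h12 : ip (Λ • f0 - T f0) (Λ • f0 - T f0) = 0 := by
      rw [ip_sub_left (Λ • f0) (T f0), ip_smul_left]
      exact h11
    have h13 := ip_self_eq_zero h12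
    exact (sub_eq_zero.mp h13).symm

/-- The same for the minimum. -/
theorem exists_min_eigen (T : (Ω → ℝ) →ₗ[ℝ] (Ω → ℝ)) (hT : ∀ f g, ip (T f) g = ip f (T g))
    (W : Submodule ℝ (Ω → ℝ)) (hW : ∀ f ∈ W, T f ∈ W) (hne : ∃ f ∈ W, f ≠ 0) :
    ∃ Λ : ℝ, ∃ f ∈ W, f ≠ 0 ∧ T f = Λ • f ∧ ∀ g ∈ W, Λ * ip g g ≤ ip (T g) g := by
  obtain ⟨Λ, f, hf, hf0, hTf, hle⟩ := exists_max_eigen (-T)
    (fun f g => by
      simp only [LinearMap.neg_apply, ip_neg_left, hT]
      rw [ip_comm f (-(T g)), ip_neg_left, ip_comm]) W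
    (fun f hf => by simpa using W.neg_mem (hW f hf)) hne
  refine ⟨-Λ, f, hf, hf0, ?_, ?_⟩
  · rw [LinearMap.neg_apply] at hTf
    rw [neg_smul, ← hTf, neg_neg]
  · intro g hg
    have := hle g hg
    rw [LinearMap.neg_apply, ip_neg_left] at this
    linarith

end Vale.Agent.P335
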