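import Mathlib
import Vale.Agent.P335.Avg
import Vale.Agent.P335.Spectral

/-!
# P335: Caputo's trick
-/

open Finset
open scoped Classical

namespace Vale.Agent.P335

variable {Ω : Type*} [Fintype Ω]

section

variable {V : Type*} [Fintype V]

/-- Sum over triples of distinct indices of a function which is nonnegative in cyclic average. -/
lemma sum_tri_nonneg (q : V → V → V → ℝ)
    (hq : ∀ a b c, a ≠ b → b ≠ c → a ≠ c → 0 ≤ q a b c + q b c a + q c a b) :
    0 ≤ ∑ a, ∑ b, ∑ c, if a ≠ b ∧ b ≠ c ∧ a ≠ c then q a b c else 0 := by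
  set Q : V → V → V → ℝ := fun a b c => if a ≠ b ∧ b ≠ c ∧ a ≠ c then q a b c else 0 with hQ
  have h1 : ∑ a, ∑ b, ∑ c, Q b c a = ∑ a, ∑ b, ∑ c, Q a b c := by
    rw [Finset.sum_comm]
    refine Finset.sum_congr rfl (fun b _ => ?_)
    rw [Finset.sum_comm]
  have h2 : ∑ a, ∑ b, ∑ c, Q c a b = ∑ a, ∑ b, ∑ c, Q a b c := by
    calc ∑ a, ∑ b, ∑ c, Q c a b = ∑ a, ∑ c, ∑ b, Q c a b :=
          Finset.sum_congr rfl (fun a _ => Finset.sum_comm)
      _ = ∑ c, ∑ a, ∑ b, Q c a b := Finset.sum_comm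
  have h3 : 0 ≤ ∑ a, ∑ b, ∑ c, (Q a b c + Q b c a + Q c a b) := by
    refine Finset.sum_nonneg (fun a _ => Finset.sum_nonneg (fun b _ =>
      Finset.sum_nonneg (fun c _ => ?_)))
    by_cases h : a ≠ b ∧ b ≠ c ∧ a ≠ c
    · have e1 : Q a b c = q a b c := by simp only [hQ]; rw [if_pos h]
      have e2 : Q b c a = q b c a := by
        simp only [hQ]; rw [if_pos ⟨h.2.1, h.2.2.symm, h.1.symm⟩]
      have e3 : Q c a b = q c a b := by
        simp only [hQ]; rw [if_pos ⟨h.2.2.symm, h.1, h.2.1.symm⟩]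
      rw [e1, e2, e3]
      exact hq a b c h.1 h.2.1 h.2.2
    · have e1 : Q a b c = 0 := by simp only [hQ]; rw [if_neg h]
      have e2 : Q b c a = 0 := by
        simp only [hQ]; rw [if_neg]; rintro ⟨x, y, z⟩; exact h ⟨z.symm, x, y.symm⟩
      have e3 : Q c a b = 0 := by
        simp only [hQ]; rw [if_neg]; rintro ⟨x, y, z⟩; exact h ⟨y, z.symm, x.symm⟩
      rw [e1, e2, e3]; simp
  have h4 : ∑ a, ∑ b, ∑ c, (Q a b c + Q b c a + Q c a b)
      = ∑ a, ∑ b, ∑ c, Q a b c + ∑ a, ∑ b, ∑ c, Q b c a + ∑ a, ∑ b, ∑ c, Q c a b := by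
    simp only [Finset.sum_add_distrib]
  rw [h4, h1, h2] at h3
  linarith

/-- Lower bound for the sum over all pairs, for a fixed pair. -/
lemma pair_sum_bound (w : V → V → ℝ) (hsymm : ∀ a b, w a b = w b a) (a b : V) (hab : a ≠ b)
    (hd : ∀ c e, c ≠ e → a ≠ c → a ≠ e → b ≠ c → b ≠ e → 0 ≤ w c e) :
    2 * w a b + 2 * ∑ e, (if a ≠ e ∧ b ≠ e then w a e + w b e else 0)
      ≤ ∑ c, ∑ e, if c = e then 0 else w c e := by
  have key : ∀ c e, ((if c = a then (if e = b then w a b else 0) else 0)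
      + (if c = b then (if e = a then w a b else 0) else 0)
      + (if c = a then (if a ≠ e ∧ b ≠ e then w a e else 0) else 0)
      + (if c = b then (if a ≠ e ∧ b ≠ e then w b e else 0) else 0)
      + (if e = a then (if a ≠ c ∧ b ≠ c then w a c else 0) else 0)
      + (if e = b then (if a ≠ c ∧ b ≠ c then w b c else 0) else 0))
      ≤ (if c = e then 0 else w c e) := by
    intro c e
    by_cases hca : c = a
    · subst hca
      by_cases heb : e = b
      · subst heb; simp [hab, hab.symm]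
      · by_cases hea : e = c
        · subst hea; simp [hab, hab.symm]
        · simp [hab, hab.symm, hea, heb, Ne.symm hea, Ne.symm heb]
    · by_cases hcb : c = b
      · subst hcb
        by_cases hea : e = a
        · subst hea; simp [hab, hab.symm, hsymm c e]
        · by_cases heb : e = c
          · subst heb; simp [hab, hab.symm]
          · simp [hab, hab.symm, hea, heb, Ne.symm hea, Ne.symm heb]
      · by_cases hea : e = a
        · subst hea
          simp [hab, hca, hcb, Ne.symm hca, Ne.symm hcb, hsymm c e]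
        · by_cases heb : e = b
          · subst heb
            simp [hab.symm, hca, hcb, Ne.symm hca, Ne.symm hcb, hsymm c e]
          · by_cases hce : c = e
            · subst hce; simp [hca, hcb]
            · simp only [hca, hcb, hea, heb, hce, if_false]
              have := hd c e hce (Ne.symm hca) (Ne.symm hea) (Ne.symm hcb) (Ne.symm heb)
              linarith
  have hsum := Finset.sum_le_sum (fun c (_ : c ∈ (Finset.univ : Finset V)) =>
    Finset.sum_le_sum (fun e (_ : e ∈ (Finset.univ : Finset V)) => key c e))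
  refine le_trans (le_of_eq ?_) hsum
  have hin : ∀ (p : V) (F : V → ℝ), ∑ c, ∑ e, (if c = p then F e else 0) = ∑ e, F e := by
    intro p F
    rw [Finset.sum_comm]
    refine Finset.sum_congr rfl (fun e _ => ?_)
    rw [Finset.sum_ite_eq' Finset.univ p]
    simp
  have hin' : ∀ (p : V) (F : V → ℝ), ∑ c, ∑ e, (if e = p then F c else 0) = ∑ c, F c := by
    intro p F
    refine Finset.sum_congr rfl (fun c _ => ?_)
    rw [Finset.sum_ite_eq' Finset.univ p]
    simp
  simp only [Finset.sum_add_distrib]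
  rw [hin a (fun e => if e = b then w a b else 0), hin b (fun e => if e = a then w a b else 0),
    hin a (fun e => if a ≠ e ∧ b ≠ e then w a e else 0),
    hin b (fun e => if a ≠ e ∧ b ≠ e then w b e else 0),
    hin' a (fun c => if a ≠ c ∧ b ≠ c then w a c else 0),
    hin' b (fun c => if a ≠ c ∧ b ≠ c then w b c else 0)]
  have h5 : ∑ e, (if a ≠ e ∧ b ≠ e then w a e + w b e else 0)
      = ∑ e, (if a ≠ e ∧ b ≠ e then w a e else 0) + ∑ e, (if a ≠ e ∧ b ≠ e then w b e else 0) := by
    rw [← Finset.sum_add_distrib]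
    refine Finset.sum_congr rfl (fun e _ => ?_)
    by_cases h : a ≠ e ∧ b ≠ e
    · rw [if_pos h, if_pos h, if_pos h]
    · rw [if_neg h, if_neg h, if_neg h, add_zero]
  have h6 : ∑ e, (if e = b then w a b else 0) = w a b := by simp
  have h7 : ∑ e, (if e = a then w a b else 0) = w a b := by simp
  rw [h5, h6, h7]
  ring

end

/-- The sum of all the operators. -/
noncomputable def totP {V : Type*} [Fintype V] (P : V → V → (Ω → ℝ) →ₗ[ℝ] (Ω → ℝ)) :
    (Ω → ℝ) →ₗ[ℝ] (Ω → ℝ) := ∑ a, ∑ b, if a = b then 0 else P a b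

lemma ip_zero_op (f g : Ω → ℝ) : ip ((0 : (Ω → ℝ) →ₗ[ℝ] (Ω → ℝ)) f) g = 0 := by
  rw [LinearMap.zero_apply, ip_zero_left]

lemma totP_ip {V : Type*} [Fintype V] (P : V → V → (Ω → ℝ) →ₗ[ℝ] (Ω → ℝ)) (f g : Ω → ℝ) :
    ip (totP P f) g = ∑ a, ∑ b, if a = b then 0 else ip (P a b f) g := by
  unfold totP
  rw [LinearMap.sum_apply, ip_sum_left]
  refine Finset.sum_congr rfl (fun a _ => ?_)
  rw [LinearMap.sum_apply, ip_sum_left]
  refine Finset.sum_congr rfl (fun b _ => ?_)
  by_cases h : a = b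
  · rw [if_pos h, if_pos h, ip_zero_op]
  · rw [if_neg h, if_neg h]

lemma totP_sq {V : Type*} [Fintype V] (P : V → V → (Ω → ℝ) →ₗ[ℝ] (Ω → ℝ))
    (hcomm : ∀ a b, P a b = P b a)
    (hsymm : ∀ a b f g, ip (P a b f) g = ip f (P a b g))
    (hidem : ∀ a b f, P a b (P a b f) = P a b f)
    (htri : ∀ a b c, a ≠ b → b ≠ c → a ≠ c → ∀ f,
      0 ≤ ip (P a b f) (P b c f) + ip (P b c f) (P a c f) + ip (P a b f) (P a c f))
    (hdisj : ∀ a b c e, a ≠ b → c ≠ e → a ≠ c → a ≠ e → b ≠ c → b ≠ e → ∀ f,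
      0 ≤ ip (P a b f) (P c e f)) (f : Ω → ℝ) :
    2 * ip (totP P f) f ≤ ip (totP P f) (totP P f) := by
  have h1 : ip (totP P f) (totP P f)
      = ∑ a, ∑ b, if a = b then 0 else
          ∑ c, ∑ e, if c = e then 0 else ip (P a b f) (P c e f) := by
    rw [totP_ip]
    refine Finset.sum_congr rfl (fun a _ => Finset.sum_congr rfl (fun b _ => ?_))
    by_cases h : a = b
    · rw [if_pos h, if_pos h]
    · rw [if_neg h, if_neg h, ip_comm, totP_ip]
      refine Finset.sum_congr rfl (fun c _ => Finset.sum_congr rfl (fun e _ => ?_))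
      by_cases h' : c = e
      · rw [if_pos h', if_pos h']
      · rw [if_neg h', if_neg h', ip_comm]
  have h2 : ∀ a b, a ≠ b → 2 * ip (P a b f) f
      + 2 * ∑ e, (if a ≠ e ∧ b ≠ e then ip (P a b f) (P a e f) + ip (P a b f) (P b e f) else 0)
      ≤ ∑ c, ∑ e, if c = e then 0 else ip (P a b f) (P c e f) := by
    intro a b hab
    have h3 := pair_sum_bound (fun c e => ip (P a b f) (P c e f))
      (fun c e => by simp only [hcomm c e]) a b hab
      (fun c e hce hac hae hbc hbe => hdisj a b c e hab hce hac hae hbc hbe f)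
    have h4 : ip (P a b f) (P a b f) = ip (P a b f) f := by
      rw [hsymm a b f (P a b f), hidem, ip_comm]
    simp only [h4] at h3
    exact h3
  have h5 : 2 * ip (totP P f) f + 2 * ∑ a, ∑ b, ∑ e, (if a ≠ b ∧ b ≠ e ∧ a ≠ e then
      ip (P a b f) (P a e f) + ip (P a b f) (P b e f) else 0) ≤ ip (totP P f) (totP P f) := by
    rw [h1, totP_ip, Finset.mul_sum, Finset.mul_sum, ← Finset.sum_add_distrib]
    refine Finset.sum_le_sum (fun a _ => ?_)
    rw [Finset.mul_sum, Finset.mul_sum, ← Finset.sum_add_distrib]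
    refine Finset.sum_le_sum (fun b _ => ?_)
    by_cases h : a = b
    · rw [if_pos h, if_pos h]
      have : ∑ e, (if a ≠ b ∧ b ≠ e ∧ a ≠ e then
        ip (P a b f) (P a e f) + ip (P a b f) (P b e f) else 0) = 0 := by
        refine Finset.sum_eq_zero (fun e _ => ?_)
        rw [if_neg]
        rintro ⟨h', -⟩; exact h' h
      rw [this]; simp
    · rw [if_neg h, if_neg h]
      refine le_trans (le_of_eq ?_) (h2 a b h)
      congr 2
      refine Finset.sum_congr rfl (fun e _ => ?_)
      by_cases h' : a ≠ e ∧ b ≠ e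
      · rw [if_pos h', if_pos ⟨h, h'.2, h'.1⟩]
      · rw [if_neg h', if_neg]
        rintro ⟨-, x, y⟩; exact h' ⟨y, x⟩
  have h6 : 0 ≤ ∑ a, ∑ b, ∑ e, (if a ≠ b ∧ b ≠ e ∧ a ≠ e then
      ip (P a b f) (P a e f) + ip (P a b f) (P b e f) else 0) := by
    refine sum_tri_nonneg (fun a b e => ip (P a b f) (P a e f) + ip (P a b f) (P b e f)) ?_
    intro a b e hab hbe hae
    have h7 := htri a b e hab hbe hae f
    rw [hcomm b a, hcomm e a, hcomm e b, ip_comm (P b e f) (P a b f),
      ip_comm (P a e f) (P b e f), ip_comm (P a e f) (P a b f)]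
    linarith
  linarith

/-- Caputo's trick: nonnegative triples and disjoint pairs give gap at least one. -/
theorem caputo {V : Type*} [Fintype V] (P : V → V → (Ω → ℝ) →ₗ[ℝ] (Ω → ℝ))
    (hcomm : ∀ a b, P a b = P b a)
    (hsymm : ∀ a b f g, ip (P a b f) g = ip f (P a b g))
    (hidem : ∀ a b f, P a b (P a b f) = P a b f)
    (htri : ∀ a b c, a ≠ b → b ≠ c → a ≠ c → ∀ f,
      0 ≤ ip (P a b f) (P b c f) + ip (P b c f) (P a c f) + ip (P a b f) (P a c f))
    (hdisj : ∀ a b c e, a ≠ b → c ≠ e → a ≠ c → a ≠ e → b ≠ c → b ≠ e → ∀ f,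
      0 ≤ ip (P a b f) (P c e f))
    (W : Submodule ℝ (Ω → ℝ)) (hW : ∀ a b, ∀ f ∈ W, P a b f ∈ W)
    (hker : ∀ f ∈ W, (∀ a b, a ≠ b → P a b f = 0) → f = 0) {f : Ω → ℝ} (hf : f ∈ W) :
    2 * ip f f ≤ ∑ a, ∑ b, if a = b then 0 else ip (P a b f) f := by
  rw [← totP_ip]
  by_cases hf0 : f = 0
  · subst hf0; simp [ip_zero_right]
  have hTsymm : ∀ f g, ip (totP P f) g = ip f (totP P g) := by
    intro f g
    rw [totP_ip, ip_comm f, totP_ip]
    refine Finset.sum_congr rfl (fun a _ => Finset.sum_congr rfl (fun b _ => ?_))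
    by_cases h : a = b
    · rw [if_pos h, if_pos h]
    · rw [if_neg h, if_neg h, hsymm, ip_comm]
  have hTW : ∀ f ∈ W, totP P f ∈ W := by
    intro f hf
    unfold totP
    rw [LinearMap.sum_apply]
    refine W.sum_mem (fun a _ => ?_)
    rw [LinearMap.sum_apply]
    refine W.sum_mem (fun b _ => ?_)
    by_cases h : a = b
    · rw [if_pos h, LinearMap.zero_apply]; exact W.zero_mem
    · rw [if_neg h]; exact hW a b f hf
  obtain ⟨Λ, g, hgW, hg0, hTg, hle⟩ := exists_min_eigen (totP P) hTsymm W hTW ⟨f, hf, hf0⟩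
  have hgpos : 0 < ip g g :=
    lt_of_le_of_ne (ip_self_nonneg g) (fun h => hg0 (ip_self_eq_zero h.symm))
  have h1 := totP_sq P hcomm hsymm hidem htri hdisj g
  rw [hTg] at h1
  simp only [ip_smul_left, ip_smul_right] at h1
  have h2 : 0 < Λ := by
    by_contra hcon
    push Not at hcon
    have h3 : ip (totP P g) g ≤ 0 := by
      rw [hTg, ip_smul_left]
      exact mul_nonpos_of_nonpos_of_nonneg hcon hgpos.le
    rw [totP_ip] at h3
    have hPP : ∀ a b, ip (P a b g) g = ip (P a b g) (P a b g) := by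
      intro a b
      rw [hsymm a b g (P a b g), hidem, ip_comm]
    have hterm : ∀ a b, 0 ≤ (if a = b then 0 else ip (P a b g) g) := by
      intro a b
      by_cases h : a = b
      · rw [if_pos h]
      · rw [if_neg h, hPP]; exact ip_self_nonneg _
    have h4 : ∀ a b, a ≠ b → P a b g = 0 := by
      intro a b hab
      apply ip_self_eq_zero
      rw [← hPP]
      have h5 : (if a = b then 0 else ip (P a b g) g) ≤ ∑ b, (if a = b then 0 else ip (P a b g) g) :=
        Finset.single_le_sum (f := fun b => if a = b then 0 else ip (P a b g) g)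
          (fun b _ => hterm a b) (Finset.mem_univ b)
      have h6 : ∑ b, (if a = b then 0 else ip (P a b g) g)
          ≤ ∑ a, ∑ b, (if a = b then 0 else ip (P a b g) g) :=
        Finset.single_le_sum (f := fun a => ∑ b, if a = b then 0 else ip (P a b g) g)
          (fun a _ => Finset.sum_nonneg (fun b _ => hterm a b)) (Finset.mem_univ a)
      rw [if_neg hab] at h5
      have h7 : 0 ≤ ip (P a b g) g := by rw [hPP]; exact ip_self_nonneg _
      linarith
    exact hg0 (hker g hgW h4)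
  have h3 : 2 ≤ Λ := by
    have h8 : 2 * (Λ * ip g g) ≤ Λ * (Λ * ip g g) := h1
    have h9 : 0 < Λ * ip g g := mul_pos h2 hgpos
    exact le_of_mul_le_mul_right h8 h9
  have h10 := hle f hf
  have h11 := ip_self_nonneg f
  nlinarith

end Vale.Agent.P335
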