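import Mathlib
import Vale.Agent.P335.Caputo

/-!
# P335: Caputo's trick, version where disjoint pairs are only controlled in total
-/

open Finset
open scoped Classical

namespace Vale.Agent.P335

variable {Ω : Type*} [Fintype Ω]

/-- Lower bound for the sum over all pairs, for a fixed pair, keeping the disjoint pairs. -/
lemma pair_sum_bound2 {V : Type*} [Fintype V] (w : V → V → ℝ) (hsymm : ∀ a b, w a b = w b a)
    (a b : V) (hab : a ≠ b) :
    2 * w a b + 2 * ∑ e, (if a ≠ e ∧ b ≠ e then w a e + w b e else 0)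
      + ∑ c, ∑ e, (if a ≠ b ∧ c ≠ e ∧ a ≠ c ∧ a ≠ e ∧ b ≠ c ∧ b ≠ e then w c e else 0)
      ≤ ∑ c, ∑ e, if c = e then 0 else w c e := by
  set w' : V → V → ℝ := fun c e =>
    if a ≠ b ∧ c ≠ e ∧ a ≠ c ∧ a ≠ e ∧ b ≠ c ∧ b ≠ e then 0 else w c e with hw'
  have h1 := pair_sum_bound w' (fun c e => by
    simp only [hw']
    by_cases h : a ≠ b ∧ c ≠ e ∧ a ≠ c ∧ a ≠ e ∧ b ≠ c ∧ b ≠ e
    · rw [if_pos h, if_pos ⟨h.1, h.2.1.symm, h.2.2.2.1, h.2.2.1, h.2.2.2.2.2, h.2.2.2.2.1⟩]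
    · rw [if_neg h, if_neg, hsymm c e]
      rintro ⟨x1, x2, x3, x4, x5, x6⟩
      exact h ⟨x1, x2.symm, x4, x3, x6, x5⟩) a b hab
    (fun c e hce hac hae hbc hbe => by
      simp only [hw']
      rw [if_pos ⟨hab, hce, hac, hae, hbc, hbe⟩])
  have h2 : w' a b = w a b := by
    simp only [hw']
    rw [if_neg]
    rintro ⟨-, -, x, -⟩
    exact x rfl
  have h3 : ∀ e, w' a e = w a e := by
    intro e
    simp only [hw']
    rw [if_neg]
    rintro ⟨-, -, x, -⟩
    exact x rfl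
  have h4 : ∀ e, w' b e = w b e := by
    intro e
    simp only [hw']
    rw [if_neg]
    rintro ⟨-, -, -, -, x, -⟩
    exact x rfl
  simp only [h3, h4] at h1
  have h5 : ∑ c, ∑ e, (if c = e then 0 else w c e)
      = ∑ c, ∑ e, (if c = e then 0 else w' c e)
        + ∑ c, ∑ e, (if a ≠ b ∧ c ≠ e ∧ a ≠ c ∧ a ≠ e ∧ b ≠ c ∧ b ≠ e then w c e else 0) := by
    rw [← Finset.sum_add_distrib]
    refine Finset.sum_congr rfl (fun c _ => ?_)
    rw [← Finset.sum_add_distrib]
    refine Finset.sum_congr rfl (fun e _ => ?_)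
    simp only [hw']
    by_cases hce : c = e
    · rw [if_pos hce, if_pos hce, if_neg]
      · simp
      · rintro ⟨-, x, -⟩; exact x hce
    · rw [if_neg hce, if_neg hce]
      by_cases h : a ≠ b ∧ c ≠ e ∧ a ≠ c ∧ a ≠ e ∧ b ≠ c ∧ b ≠ e
      · rw [if_pos h, if_pos h, zero_add]
      · rw [if_neg h, if_neg h, add_zero]
  rw [h5]
  linarith

lemma totP_sq2 {V : Type*} [Fintype V] (P : V → V → (Ω → ℝ) →ₗ[ℝ] (Ω → ℝ))
    (hcomm : ∀ a b, P a b = P b a)
    (hsymm : ∀ a b f g, ip (P a b f) g = ip f (P a b g))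
    (hidem : ∀ a b f, P a b (P a b f) = P a b f)
    (htri : ∀ a b c, a ≠ b → b ≠ c → a ≠ c → ∀ f,
      0 ≤ ip (P a b f) (P b c f) + ip (P b c f) (P a c f) + ip (P a b f) (P a c f))
    (hdisj : ∀ f, 2 * (∑ a, ∑ b, if a = b then 0 else ip (P a b f) f) ≤
      ∑ a, ∑ b, ∑ c, ∑ e, if a ≠ b ∧ c ≠ e ∧ a ≠ c ∧ a ≠ e ∧ b ≠ c ∧ b ≠ e then
        ip (P a b f) (P c e f) else 0) (f : Ω → ℝ) :
    4 * ip (totP P f) f ≤ ip (totP P f) (totP P f) := by
  have h1 : ip (totP P f) (totP P f)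
      = ∑ a, ∑ b, if a = b then 0 else
          ∑ c, ∑ e, if c = e then 0 else ip (P a b f) (P c e f) := by
    rw [totP_ip]
    refine Finset.sum_congr rfl (fun a _ => Finset.sum_congr rfl (fun b _ => ?_))
    by_cases h : a = b
    · rw [if_pos h, if_pos h]
    · rw [if_neg h, if_neg h, ip_comm, totP_ip]
      refine Finset.sum_congr rfl (fun c _ => Finset.sum_congr rfl (fun e _ => ?_))
      by_cases h' : c = e
      · rw [if_pos h', if_pos h']
      · rw [if_neg h', if_neg h', ip_comm]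
  have h2 : ∀ a b, a ≠ b → 2 * ip (P a b f) f
      + 2 * ∑ e, (if a ≠ e ∧ b ≠ e then ip (P a b f) (P a e f) + ip (P a b f) (P b e f) else 0)
      + ∑ c, ∑ e, (if a ≠ b ∧ c ≠ e ∧ a ≠ c ∧ a ≠ e ∧ b ≠ c ∧ b ≠ e then
          ip (P a b f) (P c e f) else 0)
      ≤ ∑ c, ∑ e, if c = e then 0 else ip (P a b f) (P c e f) := by
    intro a b hab
    have h3 := pair_sum_bound2 (fun c e => ip (P a b f) (P c e f))
      (fun c e => by simp only [hcomm c e]) a b hab
    have h4 : ip (P a b f) (P a b f) = ip (P a b f) f := by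
      rw [hsymm a b f (P a b f), hidem, ip_comm]
    simp only [h4] at h3
    exact h3
  have h5 : 2 * ip (totP P f) f + 2 * ∑ a, ∑ b, ∑ e, (if a ≠ b ∧ b ≠ e ∧ a ≠ e then
      ip (P a b f) (P a e f) + ip (P a b f) (P b e f) else 0)
      + ∑ a, ∑ b, ∑ c, ∑ e, (if a ≠ b ∧ c ≠ e ∧ a ≠ c ∧ a ≠ e ∧ b ≠ c ∧ b ≠ e then
        ip (P a b f) (P c e f) else 0) ≤ ip (totP P f) (totP P f) := by
    rw [h1, totP_ip, Finset.mul_sum, Finset.mul_sum, ← Finset.sum_add_distrib,
      ← Finset.sum_add_distrib]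
    refine Finset.sum_le_sum (fun a _ => ?_)
    rw [Finset.mul_sum, Finset.mul_sum, ← Finset.sum_add_distrib, ← Finset.sum_add_distrib]
    refine Finset.sum_le_sum (fun b _ => ?_)
    by_cases h : a = b
    · rw [if_pos h, if_pos h]
      have h8 : ∑ e, (if a ≠ b ∧ b ≠ e ∧ a ≠ e then
        ip (P a b f) (P a e f) + ip (P a b f) (P b e f) else 0) = 0 := by
        refine Finset.sum_eq_zero (fun e _ => ?_)
        rw [if_neg]
        rintro ⟨h', -⟩; exact h' h
      have h9 : ∑ c, ∑ e, (if a ≠ b ∧ c ≠ e ∧ a ≠ c ∧ a ≠ e ∧ b ≠ c ∧ b ≠ e then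
        ip (P a b f) (P c e f) else 0) = 0 := by
        refine Finset.sum_eq_zero (fun c _ => Finset.sum_eq_zero (fun e _ => ?_))
        rw [if_neg]
        rintro ⟨h', -⟩; exact h' h
      rw [h8, h9]; simp
    · rw [if_neg h, if_neg h]
      refine le_trans (le_of_eq ?_) (h2 a b h)
      congr 3
      refine Finset.sum_congr rfl (fun e _ => ?_)
      by_cases h' : a ≠ e ∧ b ≠ e
      · rw [if_pos h', if_pos ⟨h, h'.2, h'.1⟩]
      · rw [if_neg h', if_neg]
        rintro ⟨-, x, y⟩; exact h' ⟨y, x⟩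
  have h6 : 0 ≤ ∑ a, ∑ b, ∑ e, (if a ≠ b ∧ b ≠ e ∧ a ≠ e then
      ip (P a b f) (P a e f) + ip (P a b f) (P b e f) else 0) := by
    refine sum_tri_nonneg (fun a b e => ip (P a b f) (P a e f) + ip (P a b f) (P b e f)) ?_
    intro a b e hab hbe hae
    have h7 := htri a b e hab hbe hae f
    rw [hcomm b a, hcomm e a, hcomm e b, ip_comm (P b e f) (P a b f),
      ip_comm (P a e f) (P b e f), ip_comm (P a e f) (P a b f)]
    linarith
  have h10 := hdisj f
  rw [← totP_ip] at h10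
  linarith

/-- Caputo's trick with a lower bound for the total of the disjoint pairs. -/
theorem caputo2 {V : Type*} [Fintype V] (P : V → V → (Ω → ℝ) →ₗ[ℝ] (Ω → ℝ))
    (hcomm : ∀ a b, P a b = P b a)
    (hsymm : ∀ a b f g, ip (P a b f) g = ip f (P a b g))
    (hidem : ∀ a b f, P a b (P a b f) = P a b f)
    (htri : ∀ a b c, a ≠ b → b ≠ c → a ≠ c → ∀ f,
      0 ≤ ip (P a b f) (P b c f) + ip (P b c f) (P a c f) + ip (P a b f) (P a c f))
    (hdisj : ∀ f, 2 * (∑ a, ∑ b, if a = b then 0 else ip (P a b f) f) ≤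
      ∑ a, ∑ b, ∑ c, ∑ e, if a ≠ b ∧ c ≠ e ∧ a ≠ c ∧ a ≠ e ∧ b ≠ c ∧ b ≠ e then
        ip (P a b f) (P c e f) else 0)
    (W : Submodule ℝ (Ω → ℝ)) (hW : ∀ a b, ∀ f ∈ W, P a b f ∈ W)
    (hker : ∀ f ∈ W, (∀ a b, a ≠ b → P a b f = 0) → f = 0) {f : Ω → ℝ} (hf : f ∈ W) :
    4 * ip f f ≤ ∑ a, ∑ b, if a = b then 0 else ip (P a b f) f := by
  rw [← totP_ip]
  by_cases hf0 : f = 0
  · subst hf0; simp [ip_zero_right]
  have hTsymm : ∀ f g, ip (totP P f) g = ip f (totP P g) := by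
    intro f g
    rw [totP_ip, ip_comm f, totP_ip]
    refine Finset.sum_congr rfl (fun a _ => Finset.sum_congr rfl (fun b _ => ?_))
    by_cases h : a = b
    · rw [if_pos h, if_pos h]
    · rw [if_neg h, if_neg h, hsymm, ip_comm]
  have hTW : ∀ f ∈ W, totP P f ∈ W := by
    intro f hf
    unfold totP
    rw [LinearMap.sum_apply]
    refine W.sum_mem (fun a _ => ?_)
    rw [LinearMap.sum_apply]
    refine W.sum_mem (fun b _ => ?_)
    by_cases h : a = b
    · rw [if_pos h, LinearMap.zero_apply]; exact W.zero_mem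
    · rw [if_neg h]; exact hW a b f hf
  obtain ⟨Λ, g, hgW, hg0, hTg, hle⟩ := exists_min_eigen (totP P) hTsymm W hTW ⟨f, hf, hf0⟩
  have hgpos : 0 < ip g g :=
    lt_of_le_of_ne (ip_self_nonneg g) (fun h => hg0 (ip_self_eq_zero h.symm))
  have h1 := totP_sq2 P hcomm hsymm hidem htri hdisj g
  rw [hTg] at h1
  simp only [ip_smul_left, ip_smul_right] at h1
  have h2 : 0 < Λ := by
    by_contra hcon
    push Not at hcon
    have h3 : ip (totP P g) g ≤ 0 := by
      rw [hTg, ip_smul_left]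
      exact mul_nonpos_of_nonpos_of_nonneg hcon hgpos.le
    rw [totP_ip] at h3
    have hPP : ∀ a b, ip (P a b g) g = ip (P a b g) (P a b g) := by
      intro a b
      rw [hsymm a b g (P a b g), hidem, ip_comm]
    have hterm : ∀ a b, 0 ≤ (if a = b then 0 else ip (P a b g) g) := by
      intro a b
      by_cases h : a = b
      · rw [if_pos h]
      · rw [if_neg h, hPP]; exact ip_self_nonneg _
    have h4 : ∀ a b, a ≠ b → P a b g = 0 := by
      intro a b hab
      apply ip_self_eq_zero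
      rw [← hPP]
      have h5 : (if a = b then 0 else ip (P a b g) g) ≤ ∑ b, (if a = b then 0 else ip (P a b g) g) :=
        Finset.single_le_sum (f := fun b => if a = b then 0 else ip (P a b g) g)
          (fun b _ => hterm a b) (Finset.mem_univ b)
      have h6 : ∑ b, (if a = b then 0 else ip (P a b g) g)
          ≤ ∑ a, ∑ b, (if a = b then 0 else ip (P a b g) g) :=
        Finset.single_le_sum (f := fun a => ∑ b, if a = b then 0 else ip (P a b g) g)
          (fun a _ => Finset.sum_nonneg (fun b _ => hterm a b)) (Finset.mem_univ a)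
      rw [if_neg hab] at h5
      have h7 : 0 ≤ ip (P a b g) g := by rw [hPP]; exact ip_self_nonneg _
      linarith
    exact hg0 (hker g hgW h4)
  have h3 : 4 ≤ Λ := by
    have h8 : 4 * (Λ * ip g g) ≤ Λ * (Λ * ip g g) := h1
    have h9 : 0 < Λ * ip g g := mul_pos h2 hgpos
    exact le_of_mul_le_mul_right h8 h9
  have h10 := hle f hf
  have h11 := ip_self_nonneg f
  nlinarith

end Vale.Agent.P335
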