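import Mathlib

/-!
# P335: the switch chain on simple graphs with given degrees (definitions)
-/

open Finset
open scoped Classical

namespace Vale.Agent.P335

/-- Realizations of the degree vector `d`: simple graphs on the vertex set `Fin n`
in which vertex `v` has exactly `d v` neighbours. -/
def Omega {n : ℕ} (d : Fin n → ℕ) : Type :=
  {G : SimpleGraph (Fin n) // ∀ v, (G.neighborSet v).ncard = d v}

noncomputable instance {n : ℕ} (d : Fin n → ℕ) : Fintype (Omega d) := by
  unfold Omega; infer_instance

/-- `F` is the edge set of a perfect matching of the complete graph on the vertex set `S`. -/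
def IsPM {n : ℕ} (S : Finset (Fin n)) (F : Finset (Sym2 (Fin n))) : Prop :=
  (∀ e ∈ F, ¬ e.IsDiag ∧ ∀ v ∈ e, v ∈ S) ∧ (∀ v ∈ S, ∃! e, e ∈ F ∧ v ∈ e)

/-- The ordered pairs `(F, F')` of distinct perfect matchings of the complete graph on `S`. -/
noncomputable def pmPairs {n : ℕ} (S : Finset (Fin n)) :
    Finset (Finset (Sym2 (Fin n)) × Finset (Sym2 (Fin n))) :=
  Finset.univ.filter (fun p => IsPM S p.1 ∧ IsPM S p.2 ∧ p.1 ≠ p.2)

/-- If all edges of `F` are present in `G` and all edges of `F'` are absent, replace `F` by `F'`;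
otherwise keep `G`. -/
noncomputable def switch {n : ℕ} (G : SimpleGraph (Fin n)) (F F' : Finset (Sym2 (Fin n))) :
    SimpleGraph (Fin n) :=
  if (∀ e ∈ F, e ∈ G.edgeSet) ∧ (∀ e ∈ F', e ∉ G.edgeSet) then
    SimpleGraph.fromEdgeSet ((G.edgeSet \ (F : Set (Sym2 (Fin n)))) ∪ (F' : Set (Sym2 (Fin n))))
  else G

/-- Transition matrix of the switch chain on the realizations of `d`: with probability `1/2` stay;
otherwise choose a `4`-subset `S` of the vertices uniformly, then uniformly one of the ordered
pairs `(F, F')` of distinct perfect matchings on `S`, and perform `switch G F F'`. -/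
noncomputable def switchChain {n : ℕ} (d : Fin n → ℕ) : Matrix (Omega d) (Omega d) ℝ :=
  fun G H =>
    (1 / 2) * (if G = H then 1 else 0) +
    (1 / 2) * ∑ S ∈ (Finset.univ : Finset (Fin n)).powersetCard 4,
      (1 / ((n.choose 4 : ℕ) : ℝ)) *
        ∑ p ∈ pmPairs S, (1 / ((pmPairs S).card : ℝ)) *
          (if switch G.1 p.1 p.2 = H.1 then 1 else 0)

/-- Total variation distance between the law after `t` steps from `G` and the uniform law. -/
noncomputable def tvDist {n : ℕ} (d : Fin n → ℕ) (t : ℕ) (G : Omega d) : ℝ :=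
  (1 / 2) * ∑ H : Omega d, |(switchChain d ^ t) G H - 1 / (Fintype.card (Omega d) : ℝ)|

/-- The set of times at which the chain started anywhere is within `1/4` of uniform. -/
def mixedTimes {n : ℕ} (d : Fin n → ℕ) : Set ℕ :=
  {t | ∀ G : Omega d, tvDist d t G ≤ 1 / 4}

/-- The mixing time. -/
noncomputable def tMix {n : ℕ} (d : Fin n → ℕ) : ℕ := sInf (mixedTimes d)

/-- `d` is a split degree vector: some realization of `d` is a split graph, that is, its vertex set
is the union of a clique `X` and an independent set `Xᶜ`. -/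
def IsSplitVector {n : ℕ} (d : Fin n → ℕ) : Prop :=
  ∃ G : Omega d, ∃ X : Set (Fin n),
    (∀ u ∈ X, ∀ v ∈ X, u ≠ v → G.1.Adj u v) ∧ (∀ u ∉ X, ∀ v ∉ X, ¬ G.1.Adj u v)

end Vale.Agent.P335
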