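import Mathlib
import Vale.Agent.P335.Spec
import Vale.Agent.P335.Avg

/-!
# P335: general facts on the switch chain
-/

open Finset
open scoped Classical

namespace Vale.Agent.P335

/-! ### Perfect matchings of a four-set -/

lemma pm_eq {n : ℕ} {a b c e : Fin n} (hab : a ≠ b) (hac : a ≠ c) (hae : a ≠ e) (hbc : b ≠ c)
    (hbe : b ≠ e) (hce : c ≠ e) {S : Finset (Fin n)} (hS : S = {a, b, c, e})
    {F : Finset (Sym2 (Fin n))} (hF : IsPM S F) (h : s(a, b) ∈ F) :
    F = {s(a, b), s(c, e)} := by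
  obtain ⟨h1, h2⟩ := hF
  have ha : a ∈ S := by simp [hS]
  have hb : b ∈ S := by simp [hS]
  have hc : c ∈ S := by simp [hS]
  have he : e ∈ S := by simp [hS]
  obtain ⟨f, ⟨hfF, hcf⟩, hfu⟩ := h2 c hc
  -- the edge at `c`
  have hfe : f = s(c, e) := by
    obtain ⟨y, rfl⟩ := hcf
    have hyS : y ∈ S := (h1 _ hfF).2 y (Sym2.mem_mk_right _ _)
    have hyc : y ≠ c := by
      intro h'
      exact (h1 _ hfF).1 (by rw [h']; exact Sym2.mk_isDiag_iff.mpr rfl)
    rw [hS] at hyS
    simp only [Finset.mem_insert, Finset.mem_singleton] at hyS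
    rcases hyS with rfl | rfl | rfl | rfl
    · exfalso
      have := (h2 y ha).unique ⟨h, Sym2.mem_mk_left _ _⟩ ⟨hfF, Sym2.mem_mk_right _ _⟩
      rw [Sym2.eq_iff] at this
      rcases this with ⟨h3, -⟩ | ⟨-, h3⟩
      · exact hac h3
      · exact hbc h3
    · exfalso
      have := (h2 y hb).unique ⟨h, Sym2.mem_mk_right _ _⟩ ⟨hfF, Sym2.mem_mk_right _ _⟩
      rw [Sym2.eq_iff] at this
      rcases this with ⟨h3, -⟩ | ⟨h3, -⟩
      · exact hac h3
      · exact hab h3
    · exact absurd rfl hyc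
    · rfl
  ext g
  simp only [Finset.mem_insert, Finset.mem_singleton]
  constructor
  · intro hg
    induction g using Sym2.ind with
    | _ u v =>
      have huS : u ∈ S := (h1 _ hg).2 u (Sym2.mem_mk_left _ _)
      have hg' : u ∈ s(u, v) := Sym2.mem_mk_left _ _
      rw [hS] at huS
      simp only [Finset.mem_insert, Finset.mem_singleton] at huS
      rcases huS with rfl | rfl | rfl | rfl
      · left
        exact (h2 u ha).unique ⟨hg, hg'⟩ ⟨h, Sym2.mem_mk_left _ _⟩
      · left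
        exact (h2 u hb).unique ⟨hg, hg'⟩ ⟨h, Sym2.mem_mk_right _ _⟩
      · right
        rw [← hfe]
        exact (h2 u hc).unique ⟨hg, hg'⟩ ⟨hfF, hcf⟩
      · right
        rw [← hfe]
        refine (h2 u he).unique ⟨hg, hg'⟩ ⟨hfF, ?_⟩
        rw [hfe]; exact Sym2.mem_mk_right _ _
  · rintro (rfl | rfl)
    · exact h
    · rw [← hfe]; exact hfF

lemma isPM_pair {n : ℕ} {a b c e : Fin n} (hab : a ≠ b) (hac : a ≠ c) (hae : a ≠ e) (hbc : b ≠ c)
    (hbe : b ≠ e) (hce : c ≠ e) {S : Finset (Fin n)} (hS : S = {a, b, c, e}) :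
    IsPM S {s(a, b), s(c, e)} := by
  subst hS
  constructor
  · intro f hf
    simp only [Finset.mem_insert, Finset.mem_singleton] at hf
    rcases hf with rfl | rfl
    · refine ⟨by rw [Sym2.mk_isDiag_iff]; exact hab, ?_⟩
      intro v hv
      rw [Sym2.mem_iff] at hv
      rcases hv with rfl | rfl <;> simp
    · refine ⟨by rw [Sym2.mk_isDiag_iff]; exact hce, ?_⟩
      intro v hv
      rw [Sym2.mem_iff] at hv
      rcases hv with rfl | rfl <;> simp
  · intro v hv
    simp only [Finset.mem_insert, Finset.mem_singleton] at hv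
    have hfirst : ∀ w : Fin n, (w = a ∨ w = b) → ∃! f, f ∈ ({s(a, b), s(c, e)} : Finset _) ∧ w ∈ f := by
      intro w hw
      refine ⟨s(a, b), ⟨by simp, by rw [Sym2.mem_iff]; exact hw⟩, ?_⟩
      rintro f ⟨hf, hwf⟩
      simp only [Finset.mem_insert, Finset.mem_singleton] at hf
      rcases hf with rfl | rfl
      · rfl
      · exfalso
        rw [Sym2.mem_iff] at hwf
        rcases hw with rfl | rfl <;> rcases hwf with h | h
        · exact hac h
        · exact hae h
        · exact hbc h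
        · exact hbe h
    have hsecond : ∀ w : Fin n, (w = c ∨ w = e) → ∃! f, f ∈ ({s(a, b), s(c, e)} : Finset _) ∧ w ∈ f := by
      intro w hw
      refine ⟨s(c, e), ⟨by simp, by rw [Sym2.mem_iff]; exact hw⟩, ?_⟩
      rintro f ⟨hf, hwf⟩
      simp only [Finset.mem_insert, Finset.mem_singleton] at hf
      rcases hf with rfl | rfl
      · exfalso
        rw [Sym2.mem_iff] at hwf
        rcases hw with rfl | rfl <;> rcases hwf with h | h
        · exact hac h.symm
        · exact hbc h.symm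
        · exact hae h.symm
        · exact hbe h.symm
      · rfl
    rcases hv with h | h | h | h
    · exact hfirst v (Or.inl h)
    · exact hfirst v (Or.inr h)
    · exact hsecond v (Or.inl h)
    · exact hsecond v (Or.inr h)

/-- The perfect matchings of a four-set. -/
lemma isPM_iff {n : ℕ} {a b c e : Fin n} (hab : a ≠ b) (hac : a ≠ c) (hae : a ≠ e) (hbc : b ≠ c)
    (hbe : b ≠ e) (hce : c ≠ e) {S : Finset (Fin n)} (hS : S = {a, b, c, e})
    {F : Finset (Sym2 (Fin n))} :
    IsPM S F ↔ F = {s(a, b), s(c, e)} ∨ F = {s(a, c), s(b, e)} ∨ F = {s(a, e), s(b, c)} := by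
  have hS2 : S = {a, c, b, e} := by
    rw [hS]; ext v; simp only [Finset.mem_insert, Finset.mem_singleton]; tauto
  have hS3 : S = {a, e, b, c} := by
    rw [hS]; ext v; simp only [Finset.mem_insert, Finset.mem_singleton]; tauto
  constructor
  · intro hF
    have ha : a ∈ S := by simp [hS]
    obtain ⟨f, ⟨hfF, haf⟩, -⟩ := hF.2 a ha
    obtain ⟨x, rfl⟩ := haf
    have hxS : x ∈ S := (hF.1 _ hfF).2 x (Sym2.mem_mk_right _ _)
    have hxa : x ≠ a := by
      intro h'
      exact (hF.1 _ hfF).1 (by rw [h']; exact Sym2.mk_isDiag_iff.mpr rfl)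
    rw [hS] at hxS
    simp only [Finset.mem_insert, Finset.mem_singleton] at hxS
    rcases hxS with rfl | rfl | rfl | rfl
    · exact absurd rfl hxa
    · exact Or.inl (pm_eq hab hac hae hbc hbe hce hS hF hfF)
    · exact Or.inr (Or.inl (pm_eq hac hab hae hbc.symm hce hbe hS2 hF hfF))
    · exact Or.inr (Or.inr (pm_eq hae hab hac hbe.symm hce.symm hbc hS3 hF hfF))
  · rintro (rfl | rfl | rfl)
    · exact isPM_pair hab hac hae hbc hbe hce hS
    · exact isPM_pair hac hab hae hbc.symm hce hbe hS2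
    · exact isPM_pair hae hab hac hbe.symm hce.symm hbc hS3

/-- There are exactly six ordered pairs of distinct perfect matchings on a `4`-set. -/
theorem pmPairs_card {n : ℕ} (S : Finset (Fin n)) (hS : S.card = 4) : (pmPairs S).card = 6 := by
  obtain ⟨a, b, c, e, hab, hac, hae, hbc, hbe, hce, hSe⟩ := Finset.card_eq_four.mp hS
  set M1 : Finset (Sym2 (Fin n)) := {s(a, b), s(c, e)} with hM1
  set M2 : Finset (Sym2 (Fin n)) := {s(a, c), s(b, e)} with hM2
  set M3 : Finset (Sym2 (Fin n)) := {s(a, e), s(b, c)} with hM3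
  have h12 : M1 ≠ M2 := by
    intro h
    have : s(a, b) ∈ M2 := by rw [← h, hM1]; simp
    rw [hM2] at this
    simp only [Finset.mem_insert, Finset.mem_singleton, Sym2.eq_iff] at this
    tauto
  have h13 : M1 ≠ M3 := by
    intro h
    have : s(a, b) ∈ M3 := by rw [← h, hM1]; simp
    rw [hM3] at this
    simp only [Finset.mem_insert, Finset.mem_singleton, Sym2.eq_iff] at this
    tauto
  have h23 : M2 ≠ M3 := by
    intro h
    have : s(a, c) ∈ M3 := by rw [← h, hM2]; simp
    rw [hM3] at this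
    simp only [Finset.mem_insert, Finset.mem_singleton, Sym2.eq_iff] at this
    tauto
  have hp : pmPairs S = ({M1, M2, M3} : Finset (Finset (Sym2 (Fin n)))).offDiag := by
    ext ⟨F, F'⟩
    simp only [pmPairs, Finset.mem_filter, Finset.mem_univ, true_and, Finset.mem_offDiag,
      Finset.mem_insert, Finset.mem_singleton]
    rw [isPM_iff hab hac hae hbc hbe hce hSe, isPM_iff hab hac hae hbc hbe hce hSe]
  rw [hp, Finset.offDiag_card]
  have h3 : ({M1, M2, M3} : Finset (Finset (Sym2 (Fin n)))).card = 3 :=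
    Finset.card_eq_three.mpr ⟨M1, M2, M3, h12, h13, h23, rfl⟩
  rw [h3]

/-! ### Switches preserve degrees and are reversible -/

lemma switch_adj {n : ℕ} {G : SimpleGraph (Fin n)} {F F' : Finset (Sym2 (Fin n))}
    (h : (∀ e ∈ F, e ∈ G.edgeSet) ∧ (∀ e ∈ F', e ∉ G.edgeSet)) (v w : Fin n) :
    (switch G F F').Adj v w ↔ ((G.Adj v w ∧ s(v, w) ∉ F) ∨ s(v, w) ∈ F') ∧ v ≠ w := by
  unfold switch
  rw [if_pos h, SimpleGraph.fromEdgeSet_adj]
  simp only [Set.mem_union, Set.mem_sdiff, SimpleGraph.mem_edgeSet, Finset.mem_coe]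

lemma switch_edgeSet {n : ℕ} {G : SimpleGraph (Fin n)} {F F' : Finset (Sym2 (Fin n))}
    (h : (∀ e ∈ F, e ∈ G.edgeSet) ∧ (∀ e ∈ F', e ∉ G.edgeSet)) (hF' : ∀ e ∈ F', ¬ e.IsDiag) :
    (switch G F F').edgeSet = (G.edgeSet \ (F : Set (Sym2 (Fin n)))) ∪ (F' : Set (Sym2 (Fin n))) := by
  unfold switch
  rw [if_pos h, SimpleGraph.edgeSet_fromEdgeSet]
  ext e
  simp only [Set.mem_sdiff, Set.mem_union, Finset.mem_coe]
  constructor
  · rintro ⟨h1, -⟩
    exact h1
  · intro h1
    refine ⟨h1, ?_⟩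
    rcases h1 with ⟨h2, -⟩ | h2
    · exact G.not_isDiag_of_mem_edgeSet h2
    · exact hF' e h2

lemma switch_degree {n : ℕ} {S : Finset (Fin n)} (G : SimpleGraph (Fin n))
    {F F' : Finset (Sym2 (Fin n))} (hF : IsPM S F) (hF' : IsPM S F') (v : Fin n) :
    ((switch G F F').neighborSet v).ncard = (G.neighborSet v).ncard := by
  by_cases h : (∀ e ∈ F, e ∈ G.edgeSet) ∧ (∀ e ∈ F', e ∉ G.edgeSet)
  swap
  · unfold switch; rw [if_neg h]
  by_cases hv : v ∈ S
  · obtain ⟨f, ⟨hf, hvf⟩, hfu⟩ := hF.2 v hv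
    obtain ⟨f', ⟨hf', hvf'⟩, hfu'⟩ := hF'.2 v hv
    obtain ⟨a, rfl⟩ := hvf
    obtain ⟨b, rfl⟩ := hvf'
    have hvb : v ≠ b := by
      intro h'
      exact (hF'.1 _ hf').1 (by rw [← h']; exact Sym2.mk_isDiag_iff.mpr rfl)
    have ha : a ∈ G.neighborSet v := h.1 _ hf
    have hb : b ∉ G.neighborSet v := h.2 _ hf'
    have hset : (switch G F F').neighborSet v = insert b (G.neighborSet v \ {a}) := by
      ext w
      rw [SimpleGraph.mem_neighborSet, switch_adj h]
      simp only [Set.mem_insert_iff, Set.mem_sdiff, SimpleGraph.mem_neighborSet,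
        Set.mem_singleton_iff]
      constructor
      · rintro ⟨⟨h1, h2⟩ | h1, h3⟩
        · right
          refine ⟨h1, ?_⟩
          rintro rfl
          exact h2 hf
        · left
          have := hfu' _ ⟨h1, Sym2.mem_mk_left _ _⟩
          rw [Sym2.congr_right] at this
          exact this
      · rintro (rfl | ⟨h1, h2⟩)
        · exact ⟨Or.inr hf', hvb⟩
        · refine ⟨Or.inl ⟨h1, ?_⟩, h1.ne⟩
          intro h3
          have := hfu _ ⟨h3, Sym2.mem_mk_left _ _⟩
          rw [Sym2.congr_right] at this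
          exact h2 this
    rw [hset]
    exact Set.ncard_exchange hb ha
  · congr 1
    ext w
    rw [SimpleGraph.mem_neighborSet, SimpleGraph.mem_neighborSet, switch_adj h]
    constructor
    · rintro ⟨⟨h1, -⟩ | h1, -⟩
      · exact h1
      · exact absurd ((hF'.1 _ h1).2 v (Sym2.mem_mk_left _ _)) hv
    · intro h1
      exact ⟨Or.inl ⟨h1, fun h2 => hv ((hF.1 _ h2).2 v (Sym2.mem_mk_left _ _))⟩, h1.ne⟩

lemma switch_reverse {n : ℕ} {G H : SimpleGraph (Fin n)} {F F' : Finset (Sym2 (Fin n))}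
    (hFd' : ∀ e ∈ F', ¬ e.IsDiag) (hFd : ∀ e ∈ F, ¬ e.IsDiag) (hne : G ≠ H)
    (h : switch G F F' = H) : switch H F' F = G := by
  by_cases hc : (∀ e ∈ F, e ∈ G.edgeSet) ∧ (∀ e ∈ F', e ∉ G.edgeSet)
  swap
  · unfold switch at h
    rw [if_neg hc] at h
    exact absurd h hne
  have hE := switch_edgeSet hc hFd'
  rw [h] at hE
  have hc' : (∀ e ∈ F', e ∈ H.edgeSet) ∧ (∀ e ∈ F, e ∉ H.edgeSet) := by
    constructor
    · intro e he
      rw [hE]; exact Or.inr he
    · intro e he h'
      rw [hE] at h'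
      rcases h' with ⟨-, h2⟩ | h2
      · exact h2 he
      · exact hc.2 e h2 (hc.1 e he)
  apply SimpleGraph.edgeSet_injective
  rw [switch_edgeSet hc' hFd, hE]
  ext e
  simp only [Set.mem_union, Set.mem_sdiff, Finset.mem_coe]
  constructor
  · rintro (⟨⟨h1, -⟩ | h1, h2⟩ | h1)
    · exact h1
    · exact absurd h1 h2
    · exact hc.1 e h1
  · intro h1
    by_cases h2 : e ∈ F
    · exact Or.inr h2
    · exact Or.inl ⟨Or.inl ⟨h1, h2⟩, fun h3 => hc.2 e h3 h1⟩

lemma mem_pmPairs {n : ℕ} {S : Finset (Fin n)} {p : Finset (Sym2 (Fin n)) × Finset (Sym2 (Fin n))} :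
    p ∈ pmPairs S ↔ IsPM S p.1 ∧ IsPM S p.2 ∧ p.1 ≠ p.2 := by
  simp [pmPairs]

/-- The number of pairs of matchings leading from `G` to `H` is symmetric. -/
lemma pm_sum_symm {n : ℕ} (d : Fin n → ℕ) (S : Finset (Fin n)) (G H : Omega d) (w : ℝ) :
    ∑ p ∈ pmPairs S, w * (if switch G.1 p.1 p.2 = H.1 then (1:ℝ) else 0)
      = ∑ p ∈ pmPairs S, w * (if switch H.1 p.1 p.2 = G.1 then (1:ℝ) else 0) := by
  by_cases hGH : G.1 = H.1
  · rw [hGH]
  refine Finset.sum_bij' (fun p _ => p.swap) (fun p _ => p.swap) ?_ ?_ ?_ ?_ ?_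
  · intro p hp
    rw [mem_pmPairs] at hp ⊢
    exact ⟨hp.2.1, hp.1, hp.2.2.symm⟩
  · intro p hp
    rw [mem_pmPairs] at hp ⊢
    exact ⟨hp.2.1, hp.1, hp.2.2.symm⟩
  · intro p _; exact Prod.swap_swap p
  · intro p _; exact Prod.swap_swap p
  · intro p hp
    rw [mem_pmPairs] at hp
    have hd1 : ∀ e ∈ p.1, ¬ e.IsDiag := fun e he => (hp.1.1 e he).1
    have hd2 : ∀ e ∈ p.2, ¬ e.IsDiag := fun e he => (hp.2.1.1 e he).1
    have hiff : switch G.1 p.1 p.2 = H.1 ↔ switch H.1 p.swap.1 p.swap.2 = G.1 := by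
      constructor
      · intro h; exact switch_reverse hd2 hd1 hGH h
      · intro h; exact switch_reverse hd1 hd2 (Ne.symm hGH) h
    by_cases h : switch G.1 p.1 p.2 = H.1
    · rw [if_pos h, if_pos (hiff.mp h)]
    · rw [if_neg h, if_neg (fun h' => h (hiff.mpr h'))]

theorem switchChain_symm {n : ℕ} (d : Fin n → ℕ) (G H : Omega d) :
    switchChain d G H = switchChain d H G := by
  unfold switchChain
  congr 1
  · by_cases h : G = H
    · rw [if_pos h, if_pos h.symm]
    · rw [if_neg h, if_neg (fun h' => h h'.symm)]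
  · congr 1
    refine Finset.sum_congr rfl (fun S _ => ?_)
    rw [pm_sum_symm d S G H]

theorem switchChain_row {n : ℕ} (hn : 4 ≤ n) (d : Fin n → ℕ) (G : Omega d) :
    ∑ H, switchChain d G H = 1 := by
  have hone : ∀ S : Finset (Fin n), ∀ p ∈ pmPairs S,
      ∑ H : Omega d, (if switch G.1 p.1 p.2 = H.1 then (1:ℝ) else 0) = 1 := by
    intro S p hp
    rw [mem_pmPairs] at hp
    obtain ⟨K, hK⟩ : ∃ K : Omega d, K.1 = switch G.1 p.1 p.2 :=
      ⟨⟨switch G.1 p.1 p.2, fun v => by rw [switch_degree G.1 hp.1 hp.2.1 v]; exact G.2 v⟩, rfl⟩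
    rw [Finset.sum_eq_single K]
    · rw [if_pos hK.symm]
    · intro H _ hH
      rw [if_neg]
      intro h
      exact hH (Subtype.ext (by rw [hK, h]))
    · intro h; exact absurd (Finset.mem_univ K) h
  have hS : ∀ S ∈ (Finset.univ : Finset (Fin n)).powersetCard 4,
      ∑ H : Omega d, (1 / ((n.choose 4 : ℕ) : ℝ)) *
        ∑ p ∈ pmPairs S, (1 / ((pmPairs S).card : ℝ)) *
          (if switch G.1 p.1 p.2 = H.1 then (1:ℝ) else 0) = 1 / ((n.choose 4 : ℕ) : ℝ) := by
    intro S hS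
    have hc := pmPairs_card S (Finset.mem_powersetCard.mp hS).2
    rw [← Finset.mul_sum, Finset.sum_comm]
    rw [Finset.sum_congr rfl (fun p hp => by rw [← Finset.mul_sum, hone S p hp, mul_one])]
    rw [Finset.sum_const, nsmul_eq_mul, hc]
    norm_num
  unfold switchChain
  rw [Finset.sum_add_distrib, ← Finset.mul_sum, ← Finset.mul_sum, Finset.sum_ite_eq,
    if_pos (Finset.mem_univ G), Finset.sum_comm, Finset.sum_congr rfl hS, Finset.sum_const,
    nsmul_eq_mul, Finset.card_powersetCard, Finset.card_univ, Fintype.card_fin]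
  have hC : ((n.choose 4 : ℕ) : ℝ) ≠ 0 := by exact_mod_cast (Nat.choose_pos hn).ne'
  field_simp
  norm_num

/-- The non-lazy part is nonnegative. -/
lemma switchChain_offdiag {n : ℕ} (d : Fin n → ℕ) (G H : Omega d) :
    0 ≤ switchChain d G H - (1 / 2) * (if G = H then 1 else 0) := by
  unfold switchChain
  have : 0 ≤ (1 / 2 : ℝ) * ∑ S ∈ (Finset.univ : Finset (Fin n)).powersetCard 4,
      (1 / ((n.choose 4 : ℕ) : ℝ)) *
        ∑ p ∈ pmPairs S, (1 / ((pmPairs S).card : ℝ)) *
          (if switch G.1 p.1 p.2 = H.1 then (1:ℝ) else 0) := by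
    refine mul_nonneg (by norm_num) (Finset.sum_nonneg (fun S _ => ?_))
    refine mul_nonneg (by positivity) (Finset.sum_nonneg (fun p _ => ?_))
    refine mul_nonneg (by positivity) ?_
    split_ifs <;> norm_num
  linarith

/-- Dirichlet form of a symmetric matrix with constant row sums. -/
lemma dirichlet_of_row {Ω : Type*} [Fintype Ω] (Q : Matrix Ω Ω ℝ) (s : ℝ)
    (hsymm : ∀ x y, Q x y = Q y x) (hrow : ∀ x, ∑ y, Q x y = s) (f : Ω → ℝ) (σ : ℝ) (hσ : σ ^ 2 = 1) :
    s * ip f f + σ * ip (Q.mulVec f) f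
      = (1 / 2) * ∑ x, ∑ y, Q x y * (f x + σ * f y) ^ 2 := by
  have h1 : ∑ x, ∑ y, Q x y * (f x + σ * f y) ^ 2
      = ∑ x, ∑ y, Q x y * (f x * f x) + ∑ x, ∑ y, Q x y * (f y * f y)
        + 2 * σ * ∑ x, ∑ y, Q x y * f y * f x := by
    rw [Finset.mul_sum, ← Finset.sum_add_distrib, ← Finset.sum_add_distrib]
    refine Finset.sum_congr rfl (fun x _ => ?_)
    rw [Finset.mul_sum, ← Finset.sum_add_distrib, ← Finset.sum_add_distrib]
    refine Finset.sum_congr rfl (fun y _ => ?_)
    have : Q x y * (f x + σ * f y) ^ 2 = Q x y * (f x * f x) + Q x y * (f y * f y) * σ ^ 2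
        + 2 * σ * (Q x y * f y * f x) := by ring
    rw [this, hσ]; ring
  have h2 : ∑ x, ∑ y, Q x y * (f x * f x) = s * ip f f := by
    unfold ip
    rw [Finset.mul_sum]
    exact Finset.sum_congr rfl (fun x _ => by rw [← Finset.sum_mul, hrow])
  have h3 : ∑ x, ∑ y, Q x y * (f y * f y) = s * ip f f := by
    rw [Finset.sum_comm]
    unfold ip
    rw [Finset.mul_sum]
    refine Finset.sum_congr rfl (fun y _ => ?_)
    rw [← hrow y, Finset.sum_mul]
    exact Finset.sum_congr rfl (fun x _ => by rw [hsymm x y])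
  have h4 : ip (Q.mulVec f) f = ∑ x, ∑ y, Q x y * f y * f x := by
    unfold ip Matrix.mulVec dotProduct
    exact Finset.sum_congr rfl (fun x _ => by rw [Finset.sum_mul])
  rw [h1, h2, h3, h4]; ring

/-- Dirichlet form of the chain. -/
theorem switchChain_dirichlet {n : ℕ} (hn : 4 ≤ n) (d : Fin n → ℕ) (f : Omega d → ℝ) :
    ip f f - ip ((switchChain d).mulVec f) f
      = (1 / 2) * ∑ G, ∑ H, switchChain d G H * (f G - f H) ^ 2 := by
  have h := dirichlet_of_row (switchChain d) 1 (switchChain_symm d) (switchChain_row hn d) f (-1)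
    (by norm_num)
  rw [one_mul] at h
  rw [sub_eq_add_neg, neg_eq_neg_one_mul, h]
  congr 1
  refine Finset.sum_congr rfl (fun G _ => Finset.sum_congr rfl (fun H _ => ?_))
  ring

theorem switchChain_le {n : ℕ} (hn : 4 ≤ n) (d : Fin n → ℕ) (f : Omega d → ℝ) :
    ip ((switchChain d).mulVec f) f ≤ ip f f := by
  have h := switchChain_dirichlet hn d f
  have h2 : 0 ≤ (1 / 2 : ℝ) * ∑ G, ∑ H, switchChain d G H * (f G - f H) ^ 2 := by
    refine mul_nonneg (by norm_num) (Finset.sum_nonneg (fun G _ => Finset.sum_nonneg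
      (fun H _ => mul_nonneg ?_ (sq_nonneg _))))
    have := switchChain_offdiag d G H
    have h3 : (0:ℝ) ≤ (1 / 2) * (if G = H then 1 else 0) := by split_ifs <;> norm_num
    linarith
  linarith

theorem switchChain_pos {n : ℕ} (hn : 4 ≤ n) (d : Fin n → ℕ) (f : Omega d → ℝ) :
    0 ≤ ip ((switchChain d).mulVec f) f := by
  set Q : Matrix (Omega d) (Omega d) ℝ := fun G H =>
    switchChain d G H - (1 / 2) * (if G = H then 1 else 0) with hQ
  have hQs : ∀ x y, Q x y = Q y x := by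
    intro x y
    simp only [hQ]
    rw [switchChain_symm d x y]
    congr 2
    by_cases h : x = y
    · rw [if_pos h, if_pos h.symm]
    · rw [if_neg h, if_neg (fun h' => h h'.symm)]
  have hQr : ∀ x, ∑ y, Q x y = 1 / 2 := by
    intro x
    simp only [hQ]
    rw [Finset.sum_sub_distrib, switchChain_row hn d x, ← Finset.mul_sum, Finset.sum_ite_eq,
      if_pos (Finset.mem_univ x)]
    norm_num
  have h := dirichlet_of_row Q (1 / 2) hQs hQr f 1 (by norm_num)
  have h2 : 0 ≤ (1 / 2 : ℝ) * ∑ x, ∑ y, Q x y * (f x + 1 * f y) ^ 2 := by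
    refine mul_nonneg (by norm_num) (Finset.sum_nonneg (fun G _ => Finset.sum_nonneg
      (fun H _ => mul_nonneg (switchChain_offdiag d G H) (sq_nonneg _))))
  have h3 : ip (Q.mulVec f) f = ip ((switchChain d).mulVec f) f - (1 / 2) * ip f f := by
    unfold ip Matrix.mulVec dotProduct
    rw [Finset.mul_sum, ← Finset.sum_sub_distrib]
    refine Finset.sum_congr rfl (fun x _ => ?_)
    have : ∑ y, Q x y * f y = ∑ y, switchChain d x y * f y - (1 / 2) * f x := by
      simp only [hQ, sub_mul, Finset.sum_sub_distrib]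
      congr 1
      rw [Finset.sum_eq_single x]
      · rw [if_pos rfl, mul_one]
      · intro y _ hy
        rw [if_neg (fun h' => hy h'.symm)]; ring
      · intro h; exact absurd (Finset.mem_univ x) h
    rw [this]; ring
  rw [← h, h3] at h2
  linarith

end Vale.Agent.P335
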