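import Mathlib
import Vale.Agent.P335.Avg

/-!
# P335: 0/1 tables with given margins, keys and column swaps
-/

open Finset
open scoped Classical

namespace Vale.Agent.P335

variable {R S : Type*} [Fintype R] [Fintype S]

/-- 0/1 tables with row sums `r` and column sums `c`. -/
def Tab (r : R → ℕ) (c : S → ℕ) : Type _ :=
  {M : R → S → Bool // (∀ a, ∑ j, (M a j).toNat = r a) ∧ (∀ j, ∑ a, (M a j).toNat = c j)}

noncomputable instance (r : R → ℕ) (c : S → ℕ) : Fintype (Tab r c) := by
  unfold Tab; infer_instance

variable {r : R → ℕ} {c : S → ℕ}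

lemma Tab.ext' {x y : Tab r c} (h : ∀ a j, x.1 a j = y.1 a j) : x = y :=
  Subtype.ext (funext fun a => funext fun j => h a j)

/-- The rows outside `A` (the rows in `A` are blanked). -/
noncomputable def outs (A : Finset R) (x : Tab r c) : R → S → Bool :=
  fun a j => if a ∈ A then false else x.1 a j

lemma outs_eq_iff {A : Finset R} {x y : Tab r c} :
    outs A x = outs A y ↔ ∀ a, a ∉ A → ∀ j, x.1 a j = y.1 a j := by
  constructor
  · intro h a ha j
    have := congrFun (congrFun h a) j
    simpa [outs, ha] using this
  · intro h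
    funext a j
    by_cases ha : a ∈ A
    · simp [outs, ha]
    · simp [outs, ha, h a ha j]

/-- The number of ones of column `j` in the rows of `A`. -/
noncomputable def typ (A : Finset R) (x : Tab r c) (j : S) : ℕ := ∑ a ∈ A, (x.1 a j).toNat

lemma typ_add (A : Finset R) (x : Tab r c) (j : S) :
    typ A x j + ∑ a ∈ Aᶜ, (x.1 a j).toNat = c j := by
  rw [← x.2.2 j, typ]
  exact Finset.sum_add_sum_compl A _

lemma typ_congr {A : Finset R} {x y : Tab r c} (h : outs A x = outs A y) (j : S) :
    typ A x j = typ A y j := by
  have h1 := typ_add A x j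
  have h2 := typ_add A y j
  rw [outs_eq_iff] at h
  have h3 : ∑ a ∈ Aᶜ, (x.1 a j).toNat = ∑ a ∈ Aᶜ, (y.1 a j).toNat := by
    refine Finset.sum_congr rfl (fun a ha => ?_)
    rw [h a (Finset.mem_compl.mp ha) j]
  omega

/-- Swapping the columns `j` and `k` inside the rows of `A`. -/
noncomputable def swapFun (A : Finset R) (j k : S) (M : R → S → Bool) : R → S → Bool :=
  fun a l => if a ∈ A then M a (Equiv.swap j k l) else M a l

lemma swapFun_margins (A : Finset R) (j k : S) (x : Tab r c) (h : typ A x j = typ A x k) :
    (∀ a, ∑ l, (swapFun A j k x.1 a l).toNat = r a) ∧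
      (∀ l, ∑ a, (swapFun A j k x.1 a l).toNat = c l) := by
  constructor
  · intro a
    by_cases ha : a ∈ A
    · simp only [swapFun, ha, if_true]
      rw [← x.2.1 a]
      exact Equiv.sum_comp (Equiv.swap j k) (fun l => (x.1 a l).toNat)
    · simp only [swapFun, ha, if_false]
      exact x.2.1 a
  · intro l
    rw [← Finset.sum_add_sum_compl A, ← typ_add A x l]
    have h1 : ∑ a ∈ A, (swapFun A j k x.1 a l).toNat = typ A x (Equiv.swap j k l) := by
      unfold typ
      refine Finset.sum_congr rfl (fun a ha => ?_)
      simp [swapFun, ha]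
    have h2 : ∑ a ∈ Aᶜ, (swapFun A j k x.1 a l).toNat = ∑ a ∈ Aᶜ, (x.1 a l).toNat := by
      refine Finset.sum_congr rfl (fun a ha => ?_)
      simp [swapFun, Finset.mem_compl.mp ha]
    rw [h1, h2]
    congr 1
    by_cases hlj : l = j
    · subst hlj; rw [Equiv.swap_apply_left, h]
    · by_cases hlk : l = k
      · subst hlk; rw [Equiv.swap_apply_right, h]
      · rw [Equiv.swap_apply_of_ne_of_ne hlj hlk]

/-- The column swap move: swap the columns `j`, `k` inside the rows of `A` when they have the same
number of ones there, otherwise do nothing. -/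
noncomputable def cs (A : Finset R) (j k : S) (x : Tab r c) : Tab r c :=
  if h : typ A x j = typ A x k then ⟨swapFun A j k x.1, swapFun_margins A j k x h⟩ else x

lemma cs_of_eq {A : Finset R} {j k : S} {x : Tab r c} (h : typ A x j = typ A x k) :
    (cs A j k x).1 = swapFun A j k x.1 := by
  simp [cs, h]

lemma cs_of_ne {A : Finset R} {j k : S} {x : Tab r c} (h : typ A x j ≠ typ A x k) :
    cs A j k x = x := by
  simp [cs, h]

lemma outs_cs (A : Finset R) (j k : S) (x : Tab r c) : outs A (cs A j k x) = outs A x := by
  rw [outs_eq_iff]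
  intro a ha l
  by_cases h : typ A x j = typ A x k
  · rw [cs_of_eq h]; simp [swapFun, ha]
  · rw [cs_of_ne h]

lemma typ_cs (A : Finset R) (j k : S) (x : Tab r c) (l : S) : typ A (cs A j k x) l = typ A x l :=
  typ_congr (outs_cs A j k x) l

lemma cs_cs (A : Finset R) (j k : S) (x : Tab r c) : cs A j k (cs A j k x) = x := by
  by_cases h : typ A x j = typ A x k
  · have h' : typ A (cs A j k x) j = typ A (cs A j k x) k := by rw [typ_cs, typ_cs, h]
    apply Tab.ext'
    intro a l
    rw [cs_of_eq h', cs_of_eq h]
    by_cases ha : a ∈ A <;> simp [swapFun, ha]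
  · rw [cs_of_ne h, cs_of_ne h]

/-- The column swap move as a permutation. -/
noncomputable def csPerm (A : Finset R) (j k : S) : Equiv.Perm (Tab r c) where
  toFun := cs A j k
  invFun := cs A j k
  left_inv := cs_cs A j k
  right_inv := cs_cs A j k

/-- The pattern of column `j` inside the rows of `A`. -/
noncomputable def pat (A : Finset R) (x : Tab r c) (j : S) : R → Bool :=
  fun a => if a ∈ A then x.1 a j else false

/-- The number of columns of every pattern. -/
noncomputable def prof (A : Finset R) (x : Tab r c) : (R → Bool) → ℕ :=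
  fun p => (Finset.univ.filter (fun j => pat A x j = p)).card

/-- `1 - (average over the rows a and b)`. -/
noncomputable def P (a b : R) : (Tab r c → ℝ) →ₗ[ℝ] (Tab r c → ℝ) :=
  LinearMap.id - avg (outs {a, b})

lemma P_apply (a b : R) (f : Tab r c → ℝ) : P a b f = f - avg (outs {a, b}) f := rfl

end Vale.Agent.P335
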