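import Mathlib
import Vale.Agent.P335.Tab

/-!
# P335: connectivity of tables under switches in two rows
-/

open Finset
open scoped Classical

namespace Vale.Agent.P335

variable {R S : Type*} [Fintype R] [Fintype S] {r : R → ℕ} {c : S → ℕ}

/-- distance in one column -/
noncomputable def colD (x y : Tab r c) (l : S) : ℕ :=
  ∑ a, (if x.1 a l = y.1 a l then 0 else 1)

/-- distance of two tables -/
noncomputable def tabD (x y : Tab r c) : ℕ := ∑ l, colD x y l

lemma colD_split {a b : R} (hab : a ≠ b) (x y : Tab r c) (l : S) :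
    colD x y l = (if x.1 a l = y.1 a l then 0 else 1) + (if x.1 b l = y.1 b l then 0 else 1)
      + ∑ e ∈ ({a, b} : Finset R)ᶜ, (if x.1 e l = y.1 e l then 0 else 1) := by
  unfold colD
  rw [← Finset.sum_add_sum_compl ({a, b} : Finset R), Finset.sum_pair hab]

lemma colD_comm (x y : Tab r c) (l : S) : colD x y l = colD y x l := by
  unfold colD
  refine Finset.sum_congr rfl fun a _ => ?_
  by_cases h : x.1 a l = y.1 a l
  · rw [if_pos h, if_pos h.symm]
  · rw [if_neg h, if_neg (fun h' => h h'.symm)]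

lemma tabD_comm (x y : Tab r c) : tabD x y = tabD y x := by
  unfold tabD
  exact Finset.sum_congr rfl fun l _ => colD_comm x y l

/-- one switch lowers the distance -/
lemma tabD_cs_lt {a b : R} (hab : a ≠ b) (x y : Tab r c) {j k : S}
    (h1 : x.1 a j = true) (h2 : y.1 a j = false) (h3 : x.1 b j = false) (h4 : y.1 b j = true)
    (h5 : x.1 a k = false) (h6 : x.1 b k = true) (h7 : y.1 a k = true ∨ y.1 b k = false) :
    tabD (cs {a, b} j k x) y < tabD x y := by
  have hjk : j ≠ k := by
    rintro rfl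
    rw [h1] at h5
    exact absurd h5 (by decide)
  have ht : typ {a, b} x j = typ {a, b} x k := by
    unfold typ
    rw [Finset.sum_pair hab, Finset.sum_pair hab, h1, h3, h5, h6]
    rfl
  have hout : ∀ e, e ∉ ({a, b} : Finset R) → ∀ l, (cs {a, b} j k x).1 e l = x.1 e l :=
    outs_eq_iff.mp (outs_cs {a, b} j k x)
  have ha : ∀ l, (cs {a, b} j k x).1 a l = x.1 a (Equiv.swap j k l) := by
    intro l
    rw [cs_of_eq ht]
    simp [swapFun]
  have hb : ∀ l, (cs {a, b} j k x).1 b l = x.1 b (Equiv.swap j k l) := by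
    intro l
    rw [cs_of_eq ht]
    simp [swapFun]
  have hrest : ∀ l, ∑ e ∈ ({a, b} : Finset R)ᶜ, (if (cs {a, b} j k x).1 e l = y.1 e l
      then 0 else 1) = ∑ e ∈ ({a, b} : Finset R)ᶜ, (if x.1 e l = y.1 e l then 0 else 1) := by
    intro l
    refine Finset.sum_congr rfl fun e he => ?_
    rw [hout e (Finset.mem_compl.mp he) l]
  unfold tabD
  refine Finset.sum_lt_sum ?_ ⟨j, Finset.mem_univ _, ?_⟩
  · intro l _
    rw [colD_split hab, colD_split hab x y l, hrest l, ha, hb]
    by_cases hlj : l = j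
    · subst hlj
      rw [Equiv.swap_apply_left, h5, h6, h2, h4, h1, h3]
      simp
    · by_cases hlk : l = k
      · subst hlk
        rw [Equiv.swap_apply_right, h1, h3, h5, h6]
        rcases h7 with h7 | h7
        · rw [h7]
          cases y.1 b l <;> simp
        · rw [h7]
          cases y.1 a l <;> simp
      · rw [Equiv.swap_apply_of_ne_of_ne hlj hlk]
  · rw [colD_split hab, colD_split hab x y j, hrest j, ha, hb]
    rw [Equiv.swap_apply_left, h5, h6, h2, h4, h1, h3]
    simp

/-- if two tables differ, they differ in a column in opposite ways in two rows -/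
lemma exists_opposite (x y : Tab r c) (hne : x ≠ y) :
    ∃ a b j, x.1 a j = true ∧ y.1 a j = false ∧ x.1 b j = false ∧ y.1 b j = true := by
  have h0 : ∃ a j, x.1 a j ≠ y.1 a j := by
    by_contra hc
    push Not at hc
    exact hne (Tab.ext' hc)
  obtain ⟨a, j, haj⟩ := h0
  have hs : ∑ e, ((x.1 e j).toNat : ℤ) = ∑ e, ((y.1 e j).toNat : ℤ) := by
    have h1 := x.2.2 j
    have h2 := y.2.2 j
    have h3 : ∑ e, (x.1 e j).toNat = ∑ e, (y.1 e j).toNat := by rw [h1, h2]
    exact_mod_cast h3
  have hs' : ∑ e, (((x.1 e j).toNat : ℤ) - ((y.1 e j).toNat : ℤ)) = 0 := by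
    rw [Finset.sum_sub_distrib, hs, sub_self]
  have key1 : ∃ e, x.1 e j = true ∧ y.1 e j = false := by
    by_contra hc
    push Not at hc
    have h1 : ∀ e, ((x.1 e j).toNat : ℤ) - ((y.1 e j).toNat : ℤ) ≤ 0 := by
      intro e
      have := hc e
      cases hx : x.1 e j <;> cases hy : y.1 e j <;> simp_all
    have h2 : ∑ e, (((x.1 e j).toNat : ℤ) - ((y.1 e j).toNat : ℤ)) < 0 := by
      have h3 : ((x.1 a j).toNat : ℤ) - ((y.1 a j).toNat : ℤ) < 0 := by
        have := hc a
        cases hx : x.1 a j <;> cases hy : y.1 a j <;> simp_all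
      calc ∑ e, (((x.1 e j).toNat : ℤ) - ((y.1 e j).toNat : ℤ)) < ∑ _e : R, (0 : ℤ) :=
            Finset.sum_lt_sum (fun e _ => h1 e) ⟨a, Finset.mem_univ _, h3⟩
        _ = 0 := by simp
    omega
  have key2 : ∃ e, x.1 e j = false ∧ y.1 e j = true := by
    by_contra hc
    push Not at hc
    have h1 : ∀ e, 0 ≤ ((x.1 e j).toNat : ℤ) - ((y.1 e j).toNat : ℤ) := by
      intro e
      have := hc e
      cases hx : x.1 e j <;> cases hy : y.1 e j <;> simp_all
    have h2 : 0 < ∑ e, (((x.1 e j).toNat : ℤ) - ((y.1 e j).toNat : ℤ)) := by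
      have h3 : 0 < ((x.1 a j).toNat : ℤ) - ((y.1 a j).toNat : ℤ) := by
        have := hc a
        cases hx : x.1 a j <;> cases hy : y.1 a j <;> simp_all
      calc (0 : ℤ) = ∑ _e : R, (0 : ℤ) := by simp
        _ < ∑ e, (((x.1 e j).toNat : ℤ) - ((y.1 e j).toNat : ℤ)) :=
            Finset.sum_lt_sum (fun e _ => h1 e) ⟨a, Finset.mem_univ _, h3⟩
    omega
  obtain ⟨a1, h1, h2⟩ := key1
  obtain ⟨b1, h3, h4⟩ := key2
  exact ⟨a1, b1, j, h1, h2, h3, h4⟩

/-- a second column for the switch -/
lemma exists_second {a b : R} (x y : Tab r c) {j : S}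
    (h1 : x.1 a j = true) (h2 : y.1 a j = false) (h3 : x.1 b j = false) (h4 : y.1 b j = true) :
    ∃ k, (x.1 a k = false ∧ x.1 b k = true ∧ (y.1 a k = true ∨ y.1 b k = false)) ∨
      (y.1 a k = true ∧ y.1 b k = false ∧ (x.1 a k = false ∨ x.1 b k = true)) := by
  by_contra hc
  push Not at hc
  have hxa : ∑ l, ((x.1 a l).toNat : ℤ) = r a := by exact_mod_cast x.2.1 a
  have hxb : ∑ l, ((x.1 b l).toNat : ℤ) = r b := by exact_mod_cast x.2.1 b
  have hya : ∑ l, ((y.1 a l).toNat : ℤ) = r a := by exact_mod_cast y.2.1 a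
  have hyb : ∑ l, ((y.1 b l).toNat : ℤ) = r b := by exact_mod_cast y.2.1 b
  have hs : ∑ l, ((((x.1 a l).toNat : ℤ) - (x.1 b l).toNat) -
      (((y.1 a l).toNat : ℤ) - (y.1 b l).toNat)) = 0 := by
    rw [Finset.sum_sub_distrib, Finset.sum_sub_distrib, Finset.sum_sub_distrib, hxa, hxb, hya,
      hyb, sub_self]
  have hnn : ∀ l, 0 ≤ ((((x.1 a l).toNat : ℤ) - (x.1 b l).toNat) -
      (((y.1 a l).toNat : ℤ) - (y.1 b l).toNat)) := by
    intro l
    obtain ⟨g1, g2⟩ := hc l
    cases hxa' : x.1 a l <;> cases hxb' : x.1 b l <;> cases hya' : y.1 a l <;>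
      cases hyb' : y.1 b l <;> simp_all
  have hpos : 0 < ((((x.1 a j).toNat : ℤ) - (x.1 b j).toNat) -
      (((y.1 a j).toNat : ℤ) - (y.1 b j).toNat)) := by
    rw [h1, h2, h3, h4]
    decide
  have : 0 < ∑ l, ((((x.1 a l).toNat : ℤ) - (x.1 b l).toNat) -
      (((y.1 a l).toNat : ℤ) - (y.1 b l).toNat)) := by
    calc (0 : ℤ) = ∑ _l : S, (0 : ℤ) := by simp
      _ < _ := Finset.sum_lt_sum (fun l _ => hnn l) ⟨j, Finset.mem_univ _, hpos⟩
  omega

/-- Two tables which agree outside the rows of `A` are connected by column swaps inside pairs of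
rows of `A`. -/
theorem conn_switch (A : Finset R) (x y : Tab r c) (h : outs A x = outs A y) :
    Relation.ReflTransGen
      (fun z w : Tab r c => ∃ a ∈ A, ∃ b ∈ A, a ≠ b ∧ ∃ j k, w = cs {a, b} j k z) x y := by
  induction hn : tabD x y using Nat.strong_induction_on generalizing x y with
  | _ n ih =>
    by_cases hxy : x = y
    · subst hxy
      exact Relation.ReflTransGen.refl
    obtain ⟨a, b, j, h1, h2, h3, h4⟩ := exists_opposite x y hxy
    have hab : a ≠ b := by
      rintro rfl
      rw [h1] at h3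
      exact absurd h3 (by decide)
    have haA : a ∈ A := by
      by_contra hc
      have := outs_eq_iff.mp h a hc j
      rw [h1, h2] at this
      exact absurd this (by decide)
    have hbA : b ∈ A := by
      by_contra hc
      have := outs_eq_iff.mp h b hc j
      rw [h3, h4] at this
      exact absurd this (by decide)
    have hout : ∀ (k : S) (z : Tab r c), outs A (cs {a, b} j k z) = outs A z := by
      intro k z
      rw [outs_eq_iff]
      intro e he l
      refine outs_eq_iff.mp (outs_cs {a, b} j k z) e ?_ l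
      intro hmem
      rcases Finset.mem_insert.mp hmem with rfl | hmem
      · exact he haA
      · rw [Finset.mem_singleton] at hmem
        subst hmem
        exact he hbA
    obtain ⟨k, hk | hk⟩ := exists_second x y h1 h2 h3 h4
    · obtain ⟨k1, k2, k3⟩ := hk
      have hlt := tabD_cs_lt hab x y h1 h2 h3 h4 k1 k2 k3
      have := ih (tabD (cs {a, b} j k x) y) (by omega) (cs {a, b} j k x) y
        (by rw [hout k x, h]) rfl
      exact Relation.ReflTransGen.head ⟨a, haA, b, hbA, hab, j, k, rfl⟩ this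
    · obtain ⟨k1, k2, k3⟩ := hk
      have hlt := tabD_cs_lt hab.symm y x (j := j) (k := k) h4 h3 h2 h1 k2 k1 (by tauto)
      rw [Finset.pair_comm b a, tabD_comm _ x, tabD_comm y x] at hlt
      have := ih (tabD x (cs {a, b} j k y)) (by omega) x (cs {a, b} j k y)
        (by rw [hout k y, h]) rfl
      exact Relation.ReflTransGen.tail this ⟨a, haA, b, hbA, hab, j, k, (cs_cs _ _ _ _).symm⟩

end Vale.Agent.P335
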