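import Mathlib
import Vale.Agent.P335.ConnSwitch

/-!
# P335: connectivity of tables under column swaps
-/

open Finset
open scoped Classical

namespace Vale.Agent.P335

variable {R S : Type*} [Fintype R] [Fintype S] {r : R → ℕ} {c : S → ℕ}

lemma pat_cs {A : Finset R} {j k : S} {x : Tab r c} (h : typ A x j = typ A x k) (l : S) :
    pat A (cs A j k x) l = pat A x (Equiv.swap j k l) := by
  unfold pat
  funext a
  by_cases ha : a ∈ A
  · simp only [ha, if_true, cs_of_eq h, swapFun]
  · simp only [ha, if_false]

lemma prof_cs (A : Finset R) (j k : S) (x : Tab r c) : prof A (cs A j k x) = prof A x := by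
  by_cases h : typ A x j = typ A x k
  · funext p
    unfold prof
    refine Finset.card_bij (fun l _ => Equiv.swap j k l) ?_ ?_ ?_
    · intro l hl
      rw [Finset.mem_filter] at hl ⊢
      refine ⟨Finset.mem_univ _, ?_⟩
      rw [← pat_cs h]
      exact hl.2
    · intro l1 _ l2 _ h12
      exact (Equiv.swap j k).injective h12
    · intro l hl
      rw [Finset.mem_filter] at hl
      refine ⟨Equiv.swap j k l, ?_, Equiv.swap_apply_self j k l⟩
      rw [Finset.mem_filter]
      refine ⟨Finset.mem_univ _, ?_⟩
      rw [pat_cs h, Equiv.swap_apply_self]
      exact hl.2
  · rw [cs_of_ne h]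

lemma typ_eq_of_pat {A : Finset R} {x y : Tab r c} {j k : S} (h : pat A x j = pat A y k) :
    typ A x j = typ A y k := by
  unfold typ
  refine Finset.sum_congr rfl fun a ha => ?_
  have := congrFun h a
  simp only [pat, ha, if_true] at this
  rw [this]

/-- A function invariant under the column swaps inside `A` only depends on the rows outside `A` and
the numbers of columns of every pattern inside `A`. -/
theorem cs_invariant_prof (A : Finset R) (f : Tab r c → ℝ) (hf : ∀ j k x, f (cs A j k x) = f x)
    (x y : Tab r c) (h1 : outs A x = outs A y) (h2 : prof A x = prof A y) : f x = f y := by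
  induction hn : (Finset.univ.filter (fun l => pat A x l ≠ pat A y l)).card
    using Nat.strong_induction_on generalizing x with
  | _ n ih =>
    by_cases hall : ∀ l, pat A x l = pat A y l
    · have : x = y := by
        apply Tab.ext'
        intro a l
        by_cases ha : a ∈ A
        · have := congrFun (hall l) a
          simpa only [pat, ha, if_true] using this
        · exact outs_eq_iff.mp h1 a ha l
      rw [this]
    · push Not at hall
      obtain ⟨l, hl⟩ := hall
      set p := pat A y l with hp
      have hcard : (Finset.univ.filter (fun j => pat A x j = p)).card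
          = (Finset.univ.filter (fun j => pat A y j = p)).card := congrFun h2 p
      obtain ⟨k, hk1, hk2⟩ : ∃ k, pat A x k = p ∧ pat A y k ≠ p := by
        by_contra hc
        push Not at hc
        have hsub : Finset.univ.filter (fun j => pat A x j = p) ⊆
            Finset.univ.filter (fun j => pat A y j = p) := by
          intro j hj
          rw [Finset.mem_filter] at hj ⊢
          exact ⟨hj.1, hc j hj.2⟩
        have heq := Finset.eq_of_subset_of_card_le hsub hcard.ge
        have : l ∈ Finset.univ.filter (fun j => pat A x j = p) := by
          rw [heq, Finset.mem_filter]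
          exact ⟨Finset.mem_univ _, rfl⟩
        rw [Finset.mem_filter] at this
        exact hl this.2
      have ht : typ A x l = typ A x k := by
        rw [typ_congr h1 l]
        exact typ_eq_of_pat (by rw [hk1])
      have hlt : (Finset.univ.filter (fun q => pat A (cs A l k x) q ≠ pat A y q)).card < n := by
        rw [← hn]
        refine Finset.card_lt_card ?_
        refine Finset.ssubset_iff_of_subset ?_ |>.mpr ⟨l, ?_, ?_⟩
        · intro q hq
          rw [Finset.mem_filter] at hq ⊢
          refine ⟨hq.1, ?_⟩
          have hq2 := hq.2
          rw [pat_cs ht] at hq2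
          by_cases hql : q = l
          · subst hql
            rw [Equiv.swap_apply_left, hk1] at hq2
            exact absurd rfl hq2
          · by_cases hqk : q = k
            · subst hqk
              rw [hk1]
              exact fun h => hk2 h.symm
            · rwa [Equiv.swap_apply_of_ne_of_ne hql hqk] at hq2
        · rw [Finset.mem_filter]
          exact ⟨Finset.mem_univ _, hl⟩
        · rw [Finset.mem_filter]
          rintro ⟨_, h⟩
          rw [pat_cs ht, Equiv.swap_apply_left, hk1] at h
          exact h rfl
      have := ih _ hlt (cs A l k x) (by rw [outs_cs, h1]) (by rw [prof_cs, h2]) rfl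
      rw [← this, hf]

/-- For two rows the pattern counts are determined by the margins. -/
theorem prof_pair {a b : R} (hab : a ≠ b) (x y : Tab r c) (h : outs {a, b} x = outs {a, b} y) :
    prof {a, b} x = prof {a, b} y := by
  have hc := conn_switch {a, b} x y h
  have key : ∀ z : Tab r c, Relation.ReflTransGen
      (fun z w : Tab r c => ∃ e ∈ ({a, b} : Finset R), ∃ f ∈ ({a, b} : Finset R), e ≠ f ∧
        ∃ j k, w = cs {e, f} j k z) x z → prof {a, b} x = prof {a, b} z := by
    intro z hz
    induction hz with
    | refl => rfl
    | tail _ hstep ih =>
      obtain ⟨e, he, f, hf, hef, j, k, rfl⟩ := hstep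
      have hpair : ({e, f} : Finset R) = {a, b} := by
        rw [Finset.mem_insert, Finset.mem_singleton] at he hf
        rcases he with rfl | rfl <;> rcases hf with rfl | rfl
        · exact absurd rfl hef
        · rfl
        · exact Finset.pair_comm _ _
        · exact absurd rfl hef
      rw [hpair, prof_cs]
      exact ih
  exact key y hc

/-- A function invariant under resampling every pair of rows of `A` is constant on the tables
with given rows outside `A`. -/
theorem cs_invariant_const_on (A : Finset R) (f : Tab r c → ℝ)
    (hf : ∀ a ∈ A, ∀ b ∈ A, a ≠ b → ∀ x y, outs {a, b} x = outs {a, b} y → f x = f y)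
    (x y : Tab r c) (h : outs A x = outs A y) : f x = f y := by
  have hc := conn_switch A x y h
  induction hc with
  | refl => rfl
  | tail _ hstep ih =>
    obtain ⟨e, he, g, hg, heg, j, k, rfl⟩ := hstep
    rw [hf e he g hg heg _ _ (outs_cs {e, g} j k _)]
    refine ih ?_
    rw [h, outs_eq_iff]
    intro a ha l
    refine outs_eq_iff.mp (outs_cs {e, g} j k _) a ?_ l
    intro hmem
    rcases Finset.mem_insert.mp hmem with rfl | hmem
    · exact ha he
    · rw [Finset.mem_singleton] at hmem
      subst hmem
      exact ha hg

/-- A function invariant under column swaps inside every pair of rows is constant. -/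
theorem cs_invariant_const (f : Tab r c → ℝ)
    (hf : ∀ a b, a ≠ b → ∀ x y, outs {a, b} x = outs {a, b} y → f x = f y) (x y : Tab r c) :
    f x = f y := by
  refine cs_invariant_const_on Finset.univ f (fun a _ b _ hab => hf a b hab) x y ?_
  rw [outs_eq_iff]
  intro a ha
  exact absurd (Finset.mem_univ a) ha

end Vale.Agent.P335
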