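import Mathlib
import Vale.Agent.P335.Tab
import Vale.Agent.P335.Conn

/-!
# P335: resampling disjoint pairs of rows commutes
-/

open Finset
open scoped Classical

namespace Vale.Agent.P335

variable {R S : Type*} [Fintype R] [Fintype S] {r : R → ℕ} {c : S → ℕ}

/-- The rows of `A` are taken from `y`, the other rows from `z`. -/
noncomputable def mergeFun (A : Finset R) (y z : Tab r c) : R → S → Bool :=
  fun i j => if i ∈ A then y.1 i j else z.1 i j

lemma mergeFun_margins (A : Finset R) (y z : Tab r c) (h : ∀ j, typ A y j = typ A z j) :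
    (∀ i, ∑ j, (mergeFun A y z i j).toNat = r i) ∧
      (∀ j, ∑ i, (mergeFun A y z i j).toNat = c j) := by
  constructor
  · intro i
    by_cases hi : i ∈ A
    · simp only [mergeFun, hi, if_true]; exact y.2.1 i
    · simp only [mergeFun, hi, if_false]; exact z.2.1 i
  · intro j
    rw [← Finset.sum_add_sum_compl A, ← typ_add A z j, ← h j]
    have h1 : ∑ i ∈ A, (mergeFun A y z i j).toNat = typ A y j := by
      unfold typ mergeFun
      exact Finset.sum_congr rfl (fun i hi => by rw [if_pos hi])
    have h2 : ∑ i ∈ Aᶜ, (mergeFun A y z i j).toNat = ∑ i ∈ Aᶜ, (z.1 i j).toNat := by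
      unfold mergeFun
      exact Finset.sum_congr rfl (fun i hi => by rw [if_neg (Finset.mem_compl.mp hi)])
    rw [h1, h2]

/-- The rows of `A` are taken from `y`, the other rows from `z`, as a table when possible. -/
noncomputable def merge (A : Finset R) (y z : Tab r c) : Tab r c :=
  if h : ∀ j, typ A y j = typ A z j then ⟨mergeFun A y z, mergeFun_margins A y z h⟩ else z

lemma merge_val {A : Finset R} {y z : Tab r c} (h : ∀ j, typ A y j = typ A z j) :
    (merge A y z).1 = mergeFun A y z := by
  simp [merge, h]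

lemma merge_in {A : Finset R} {y z : Tab r c} (h : ∀ j, typ A y j = typ A z j) {i : R}
    (hi : i ∈ A) (j : S) : (merge A y z).1 i j = y.1 i j := by
  rw [merge_val h, mergeFun, if_pos hi]

lemma merge_out {A : Finset R} {y z : Tab r c} (h : ∀ j, typ A y j = typ A z j) {i : R}
    (hi : i ∉ A) (j : S) : (merge A y z).1 i j = z.1 i j := by
  rw [merge_val h, mergeFun, if_neg hi]

/-- Two tables that agree on the rows of `A` have the same counts there. -/
lemma typ_of_agree {A : Finset R} {y z : Tab r c} (h : ∀ i ∈ A, ∀ j, y.1 i j = z.1 i j) (j : S) :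
    typ A y j = typ A z j := by
  unfold typ
  exact Finset.sum_congr rfl (fun i hi => by rw [h i hi j])

/-- The fibre of `outs A'` over `y` is the fibre over `x` with the rows of `A` replaced. -/
lemma sum_fib_merge {A A' : Finset R} (hd : Disjoint A A') {x y : Tab r c}
    (hy : outs A y = outs A x) (f : Tab r c → ℝ) :
    ∑ w ∈ fib (outs A') y, f w = ∑ z ∈ fib (outs A') x, f (merge A y z) := by
  have hyx := outs_eq_iff.mp hy
  have hnot : ∀ i ∈ A, i ∉ A' := fun i hi => Finset.disjoint_left.mp hd hi
  have ht1 : ∀ w : Tab r c, outs A' w = outs A' y → ∀ j, typ A x j = typ A w j := by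
    intro w hw j
    rw [← typ_congr hy j]
    exact typ_of_agree (fun i hi j => (outs_eq_iff.mp hw i (hnot i hi) j).symm) j
  have ht2 : ∀ z : Tab r c, outs A' z = outs A' x → ∀ j, typ A y j = typ A z j := by
    intro z hz j
    rw [typ_congr hy j]
    exact typ_of_agree (fun i hi j => (outs_eq_iff.mp hz i (hnot i hi) j).symm) j
  have hm1 : ∀ w : Tab r c, outs A' w = outs A' y → merge A y (merge A x w) = w := by
    intro w hw
    have h1 : ∀ j, typ A y j = typ A (merge A x w) j := by
      intro j
      rw [typ_congr hy j]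
      exact typ_of_agree (fun i hi j => (merge_in (ht1 w hw) hi j).symm) j
    apply Tab.ext'
    intro i j
    by_cases hi : i ∈ A
    · rw [merge_in h1 hi]
      exact (outs_eq_iff.mp hw i (hnot i hi) j).symm
    · rw [merge_out h1 hi, merge_out (ht1 w hw) hi]
  have hm2 : ∀ z : Tab r c, outs A' z = outs A' x → merge A x (merge A y z) = z := by
    intro z hz
    have h1 : ∀ j, typ A x j = typ A (merge A y z) j := by
      intro j
      rw [← typ_congr hy j]
      exact typ_of_agree (fun i hi j => (merge_in (ht2 z hz) hi j).symm) j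
    apply Tab.ext'
    intro i j
    by_cases hi : i ∈ A
    · rw [merge_in h1 hi]
      exact (outs_eq_iff.mp hz i (hnot i hi) j).symm
    · rw [merge_out h1 hi, merge_out (ht2 z hz) hi]
  refine Finset.sum_bij' (fun w _ => merge A x w) (fun z _ => merge A y z) ?_ ?_ ?_ ?_ ?_
  · intro w hw
    rw [mem_fib] at hw ⊢
    rw [outs_eq_iff]
    intro i hi j
    by_cases hiA : i ∈ A
    · exact merge_in (ht1 w hw) hiA j
    · rw [merge_out (ht1 w hw) hiA, outs_eq_iff.mp hw i hi j, hyx i hiA j]
  · intro z hz
    rw [mem_fib] at hz ⊢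
    rw [outs_eq_iff]
    intro i hi j
    by_cases hiA : i ∈ A
    · exact merge_in (ht2 z hz) hiA j
    · rw [merge_out (ht2 z hz) hiA, outs_eq_iff.mp hz i hi j, hyx i hiA j]
  · intro w hw
    exact hm1 w (mem_fib.mp hw)
  · intro z hz
    exact hm2 z (mem_fib.mp hz)
  · intro w hw
    rw [hm1 w (mem_fib.mp hw)]

/-- The fibre of `outs A` over `z` is the fibre over `x` with the rows outside `A` replaced. -/
lemma sum_fib_merge' {A A' : Finset R} (hd : Disjoint A A') {x z : Tab r c}
    (hz : outs A' z = outs A' x) (f : Tab r c → ℝ) :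
    ∑ w ∈ fib (outs A) z, f w = ∑ y ∈ fib (outs A) x, f (merge A y z) := by
  have hzx := outs_eq_iff.mp hz
  have hnot : ∀ i ∈ A, i ∉ A' := fun i hi => Finset.disjoint_left.mp hd hi
  have hzxA : ∀ j, typ A z j = typ A x j := typ_of_agree (fun i hi j => hzx i (hnot i hi) j)
  have ht1 : ∀ w : Tab r c, outs A w = outs A z → ∀ j, typ A w j = typ A x j := by
    intro w hw j
    rw [typ_congr hw j, hzxA j]
  have ht2 : ∀ y : Tab r c, outs A y = outs A x → ∀ j, typ A y j = typ A z j := by
    intro y hy j
    rw [typ_congr hy j, hzxA j]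
  have hm1 : ∀ w : Tab r c, outs A w = outs A z → merge A (merge A w x) z = w := by
    intro w hw
    have h1 : ∀ j, typ A (merge A w x) j = typ A z j := by
      intro j
      rw [← typ_congr hw j]
      exact typ_of_agree (fun i hi j => merge_in (ht1 w hw) hi j) j
    apply Tab.ext'
    intro i j
    by_cases hi : i ∈ A
    · rw [merge_in h1 hi, merge_in (ht1 w hw) hi]
    · rw [merge_out h1 hi, outs_eq_iff.mp hw i hi j]
  have hm2 : ∀ y : Tab r c, outs A y = outs A x → merge A (merge A y z) x = y := by
    intro y hy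
    have h1 : ∀ j, typ A (merge A y z) j = typ A x j := by
      intro j
      rw [← typ_congr hy j]
      exact typ_of_agree (fun i hi j => merge_in (ht2 y hy) hi j) j
    apply Tab.ext'
    intro i j
    by_cases hi : i ∈ A
    · rw [merge_in h1 hi, merge_in (ht2 y hy) hi]
    · rw [merge_out h1 hi, outs_eq_iff.mp hy i hi j]
  refine Finset.sum_bij' (fun w _ => merge A w x) (fun y _ => merge A y z) ?_ ?_ ?_ ?_ ?_
  · intro w hw
    rw [mem_fib] at hw ⊢
    rw [outs_eq_iff]
    intro i hi j
    exact merge_out (ht1 w hw) hi j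
  · intro y hy
    rw [mem_fib] at hy ⊢
    rw [outs_eq_iff]
    intro i hi j
    exact merge_out (ht2 y hy) hi j
  · intro w hw
    exact hm1 w (mem_fib.mp hw)
  · intro y hy
    exact hm2 y (mem_fib.mp hy)
  · intro w hw
    rw [hm1 w (mem_fib.mp hw)]

/-- Averages over disjoint sets of rows commute. -/
theorem avg_outs_comm {A A' : Finset R} (hd : Disjoint A A') (f : Tab r c → ℝ) :
    avg (outs A) (avg (outs A') f) = avg (outs A') (avg (outs A) f) := by
  funext x
  have h1 : ∀ y ∈ fib (outs A) x, avg (outs A') f y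
      = (∑ z ∈ fib (outs A') x, f (merge A y z)) / ((fib (outs A') x).card : ℝ) := by
    intro y hy
    have hy' := mem_fib.mp hy
    rw [avg_apply, sum_fib_merge hd hy']
    have hc := sum_fib_merge hd hy' (fun _ => (1 : ℝ))
    simp only [Finset.sum_const, nsmul_eq_mul, mul_one] at hc
    rw [hc]
  have h2 : ∀ z ∈ fib (outs A') x, avg (outs A) f z
      = (∑ y ∈ fib (outs A) x, f (merge A y z)) / ((fib (outs A) x).card : ℝ) := by
    intro z hz
    have hz' := mem_fib.mp hz
    rw [avg_apply, sum_fib_merge' hd hz']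
    have hc := sum_fib_merge' hd hz' (fun _ => (1 : ℝ))
    simp only [Finset.sum_const, nsmul_eq_mul, mul_one] at hc
    rw [hc]
  rw [avg_apply (outs A), avg_apply (outs A') (avg (outs A) f), Finset.sum_congr rfl h1,
    Finset.sum_congr rfl h2, ← Finset.sum_div, ← Finset.sum_div, Finset.sum_comm, div_div, div_div,
    mul_comm ((fib (outs A') x).card : ℝ)]

/-- Disjoint pairs of rows: the resampling operators commute. -/
theorem P_comm_disj (a b e g : R) (hab : a ≠ b) (heg : e ≠ g) (h1 : a ≠ e) (h2 : a ≠ g)
    (h3 : b ≠ e) (h4 : b ≠ g) (f : Tab r c → ℝ) : P a b (P e g f) = P e g (P a b f) := by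
  have _ := hab
  have _ := heg
  have hd : Disjoint ({a, b} : Finset R) ({e, g} : Finset R) := by
    rw [Finset.disjoint_left]
    intro i hi hi'
    rw [Finset.mem_insert, Finset.mem_singleton] at hi hi'
    rcases hi with rfl | rfl <;> rcases hi' with rfl | rfl <;> simp_all
  have hc := avg_outs_comm hd f
  simp only [P_apply, map_sub, hc]
  abel

end Vale.Agent.P335
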