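import Mathlib
import Vale.Agent.P335.Avg

/-!
# P335, general case: simple graphs with given degrees as symmetric Boolean matrices,
switches, keys of pairs of vertices
-/

open Finset
open scoped Classical

namespace Vale.Agent.P335

variable {V : Type*} [Fintype V]

/-- Simple graphs on `V` with degree function `d`, as symmetric Boolean matrices. -/
def Gr (d : V → ℕ) : Type _ :=
  {A : V → V → Bool // (∀ a b, A a b = A b a) ∧ (∀ a, A a a = false) ∧
    ∀ a, ∑ b, (A a b).toNat = d a}

noncomputable instance (d : V → ℕ) : Fintype (Gr d) := by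
  unfold Gr; infer_instance

variable {d : V → ℕ}

lemma Gr.ext' {x y : Gr d} (h : ∀ a b, x.1 a b = y.1 a b) : x = y :=
  Subtype.ext (funext fun a => funext fun b => h a b)

lemma Gr.symm' (x : Gr d) (a b : V) : x.1 a b = x.1 b a := x.2.1 a b

lemma Gr.irrefl' (x : Gr d) (a : V) : x.1 a a = false := x.2.2.1 a

/-- The four positions (eight matrix entries) between `{u, v}` and `{y, z}`. -/
def inQ (u v y z a b : V) : Prop :=
  ((a = u ∨ a = v) ∧ (b = y ∨ b = z)) ∨ ((a = y ∨ a = z) ∧ (b = u ∨ b = v))

/-- Complement the four positions between `{u, v}` and `{y, z}`. -/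
noncomputable def toggle (u v y z : V) (A : V → V → Bool) : V → V → Bool :=
  fun a b => if inQ u v y z a b then !A a b else A a b

/-- The four positions between `{u, v}` and `{y, z}` form an alternating 4-cycle in `x`. -/
def act (u v y z : V) (x : Gr d) : Prop :=
  (u ≠ v ∧ y ≠ z ∧ u ≠ y ∧ u ≠ z ∧ v ≠ y ∧ v ≠ z) ∧
    x.1 v y = !x.1 u y ∧ x.1 u z = !x.1 u y ∧ x.1 v z = x.1 u y

lemma toggle_sum_row (u v y z : V) (x : Gr d) (h : act u v y z x) (a : V) :
    ∑ b, (toggle u v y z x.1 a b).toNat = d a := by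
  obtain ⟨⟨huv, hyz, huy, huz, hvy, hvz⟩, h1, h2, h3⟩ := h
  rw [← x.2.2.2 a]
  -- pairs of entries which are exchanged
  have key : ∀ (p q : V), p ≠ q → x.1 a q = !x.1 a p →
      (∀ b, inQ u v y z a b ↔ (b = p ∨ b = q)) →
      ∑ b, (toggle u v y z x.1 a b).toNat = ∑ b, (x.1 a b).toNat := by
    intro p q hpq hx hiff
    have h4 : ∀ b, toggle u v y z x.1 a b = x.1 a (Equiv.swap p q b) := by
      intro b
      unfold toggle
      by_cases hbp : b = p
      · subst hbp
        rw [if_pos ((hiff b).mpr (Or.inl rfl)), Equiv.swap_apply_left, hx]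
      · by_cases hbq : b = q
        · subst hbq
          rw [if_pos ((hiff b).mpr (Or.inr rfl)), Equiv.swap_apply_right, hx]
          simp
        · rw [if_neg, Equiv.swap_apply_of_ne_of_ne hbp hbq]
          rw [hiff]
          tauto
    simp only [h4]
    exact Equiv.sum_comp (Equiv.swap p q) (fun b => (x.1 a b).toNat)
  by_cases hau : a = u
  · subst hau
    refine key y z hyz h2 (fun b => ?_)
    unfold inQ
    constructor
    · rintro (⟨-, h⟩ | ⟨h, -⟩)
      · exact h
      · rcases h with h | h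
        · exact absurd h huy
        · exact absurd h huz
    · intro h; exact Or.inl ⟨Or.inl rfl, h⟩
  by_cases hav : a = v
  · subst hav
    refine key y z hyz (by rw [h3, h1]; simp) (fun b => ?_)
    unfold inQ
    constructor
    · rintro (⟨-, h⟩ | ⟨h, -⟩)
      · exact h
      · rcases h with h | h
        · exact absurd h hvy
        · exact absurd h hvz
    · intro h; exact Or.inl ⟨Or.inr rfl, h⟩
  by_cases hay : a = y
  · subst hay
    refine key u v huv (by rw [x.symm' a v, x.symm' a u, h1]) (fun b => ?_)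
    unfold inQ
    constructor
    · rintro (⟨h, -⟩ | ⟨-, h⟩)
      · rcases h with h | h
        · exact absurd h hau
        · exact absurd h hav
      · exact h
    · intro h; exact Or.inr ⟨Or.inl rfl, h⟩
  by_cases haz : a = z
  · subst haz
    refine key u v huv (by rw [x.symm' a v, x.symm' a u, h3, h2]; simp) (fun b => ?_)
    unfold inQ
    constructor
    · rintro (⟨h, -⟩ | ⟨-, h⟩)
      · rcases h with h | h
        · exact absurd h hau
        · exact absurd h hav
      · exact h
    · intro h; exact Or.inr ⟨Or.inr rfl, h⟩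
  refine Finset.sum_congr rfl (fun b _ => ?_)
  unfold toggle
  rw [if_neg]
  unfold inQ
  tauto

/-- The switch on the 4-cycle between `{u, v}` and `{y, z}`, whenever it is available. -/
noncomputable def sw (u v y z : V) (x : Gr d) : Gr d :=
  if h : act u v y z x then
    ⟨toggle u v y z x.1, by
      refine ⟨fun a b => ?_, fun a => ?_, toggle_sum_row u v y z x h⟩
      · unfold toggle
        have h1 : inQ u v y z a b ↔ inQ u v y z b a := by unfold inQ; tauto
        by_cases h2 : inQ u v y z a b
        · rw [if_pos h2, if_pos (h1.mp h2), x.symm' a b]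
        · rw [if_neg h2, if_neg (fun h3 => h2 (h1.mpr h3)), x.symm' a b]
      · unfold toggle
        obtain ⟨⟨huv, hyz, huy, huz, hvy, hvz⟩, -⟩ := h
        rw [if_neg, x.irrefl' a]
        unfold inQ
        rintro (⟨h1 | h1, h2 | h2⟩ | ⟨h1 | h1, h2 | h2⟩) <;> subst h1 <;> simp_all⟩
  else x

lemma sw_of_act {u v y z : V} {x : Gr d} (h : act u v y z x) :
    (sw u v y z x).1 = toggle u v y z x.1 := by
  simp [sw, h]

lemma sw_of_not_act {u v y z : V} {x : Gr d} (h : ¬ act u v y z x) : sw u v y z x = x := by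
  simp [sw, h]

lemma sw_apply_of_act {u v y z : V} {x : Gr d} (h : act u v y z x) (a b : V) :
    (sw u v y z x).1 a b = if inQ u v y z a b then !x.1 a b else x.1 a b := by
  rw [sw_of_act h]; rfl

lemma sw_apply_of_not_inQ {u v y z : V} (x : Gr d) {a b : V} (hab : ¬ inQ u v y z a b) :
    (sw u v y z x).1 a b = x.1 a b := by
  by_cases h : act u v y z x
  · rw [sw_apply_of_act h, if_neg hab]
  · rw [sw_of_not_act h]

lemma act_sw {u v y z : V} {x : Gr d} (h : act u v y z x) : act u v y z (sw u v y z x) := by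
  obtain ⟨hd', h1, h2, h3⟩ := id h
  refine ⟨hd', ?_⟩
  rw [sw_of_act h]
  unfold toggle
  rw [if_pos (by unfold inQ; tauto), if_pos (by unfold inQ; tauto), if_pos (by unfold inQ; tauto),
    if_pos (by unfold inQ; tauto), h1, h2, h3]
  simp

lemma sw_sw (u v y z : V) (x : Gr d) : sw u v y z (sw u v y z x) = x := by
  by_cases h : act u v y z x
  · apply Gr.ext'
    intro a b
    rw [sw_apply_of_act (act_sw h), sw_apply_of_act h]
    by_cases h' : inQ u v y z a b
    · rw [if_pos h', if_pos h', Bool.not_not]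
    · rw [if_neg h', if_neg h']
  · rw [sw_of_not_act h, sw_of_not_act h]

/-- The switch as a permutation. -/
noncomputable def swPerm (u v y z : V) : Equiv.Perm (Gr d) where
  toFun := sw u v y z
  invFun := sw u v y z
  left_inv := sw_sw u v y z
  right_inv := sw_sw u v y z

lemma swPerm_apply (u v y z : V) (x : Gr d) : swPerm u v y z x = sw u v y z x := rfl

lemma act_swap_left {u v y z : V} {x : Gr d} : act u v y z x ↔ act v u y z x := by
  unfold act
  constructor <;> rintro ⟨⟨h1, h2, h3, h4, h5, h6⟩, h7, h8, h9⟩ <;>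
    refine ⟨⟨h1.symm, h2, h5, h6, h3, h4⟩, ?_, ?_, ?_⟩ <;> simp_all

lemma act_swap_right {u v y z : V} {x : Gr d} : act u v y z x ↔ act u v z y x := by
  unfold act
  constructor <;> rintro ⟨⟨h1, h2, h3, h4, h5, h6⟩, h7, h8, h9⟩ <;>
    refine ⟨⟨h1, h2.symm, h4, h3, h6, h5⟩, ?_, ?_, ?_⟩ <;> simp_all

lemma act_exchange {u v y z : V} {x : Gr d} : act u v y z x ↔ act y z u v x := by
  unfold act
  constructor <;> rintro ⟨⟨h1, h2, h3, h4, h5, h6⟩, h7, h8, h9⟩ <;>
    refine ⟨⟨h2, h1, h3.symm, h5.symm, h4.symm, h6.symm⟩, ?_, ?_, ?_⟩ <;>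
      simp_all [x.symm' y u, x.symm' y v, x.symm' z u, x.symm' z v]

lemma sw_congr {u v y z u' v' y' z' : V} {x : Gr d} (h : act u v y z x ↔ act u' v' y' z' x)
    (hQ : ∀ a b, inQ u v y z a b ↔ inQ u' v' y' z' a b) : sw u v y z x = sw u' v' y' z' x := by
  by_cases h1 : act u v y z x
  · apply Gr.ext'
    intro a b
    rw [sw_apply_of_act h1, sw_apply_of_act (h.mp h1)]
    by_cases h2 : inQ u v y z a b
    · rw [if_pos h2, if_pos ((hQ a b).mp h2)]
    · rw [if_neg h2, if_neg (fun h3 => h2 ((hQ a b).mpr h3))]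
  · rw [sw_of_not_act h1, sw_of_not_act (fun h2 => h1 (h.mpr h2))]

lemma sw_swap_left (u v y z : V) (x : Gr d) : sw u v y z x = sw v u y z x :=
  sw_congr act_swap_left (fun a b => by unfold inQ; tauto)

lemma sw_swap_right (u v y z : V) (x : Gr d) : sw u v y z x = sw u v z y x :=
  sw_congr act_swap_right (fun a b => by unfold inQ; tauto)

lemma sw_exchange (u v y z : V) (x : Gr d) : sw u v y z x = sw y z u v x :=
  sw_congr act_exchange (fun a b => by unfold inQ; tauto)

/-- The matrix positions between `{u, v}` and `C`. -/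
def inB (u v : V) (C : Finset V) (a b : V) : Prop :=
  ((a = u ∨ a = v) ∧ b ∈ C) ∨ ((b = u ∨ b = v) ∧ a ∈ C)

/-- Key of the pair `u, v` and the columns `C`: all entries outside `{u, v} × C`, and for every
column in `C` the number of its neighbours in `{u, v}`. -/
noncomputable def key (u v : V) (C : Finset V) (x : Gr d) : (V → V → Bool) × (V → ℕ) :=
  (fun a b => if inB u v C a b then false else x.1 a b,
   fun y => if y ∈ C then (x.1 u y).toNat + (x.1 v y).toNat else 0)

lemma key_eq_iff {u v : V} {C : Finset V} {x y : Gr d} :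
    key u v C x = key u v C y ↔ (∀ a b, ¬ inB u v C a b → x.1 a b = y.1 a b) ∧
      ∀ l ∈ C, (x.1 u l).toNat + (x.1 v l).toNat = (y.1 u l).toNat + (y.1 v l).toNat := by
  unfold key
  rw [Prod.mk.injEq]
  constructor
  · rintro ⟨h1, h2⟩
    refine ⟨fun a b hab => ?_, fun l hl => ?_⟩
    · have := congrFun (congrFun h1 a) b
      simpa [hab] using this
    · have := congrFun h2 l
      simpa [hl] using this
  · rintro ⟨h1, h2⟩
    refine ⟨?_, ?_⟩
    · funext a b
      by_cases hab : inB u v C a b
      · simp [hab]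
      · simp [hab, h1 a b hab]
    · funext l
      by_cases hl : l ∈ C
      · simp only [hl, if_true]; exact h2 l hl
      · simp [hl]

/-- The full key of the pair `u, v`. -/
noncomputable def pkey (u v : V) (x : Gr d) : (V → V → Bool) × (V → ℕ) :=
  key u v (Finset.univ \ {u, v}) x

/-- The pair operator `1 - (resample the exclusive neighbours of u and v)`. -/
noncomputable def PG (u v : V) : (Gr d → ℝ) →ₗ[ℝ] (Gr d → ℝ) :=
  LinearMap.id - avg (pkey u v)

lemma PG_apply (u v : V) (f : Gr d → ℝ) : PG u v f = f - avg (pkey u v) f := rfl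

/-- Switches inside `{u, v} × C` preserve the key. -/
lemma key_sw {u v : V} {C : Finset V} (hu : u ∉ C) (hv : v ∉ C) {y z : V} (hy : y ∈ C)
    (hz : z ∈ C) (x : Gr d) : key u v C (sw u v y z x) = key u v C x := by
  by_cases h : act u v y z x
  swap
  · rw [sw_of_not_act h]
  rw [key_eq_iff]
  refine ⟨fun a b hab => ?_, fun l hl => ?_⟩
  · rw [sw_apply_of_act h, if_neg]
    intro hQ
    apply hab
    unfold inQ at hQ
    unfold inB
    rcases hQ with ⟨h1, h2 | h2⟩ | ⟨h1 | h1, h2⟩
    · subst h2; exact Or.inl ⟨h1, hy⟩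
    · subst h2; exact Or.inl ⟨h1, hz⟩
    · subst h1; exact Or.inr ⟨h2, hy⟩
    · subst h1; exact Or.inr ⟨h2, hz⟩
  · obtain ⟨hd', h1, h2, h3⟩ := id h
    rw [sw_apply_of_act h, sw_apply_of_act h]
    by_cases hly : l = y ∨ l = z
    · rw [if_pos (show inQ u v y z u l from Or.inl ⟨Or.inl rfl, hly⟩),
        if_pos (show inQ u v y z v l from Or.inl ⟨Or.inr rfl, hly⟩)]
      rcases hly with rfl | rfl
      · rw [h1]; cases x.1 u l <;> simp
      · rw [h2, h3]; cases x.1 u y <;> simp
    · have hlu : l ≠ u := fun h => hu (h ▸ hl)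
      have hlv : l ≠ v := fun h => hv (h ▸ hl)
      have hyu : u ≠ y := hd'.2.2.1
      have hzu : u ≠ z := hd'.2.2.2.1
      have hyv : v ≠ y := hd'.2.2.2.2.1
      have hzv : v ≠ z := hd'.2.2.2.2.2
      rw [if_neg, if_neg]
      · unfold inQ; tauto
      · unfold inQ; tauto

end Vale.Agent.P335
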