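import Mathlib
import Vale.Agent.P335.GDefs

/-!
# P335, general case: fibres of pair keys are connected by switches; commutation criterion
-/

open Finset
open scoped Classical

namespace Vale.Agent.P335

/-- If `κ'`-measurability is the same as invariance under a set `S` of permutations, each of which
respects the fibres of `κ`, then the two averaging operators commute. -/
theorem avg_comm_of_perm {Ω : Type*} [Fintype Ω] {K K' : Type*} (κ : Ω → K) (κ' : Ω → K')
    (S : Set (Equiv.Perm Ω)) (h1 : ∀ σ ∈ S, ∀ x, κ' (σ x) = κ' x)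
    (h2 : ∀ g : Ω → ℝ, (∀ σ ∈ S, ∀ x, g (σ x) = g x) → ∀ x y, κ' x = κ' y → g x = g y)
    (h3 : ∀ σ ∈ S, ∀ x y, κ x = κ y ↔ κ (σ x) = κ (σ y)) (f : Ω → ℝ) :
    avg κ (avg κ' f) = avg κ' (avg κ f) := by
  have key : ∀ f, avg κ' (avg κ (avg κ' f)) = avg κ (avg κ' f) := by
    intro f
    apply avg_of_meas
    apply h2
    intro σ hσ x
    rw [avg_comp_perm κ σ (h3 σ hσ)]
    have h4 : (fun z => avg κ' f (σ z)) = avg κ' f := by
      funext z
      exact avg_meas κ' f (h1 σ hσ z)
    rw [h4]
  apply ext_ip
  intro k
  rw [← key, avg_symm, avg_symm, avg_symm, key, ← avg_symm, ← avg_symm]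

variable {V : Type*} [Fintype V] {d : V → ℕ}

/-- Rows outside the block agree, so a surplus in row `u` at one column of `C` is compensated. -/
lemma exists_comp {u v : V} {C : Finset V} (hu : u ∉ C)
    {x y : Gr d} (h : key u v C x = key u v C y) {l : V} (hl : l ∈ C)
    (h1 : x.1 u l = true) (h2 : y.1 u l = false) :
    ∃ l' ∈ C, x.1 u l' = false ∧ y.1 u l' = true := by
  by_contra hcon
  push Not at hcon
  rw [key_eq_iff] at h
  have hle : ∀ b, (y.1 u b).toNat ≤ (x.1 u b).toNat := by
    intro b
    by_cases hb : b ∈ C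
    · have := hcon b hb
      cases hx : x.1 u b
      · have h3 := this hx
        cases hy : y.1 u b
        · simp
        · exact absurd hy h3
      · cases y.1 u b <;> simp
    · rw [h.1 u b]
      unfold inB
      rintro (⟨-, h3⟩ | ⟨-, h3⟩)
      · exact hb h3
      · exact hu h3
  have hlt : ∑ b, (y.1 u b).toNat < ∑ b, (x.1 u b).toNat := by
    refine Finset.sum_lt_sum (fun b _ => hle b) ⟨l, Finset.mem_univ l, ?_⟩
    rw [h1, h2]; simp
  rw [x.2.2.2 u, y.2.2.2 u] at hlt
  exact lt_irrefl _ hlt

/-- Functions invariant under the switches inside `{u, v} × C` only depend on the key. -/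
theorem key_connect {u v : V} (huv : u ≠ v) {C : Finset V} (hu : u ∉ C) (hv : v ∉ C)
    (f : Gr d → ℝ) (hf : ∀ y ∈ C, ∀ z ∈ C, ∀ x, f (sw u v y z x) = f x) (x y : Gr d)
    (h : key u v C x = key u v C y) : f x = f y := by
  induction hk : (C.filter (fun l => x.1 u l ≠ y.1 u l)).card using Nat.strong_induction_on
    generalizing x with
  | _ k ih =>
  have hkey := key_eq_iff.mp h
  by_cases hempty : C.filter (fun l => x.1 u l ≠ y.1 u l) = ∅
  · have hrow : ∀ l ∈ C, x.1 u l = y.1 u l := by
      intro l hl
      by_contra hne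
      have : l ∈ C.filter (fun l => x.1 u l ≠ y.1 u l) := Finset.mem_filter.mpr ⟨hl, hne⟩
      rw [hempty] at this
      exact absurd this (Finset.notMem_empty l)
    have hrow' : ∀ l ∈ C, x.1 v l = y.1 v l := by
      intro l hl
      have h3 := hkey.2 l hl
      rw [hrow l hl] at h3
      have h4 : (x.1 v l).toNat = (y.1 v l).toNat := by omega
      cases hx : x.1 v l <;> cases hy : y.1 v l <;> simp [hx, hy] at h4 ⊢
    have hxy : x = y := by
      apply Gr.ext'
      intro a b
      by_cases hab : inB u v C a b
      · unfold inB at hab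
        rcases hab with ⟨ha | ha, hb⟩ | ⟨hb | hb, ha⟩
        · subst ha; exact hrow b hb
        · subst ha; exact hrow' b hb
        · subst hb; rw [x.symm' a b, y.symm' a b]; exact hrow a ha
        · subst hb; rw [x.symm' a b, y.symm' a b]; exact hrow' a ha
      · exact hkey.1 a b hab
    rw [hxy]
  · -- find a compensating pair of columns
    obtain ⟨l, l', hl, hl', hne, hx1, hx2, hy1, hy2⟩ : ∃ l l', l ∈ C ∧ l' ∈ C ∧ l ≠ l' ∧
        x.1 u l = true ∧ x.1 u l' = false ∧ y.1 u l = false ∧ y.1 u l' = true := by
      obtain ⟨m, hm⟩ := Finset.nonempty_iff_ne_empty.mpr hempty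
      obtain ⟨hmC, hmne⟩ := Finset.mem_filter.mp hm
      cases hxm : x.1 u m
      · have hym : y.1 u m = true := by
          cases hy : y.1 u m
          · exact absurd (hxm.trans hy.symm) hmne
          · rfl
        obtain ⟨m', hm', h5, h6⟩ := exists_comp hu h.symm hmC hym hxm
        refine ⟨m', m, hm', hmC, ?_, h6, hxm, h5, hym⟩
        rintro rfl
        rw [h6] at hxm; exact absurd hxm (by simp)
      · have hym : y.1 u m = false := by
          cases hy : y.1 u m
          · rfl
          · exact absurd (hxm.trans hy.symm) hmne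
        obtain ⟨m', hm', h5, h6⟩ := exists_comp hu h hmC hxm hym
        refine ⟨m, m', hmC, hm', ?_, hxm, h5, hym, h6⟩
        rintro rfl
        rw [h5] at hxm; exact absurd hxm (by simp)
    have hxv : x.1 v l = false ∧ x.1 v l' = true := by
      have h5 := hkey.2 l hl
      have h6 := hkey.2 l' hl'
      rw [hx1, hy1] at h5
      rw [hx2, hy2] at h6
      constructor
      · cases h7 : x.1 v l
        · rfl
        · cases h8 : y.1 v l <;> simp [h7, h8] at h5
      · cases h7 : x.1 v l'
        · cases h8 : y.1 v l' <;> simp [h7, h8] at h6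
        · rfl
    have hact : act u v l l' x := by
      refine ⟨⟨huv, hne, ?_, ?_, ?_, ?_⟩, ?_, ?_, ?_⟩
      · rintro rfl; exact hu hl
      · rintro rfl; exact hu hl'
      · rintro rfl; exact hv hl
      · rintro rfl; exact hv hl'
      · rw [hxv.1, hx1]; rfl
      · rw [hx2, hx1]; rfl
      · rw [hxv.2, hx1]
    have hkey' : key u v C (sw u v l l' x) = key u v C y := by
      rw [key_sw hu hv hl hl', h]
    rw [← hf l hl l' hl' x]
    refine ih _ ?_ (sw u v l l' x) hkey' rfl
    rw [← hk]
    apply Finset.card_lt_card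
    rw [Finset.ssubset_iff_subset_ne]
    have hval : ∀ m, (sw u v l l' x).1 u m = if m = l ∨ m = l' then !x.1 u m else x.1 u m := by
      intro m
      rw [sw_apply_of_act hact]
      have h9 : inQ u v l l' u m ↔ (m = l ∨ m = l') := by
        unfold inQ
        constructor
        · rintro (⟨-, h⟩ | ⟨h, -⟩)
          · exact h
          · exfalso
            rcases h with h | h
            · rw [h] at hu; exact hu hl
            · rw [h] at hu; exact hu hl'
        · intro h; exact Or.inl ⟨Or.inl rfl, h⟩
      by_cases h10 : m = l ∨ m = l'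
      · rw [if_pos (h9.mpr h10), if_pos h10]
      · rw [if_neg (fun h => h10 (h9.mp h)), if_neg h10]
    constructor
    · intro m hm
      obtain ⟨hmC, hmne⟩ := Finset.mem_filter.mp hm
      refine Finset.mem_filter.mpr ⟨hmC, ?_⟩
      rw [hval] at hmne
      by_cases h10 : m = l ∨ m = l'
      · rcases h10 with rfl | rfl
        · rw [hx1, hy1]; simp
        · rw [hx2, hy2]; simp
      · rw [if_neg h10] at hmne; exact hmne
    · intro heq
      have h11 : l ∈ C.filter (fun m => x.1 u m ≠ y.1 u m) :=
        Finset.mem_filter.mpr ⟨hl, by rw [hx1, hy1]; simp⟩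
      rw [← heq] at h11
      have h12 := (Finset.mem_filter.mp h11).2
      rw [hval, if_pos (Or.inl rfl), hx1, hy1] at h12
      exact h12 rfl

end Vale.Agent.P335
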