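import Mathlib
import Vale.Agent.P335.GKey

/-!
# P335, general case: commutation facts for two disjoint pairs `{u, v}`, `{w, x}`
-/

open Finset
open scoped Classical

namespace Vale.Agent.P335

variable {V : Type*} [Fintype V] {d : V → ℕ}

/-- The other columns. -/
noncomputable def C4 (u v w x : V) : Finset V := Finset.univ \ {u, v, w, x}

/-- Pairwise distinctness of four vertices. -/
def Dist4 (u v w x : V) : Prop := u ≠ v ∧ w ≠ x ∧ u ≠ w ∧ u ≠ x ∧ v ≠ w ∧ v ≠ x

lemma Dist4.exch {u v w x : V} (h : Dist4 u v w x) : Dist4 w x u v :=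
  ⟨h.2.1, h.1, h.2.2.1.symm, h.2.2.2.2.1.symm, h.2.2.2.1.symm, h.2.2.2.2.2.symm⟩

lemma mem_C4 {u v w x b : V} : b ∈ C4 u v w x ↔ b ≠ u ∧ b ≠ v ∧ b ≠ w ∧ b ≠ x := by
  simp [C4]

lemma C4_exch (u v w x : V) : C4 w x u v = C4 u v w x := by
  ext b
  rw [mem_C4, mem_C4]
  tauto

lemma mem_compl2 {u v b : V} : b ∈ (Finset.univ \ {u, v} : Finset V) ↔ b ≠ u ∧ b ≠ v := by
  simp

/-- A switch on positions outside the block respects the key relation. -/
lemma key_sw_congr {u v : V} {C : Finset V} {w x y z : V}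
    (hQ : ∀ a b, inQ w x y z a b → ¬ inB u v C a b) {p q : Gr d}
    (h : key u v C p = key u v C q) :
    key u v C (sw w x y z p) = key u v C (sw w x y z q) := by
  have hk := key_eq_iff.mp h
  have e1 : p.1 w y = q.1 w y := hk.1 _ _ (hQ _ _ (by unfold inQ; tauto))
  have e2 : p.1 x y = q.1 x y := hk.1 _ _ (hQ _ _ (by unfold inQ; tauto))
  have e3 : p.1 w z = q.1 w z := hk.1 _ _ (hQ _ _ (by unfold inQ; tauto))
  have e4 : p.1 x z = q.1 x z := hk.1 _ _ (hQ _ _ (by unfold inQ; tauto))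
  have hact : act w x y z p ↔ act w x y z q := by
    unfold act
    rw [e1, e2, e3, e4]
  by_cases hp : act w x y z p
  · have hq := hact.mp hp
    rw [key_eq_iff]
    refine ⟨fun a b hab => ?_, fun l hl => ?_⟩
    · rw [sw_apply_of_act hp, sw_apply_of_act hq, hk.1 a b hab]
    · rw [sw_apply_of_not_inQ p (fun h' => hQ _ _ h' (Or.inl ⟨Or.inl rfl, hl⟩)),
        sw_apply_of_not_inQ p (fun h' => hQ _ _ h' (Or.inl ⟨Or.inr rfl, hl⟩)),
        sw_apply_of_not_inQ q (fun h' => hQ _ _ h' (Or.inl ⟨Or.inl rfl, hl⟩)),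
        sw_apply_of_not_inQ q (fun h' => hQ _ _ h' (Or.inl ⟨Or.inr rfl, hl⟩))]
      exact hk.2 l hl
  · have hq : ¬ act w x y z q := fun h' => hp (hact.mpr h')
    rw [sw_of_not_act hp, sw_of_not_act hq, h]

lemma key_sw_iff {u v : V} {C : Finset V} {w x y z : V}
    (hQ : ∀ a b, inQ w x y z a b → ¬ inB u v C a b) (p q : Gr d) :
    key u v C p = key u v C q ↔ key u v C (swPerm w x y z p) = key u v C (swPerm w x y z q) := by
  constructor
  · exact key_sw_congr hQ
  · intro h
    have := key_sw_congr hQ h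
    rwa [swPerm_apply, swPerm_apply, sw_sw, sw_sw] at this

/-- The switches inside `{w, x} × C` as a set of permutations. -/
def swSet (w x : V) (C : Finset V) : Set (Equiv.Perm (Gr d)) :=
  {σ | ∃ y ∈ C, ∃ z ∈ C, σ = swPerm w x y z}

lemma key_swSet {w x : V} {C : Finset V} (hw : w ∉ C) (hx : x ∉ C) (σ : Equiv.Perm (Gr d))
    (hσ : σ ∈ swSet (d := d) w x C) (p : Gr d) : key w x C (σ p) = key w x C p := by
  obtain ⟨y, hy, z, hz, rfl⟩ := hσ
  exact key_sw hw hx hy hz p

lemma meas_of_swSet {w x : V} (hwx : w ≠ x) {C : Finset V} (hw : w ∉ C) (hx : x ∉ C)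
    (g : Gr d → ℝ) (hg : ∀ σ ∈ swSet (d := d) w x C, ∀ p, g (σ p) = g p) (p q : Gr d)
    (h : key w x C p = key w x C q) : g p = g q :=
  key_connect hwx hw hx g (fun y hy z hz r => hg _ ⟨y, hy, z, hz, rfl⟩ r) p q h

/-- `A` and `B` commute. -/
theorem comm_AB {u v w x : V} (h : Dist4 u v w x) (f : Gr d → ℝ) :
    avg (key u v (C4 u v w x)) (avg (key w x (C4 u v w x)) f)
      = avg (key w x (C4 u v w x)) (avg (key u v (C4 u v w x)) f) := by
  have hw : w ∉ C4 u v w x := by rw [mem_C4]; tauto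
  have hx : x ∉ C4 u v w x := by rw [mem_C4]; tauto
  obtain ⟨huv, hwx, huw, hux, hvw, hvx⟩ := h
  refine avg_comm_of_perm _ _ (swSet w x (C4 u v w x)) (key_swSet hw hx)
    (meas_of_swSet hwx hw hx) ?_ f
  rintro σ ⟨y, hy, z, hz, rfl⟩ p q
  rw [mem_C4] at hy hz
  refine key_sw_iff (fun a b hab hB => ?_) p q
  unfold inQ at hab
  unfold inB at hB
  rcases hab with ⟨ha, hb⟩ | ⟨ha, hb⟩ <;> rcases ha with rfl | rfl <;> rcases hb with rfl | rfl <;>
    rcases hB with ⟨h1 | h1, -⟩ | ⟨h1 | h1, -⟩ <;> subst h1 <;> simp_all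

/-- `E_p` and `B` commute. -/
theorem comm_EB {u v w x : V} (h : Dist4 u v w x) (f : Gr d → ℝ) :
    avg (pkey u v) (avg (key w x (C4 u v w x)) f)
      = avg (key w x (C4 u v w x)) (avg (pkey u v) f) := by
  have hw : w ∉ C4 u v w x := by rw [mem_C4]; tauto
  have hx : x ∉ C4 u v w x := by rw [mem_C4]; tauto
  obtain ⟨huv, hwx, huw, hux, hvw, hvx⟩ := h
  refine avg_comm_of_perm _ _ (swSet w x (C4 u v w x)) (key_swSet hw hx)
    (meas_of_swSet hwx hw hx) ?_ f
  rintro σ ⟨y, hy, z, hz, rfl⟩ p q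
  rw [mem_C4] at hy hz
  refine key_sw_iff (fun a b hab hB => ?_) p q
  unfold inQ at hab
  unfold inB at hB
  rcases hab with ⟨ha, hb⟩ | ⟨ha, hb⟩ <;> rcases ha with rfl | rfl <;> rcases hb with rfl | rfl <;>
    rcases hB with ⟨h1 | h1, -⟩ | ⟨h1 | h1, -⟩ <;> subst h1 <;> simp_all

/-- The key with fewer columns is finer. -/
lemma pkey_of_key {u v w x : V} (h : Dist4 u v w x) {p q : Gr d}
    (hk : key u v (C4 u v w x) p = key u v (C4 u v w x) q) : pkey u v p = pkey u v q := by
  obtain ⟨huv, hwx, huw, hux, hvw, hvx⟩ := h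
  rw [key_eq_iff] at hk
  unfold pkey
  rw [key_eq_iff]
  refine ⟨fun a b hab => hk.1 a b (fun h' => hab ?_), fun l hl => ?_⟩
  · unfold inB at h' ⊢
    rcases h' with ⟨h1, h2⟩ | ⟨h1, h2⟩
    · rw [mem_C4] at h2
      exact Or.inl ⟨h1, mem_compl2.mpr ⟨h2.1, h2.2.1⟩⟩
    · rw [mem_C4] at h2
      exact Or.inr ⟨h1, mem_compl2.mpr ⟨h2.1, h2.2.1⟩⟩
  · by_cases hl4 : l ∈ C4 u v w x
    · exact hk.2 l hl4
    · rw [mem_compl2] at hl
      rw [hk.1 u l, hk.1 v l]
      · unfold inB
        rintro (⟨-, h2⟩ | ⟨h1, -⟩)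
        · exact hl4 h2
        · tauto
      · unfold inB
        rintro (⟨-, h2⟩ | ⟨h1, -⟩)
        · exact hl4 h2
        · tauto

/-- `E_p A = E_p`. -/
theorem tower_EA {u v w x : V} (h : Dist4 u v w x) (f : Gr d → ℝ) :
    avg (pkey u v) (avg (key u v (C4 u v w x)) f) = avg (pkey u v) f :=
  avg_tower' (fun _ _ hk => pkey_of_key h hk) f

/-- `A E_p = E_p`. -/
theorem tower_AE {u v w x : V} (h : Dist4 u v w x) (f : Gr d → ℝ) :
    avg (key u v (C4 u v w x)) (avg (pkey u v) f) = avg (pkey u v) f :=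
  avg_tower (fun _ _ hk => pkey_of_key h hk) f

lemma block_not_inB {u v w x : V} (h : Dist4 u v w x) (a b : V) (hab : inQ u v w x a b) :
    ¬ inB u v (C4 u v w x) a b := by
  obtain ⟨huv, hwx, huw, hux, hvw, hvx⟩ := h
  unfold inQ at hab
  unfold inB
  rw [mem_C4, mem_C4]
  rcases hab with ⟨ha, hb⟩ | ⟨ha, hb⟩ <;> rcases ha with rfl | rfl <;> rcases hb with rfl | rfl <;>
    simp_all

/-- `T A = A T`. -/
theorem comm_TA {u v w x : V} (h : Dist4 u v w x) (f : Gr d → ℝ) :
    avg (key u v (C4 u v w x)) (fun G => f (sw u v w x G))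
      = fun G => avg (key u v (C4 u v w x)) f (sw u v w x G) := by
  funext G
  have := avg_comp_perm (key u v (C4 u v w x)) (swPerm u v w x)
    (key_sw_iff (block_not_inB h)) f G
  rw [swPerm_apply] at this
  rw [this]
  rfl

lemma pkey_sw {u v w x : V} (h : Dist4 u v w x) (G : Gr d) :
    pkey u v (sw u v w x G) = pkey u v G := by
  obtain ⟨huv, hwx, huw, hux, hvw, hvx⟩ := h
  exact key_sw (by simp) (by simp) (mem_compl2.mpr ⟨huw.symm, hvw.symm⟩)
    (mem_compl2.mpr ⟨hux.symm, hvx.symm⟩) G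

/-- `T E_p = E_p`. -/
theorem comm_TE {u v w x : V} (h : Dist4 u v w x) (f : Gr d → ℝ) (G : Gr d) :
    avg (pkey u v) f (sw u v w x G) = avg (pkey u v) f G :=
  avg_meas _ _ (pkey_sw h G)

/-- `E_p T = E_p`. -/
theorem comm_ET {u v w x : V} (h : Dist4 u v w x) (f : Gr d → ℝ) :
    avg (pkey u v) (fun G => f (sw u v w x G)) = avg (pkey u v) f := by
  funext G
  have h1 := avg_comp_perm (pkey u v) (swPerm u v w x)
    (fun p q => by rw [swPerm_apply, swPerm_apply, pkey_sw h, pkey_sw h]) f G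
  rw [swPerm_apply, comm_TE h] at h1
  rw [h1]
  rfl

/-- Entries of the block are determined by the key of `A`. -/
lemma block_eq {u v w x : V} (h : Dist4 u v w x) {G G' : Gr d}
    (hG : key u v (C4 u v w x) G = key u v (C4 u v w x) G') :
    G.1 u w = G'.1 u w ∧ G.1 u x = G'.1 u x ∧ G.1 v w = G'.1 v w ∧ G.1 v x = G'.1 v x := by
  rw [key_eq_iff] at hG
  refine ⟨?_, ?_, ?_, ?_⟩ <;> refine hG.1 _ _ (block_not_inB h _ _ ?_) <;> unfold inQ <;> tauto

/-- Switch activity only depends on the block, so it is preserved inside the fibres of `A`. -/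
theorem act_congr_A {u v w x : V} (h : Dist4 u v w x) {G G' : Gr d}
    (hG : key u v (C4 u v w x) G = key u v (C4 u v w x) G') :
    (act u v w x G ↔ act u v w x G') := by
  obtain ⟨h1, h2, h3, h4⟩ := block_eq h hG
  unfold act
  rw [h1, h2, h3, h4]

/-- If neither `w` nor `x` is an exclusive neighbour of `u, v`, then `E_p f = A f`. -/
theorem E_eq_A {u v w x : V} (h : Dist4 u v w x) (f : Gr d → ℝ) (G : Gr d)
    (h1 : G.1 u w = G.1 v w) (h2 : G.1 u x = G.1 v x) :
    avg (pkey u v) f G = avg (key u v (C4 u v w x)) f G := by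
  have hfib : fib (pkey u v) G = fib (key u v (C4 u v w x)) G := by
    ext q
    rw [mem_fib, mem_fib]
    constructor
    · intro hq
      have hq' := key_eq_iff.mp hq
      obtain ⟨huv, hwx, huw, hux, hvw, hvx⟩ := id h
      have hw : q.1 u w = G.1 u w ∧ q.1 v w = G.1 v w := by
        have h3 := hq'.2 w (mem_compl2.mpr ⟨huw.symm, hvw.symm⟩)
        rw [h1] at h3 ⊢
        cases h4 : q.1 u w <;> cases h5 : q.1 v w <;> cases h6 : G.1 v w <;>
          simp [h4, h5, h6] at h3 ⊢
      have hx : q.1 u x = G.1 u x ∧ q.1 v x = G.1 v x := by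
        have h3 := hq'.2 x (mem_compl2.mpr ⟨hux.symm, hvx.symm⟩)
        rw [h2] at h3 ⊢
        cases h4 : q.1 u x <;> cases h5 : q.1 v x <;> cases h6 : G.1 v x <;>
          simp [h4, h5, h6] at h3 ⊢
      rw [key_eq_iff]
      refine ⟨fun a b hab => ?_, fun l hl => ?_⟩
      · by_cases hB : inB u v (Finset.univ \ {u, v}) a b
        · unfold inB at hB hab
          rcases hB with ⟨ha, hb⟩ | ⟨hb, ha⟩
          · have hb4 : b ∉ C4 u v w x := fun hb4 => hab (Or.inl ⟨ha, hb4⟩)
            rw [mem_compl2] at hb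
            rw [mem_C4] at hb4
            have hb5 : b = w ∨ b = x := by
              by_contra hcon
              push Not at hcon
              exact hb4 ⟨hb.1, hb.2, hcon.1, hcon.2⟩
            rcases ha with rfl | rfl <;> rcases hb5 with rfl | rfl
            · exact hw.1
            · exact hx.1
            · exact hw.2
            · exact hx.2
          · have ha4 : a ∉ C4 u v w x := fun ha4 => hab (Or.inr ⟨hb, ha4⟩)
            rw [mem_compl2] at ha
            rw [mem_C4] at ha4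
            have ha5 : a = w ∨ a = x := by
              by_contra hcon
              push Not at hcon
              exact ha4 ⟨ha.1, ha.2, hcon.1, hcon.2⟩
            rw [q.symm' a b, G.symm' a b]
            rcases hb with rfl | rfl <;> rcases ha5 with rfl | rfl
            · exact hw.1
            · exact hx.1
            · exact hw.2
            · exact hx.2
        · exact hq'.1 a b hB
      · rw [mem_C4] at hl
        exact hq'.2 l (mem_compl2.mpr ⟨hl.1, hl.2.1⟩)
    · intro hq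
      exact pkey_of_key h hq
  rw [avg_apply, avg_apply, hfib]

/-- Two commuting averages: nonnegativity of the product of the complements. -/
lemma ip_nonneg_of_comm {Ω : Type*} [Fintype Ω] {K K' : Type*} (κ : Ω → K) (κ' : Ω → K')
    (hc : ∀ f : Ω → ℝ, avg κ (avg κ' f) = avg κ' (avg κ f)) (f : Ω → ℝ) :
    0 ≤ ip (f - avg κ f) (f - avg κ' f) := by
  have h1 : ip (f - avg κ f) (f - avg κ' f)
      = ip ((f - avg κ f) - avg κ' (f - avg κ f)) ((f - avg κ f) - avg κ' (f - avg κ f)) := by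
    have e1 : ∀ g k : Ω → ℝ, ip (g - avg κ' g) (k - avg κ' k) = ip g (k - avg κ' k) := by
      intro g k
      rw [ip_sub_left, avg_symm, map_sub, avg_idem, sub_self, ip_zero_right, sub_zero]
    rw [e1]
    have e2 : (f - avg κ f) - avg κ' (f - avg κ f) = (f - avg κ' f) - avg κ (f - avg κ' f) := by
      rw [map_sub, map_sub, hc]
      abel
    rw [e2]
    have e3 : ip (f - avg κ f) ((f - avg κ' f) - avg κ (f - avg κ' f))
        = ip (f - avg κ f) (f - avg κ' f) := by
      rw [ip_sub_right, ← avg_symm, map_sub, avg_idem, sub_self, ip_zero_left, sub_zero]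
    rw [e3]
  rw [h1]
  exact ip_self_nonneg _

end Vale.Agent.P335
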