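import Mathlib
import Vale.Agent.P335.GDefs

/-!
# P335, general case: any two graphs with the same degrees are connected by switches
-/

open Finset
open scoped Classical

namespace Vale.Agent.P335

variable {V : Type*} [Fintype V] {d : V → ℕ}

lemma gconn_sum_eq_card (x : Gr d) (c : V) :
    (univ.filter (fun w => x.1 c w = true)).card = d c := by
  rw [← x.2.2.2 c, Finset.card_filter]
  apply Finset.sum_congr rfl
  intro b _
  cases x.1 c b <;> simp

/-- Neighbours of `c` outside `F`. -/
noncomputable def nbOut (F : Finset V) (x : Gr d) (c : V) : Finset V :=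
  univ.filter (fun w => w ∉ F ∧ x.1 c w = true)

lemma mem_nbOut {F : Finset V} {x : Gr d} {c w : V} :
    w ∈ nbOut F x c ↔ w ∉ F ∧ x.1 c w = true := by
  simp [nbOut]

lemma card_nbOut (F : Finset V) (x : Gr d) (c : V) :
    (nbOut F x c).card + (univ.filter (fun w => w ∈ F ∧ x.1 c w = true)).card = d c := by
  rw [← gconn_sum_eq_card x c, ← Finset.card_union_of_disjoint]
  · congr 1
    ext w
    simp only [nbOut, mem_union, mem_filter, mem_univ, true_and]
    tauto
  · rw [Finset.disjoint_left]
    intro w h1 h2
    simp only [nbOut, mem_filter, mem_univ, true_and] at h1 h2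
    exact h1.1 h2.1

lemma card_nbOut_eq {F : Finset V} {x y : Gr d} (h : ∀ a ∈ F, ∀ b, x.1 a b = y.1 a b) (c : V) :
    (nbOut F x c).card = (nbOut F y c).card := by
  have h1 := card_nbOut F x c
  have h2 := card_nbOut F y c
  have h3 : (univ.filter (fun w => w ∈ F ∧ x.1 c w = true))
      = (univ.filter (fun w => w ∈ F ∧ y.1 c w = true)) := by
    ext w
    simp only [mem_filter, mem_univ, true_and]
    constructor
    · rintro ⟨h4, h5⟩
      refine ⟨h4, ?_⟩
      rw [y.symm', ← h w h4, x.symm']; exact h5
    · rintro ⟨h4, h5⟩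
      refine ⟨h4, ?_⟩
      rw [x.symm', h w h4, y.symm']; exact h5
  rw [h3] at h1
  omega

/-- Number of disagreements in the row `v`. -/
noncomputable def rowDist (v : V) (x y : Gr d) : ℕ :=
  (univ.filter (fun b => x.1 v b ≠ y.1 v b)).card

lemma rowDist_comm (v : V) (x y : Gr d) : rowDist v x y = rowDist v y x := by
  unfold rowDist
  congr 1
  ext b
  simp [eq_comm]

lemma gconn_step (F : Finset V) (v : V) (hv : v ∉ F) (x y : Gr d)
    (h : ∀ a ∈ F, ∀ b, x.1 a b = y.1 a b) (a b : V)
    (hxa : x.1 v a = true) (hya : y.1 v a = false) (hxb : x.1 v b = false)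
    (hyb : y.1 v b = true) (hcard : (nbOut F x a).card ≤ (nbOut F x b).card) :
    ∃ w, (∀ c ∈ F, ∀ e, (sw a b v w x).1 c e = y.1 c e) ∧
      rowDist v (sw a b v w x) y < rowDist v x y := by
  have haF : a ∉ F := by
    intro haF
    have h1 := h a haF v
    rw [x.symm', y.symm', hxa, hya] at h1
    exact Bool.noConfusion h1
  have hbF : b ∉ F := by
    intro hbF
    have h1 := h b hbF v
    rw [x.symm', y.symm', hxb, hyb] at h1
    exact Bool.noConfusion h1
  have hav : a ≠ v := by
    rintro rfl
    rw [x.irrefl'] at hxa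
    exact Bool.noConfusion hxa
  have hbv : b ≠ v := by
    rintro rfl
    rw [y.irrefl'] at hyb
    exact Bool.noConfusion hyb
  have hab : a ≠ b := by
    rintro rfl
    rw [hxa] at hxb
    exact Bool.noConfusion hxb
  -- find w
  have hw : ∃ w, w ∈ (nbOut F x b).erase a ∧ w ∉ (nbOut F x a).erase b := by
    by_contra hcon
    push Not at hcon
    have hsub : (nbOut F x b).erase a ⊆ (nbOut F x a).erase b := hcon
    have hvA : v ∈ (nbOut F x a).erase b := by
      rw [mem_erase, mem_nbOut]
      exact ⟨hbv.symm, hv, by rw [x.symm']; exact hxa⟩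
    have hvB : v ∉ (nbOut F x b).erase a := by
      rw [mem_erase, mem_nbOut]
      rintro ⟨-, -, h1⟩
      rw [x.symm', hxb] at h1
      exact Bool.noConfusion h1
    have hlt : ((nbOut F x b).erase a).card < ((nbOut F x a).erase b).card := by
      apply Finset.card_lt_card
      refine ⟨hsub, fun h1 => hvB (h1 hvA)⟩
    have hiff : a ∈ nbOut F x b ↔ b ∈ nbOut F x a := by
      rw [mem_nbOut, mem_nbOut, x.symm' b a]
      exact ⟨fun h1 => ⟨hbF, h1.2⟩, fun h1 => ⟨haF, h1.2⟩⟩
    by_cases ha : a ∈ nbOut F x b
    · rw [card_erase_of_mem ha, card_erase_of_mem (hiff.mp ha)] at hlt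
      omega
    · rw [erase_eq_of_notMem ha, erase_eq_of_notMem (fun h1 => ha (hiff.mpr h1))] at hlt
      omega
  obtain ⟨w, hw1, hw2⟩ := hw
  rw [mem_erase, mem_nbOut] at hw1
  obtain ⟨hwa, hwF, hbw⟩ := hw1
  have hwb : w ≠ b := by
    rintro rfl
    rw [x.irrefl'] at hbw
    exact Bool.noConfusion hbw
  have hwv : w ≠ v := by
    rintro rfl
    rw [x.symm', hxb] at hbw
    exact Bool.noConfusion hbw
  have haw : x.1 a w = false := by
    by_contra h1
    apply hw2
    rw [mem_erase, mem_nbOut]
    refine ⟨hwb, hwF, ?_⟩
    simpa using h1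
  have hact : act a b v w x := by
    refine ⟨⟨hab, hwv.symm, hav, hwa.symm, hbv, hwb.symm⟩, ?_, ?_, ?_⟩
    · rw [x.symm' b v, x.symm' a v, hxa, hxb]; rfl
    · rw [x.symm' a v, haw, hxa]; rfl
    · rw [x.symm' a v, hbw, hxa]
  refine ⟨w, ?_, ?_⟩
  · intro c hc e
    rw [sw_apply_of_not_inQ, h c hc e]
    unfold inQ
    have h1 : c ≠ a := fun h1 => haF (h1 ▸ hc)
    have h2 : c ≠ b := fun h1 => hbF (h1 ▸ hc)
    have h3 : c ≠ v := fun h1 => hv (h1 ▸ hc)
    have h4 : c ≠ w := fun h1 => hwF (h1 ▸ hc)
    tauto
  · unfold rowDist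
    apply Finset.card_lt_card
    have hrow : ∀ c, (sw a b v w x).1 v c = if c = a ∨ c = b then !x.1 v c else x.1 v c := by
      intro c
      rw [sw_apply_of_act hact]
      have hiff : inQ a b v w v c ↔ (c = a ∨ c = b) := by
        unfold inQ
        have h1 : v ≠ a := hav.symm
        have h2 : v ≠ b := hbv.symm
        tauto
      by_cases h1 : c = a ∨ c = b
      · rw [if_pos (hiff.mpr h1), if_pos h1]
      · rw [if_neg (fun h2 => h1 (hiff.mp h2)), if_neg h1]
    refine ⟨?_, ?_⟩
    · intro c hc
      simp only [mem_filter, mem_univ, true_and] at hc ⊢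
      rw [hrow] at hc
      by_cases h1 : c = a ∨ c = b
      · rcases h1 with rfl | rfl
        · rw [hxa, hya]; simp
        · rw [hxb, hyb]; simp
      · rw [if_neg h1] at hc
        exact hc
    · intro h1
      have h2 : a ∈ univ.filter (fun c => x.1 v c ≠ y.1 v c) := by
        simp [hxa, hya]
      have h3 := h1 h2
      simp only [mem_filter, mem_univ, true_and] at h3
      rw [hrow, if_pos (Or.inl rfl), hxa, hya] at h3
      exact h3 rfl

lemma exists_of_row_ne (v : V) (x y : Gr d) (h : rowDist v x y ≠ 0) :
    ∃ a, x.1 v a = true ∧ y.1 v a = false := by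
  by_contra hcon
  push Not at hcon
  apply h
  have hsub : (univ.filter (fun w => x.1 v w = true)) ⊆ (univ.filter (fun w => y.1 v w = true)) := by
    intro w hw
    simp only [mem_filter, mem_univ, true_and] at hw ⊢
    have := hcon w hw
    simpa using this
  have heq := Finset.eq_of_subset_of_card_le hsub
    (by rw [gconn_sum_eq_card x v, gconn_sum_eq_card y v])
  unfold rowDist
  rw [Finset.card_eq_zero, Finset.filter_eq_empty_iff]
  intro b _
  have h1 : b ∈ (univ.filter (fun w => x.1 v w = true)) ↔
    b ∈ (univ.filter (fun w => y.1 v w = true)) := by rw [heq]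
  simp only [mem_filter, mem_univ, true_and] at h1
  cases hx : x.1 v b <;> cases hy : y.1 v b <;> simp_all

lemma gconn_main (f : Gr d → ℝ) (hf : ∀ u v y z x, f (sw u v y z x) = f x) :
    ∀ (m : ℕ) (F : Finset V), (univ \ F).card = m → ∀ x y : Gr d,
      (∀ a ∈ F, ∀ b, x.1 a b = y.1 a b) → f x = f y := by
  intro m
  induction m with
  | zero =>
    intro F hF x y h
    have hF' : F = univ := by
      rw [card_eq_zero, sdiff_eq_empty_iff_subset] at hF
      exact Finset.univ_subset_iff.mp hF
    have : x = y := by
      apply Gr.ext'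
      intro a b
      exact h a (hF' ▸ mem_univ a) b
    rw [this]
  | succ m ih =>
    intro F hF x y h
    have hne : (univ \ F).Nonempty := by
      rw [← Finset.card_pos, hF]; omega
    obtain ⟨v, hv⟩ := hne
    have hvF : v ∉ F := (mem_sdiff.mp hv).2
    -- inner induction
    have inner : ∀ (k : ℕ) (x y : Gr d), rowDist v x y ≤ k →
        (∀ a ∈ F, ∀ b, x.1 a b = y.1 a b) → f x = f y := by
      intro k
      induction k with
      | zero =>
        intro x y hk hxy
        apply ih (insert v F) _ x y
        · intro a ha b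
          rw [mem_insert] at ha
          rcases ha with rfl | ha
          · unfold rowDist at hk
            rw [Nat.le_zero, card_eq_zero, filter_eq_empty_iff] at hk
            have := hk (mem_univ b)
            simpa using this
          · exact hxy a ha b
        · have : univ \ insert v F = (univ \ F).erase v := by
            ext c
            simp only [mem_sdiff, mem_univ, true_and, mem_insert, mem_erase]
            tauto
          rw [this, card_erase_of_mem hv, hF]; rfl
      | succ k ihk =>
        intro x y hk hxy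
        by_cases h0 : rowDist v x y = 0
        · exact ihk x y (by omega) hxy
        · obtain ⟨a, hxa, hya⟩ := exists_of_row_ne v x y h0
          obtain ⟨b, hyb, hxb⟩ := exists_of_row_ne v y x (by rw [rowDist_comm]; exact h0)
          rcases le_total (nbOut F x a).card (nbOut F x b).card with hc | hc
          · obtain ⟨w, hw1, hw2⟩ := gconn_step F v hvF x y hxy a b hxa hya hxb hyb hc
            rw [← hf a b v w x]
            exact ihk _ _ (by omega) hw1
          · rw [card_nbOut_eq hxy, card_nbOut_eq hxy] at hc
            obtain ⟨w, hw1, hw2⟩ := gconn_step F v hvF y x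
              (fun a ha b => (hxy a ha b).symm) b a hyb hxb hya hxa hc
            rw [← hf b a v w y]
            refine (ihk _ _ ?_ hw1).symm
            rw [rowDist_comm v x y] at hk
            omega
    exact inner _ x y le_rfl h

/-- A function invariant under all switches is constant. -/
theorem gr_connected (f : Gr d → ℝ) (hf : ∀ u v y z x, f (sw u v y z x) = f x) (x y : Gr d) :
    f x = f y :=
  gconn_main f hf _ ∅ rfl x y (by simp)

end Vale.Agent.P335
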