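import Mathlib
import Vale.Agent.P335.Tab

/-!
# P335: the fibres of two rows are layers of a cube
-/

open Finset
open scoped Classical

namespace Vale.Agent.P335

variable {R S : Type*} [Fintype R] [Fintype S] {r : R → ℕ} {c : S → ℕ}

/-- The columns where the rows `a` and `b` differ. -/
noncomputable def dif (a b : R) (x : Tab r c) : Finset S :=
  Finset.univ.filter (fun l => x.1 a l ≠ x.1 b l)

/-- The columns where row `a` has a one and row `b` has a zero. -/
noncomputable def ons (a b : R) (x : Tab r c) : Finset S :=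
  Finset.univ.filter (fun l => x.1 a l = true ∧ x.1 b l = false)

lemma mem_dif {a b : R} {x : Tab r c} {l : S} : l ∈ dif a b x ↔ x.1 a l ≠ x.1 b l := by
  simp [dif]

lemma mem_ons {a b : R} {x : Tab r c} {l : S} :
    l ∈ ons a b x ↔ x.1 a l = true ∧ x.1 b l = false := by
  simp [ons]

lemma ons_subset_dif (a b : R) (x : Tab r c) : ons a b x ⊆ dif a b x := by
  intro l hl
  rw [mem_ons] at hl
  rw [mem_dif, hl.1, hl.2]
  decide

/-- The pair column sums agree on fibres. -/
lemma pair_sum_congr {a b : R} (hab : a ≠ b) {x y : Tab r c}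
    (h : outs {a, b} x = outs {a, b} y) (l : S) :
    (x.1 a l).toNat + (x.1 b l).toNat = (y.1 a l).toNat + (y.1 b l).toNat := by
  have := typ_congr h l
  unfold typ at this
  rwa [Finset.sum_pair hab, Finset.sum_pair hab] at this

lemma dif_congr {a b : R} (hab : a ≠ b) {x y : Tab r c}
    (h : outs {a, b} x = outs {a, b} y) : dif a b x = dif a b y := by
  ext l
  rw [mem_dif, mem_dif]
  have := pair_sum_congr hab h l
  revert this
  cases x.1 a l <;> cases x.1 b l <;> cases y.1 a l <;> cases y.1 b l <;> simp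

/-- Row sum of row `a` split along `dif`. -/
lemma row_split (a b : R) (x : Tab r c) :
    (ons a b x).card + ∑ l ∈ (dif a b x)ᶜ, (x.1 a l).toNat = r a := by
  rw [← x.2.1 a, ← Finset.sum_add_sum_compl (dif a b x)]
  congr 1
  have h1 : ∑ l ∈ dif a b x, (x.1 a l).toNat
      = ∑ l ∈ dif a b x, if l ∈ ons a b x then 1 else 0 := by
    refine Finset.sum_congr rfl (fun l hl => ?_)
    rw [mem_dif] at hl
    revert hl
    by_cases h : l ∈ ons a b x
    · rw [if_pos h]
      rw [mem_ons] at h
      rw [h.1]; simp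
    · rw [if_neg h]
      rw [mem_ons] at h
      revert h
      cases x.1 a l <;> cases x.1 b l <;> simp
  rw [h1, Finset.sum_ite_mem, Finset.inter_eq_right.mpr (ons_subset_dif a b x), Finset.sum_const,
    smul_eq_mul, mul_one]

lemma out_congr {a b : R} (hab : a ≠ b) {x y : Tab r c}
    (h : outs {a, b} x = outs {a, b} y) {l : S} (hl : l ∉ dif a b x) : x.1 a l = y.1 a l := by
  have hl' : l ∉ dif a b y := by rwa [← dif_congr hab h]
  rw [mem_dif] at hl hl'
  have := pair_sum_congr hab h l
  revert this hl hl'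
  cases x.1 a l <;> cases x.1 b l <;> cases y.1 a l <;> cases y.1 b l <;> simp

lemma outs_pair_comm {a b : R} {x y : Tab r c} (h : outs {a, b} x = outs {a, b} y) :
    outs {b, a} x = outs {b, a} y := by
  rwa [Finset.pair_comm b a]

lemma dif_comm (a b : R) (x : Tab r c) : dif b a x = dif a b x := by
  ext l
  rw [mem_dif, mem_dif]
  exact ne_comm

lemma ons_card_congr {a b : R} (hab : a ≠ b) {x y : Tab r c}
    (h : outs {a, b} x = outs {a, b} y) : (ons a b x).card = (ons a b y).card := by
  have h1 := row_split a b x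
  have h2 := row_split a b y
  have h3 : ∑ l ∈ (dif a b x)ᶜ, (x.1 a l).toNat = ∑ l ∈ (dif a b y)ᶜ, (y.1 a l).toNat := by
    rw [← dif_congr hab h]
    refine Finset.sum_congr rfl (fun l hl => ?_)
    rw [out_congr hab h (Finset.mem_compl.mp hl)]
  omega

/-- A table is determined by its class and by `ons`. -/
lemma pair_unique {a b : R} (hab : a ≠ b) {x y : Tab r c}
    (h : outs {a, b} x = outs {a, b} y) (h2 : ons a b x = ons a b y) : x = y := by
  apply Tab.ext'
  intro a' l
  have hs := pair_sum_congr hab h l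
  have h3 : l ∈ ons a b x ↔ l ∈ ons a b y := by rw [h2]
  rw [mem_ons, mem_ons] at h3
  by_cases h4 : a' ∈ ({a, b} : Finset R)
  · rw [Finset.mem_insert, Finset.mem_singleton] at h4
    rcases h4 with rfl | rfl
    · revert hs h3
      cases x.1 a' l <;> cases x.1 b l <;> cases y.1 a' l <;> cases y.1 b l <;> simp
    · revert hs h3
      cases x.1 a l <;> cases x.1 a' l <;> cases y.1 a l <;> cases y.1 a' l <;> simp
  · exact (outs_eq_iff.mp h) a' h4 l

/-- The table of the class of `x` with prescribed `ons`. -/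
lemma pair_build {a b : R} (hab : a ≠ b) (x : Tab r c) (B : Finset S) (hB : B ⊆ dif a b x)
    (hcard : B.card = (ons a b x).card) :
    ∃ z : Tab r c, outs {a, b} z = outs {a, b} x ∧ ons a b z = B := by
  set D := dif a b x with hD
  set M : R → S → Bool := fun a' l =>
    if a' = a then (if l ∈ D then decide (l ∈ B) else x.1 a l)
    else if a' = b then (if l ∈ D then decide (l ∉ B) else x.1 b l)
    else x.1 a' l with hM
  have hMa : ∀ l, M a l = if l ∈ D then decide (l ∈ B) else x.1 a l := by
    intro l; simp [hM]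
  have hMb : ∀ l, M b l = if l ∈ D then decide (l ∉ B) else x.1 b l := by
    intro l; simp [hM, hab.symm]
  have hMo : ∀ a', a' ≠ a → a' ≠ b → ∀ l, M a' l = x.1 a' l := by
    intro a' h1 h2 l; simp [hM, h1, h2]
  have hsum : ∀ l, (M a l).toNat + (M b l).toNat = (x.1 a l).toNat + (x.1 b l).toNat := by
    intro l
    rw [hMa, hMb]
    by_cases hl : l ∈ D
    · have hl' := hl
      rw [hD, mem_dif] at hl'
      rw [if_pos hl, if_pos hl]
      revert hl'
      by_cases hlB : l ∈ B
      · cases x.1 a l <;> cases x.1 b l <;> simp [hlB]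
      · cases x.1 a l <;> cases x.1 b l <;> simp [hlB]
    · rw [if_neg hl, if_neg hl]
  have hrowa : ∑ l, (M a l).toNat = r a := by
    rw [← row_split a b x, ← Finset.sum_add_sum_compl D]
    congr 1
    · rw [← hcard]
      have h1 : ∑ l ∈ D, (M a l).toNat = ∑ l ∈ D, if l ∈ B then 1 else 0 := by
        refine Finset.sum_congr rfl (fun l hl => ?_)
        rw [hMa, if_pos hl]
        by_cases hlB : l ∈ B <;> simp [hlB]
      rw [h1, Finset.sum_ite_mem, Finset.inter_eq_right.mpr hB, Finset.sum_const,
        smul_eq_mul, mul_one]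
    · refine Finset.sum_congr rfl (fun l hl => ?_)
      rw [hMa, if_neg (Finset.mem_compl.mp hl)]
  have hrowb : ∑ l, (M b l).toNat = r b := by
    have h1 : ∑ l, ((M a l).toNat + (M b l).toNat) = ∑ l, ((x.1 a l).toNat + (x.1 b l).toNat) :=
      Finset.sum_congr rfl (fun l _ => hsum l)
    rw [Finset.sum_add_distrib, Finset.sum_add_distrib, hrowa, x.2.1 a, x.2.1 b] at h1
    omega
  have hmargins : (∀ a', ∑ l, (M a' l).toNat = r a') ∧ (∀ l, ∑ a', (M a' l).toNat = c l) := by
    constructor
    · intro a'
      by_cases h1 : a' = a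
      · rw [h1]; exact hrowa
      · by_cases h2 : a' = b
        · rw [h2]; exact hrowb
        · rw [← x.2.1 a']
          exact Finset.sum_congr rfl (fun l _ => by rw [hMo a' h1 h2])
    · intro l
      rw [← x.2.2 l, ← Finset.sum_add_sum_compl ({a, b} : Finset R),
        ← Finset.sum_add_sum_compl ({a, b} : Finset R) (fun a' => (x.1 a' l).toNat)]
      congr 1
      · rw [Finset.sum_pair hab, Finset.sum_pair hab]
        exact hsum l
      · refine Finset.sum_congr rfl (fun a' ha' => ?_)
        rw [Finset.mem_compl, Finset.mem_insert, Finset.mem_singleton, not_or] at ha'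
        rw [hMo a' ha'.1 ha'.2]
  obtain ⟨zt, hzt⟩ : ∃ zt : Tab r c, zt.1 = M := ⟨⟨M, hmargins⟩, rfl⟩
  refine ⟨zt, ?_, ?_⟩
  · rw [outs_eq_iff]
    intro a' ha' l
    rw [Finset.mem_insert, Finset.mem_singleton, not_or] at ha'
    rw [hzt]
    exact hMo a' ha'.1 ha'.2 l
  · ext l
    rw [mem_ons, hzt, hMa, hMb]
    by_cases hl : l ∈ D
    · rw [if_pos hl, if_pos hl]
      by_cases hlB : l ∈ B <;> simp [hlB]
    · rw [if_neg hl, if_neg hl]
      have hlB : l ∉ B := fun h => hl (hB h)
      rw [hD, mem_dif, not_not] at hl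
      rw [hl]
      cases x.1 b l <;> simp [hlB]

/-- Averages over two rows are averages over a layer of a cube. -/
theorem avg_pair {a b : R} (hab : a ≠ b) (x : Tab r c) (g : Tab r c → ℝ) :
    ∃ G : Finset S → ℝ,
      (∀ z, outs {a, b} z = outs {a, b} x → G (ons a b z) = g z) ∧
      (∀ B ∈ (dif a b x).powersetCard (ons a b x).card, ∃ z : Tab r c, outs {a, b} z = outs {a, b} x ∧
        ons a b z = B) ∧
      avg (outs {a, b}) g x = (∑ B ∈ (dif a b x).powersetCard (ons a b x).card, G B)
        / (((dif a b x).powersetCard (ons a b x).card).card : ℝ) := by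
  set G : Finset S → ℝ := fun B =>
    if h : ∃ z : Tab r c, outs {a, b} z = outs {a, b} x ∧ ons a b z = B
      then g (Classical.choose h) else 0
    with hG
  have hGz : ∀ z, outs {a, b} z = outs {a, b} x → G (ons a b z) = g z := by
    intro z hz
    have hex : ∃ z' : Tab r c, outs {a, b} z' = outs {a, b} x ∧ ons a b z' = ons a b z := ⟨z, hz, rfl⟩
    have h1 : G (ons a b z) = g (Classical.choose hex) := by
      rw [hG]; simp only; rw [dif_pos hex]
    have h2 := Classical.choose_spec hex
    rw [h1, pair_unique hab (h2.1.trans hz.symm) h2.2]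
  have hex : ∀ B ∈ (dif a b x).powersetCard (ons a b x).card,
      ∃ z : Tab r c, outs {a, b} z = outs {a, b} x ∧ ons a b z = B := by
    intro B hB
    rw [Finset.mem_powersetCard] at hB
    exact pair_build hab x B hB.1 hB.2
  have hmem : ∀ z ∈ fib (outs {a, b}) x, ons a b z ∈ (dif a b x).powersetCard (ons a b x).card := by
    intro z hz
    rw [mem_fib] at hz
    rw [Finset.mem_powersetCard]
    exact ⟨(dif_congr hab hz) ▸ ons_subset_dif a b z, ons_card_congr hab hz⟩
  have hinj : ∀ z ∈ fib (outs {a, b}) x, ∀ w ∈ fib (outs {a, b}) x,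
      ons a b z = ons a b w → z = w := by
    intro z hz w hw h
    rw [mem_fib] at hz hw
    exact pair_unique hab (hz.trans hw.symm) h
  have hsurj : ∀ B ∈ (dif a b x).powersetCard (ons a b x).card,
      ∃ z : Tab r c, ∃ _ : z ∈ fib (outs {a, b}) x, ons a b z = B := by
    intro B hB
    obtain ⟨z, hz, hzB⟩ := hex B hB
    exact ⟨z, mem_fib.mpr hz, hzB⟩
  refine ⟨G, hGz, hex, ?_⟩
  rw [avg_apply]
  congr 1
  · exact Finset.sum_bij (fun z _ => ons a b z) hmem (fun z hz w hw h => hinj z hz w hw h) hsurj
      (fun z hz => (hGz z (mem_fib.mp hz)).symm)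
  · exact_mod_cast Finset.card_bij (fun z _ => ons a b z) hmem
      (fun z hz w hw h => hinj z hz w hw h) hsurj

end Vale.Agent.P335
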