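import Mathlib

/-!
# P335: coupling lemma for the hypergeometric law (used for the profile part)
-/

open Finset
open scoped Classical

namespace Vale.Agent.P335

/-- Double counting of pairs `C ⊂ insert e C`. -/
theorem hyper_dc {α : Type*} (F : Finset α) (m : ℕ) (H : Finset α → Finset α → ℝ) :
    ∑ C ∈ F.powersetCard m, ∑ e ∈ F \ C, H C (insert e C)
      = ∑ B ∈ F.powersetCard (m + 1), ∑ e ∈ B, H (B.erase e) B := by
  rw [Finset.sum_sigma', Finset.sum_sigma']
  refine Finset.sum_bij' (fun p _ => ⟨insert p.2 p.1, p.2⟩) (fun p _ => ⟨p.1.erase p.2, p.2⟩)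
    ?_ ?_ ?_ ?_ ?_
  · rintro ⟨C, e⟩ hp
    simp only [Finset.mem_sigma, Finset.mem_powersetCard, Finset.mem_sdiff] at hp ⊢
    obtain ⟨⟨h1, h2⟩, h3, h4⟩ := hp
    refine ⟨⟨?_, ?_⟩, Finset.mem_insert_self _ _⟩
    · intro x hx
      rcases Finset.mem_insert.mp hx with h | h
      · rw [h]; exact h3
      · exact h1 h
    · rw [Finset.card_insert_of_notMem h4, h2]
  · rintro ⟨B, e⟩ hp
    simp only [Finset.mem_sigma, Finset.mem_powersetCard, Finset.mem_sdiff] at hp ⊢
    obtain ⟨⟨h1, h2⟩, h3⟩ := hp
    refine ⟨⟨?_, ?_⟩, h1 h3, Finset.notMem_erase _ _⟩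
    · exact (Finset.erase_subset _ _).trans h1
    · rw [Finset.card_erase_of_mem h3, h2]; rfl
  · rintro ⟨C, e⟩ hp
    simp only [Finset.mem_sigma, Finset.mem_powersetCard, Finset.mem_sdiff] at hp
    simp only [Finset.erase_insert hp.2.2]
  · rintro ⟨B, e⟩ hp
    simp only [Finset.mem_sigma, Finset.mem_powersetCard] at hp
    simp only [Finset.insert_erase hp.2]
  · rintro ⟨C, e⟩ hp
    simp only [Finset.mem_sigma, Finset.mem_powersetCard, Finset.mem_sdiff] at hp
    simp only [Finset.erase_insert hp.2.2]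

/-- Comparison of the averages over two consecutive layers. -/
theorem hyper_layer {α : Type*} (F : Finset α) (m : ℕ) (g h : Finset α → ℝ) (L : ℝ)
    (hL : ∀ C ∈ F.powersetCard m, ∀ e ∈ F \ C, |g (insert e C) - h C| ≤ L) :
    |(∑ B ∈ F.powersetCard (m + 1), g B) * ((F.powersetCard m).card : ℝ)
      - (∑ C ∈ F.powersetCard m, h C) * ((F.powersetCard (m + 1)).card : ℝ)|
      ≤ L * ((F.powersetCard m).card : ℝ) * ((F.powersetCard (m + 1)).card : ℝ) := by
  by_cases hm : m ≤ F.card
  swap
  · have h1 : F.powersetCard m = ∅ := Finset.powersetCard_eq_empty.mpr (by omega)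
    have h2 : F.powersetCard (m + 1) = ∅ := Finset.powersetCard_eq_empty.mpr (by omega)
    simp [h1, h2]
  have hcardC : ∀ C ∈ F.powersetCard m, ((F \ C).card : ℝ) = (F.card : ℝ) - m := by
    intro C hC
    rw [Finset.mem_powersetCard] at hC
    rw [Finset.card_sdiff_of_subset hC.1, hC.2]
    rw [Nat.cast_sub hm]
  have hcardB : ∀ B ∈ F.powersetCard (m + 1), (B.card : ℝ) = (m : ℝ) + 1 := by
    intro B hB
    rw [Finset.mem_powersetCard] at hB
    rw [hB.2]; push_cast; ring
  have e1 : ∑ C ∈ F.powersetCard m, ∑ e ∈ F \ C, g (insert e C)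
      = ((m : ℝ) + 1) * ∑ B ∈ F.powersetCard (m + 1), g B := by
    rw [hyper_dc F m (fun _ B => g B), Finset.mul_sum]
    refine Finset.sum_congr rfl (fun B hB => ?_)
    rw [Finset.sum_const, nsmul_eq_mul, hcardB B hB]
  have e2 : ∑ C ∈ F.powersetCard m, ∑ e ∈ F \ C, h C
      = ((F.card : ℝ) - m) * ∑ C ∈ F.powersetCard m, h C := by
    rw [Finset.mul_sum]
    refine Finset.sum_congr rfl (fun C hC => ?_)
    rw [Finset.sum_const, nsmul_eq_mul, hcardC C hC]
  have e3 : ((F.card : ℝ) - m) * ((F.powersetCard m).card : ℝ)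
      = ((m : ℝ) + 1) * ((F.powersetCard (m + 1)).card : ℝ) := by
    have h1 := hyper_dc F m (fun _ _ => (1:ℝ))
    have h2 : ∑ C ∈ F.powersetCard m, ∑ _e ∈ F \ C, (1:ℝ)
        = ∑ _C ∈ F.powersetCard m, ((F.card : ℝ) - m) :=
      Finset.sum_congr rfl (fun C hC => by
        rw [Finset.sum_const, nsmul_eq_mul, hcardC C hC, mul_one])
    have h3 : ∑ B ∈ F.powersetCard (m + 1), ∑ _e ∈ B, (1:ℝ)
        = ∑ _B ∈ F.powersetCard (m + 1), ((m : ℝ) + 1) :=
      Finset.sum_congr rfl (fun B hB => by
        rw [Finset.sum_const, nsmul_eq_mul, hcardB B hB, mul_one])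
    rw [h2, h3, Finset.sum_const, Finset.sum_const, nsmul_eq_mul, nsmul_eq_mul] at h1
    linarith
  have hb : |∑ C ∈ F.powersetCard m, ∑ e ∈ F \ C, (g (insert e C) - h C)|
      ≤ ((F.card : ℝ) - m) * ((F.powersetCard m).card : ℝ) * L := by
    calc |∑ C ∈ F.powersetCard m, ∑ e ∈ F \ C, (g (insert e C) - h C)|
        ≤ ∑ C ∈ F.powersetCard m, ∑ e ∈ F \ C, |g (insert e C) - h C| :=
          (Finset.abs_sum_le_sum_abs _ _).trans
            (Finset.sum_le_sum (fun C _ => Finset.abs_sum_le_sum_abs _ _))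
      _ ≤ ∑ C ∈ F.powersetCard m, ((F.card : ℝ) - m) * L := by
          refine Finset.sum_le_sum (fun C hC => ?_)
          refine (Finset.sum_le_sum (fun e he => hL C hC e he)).trans ?_
          rw [Finset.sum_const, nsmul_eq_mul, hcardC C hC]
      _ = ((F.card : ℝ) - m) * ((F.powersetCard m).card : ℝ) * L := by
          rw [Finset.sum_const, nsmul_eq_mul]; ring
  have hsum : ∑ C ∈ F.powersetCard m, ∑ e ∈ F \ C, (g (insert e C) - h C)
      = ((m : ℝ) + 1) * (∑ B ∈ F.powersetCard (m + 1), g B)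
        - ((F.card : ℝ) - m) * ∑ C ∈ F.powersetCard m, h C := by
    rw [← e1, ← e2, ← Finset.sum_sub_distrib]
    exact Finset.sum_congr rfl (fun C _ => Finset.sum_sub_distrib _ _)
  rw [hsum] at hb
  set Sg := ∑ B ∈ F.powersetCard (m + 1), g B
  set Sh := ∑ C ∈ F.powersetCard m, h C
  set N := ((F.powersetCard m).card : ℝ) with hN
  set N' := ((F.powersetCard (m + 1)).card : ℝ) with hN'
  have hN0 : 0 ≤ N := Nat.cast_nonneg _
  have hm0 : (0:ℝ) < (m : ℝ) + 1 := by positivity
  have h5 : ((m : ℝ) + 1) * (Sg * N - Sh * N')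
      = N * (((m : ℝ) + 1) * Sg - ((F.card : ℝ) - m) * Sh) := by
    have : Sh * (((m : ℝ) + 1) * N') = Sh * (((F.card : ℝ) - m) * N) := by rw [e3]
    linarith
  have h6 : ((m : ℝ) + 1) * |Sg * N - Sh * N'| ≤ ((m : ℝ) + 1) * (L * N * N') := by
    calc ((m : ℝ) + 1) * |Sg * N - Sh * N'| = |((m : ℝ) + 1) * (Sg * N - Sh * N')| := by
          rw [abs_mul, abs_of_pos hm0]
      _ = N * |((m : ℝ) + 1) * Sg - ((F.card : ℝ) - m) * Sh| := by
          rw [h5, abs_mul, abs_of_nonneg hN0]
      _ ≤ N * (((F.card : ℝ) - m) * N * L) := mul_le_mul_of_nonneg_left hb hN0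
      _ = ((m : ℝ) + 1) * (L * N * N') := by rw [e3]; ring
  exact le_of_mul_le_mul_left h6 hm0

/-- Sums over the `(m+1)`-subsets of `insert x s`. -/
theorem sum_powersetCard_insert' {α : Type*} (s : Finset α) (x : α) (hx : x ∉ s) (m : ℕ)
    (G : Finset α → ℝ) :
    ∑ B ∈ (insert x s).powersetCard (m + 1), G B
      = ∑ B ∈ s.powersetCard (m + 1), G B + ∑ B ∈ s.powersetCard m, G (insert x B) := by
  rw [Finset.powersetCard_succ_insert hx, Finset.sum_union]
  · congr 1
    rw [Finset.sum_image]
    intro B hB C hC h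
    have hB' : x ∉ B := fun h' => hx ((Finset.mem_powersetCard.mp hB).1 h')
    have hC' : x ∉ C := fun h' => hx ((Finset.mem_powersetCard.mp hC).1 h')
    rw [← Finset.erase_insert hB', ← Finset.erase_insert hC', h]
  · rw [Finset.disjoint_left]
    intro B hB hB'
    obtain ⟨C, hC, rfl⟩ := Finset.mem_image.mp hB'
    exact hx ((Finset.mem_powersetCard.mp hB).1 (Finset.mem_insert_self _ _))

/-- `B` uniform among the `b`-subsets of `U ∪ V`, `B'` uniform among the `(b-1)`-subsets of
`(U ∪ V) \ {u, v}` with `u ∈ U`, `v ∈ V`: they can be coupled with `|B ∩ U| - |B' ∩ U| ∈ {0, 1}`. -/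
theorem hyper_coupling {α : Type*} (U V : Finset α) (hUV : Disjoint U V) (u v : α)
    (hu : u ∈ U) (hv : v ∈ V) (b : ℕ) (hb : 1 ≤ b) (hb2 : b + 1 ≤ U.card + V.card)
    (G G' : Finset α → ℝ) (L : ℝ)
    (h : ∀ B ∈ (U ∪ V).powersetCard b, ∀ B' ∈ ((U ∪ V) \ {u, v}).powersetCard (b - 1),
      ((B ∩ U).card = (B' ∩ U).card ∨ (B ∩ U).card = (B' ∩ U).card + 1) → |G B - G' B'| ≤ L) :
    |(∑ B ∈ (U ∪ V).powersetCard b, G B) / (((U ∪ V).powersetCard b).card : ℝ)
      - (∑ B ∈ ((U ∪ V) \ {u, v}).powersetCard (b - 1), G' B)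
        / ((((U ∪ V) \ {u, v}).powersetCard (b - 1)).card : ℝ)| ≤ L := by
  obtain ⟨m, rfl⟩ : ∃ m, b = m + 1 := ⟨b - 1, by omega⟩
  rw [Nat.add_sub_cancel] at h ⊢
  set F := (U ∪ V) \ {u, v} with hF
  have huV : u ∉ V := Finset.disjoint_left.mp hUV hu
  have hvU : v ∉ U := fun h' => Finset.disjoint_left.mp hUV h' hv
  have huv : u ≠ v := fun h' => huV (h' ▸ hv)
  have huF : u ∉ F := by simp [hF]
  have hvF : v ∉ F := by simp [hF]
  have huvF : u ∉ insert v F := by simp [huF, huv]
  have hUVF : U ∪ V = insert u (insert v F) := by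
    ext x
    simp only [hF, Finset.mem_insert, Finset.mem_sdiff, Finset.mem_union, Finset.mem_singleton]
    constructor
    · intro hx
      by_cases h1 : x = u
      · exact Or.inl h1
      · by_cases h2 : x = v
        · exact Or.inr (Or.inl h2)
        · exact Or.inr (Or.inr ⟨hx, by tauto⟩)
    · rintro (rfl | rfl | h1)
      · exact Or.inl hu
      · exact Or.inr hv
      · exact h1.1
  have hFcard : F.card + 2 = U.card + V.card := by
    rw [← Finset.card_union_of_disjoint hUV, hUVF, Finset.card_insert_of_notMem huvF,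
      Finset.card_insert_of_notMem hvF]
  rw [hUVF]
  have hmemUV : ∀ B : Finset α, B ⊆ insert u (insert v F) → B.card = m + 1 →
      B ∈ (U ∪ V).powersetCard (m + 1) := by
    intro B h1 h2
    rw [Finset.mem_powersetCard, hUVF]
    exact ⟨h1, h2⟩
  have hins : F ⊆ insert u (insert v F) :=
    (Finset.subset_insert _ _).trans (Finset.subset_insert _ _)
  -- the four bounds
  set N := ((F.powersetCard m).card : ℝ) with hN
  set S' := ∑ B ∈ F.powersetCard m, G' B with hS'
  have hNpos : 0 < N := by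
    have : 0 < (F.powersetCard m).card := by
      rw [Finset.card_powersetCard]; exact Nat.choose_pos (by omega)
    rw [hN]; exact_mod_cast this
  have t1 : |∑ B ∈ F.powersetCard m, G (insert u B) - S'| ≤ L * N := by
    rw [hS', ← Finset.sum_sub_distrib]
    refine (Finset.abs_sum_le_sum_abs _ _).trans ?_
    have : ∀ B ∈ F.powersetCard m, |G (insert u B) - G' B| ≤ L := by
      intro B hB
      have hB' := Finset.mem_powersetCard.mp hB
      have huB : u ∉ B := fun h' => huF (hB'.1 h')
      refine h _ (hmemUV _ ?_ ?_) B hB (Or.inr ?_)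
      · exact Finset.insert_subset_insert _ (hB'.1.trans (Finset.subset_insert _ _))
      · rw [Finset.card_insert_of_notMem huB, hB'.2]
      · rw [Finset.insert_inter_of_mem hu, Finset.card_insert_of_notMem]
        intro h'; exact huB (Finset.mem_inter.mp h').1
    refine (Finset.sum_le_sum this).trans ?_
    rw [Finset.sum_const, nsmul_eq_mul, mul_comm]
  have t2 : |∑ B ∈ F.powersetCard m, G (insert v B) - S'| ≤ L * N := by
    rw [hS', ← Finset.sum_sub_distrib]
    refine (Finset.abs_sum_le_sum_abs _ _).trans ?_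
    have : ∀ B ∈ F.powersetCard m, |G (insert v B) - G' B| ≤ L := by
      intro B hB
      have hB' := Finset.mem_powersetCard.mp hB
      have hvB : v ∉ B := fun h' => hvF (hB'.1 h')
      refine h _ (hmemUV _ ?_ ?_) B hB (Or.inl ?_)
      · exact (Finset.insert_subset_insert _ hB'.1).trans (Finset.subset_insert _ _)
      · rw [Finset.card_insert_of_notMem hvB, hB'.2]
      · rw [Finset.insert_inter_of_notMem hvU]
    refine (Finset.sum_le_sum this).trans ?_
    rw [Finset.sum_const, nsmul_eq_mul, mul_comm]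
  -- the layer with neither `u` nor `v`
  set N3 := ((F.powersetCard (m + 1)).card : ℝ) with hN3
  set S3 := ∑ B ∈ F.powersetCard (m + 1), G B with hS3
  have t3 : |S3 * N - S' * N3| ≤ L * N * N3 := by
    apply hyper_layer
    intro C hC e he
    have hC' := Finset.mem_powersetCard.mp hC
    rw [Finset.mem_sdiff] at he
    refine h _ (hmemUV _ ?_ ?_) C hC ?_
    · refine Finset.Subset.trans ?_ hins
      intro x hx
      rcases Finset.mem_insert.mp hx with h' | h'
      · rw [h']; exact he.1
      · exact hC'.1 h'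
    · rw [Finset.card_insert_of_notMem he.2, hC'.2]
    · by_cases heU : e ∈ U
      · right
        rw [Finset.insert_inter_of_mem heU, Finset.card_insert_of_notMem]
        intro h'; exact he.2 (Finset.mem_inter.mp h').1
      · left
        rw [Finset.insert_inter_of_notMem heU]
  rw [sum_powersetCard_insert' _ u huvF, sum_powersetCard_insert' _ v hvF]
  have hcardsum : ((((insert u (insert v F)).powersetCard (m + 1)).card : ℕ) : ℝ)
      = ∑ B ∈ (insert u (insert v F)).powersetCard (m + 1), (1 : ℝ) := by simp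
  rw [hcardsum, sum_powersetCard_insert' _ u huvF, sum_powersetCard_insert' _ v hvF]
  -- the layer with both `u` and `v`
  have key : ∀ (S2 N2 : ℝ), 0 ≤ N2 → |S2 * N - S' * N2| ≤ L * N * N2 →
      |(S3 + ∑ B ∈ F.powersetCard m, G (insert v B)
          + (∑ B ∈ F.powersetCard m, G (insert u B) + S2)) / (N3 + N + (N + N2)) - S' / N| ≤ L := by
    intro S2 N2 hN2 hS2
    have hN3' : 0 ≤ N3 := Nat.cast_nonneg _
    have hpos : 0 < N3 + N + (N + N2) := by linarith
    rw [div_sub_div _ _ hpos.ne' hNpos.ne', abs_div, abs_of_pos (mul_pos hpos hNpos),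
      div_le_iff₀ (mul_pos hpos hNpos)]
    set a1 := ∑ B ∈ F.powersetCard m, G (insert u B)
    set a2 := ∑ B ∈ F.powersetCard m, G (insert v B)
    rw [abs_le] at t1 t2 t3 hS2 ⊢
    have q1 := mul_le_mul_of_nonneg_right t1.1 hNpos.le
    have q2 := mul_le_mul_of_nonneg_right t1.2 hNpos.le
    have q3 := mul_le_mul_of_nonneg_right t2.1 hNpos.le
    have q4 := mul_le_mul_of_nonneg_right t2.2 hNpos.le
    constructor
    · nlinarith [t3.1, hS2.1, q1, q3]
    · nlinarith [t3.2, hS2.2, q2, q4]
  rcases Nat.eq_zero_or_pos m with hm0 | hm0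
  · have hk := key 0 0 le_rfl (by simp)
    have hm : m = 0 := hm0
    have hz : (insert v F).powersetCard m = F.powersetCard m := by
      rw [hm]; simp
    rw [hz]
    simp only [add_zero, Finset.sum_const, nsmul_eq_mul, mul_one] at hk ⊢
    exact hk
  · obtain ⟨q, rfl⟩ : ∃ q, m = q + 1 := ⟨m - 1, by omega⟩
    rw [sum_powersetCard_insert' _ v hvF, sum_powersetCard_insert' _ v hvF]
    set N2 := ((F.powersetCard q).card : ℝ) with hN2
    set S2 := ∑ C ∈ F.powersetCard q, G (insert u (insert v C)) with hS2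
    have t4 : |S2 * N - S' * N2| ≤ L * N * N2 := by
      have := hyper_layer F q G' (fun C => G (insert u (insert v C))) L (by
        intro C hC e he
        have hC' := Finset.mem_powersetCard.mp hC
        rw [Finset.mem_sdiff] at he
        have huC : u ∉ C := fun h' => huF (hC'.1 h')
        have hvC : v ∉ C := fun h' => hvF (hC'.1 h')
        have huvC : u ∉ insert v C := by simp [huC, huv]
        rw [abs_sub_comm]
        refine h _ (hmemUV _ ?_ ?_) _ ?_ ?_
        · exact Finset.insert_subset_insert _ (Finset.insert_subset_insert _ hC'.1)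
        · rw [Finset.card_insert_of_notMem huvC, Finset.card_insert_of_notMem hvC, hC'.2]
        · rw [Finset.mem_powersetCard]
          refine ⟨?_, by rw [Finset.card_insert_of_notMem he.2, hC'.2]⟩
          intro x hx
          rcases Finset.mem_insert.mp hx with h' | h'
          · rw [h']; exact he.1
          · exact hC'.1 h'
        · have hL1 : (insert u (insert v C) ∩ U).card = (C ∩ U).card + 1 := by
            rw [Finset.insert_inter_of_mem hu, Finset.insert_inter_of_notMem hvU,
              Finset.card_insert_of_notMem]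
            intro h'; exact huC (Finset.mem_inter.mp h').1
          by_cases heU : e ∈ U
          · left
            rw [hL1, Finset.insert_inter_of_mem heU, Finset.card_insert_of_notMem]
            intro h'; exact he.2 (Finset.mem_inter.mp h').1
          · right
            rw [hL1, Finset.insert_inter_of_notMem heU])
      rw [abs_sub_comm] at this
      calc |S2 * N - S' * N2| ≤ L * N2 * N := this
        _ = L * N * N2 := by ring
    have hk := key S2 N2 (Nat.cast_nonneg _) t4
    simp only [Finset.sum_const, nsmul_eq_mul, mul_one]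
    exact hk

end Vale.Agent.P335
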