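import Mathlib
import Vale.Agent.P335.Avg
import Vale.Agent.P335.Spectral

/-!
# P335: the abstract Lipschitz lemma for three conditional expectations
-/

open Finset

namespace Vale.Agent.P335

theorem fin3_erase : ∀ i j : Fin 3, j ≠ i → ∃ k : Fin 3, Finset.univ.erase i = {j, k} ∧ j ≠ k := by
  decide

end Vale.Agent.P335

open scoped Classical

namespace Vale.Agent.P335

variable {Ω : Type*} [Fintype Ω] {K K' : Type*}

/-- Reduction to eigenfunctions: if no eigenfunction of a symmetric operator on an invariant subspace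
has eigenvalue larger than `c`, the quadratic form is at most `c`. -/
theorem form_le_of_no_eigen (T : (Ω → ℝ) →ₗ[ℝ] (Ω → ℝ)) (hT : ∀ f g, ip (T f) g = ip f (T g))
    (W : Submodule ℝ (Ω → ℝ)) (hW : ∀ f ∈ W, T f ∈ W) (c : ℝ)
    (h : ∀ Λ : ℝ, c < Λ → ∀ f ∈ W, T f = Λ • f → f = 0) {f : Ω → ℝ} (hf : f ∈ W) :
    ip (T f) f ≤ c * ip f f := by
  by_cases hf0 : f = 0
  · subst hf0; simp [ip_zero_right]
  obtain ⟨Λ, f1, hf1, hf10, hTf, hle⟩ := exists_max_eigen T hT W hW ⟨f, hf, hf0⟩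
  have hΛ : Λ ≤ c := by
    by_contra hcon
    push Not at hcon
    exact hf10 (h Λ hcon f1 hf1 hTf)
  exact (hle f hf).trans (mul_le_mul_of_nonneg_right hΛ (ip_self_nonneg f))

/-- The sum of three averaging operators. -/
noncomputable def avg3 (A : Fin 3 → Ω → K) : (Ω → ℝ) →ₗ[ℝ] (Ω → ℝ) := ∑ i, avg (A i)

lemma avg3_apply (A : Fin 3 → Ω → K) (f : Ω → ℝ) : avg3 A f = ∑ i, avg (A i) f := by
  simp [avg3]

lemma avg3_symm (A : Fin 3 → Ω → K) (f g : Ω → ℝ) : ip (avg3 A f) g = ip f (avg3 A g) := by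
  rw [avg3_apply, avg3_apply, ip_sum_left, ip_sum_right]
  exact Finset.sum_congr rfl (fun i _ => avg_symm _ _ _)

/-- The abstract Lipschitz lemma. -/
theorem lipschitz_lemma (A : Fin 3 → Ω → K) (O : Ω → K')
    (hO : ∀ i x y, A i x = A i y → O x = O y)
    (S : Set (Equiv.Perm Ω))
    (hinv : ∀ σ ∈ S, ∀ x, σ (σ x) = x)
    (ha : ∀ σ ∈ S, ∀ i x y, A i x = A i y → A i (σ x) = A i (σ y))
    (hb : ∀ σ ∈ S, ∀ z i, A i (σ z) ≠ A i z → ∃ j, j ≠ i ∧ A j (σ z) = A j z)
    (hc : ∀ f : Ω → ℝ, (∀ σ ∈ S, ∀ x, f (σ x) = f x) → ∀ x y, O x = O y → f x = f y)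
    {f : Ω → ℝ} (hf : avg O f = 0) : ∑ i, ip (avg (A i) f) f ≤ 2 * ip f f := by
  rw [← ip_sum_left, ← avg3_apply]
  set W : Submodule ℝ (Ω → ℝ) := LinearMap.ker (avg O) with hW
  have hmem : ∀ {h : Ω → ℝ}, h ∈ W ↔ avg O h = 0 := by
    intro h; rw [hW, LinearMap.mem_ker]
  refine form_le_of_no_eigen (avg3 A) (avg3_symm A) W ?_ 2 ?_ (hmem.mpr hf)
  · intro h hh
    rw [hmem] at hh ⊢
    rw [avg3_apply, map_sum]
    refine Finset.sum_eq_zero (fun i _ => ?_)
    rw [avg_tower' (hO i), hh]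
  intro Λ hΛ f0 hf0 hT
  set g : Fin 3 → Ω → ℝ := fun i => avg (A i) f0 with hg
  have hsum : Λ • f0 = ∑ i, g i := by rw [← hT, avg3_apply]
  -- eigen-relation for the pieces
  have hrel : ∀ i x, (Λ - 1) * g i x = ∑ j ∈ Finset.univ.erase i, avg (A i) (g j) x := by
    intro i x
    have h1 : Λ * g i x = ∑ j, avg (A i) (g j) x := by
      have h2 : avg (A i) (Λ • f0) = avg (A i) (∑ j, g j) := by rw [hsum]
      rw [map_smul, map_sum] at h2
      have h3 := congrFun h2 x
      rw [Pi.smul_apply, smul_eq_mul, Finset.sum_apply] at h3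
      exact h3
    rw [← Finset.add_sum_erase _ _ (Finset.mem_univ i)] at h1
    have h4 : avg (A i) (g i) x = g i x := by
      rw [hg]; simp only; rw [avg_idem]
    rw [h4] at h1
    linarith
  -- the maximal Lipschitz constant
  obtain ⟨L, hL0, hLle, hLat⟩ : ∃ L : ℝ, 0 ≤ L ∧ (∀ i, ∀ σ ∈ S, ∀ x, |g i (σ x) - g i x| ≤ L) ∧
      (L = 0 ∨ ∃ i, ∃ σ ∈ S, ∃ x, |g i (σ x) - g i x| = L) := by
    set V : Finset ℝ := insert 0 ((Finset.univ.filter
      (fun p : Fin 3 × Equiv.Perm Ω × Ω => p.2.1 ∈ S)).image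
      (fun p => |g p.1 (p.2.1 p.2.2) - g p.1 p.2.2|)) with hV
    have hVne : V.Nonempty := ⟨0, Finset.mem_insert_self _ _⟩
    refine ⟨V.max' hVne, V.le_max' 0 (Finset.mem_insert_self _ _), ?_, ?_⟩
    · intro i σ hσ x
      apply V.le_max'
      rw [hV, Finset.mem_insert]
      right
      rw [Finset.mem_image]
      exact ⟨(i, σ, x), by simp [hσ], rfl⟩
    · have hmx := V.max'_mem hVne
      rcases Finset.mem_insert.mp hmx with h | h'
      · left; exact h
      · right
        obtain ⟨⟨i, σ, x⟩, hp, hx⟩ := Finset.mem_image.mp h'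
        simp only [Finset.mem_filter, Finset.mem_univ, true_and] at hp
        exact ⟨i, σ, hp, x, hx⟩
  have hLzero : L = 0 := by
    rcases hLat with h | ⟨i, σ, hσ, x, hx⟩
    · exact h
    by_cases hAi : A i (σ x) = A i x
    · have : g i (σ x) = g i x := avg_meas (A i) f0 hAi
      rw [this, sub_self, abs_zero] at hx
      exact hx.symm
    have hiff : ∀ x y, A i x = A i y ↔ A i (σ x) = A i (σ y) := by
      intro x y
      constructor
      · exact ha σ hσ i x y
      · intro h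
        have := ha σ hσ i _ _ h
        rwa [hinv σ hσ, hinv σ hσ] at this
    have hdiff : (Λ - 1) * (g i (σ x) - g i x)
        = avg (A i) (fun z => ∑ j ∈ Finset.univ.erase i, (g j (σ z) - g j z)) x := by
      rw [mul_sub, hrel, hrel, ← Finset.sum_sub_distrib]
      have h5 : (fun z => ∑ j ∈ Finset.univ.erase i, (g j (σ z) - g j z))
          = ∑ j ∈ Finset.univ.erase i, ((fun z => g j (σ z)) - g j) := by
        funext z
        simp [Finset.sum_apply]
      rw [h5, map_sum, Finset.sum_apply]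
      refine Finset.sum_congr rfl (fun j _ => ?_)
      rw [map_sub, Pi.sub_apply, avg_comp_perm (A i) σ hiff]
    have hbound : |avg (A i) (fun z => ∑ j ∈ Finset.univ.erase i, (g j (σ z) - g j z)) x| ≤ L := by
      apply abs_avg_le_of_le
      intro z hz
      have hne : A i (σ z) ≠ A i z := by
        rw [hz, (hiff z x).mp hz]
        exact hAi
      obtain ⟨j, hji, hj⟩ := hb σ hσ z i hne
      obtain ⟨k, hk⟩ := fin3_erase i j hji
      rw [hk.1, Finset.sum_pair hk.2]
      have h6 : g j (σ z) = g j z := avg_meas (A j) f0 hj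
      rw [h6, sub_self, zero_add]
      exact hLle k σ hσ z
    rw [← hdiff, abs_mul, hx] at hbound
    have h7 : (1:ℝ) < |Λ - 1| := by
      rw [abs_of_pos (by linarith)]; linarith
    nlinarith
  -- all pieces are invariant, hence so is f0
  have hginv : ∀ i, ∀ σ ∈ S, ∀ x, g i (σ x) = g i x := by
    intro i σ hσ x
    have := hLle i σ hσ x
    rw [hLzero] at this
    exact sub_eq_zero.mp (abs_nonpos_iff.mp this)
  have hΛ0 : Λ ≠ 0 := by linarith
  have hf0eq : ∀ x, f0 x = Λ⁻¹ * ∑ i, g i x := by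
    intro x
    have := congrFun hsum x
    rw [Pi.smul_apply, smul_eq_mul, Finset.sum_apply] at this
    rw [← this, ← mul_assoc, inv_mul_cancel₀ hΛ0, one_mul]
  have hfinv : ∀ σ ∈ S, ∀ x, f0 (σ x) = f0 x := by
    intro σ hσ x
    rw [hf0eq, hf0eq]
    congr 1
    exact Finset.sum_congr rfl (fun i _ => hginv i σ hσ x)
  have hmeas := hc f0 hfinv
  have h8 : avg O f0 = f0 := avg_of_meas hmeas
  rw [hmem] at hf0
  rw [← h8, hf0]

end Vale.Agent.P335
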