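import Mathlib
import Vale.Agent.P335.Avg
import Vale.Agent.P335.Spectral
import Vale.Agent.P335.Lipschitz

/-!
# P335: the abstract lemma for three keys over a common base key
-/

open Finset
open scoped Classical

namespace Vale.Agent.P335

variable {Ω : Type*} [Fintype Ω] {K K' : Type*}

/-- Maximum of a finite family with the value zero adjoined. -/
theorem exists_max_with_zero {ι : Type*} [Fintype ι] (F : ι → ℝ) :
    ∃ L : ℝ, 0 ≤ L ∧ (∀ i, F i ≤ L) ∧ (L = 0 ∨ ∃ i, F i = L) := by
  set V : Finset ℝ := insert 0 (Finset.univ.image F) with hV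
  have hVne : V.Nonempty := ⟨0, Finset.mem_insert_self _ _⟩
  refine ⟨V.max' hVne, V.le_max' 0 (Finset.mem_insert_self _ _), ?_, ?_⟩
  · intro i
    apply V.le_max'
    rw [hV, Finset.mem_insert]
    right
    exact Finset.mem_image_of_mem F (Finset.mem_univ i)
  · have hmx := V.max'_mem hVne
    rcases Finset.mem_insert.mp hmx with h | h'
    · left; exact h
    · right
      obtain ⟨i, -, hi⟩ := Finset.mem_image.mp h'
      exact ⟨i, hi⟩

/-- The abstract lemma for three keys `A 0, A 1, A 2` over the base key `O`. -/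
theorem three_key_lemma (A : Fin 3 → Ω → K) (O : Ω → K') (p : Fin 3 → Ω → ℤ)
    (hO : ∀ i x y, A i x = A i y → O x = O y)
    (S : Set (Equiv.Perm Ω))
    (hinv : ∀ σ ∈ S, ∀ x, σ (σ x) = x)
    (ha : ∀ σ ∈ S, ∀ i x y, A i x = A i y → A i (σ x) = A i (σ y))
    (hb : ∀ σ ∈ S, ∀ z i, A i (σ z) ≠ A i z → ∃ j, j ≠ i ∧ A j (σ z) = A j z)
    (hc : ∀ (i : Fin 3) (g : Ω → ℝ), (∀ x y, A i x = A i y → g x = g y) →
      (∀ σ ∈ S, ∀ x, g (σ x) = g x) → ∀ x y, O x = O y → p i x = p i y → g x = g y)
    (hd : ∀ i x x', O x = O x' → p i x' = p i x + 1 → ∀ (L : ℝ) (g : Fin 3 → Ω → ℝ),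
      (∀ j y z, O y = O z → p j y = p j z → g j y = g j z) →
      (∀ j y z, O y = O z → p j z = p j y + 1 → |g j z - g j y| ≤ L) →
      |∑ j ∈ Finset.univ.erase i, (avg (A i) (g j) x' - avg (A i) (g j) x)| ≤ L)
    (he : ∀ x y, O x = O y →
      Relation.ReflTransGen (fun z w => O z = O w ∧ ∀ i, |p i z - p i w| ≤ 1) x y)
    {f : Ω → ℝ} (hf : avg O f = 0) : ∑ i, ip (avg (A i) f) f ≤ 2 * ip f f := by
  rw [← ip_sum_left, ← avg3_apply]
  set W : Submodule ℝ (Ω → ℝ) := LinearMap.ker (avg O) with hW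
  have hmem : ∀ {h : Ω → ℝ}, h ∈ W ↔ avg O h = 0 := by
    intro h; rw [hW, LinearMap.mem_ker]
  refine form_le_of_no_eigen (avg3 A) (avg3_symm A) W ?_ 2 ?_ (hmem.mpr hf)
  · intro h hh
    rw [hmem] at hh ⊢
    rw [avg3_apply, map_sum]
    refine Finset.sum_eq_zero (fun i _ => ?_)
    rw [avg_tower' (hO i), hh]
  intro Λ hΛ f0 hf0 hT
  set g : Fin 3 → Ω → ℝ := fun i => avg (A i) f0 with hg
  have hsum : Λ • f0 = ∑ i, g i := by rw [← hT, avg3_apply]
  have hgmeas : ∀ i x y, A i x = A i y → g i x = g i y := fun i x y h => avg_meas (A i) f0 h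
  -- eigen-relation for the pieces
  have hrel : ∀ i x, (Λ - 1) * g i x = ∑ j ∈ Finset.univ.erase i, avg (A i) (g j) x := by
    intro i x
    have h1 : Λ * g i x = ∑ j, avg (A i) (g j) x := by
      have h2 : avg (A i) (Λ • f0) = avg (A i) (∑ j, g j) := by rw [hsum]
      rw [map_smul, map_sum] at h2
      have h3 := congrFun h2 x
      rw [Pi.smul_apply, smul_eq_mul, Finset.sum_apply] at h3
      exact h3
    rw [← Finset.add_sum_erase _ _ (Finset.mem_univ i)] at h1
    have h4 : avg (A i) (g i) x = g i x := by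
      rw [hg]; simp only; rw [avg_idem]
    rw [h4] at h1
    linarith
  -- stage 1: the pieces are invariant under `S`
  have hginv : ∀ i, ∀ σ ∈ S, ∀ x, g i (σ x) = g i x := by
    obtain ⟨L, hL0, hLle, hLat⟩ := exists_max_with_zero
      (fun q : Fin 3 × {σ : Equiv.Perm Ω // σ ∈ S} × Ω => |g q.1 (q.2.1.1 q.2.2) - g q.1 q.2.2|)
    have hLle' : ∀ i, ∀ σ ∈ S, ∀ x, |g i (σ x) - g i x| ≤ L :=
      fun i σ hσ x => hLle (i, ⟨σ, hσ⟩, x)
    have hLzero : L = 0 := by
      rcases hLat with h | ⟨⟨i, ⟨σ, hσ⟩, x⟩, hx⟩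
      · exact h
      simp only at hx
      by_cases hAi : A i (σ x) = A i x
      · have : g i (σ x) = g i x := avg_meas (A i) f0 hAi
        rw [this, sub_self, abs_zero] at hx
        exact hx.symm
      have hiff : ∀ x y, A i x = A i y ↔ A i (σ x) = A i (σ y) := by
        intro x y
        constructor
        · exact ha σ hσ i x y
        · intro h
          have := ha σ hσ i _ _ h
          rwa [hinv σ hσ, hinv σ hσ] at this
      have hdiff : (Λ - 1) * (g i (σ x) - g i x)
          = avg (A i) (fun z => ∑ j ∈ Finset.univ.erase i, (g j (σ z) - g j z)) x := by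
        rw [mul_sub, hrel, hrel, ← Finset.sum_sub_distrib]
        have h5 : (fun z => ∑ j ∈ Finset.univ.erase i, (g j (σ z) - g j z))
            = ∑ j ∈ Finset.univ.erase i, ((fun z => g j (σ z)) - g j) := by
          funext z
          simp [Finset.sum_apply]
        rw [h5, map_sum, Finset.sum_apply]
        refine Finset.sum_congr rfl (fun j _ => ?_)
        rw [map_sub, Pi.sub_apply, avg_comp_perm (A i) σ hiff]
      have hbound : |avg (A i) (fun z => ∑ j ∈ Finset.univ.erase i, (g j (σ z) - g j z)) x| ≤ L := by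
        apply abs_avg_le_of_le
        intro z hz
        have hne : A i (σ z) ≠ A i z := by
          rw [hz, (hiff z x).mp hz]
          exact hAi
        obtain ⟨j, hji, hj⟩ := hb σ hσ z i hne
        obtain ⟨k, hk⟩ := fin3_erase i j hji
        rw [hk.1, Finset.sum_pair hk.2]
        have h6 : g j (σ z) = g j z := avg_meas (A j) f0 hj
        rw [h6, sub_self, zero_add]
        exact hLle' k σ hσ z
      rw [← hdiff, abs_mul, hx] at hbound
      have h7 : (1:ℝ) < |Λ - 1| := by
        rw [abs_of_pos (by linarith)]; linarith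
      nlinarith
    intro i σ hσ x
    have := hLle' i σ hσ x
    rw [hLzero] at this
    exact sub_eq_zero.mp (abs_nonpos_iff.mp this)
  -- hence they only depend on the base key and on `p`
  have hgp : ∀ j y z, O y = O z → p j y = p j z → g j y = g j z :=
    fun j y z h1 h2 => hc j (g j) (hgmeas j) (hginv j) y z h1 h2
  -- stage 2: unit steps in `p`
  have hgstep : ∀ j y z, O y = O z → p j z = p j y + 1 → g j z = g j y := by
    obtain ⟨L, hL0, hLle, hLat⟩ := exists_max_with_zero
      (fun q : {q : Fin 3 × Ω × Ω // O q.2.1 = O q.2.2 ∧ p q.1 q.2.2 = p q.1 q.2.1 + 1} =>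
        |g q.1.1 q.1.2.2 - g q.1.1 q.1.2.1|)
    have hLle' : ∀ j y z, O y = O z → p j z = p j y + 1 → |g j z - g j y| ≤ L :=
      fun j y z h1 h2 => hLle ⟨(j, y, z), h1, h2⟩
    have hLzero : L = 0 := by
      rcases hLat with h | ⟨⟨⟨i, x, x'⟩, h1, h2⟩, hx⟩
      · exact h
      simp only at hx h1 h2
      have hbound := hd i x x' h1 h2 L g hgp hLle'
      rw [Finset.sum_sub_distrib, ← hrel, ← hrel, ← mul_sub, abs_mul, hx] at hbound
      have h7 : (1:ℝ) < |Λ - 1| := by
        rw [abs_of_pos (by linarith)]; linarith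
      nlinarith
    intro j y z h1 h2
    have := hLle' j y z h1 h2
    rw [hLzero] at this
    exact sub_eq_zero.mp (abs_nonpos_iff.mp this)
  have hgO : ∀ x y, O x = O y → ∀ i, g i x = g i y := by
    intro x y hxy i
    have hR := he x y hxy
    clear hxy
    induction hR with
    | refl => rfl
    | tail _ hstep ih =>
      rename_i b c _
      rw [ih]
      obtain ⟨h1, h2⟩ := hstep
      have h3 := h2 i
      rw [abs_le] at h3
      rcases (by omega : p i c = p i b + 1 ∨ p i b = p i c ∨ p i b = p i c + 1) with h | h | h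
      · exact (hgstep i b c h1 h).symm
      · exact hgp i b c h1 h
      · exact hgstep i c b h1.symm h
  have hΛ0 : Λ ≠ 0 := by linarith
  have hf0eq : ∀ x, f0 x = Λ⁻¹ * ∑ i, g i x := by
    intro x
    have := congrFun hsum x
    rw [Pi.smul_apply, smul_eq_mul, Finset.sum_apply] at this
    rw [← this, ← mul_assoc, inv_mul_cancel₀ hΛ0, one_mul]
  have hmeas : ∀ x y, O x = O y → f0 x = f0 y := by
    intro x y h
    rw [hf0eq, hf0eq]
    congr 1
    exact Finset.sum_congr rfl (fun i _ => hgO x y h i)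
  have h8 : avg O f0 = f0 := avg_of_meas hmeas
  rw [hmem] at hf0
  rw [← h8, hf0]

end Vale.Agent.P335
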