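import Mathlib
import Vale.Agent.P335.Tab

/-!
# P335: the three-row lemma, definitions
-/

open Finset
open scoped Classical

namespace Vale.Agent.P335

variable {R S : Type*} [Fintype R] [Fintype S] {r : R → ℕ} {c : S → ℕ}

/-- The three rows `ρ 0, ρ 1, ρ 2`. -/
noncomputable def tri (ρ : Fin 3 → R) : Finset R := Finset.univ.image ρ

/-- Key: row `ρ i` and everything outside the three rows. -/
noncomputable def rowKey (ρ : Fin 3 → R) (i : Fin 3) (x : Tab r c) : (S → Bool) × (R → S → Bool) :=
  (x.1 (ρ i), outs (tri ρ) x)

/-- Key: the pattern counts of the three rows and everything outside. -/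
noncomputable def profKey (ρ : Fin 3 → R) (x : Tab r c) : ((R → Bool) → ℕ) × (R → S → Bool) :=
  (prof (tri ρ) x, outs (tri ρ) x)

end Vale.Agent.P335
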