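import Mathlib
import Vale.Agent.P335.ThreeRowDefs
import Vale.Agent.P335.ThreeKey
import Vale.Agent.P335.Hyper
import Vale.Agent.P335.PairFibre
import Vale.Agent.P335.ConnSwitch

/-!
# P335: the three-row lemma
-/

open Finset
open scoped Classical

namespace Vale.Agent.P335

set_option linter.unusedSectionVars false

variable {R S : Type*} [Fintype R] [Fintype S] {r : R → ℕ} {c : S → ℕ}

/-- The two rows other than `ρ i`. -/
noncomputable def two (ρ : Fin 3 → R) (i : Fin 3) : Finset R := (Finset.univ.erase i).image ρ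

/-- The columns of type `τ` where row `ρ i` has a one. -/
noncomputable def cols (ρ : Fin 3 → R) (i : Fin 3) (τ : ℕ) (x : Tab r c) : Finset S :=
  Finset.univ.filter (fun l => typ (tri ρ) x l = τ ∧ x.1 (ρ i) l = true)

lemma mem_cols {ρ : Fin 3 → R} {i : Fin 3} {τ : ℕ} {x : Tab r c} {l : S} :
    l ∈ cols ρ i τ x ↔ typ (tri ρ) x l = τ ∧ x.1 (ρ i) l = true := by
  simp [cols]

lemma mem_tri (ρ : Fin 3 → R) (i : Fin 3) : ρ i ∈ tri ρ :=
  Finset.mem_image_of_mem _ (Finset.mem_univ i)

lemma two_subset_tri (ρ : Fin 3 → R) (i : Fin 3) : two ρ i ⊆ tri ρ :=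
  Finset.image_subset_image (Finset.erase_subset _ _)

lemma notMem_two {ρ : Fin 3 → R} (hρ : Function.Injective ρ) (i : Fin 3) : ρ i ∉ two ρ i := by
  intro h
  obtain ⟨j, hj, hji⟩ := Finset.mem_image.mp h
  exact (Finset.ne_of_mem_erase hj) (hρ hji)

lemma two_eq {ρ : Fin 3 → R} {i j k : Fin 3} (h : Finset.univ.erase i = {j, k}) :
    two ρ i = {ρ j, ρ k} := by
  rw [two, h, Finset.image_insert, Finset.image_singleton]

lemma typ_tri {ρ : Fin 3 → R} (hρ : Function.Injective ρ) {i j k : Fin 3}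
    (h : Finset.univ.erase i = {j, k}) (hjk : j ≠ k) (x : Tab r c) (l : S) :
    typ (tri ρ) x l = (x.1 (ρ i) l).toNat + ((x.1 (ρ j) l).toNat + (x.1 (ρ k) l).toNat) := by
  unfold typ tri
  rw [Finset.sum_image (fun a _ b _ hab => hρ hab), ← Finset.add_sum_erase _ _ (Finset.mem_univ i),
    h, Finset.sum_pair hjk]

lemma outs_two_iff {ρ : Fin 3 → R} (hρ : Function.Injective ρ) {i : Fin 3} {x y : Tab r c} :
    outs (two ρ i) x = outs (two ρ i) y ↔
      outs (tri ρ) x = outs (tri ρ) y ∧ ∀ l, x.1 (ρ i) l = y.1 (ρ i) l := by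
  rw [outs_eq_iff, outs_eq_iff]
  constructor
  · intro h
    exact ⟨fun a ha l => h a (fun h' => ha (two_subset_tri ρ i h')) l,
      fun l => h _ (notMem_two hρ i) l⟩
  · rintro ⟨h1, h2⟩ a ha l
    by_cases hat : a ∈ tri ρ
    · obtain ⟨j, -, rfl⟩ := Finset.mem_image.mp hat
      by_cases hji : j = i
      · rw [hji]; exact h2 l
      · exact absurd (Finset.mem_image_of_mem ρ (Finset.mem_erase.mpr ⟨hji, Finset.mem_univ j⟩)) ha
    · exact h1 a hat l

/-- Row sums by types. -/
lemma cols_sum {ρ : Fin 3 → R} (hρ : Function.Injective ρ) (i : Fin 3) (x : Tab r c) :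
    (cols ρ i 1 x).card + (cols ρ i 2 x).card
      + (Finset.univ.filter (fun l => typ (tri ρ) x l = 3)).card = r (ρ i) := by
  rw [← x.2.1 (ρ i), cols, cols, Finset.card_filter, Finset.card_filter, Finset.card_filter,
    ← Finset.sum_add_distrib, ← Finset.sum_add_distrib]
  refine Finset.sum_congr rfl (fun l _ => ?_)
  obtain ⟨j, hj⟩ : ∃ j, j ≠ i := exists_ne i
  obtain ⟨k, hk, hjk⟩ := fin3_erase i j hj
  rw [typ_tri hρ hk hjk]
  cases x.1 (ρ i) l <;> cases x.1 (ρ j) l <;> cases x.1 (ρ k) l <;> simp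

lemma cols_zero {ρ : Fin 3 → R} (i : Fin 3) (x : Tab r c) : cols ρ i 0 x = ∅ := by
  rw [Finset.eq_empty_iff_forall_notMem]
  intro l hl
  rw [mem_cols] at hl
  have h1 : (x.1 (ρ i) l).toNat ≤ typ (tri ρ) x l :=
    Finset.single_le_sum (f := fun a => (x.1 a l).toNat) (fun _ _ => Nat.zero_le _) (mem_tri ρ i)
  rw [hl.1, hl.2] at h1
  simp at h1

lemma row_of_three {ρ : Fin 3 → R} (hρ : Function.Injective ρ) (i : Fin 3) (x : Tab r c) {l : S}
    (hl : 3 ≤ typ (tri ρ) x l) : x.1 (ρ i) l = true := by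
  obtain ⟨j, hj⟩ : ∃ j, j ≠ i := exists_ne i
  obtain ⟨k, hk, hjk⟩ := fin3_erase i j hj
  rw [typ_tri hρ hk hjk] at hl
  revert hl
  cases x.1 (ρ i) l <;> cases x.1 (ρ j) l <;> cases x.1 (ρ k) l <;> simp

lemma typ_le_three {ρ : Fin 3 → R} (hρ : Function.Injective ρ) (x : Tab r c) (l : S) :
    typ (tri ρ) x l ≤ 3 := by
  obtain ⟨j, hj⟩ : ∃ j : Fin 3, j ≠ 0 := exists_ne 0
  obtain ⟨k, hk, hjk⟩ := fin3_erase 0 j hj
  rw [typ_tri hρ hk hjk]
  cases x.1 (ρ 0) l <;> cases x.1 (ρ j) l <;> cases x.1 (ρ k) l <;> simp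

/-- Counts of all types agree when the count of type one agrees. -/
lemma cols_card_congr {ρ : Fin 3 → R} (hρ : Function.Injective ρ) (i : Fin 3) {x y : Tab r c}
    (h : outs (tri ρ) x = outs (tri ρ) y) (h1 : (cols ρ i 1 x).card = (cols ρ i 1 y).card)
    (τ : ℕ) : (cols ρ i τ x).card = (cols ρ i τ y).card := by
  have hx := cols_sum hρ i x
  have hy := cols_sum hρ i y
  have h3 : (Finset.univ.filter (fun l => typ (tri ρ) x l = 3))
      = (Finset.univ.filter (fun l => typ (tri ρ) y l = 3)) :=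
    Finset.filter_congr (fun l _ => by rw [typ_congr h l])
  rw [h3] at hx
  have h2 : (cols ρ i 2 x).card = (cols ρ i 2 y).card := by omega
  match τ with
  | 0 => rw [cols_zero, cols_zero]
  | 1 => exact h1
  | 2 => exact h2
  | (m + 3) =>
    congr 1
    ext l
    rw [mem_cols, mem_cols, typ_congr h l]
    constructor
    · rintro ⟨h4, -⟩
      exact ⟨h4, row_of_three hρ i y (by omega)⟩
    · rintro ⟨h4, -⟩
      exact ⟨h4, row_of_three hρ i x (by rw [typ_congr h l]; omega)⟩

lemma cs_row {A : Finset R} {j k : S} {x : Tab r c} (h : typ A x j = typ A x k) {a : R}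
    (ha : a ∈ A) (l : S) : (cs A j k x).1 a l = x.1 a (Equiv.swap j k l) := by
  rw [cs_of_eq h, swapFun, if_pos ha]

/-- The number of columns of type one with a one in row `ρ i`. -/
noncomputable def pcount (ρ : Fin 3 → R) (i : Fin 3) (x : Tab r c) : ℤ := ((cols ρ i 1 x).card : ℤ)

lemma cols_cs_card (ρ : Fin 3 → R) (i : Fin 3) (τ : ℕ) (j k : S) (x : Tab r c) :
    (cols ρ i τ (cs (tri ρ) j k x)).card = (cols ρ i τ x).card := by
  by_cases h : typ (tri ρ) x j = typ (tri ρ) x k
  · have h1 : cols ρ i τ (cs (tri ρ) j k x)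
        = (cols ρ i τ x).map (Equiv.swap j k).toEmbedding := by
      ext l
      rw [mem_cols, typ_cs, cs_row h (mem_tri ρ i), Finset.mem_map_equiv, mem_cols,
        Equiv.symm_swap]
      have h2 : typ (tri ρ) x (Equiv.swap j k l) = typ (tri ρ) x l := by
        by_cases hlj : l = j
        · rw [hlj, Equiv.swap_apply_left, h]
        · by_cases hlk : l = k
          · rw [hlk, Equiv.swap_apply_right, h]
          · rw [Equiv.swap_apply_of_ne_of_ne hlj hlk]
      rw [h2]
    rw [h1, Finset.card_map]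
  · rw [cs_of_ne h]

lemma pcount_cs (ρ : Fin 3 → R) (i : Fin 3) (j k : S) (x : Tab r c) :
    pcount ρ i (cs (tri ρ) j k x) = pcount ρ i x := by
  rw [pcount, cols_cs_card, ← pcount]

/-- Normalization by column swaps: bring row `ρ i` of `y` as close as possible to that of `x`. -/
lemma exists_norm (ρ : Fin 3 → R) (i : Fin 3) (x : Tab r c) : ∀ (n : ℕ) (y : Tab r c),
    outs (tri ρ) x = outs (tri ρ) y →
    (Finset.univ.filter (fun l => x.1 (ρ i) l ≠ y.1 (ρ i) l)).card = n →
    ∃ z : Tab r c, outs (tri ρ) x = outs (tri ρ) z ∧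
      (∀ g : Tab r c → ℝ, (∀ j k w, g (cs (tri ρ) j k w) = g w) → g z = g y) ∧
      (∀ j k, typ (tri ρ) x j = typ (tri ρ) x k → x.1 (ρ i) j = true → z.1 (ρ i) j = false →
        x.1 (ρ i) k = false → z.1 (ρ i) k = true → False) := by
  intro n
  induction n using Nat.strong_induction_on with
  | _ n ih =>
    intro y hy hn
    by_cases hbad : ∃ j k, typ (tri ρ) x j = typ (tri ρ) x k ∧ x.1 (ρ i) j = true ∧
        y.1 (ρ i) j = false ∧ x.1 (ρ i) k = false ∧ y.1 (ρ i) k = true
    · obtain ⟨j, k, ht, h1, h2, h3, h4⟩ := hbad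
      have hty : typ (tri ρ) y j = typ (tri ρ) y k := by
        rw [← typ_congr hy, ← typ_congr hy, ht]
      have hlt : (Finset.univ.filter
          (fun l => x.1 (ρ i) l ≠ (cs (tri ρ) j k y).1 (ρ i) l)).card < n := by
        rw [← hn]
        apply Finset.card_lt_card
        rw [Finset.ssubset_iff_of_subset]
        · refine ⟨j, by simp [h1, h2], ?_⟩
          rw [Finset.mem_filter, cs_row hty (mem_tri ρ i), Equiv.swap_apply_left, h1, h4]
          simp
        · intro l hl
          rw [Finset.mem_filter, cs_row hty (mem_tri ρ i)] at hl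
          rw [Finset.mem_filter]
          refine ⟨Finset.mem_univ _, ?_⟩
          by_cases hlj : l = j
          · rw [hlj, h1, h2]; decide
          · by_cases hlk : l = k
            · rw [hlk, h3, h4]; decide
            · rw [Equiv.swap_apply_of_ne_of_ne hlj hlk] at hl
              exact hl.2
      obtain ⟨z, hz1, hz2, hz3⟩ := ih _ hlt (cs (tri ρ) j k y)
        (by rw [outs_cs]; exact hy) rfl
      exact ⟨z, hz1, fun g hg => by rw [hz2 g hg, hg], hz3⟩
    · refine ⟨y, hy, fun g _ => rfl, ?_⟩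
      intro j k ht h1 h2 h3 h4
      exact hbad ⟨j, k, ht, h1, h2, h3, h4⟩

/-- Difference argument for the normalized table. -/
lemma norm_subset {ρ : Fin 3 → R} {i : Fin 3} {x z : Tab r c}
    (h : outs (tri ρ) x = outs (tri ρ) z)
    (hno : ∀ j k, typ (tri ρ) x j = typ (tri ρ) x k → x.1 (ρ i) j = true → z.1 (ρ i) j = false →
        x.1 (ρ i) k = false → z.1 (ρ i) k = true → False) {τ : ℕ}
    (hcard : (cols ρ i τ x).card ≤ (cols ρ i τ z).card) : cols ρ i τ x ⊆ cols ρ i τ z := by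
  by_contra hcon
  obtain ⟨j, hj1, hj2⟩ := Finset.not_subset.mp hcon
  obtain ⟨k, hk1, hk2⟩ : ∃ k ∈ cols ρ i τ z, k ∉ cols ρ i τ x := by
    by_contra hcon2
    push Not at hcon2
    exact hj2 ((Finset.eq_of_subset_of_card_le hcon2 hcard).symm ▸ hj1)
  rw [mem_cols] at hj1 hj2 hk1 hk2
  rw [← typ_congr h] at hj2 hk1
  refine hno j k (hj1.1.trans hk1.1.symm) hj1.2 ?_ ?_ hk1.2
  · cases hz : z.1 (ρ i) j
    · rfl
    · exact absurd ⟨hj1.1, hz⟩ hj2
  · cases hz : x.1 (ρ i) k
    · rfl
    · exact absurd ⟨hk1.1, hz⟩ hk2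

lemma norm_subset' {ρ : Fin 3 → R} {i : Fin 3} {x z : Tab r c}
    (h : outs (tri ρ) x = outs (tri ρ) z)
    (hno : ∀ j k, typ (tri ρ) x j = typ (tri ρ) x k → x.1 (ρ i) j = true → z.1 (ρ i) j = false →
        x.1 (ρ i) k = false → z.1 (ρ i) k = true → False) {τ : ℕ}
    (hcard : (cols ρ i τ z).card ≤ (cols ρ i τ x).card) : cols ρ i τ z ⊆ cols ρ i τ x := by
  refine norm_subset h.symm ?_ hcard
  intro j k h1 h2 h3 h4 h5
  rw [← typ_congr h, ← typ_congr h] at h1
  exact hno k j h1.symm h5 h4 h3 h2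

/-- Hypothesis (c): invariant functions of row `i` only depend on `pcount`. -/
lemma three_hc {ρ : Fin 3 → R} (hρ : Function.Injective ρ) (i : Fin 3) (g : Tab r c → ℝ)
    (h1 : ∀ x y, outs (two ρ i) x = outs (two ρ i) y → g x = g y)
    (h2 : ∀ j k x, g (cs (tri ρ) j k x) = g x) (x y : Tab r c)
    (h3 : outs (tri ρ) x = outs (tri ρ) y) (h4 : pcount ρ i x = pcount ρ i y) : g x = g y := by
  obtain ⟨z, hz1, hz2, hz3⟩ := exists_norm ρ i x _ y h3 rfl
  have hp : ((cols ρ i 1 z).card : ℝ) = ((cols ρ i 1 y).card : ℝ) :=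
    hz2 (fun w => ((cols ρ i 1 w).card : ℝ)) (fun j k w => by rw [cols_cs_card])
  have hp' : (cols ρ i 1 z).card = (cols ρ i 1 y).card := by exact_mod_cast hp
  have h4' : (cols ρ i 1 x).card = (cols ρ i 1 z).card := by
    rw [hp']; unfold pcount at h4; exact_mod_cast h4
  rw [← hz2 g h2]
  apply h1
  rw [outs_two_iff hρ]
  refine ⟨hz1, fun l => ?_⟩
  have hc := cols_card_congr hρ i hz1 h4' (typ (tri ρ) x l)
  have hs1 := norm_subset hz1 hz3 hc.le
  have hs2 := norm_subset' hz1 hz3 hc.ge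
  have hl : l ∈ cols ρ i (typ (tri ρ) x l) x ↔ l ∈ cols ρ i (typ (tri ρ) x l) z :=
    ⟨fun h => hs1 h, fun h => hs2 h⟩
  rw [mem_cols, mem_cols, ← typ_congr hz1] at hl
  simp only [true_and] at hl
  revert hl
  cases x.1 (ρ i) l <;> cases z.1 (ρ i) l <;> simp

/-- Hypothesis (a). -/
lemma three_ha {ρ : Fin 3 → R} (hρ : Function.Injective ρ) (i : Fin 3) (j k : S) (x y : Tab r c)
    (h : outs (two ρ i) x = outs (two ρ i) y) :
    outs (two ρ i) (cs (tri ρ) j k x) = outs (two ρ i) (cs (tri ρ) j k y) := by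
  rw [outs_two_iff hρ] at h ⊢
  refine ⟨by rw [outs_cs, outs_cs]; exact h.1, fun l => ?_⟩
  by_cases ht : typ (tri ρ) x j = typ (tri ρ) x k
  · have ht' : typ (tri ρ) y j = typ (tri ρ) y k := by
      rw [← typ_congr h.1, ← typ_congr h.1, ht]
    rw [cs_row ht (mem_tri ρ i), cs_row ht' (mem_tri ρ i)]
    exact h.2 _
  · have ht' : typ (tri ρ) y j ≠ typ (tri ρ) y k := by
      rw [← typ_congr h.1, ← typ_congr h.1]; exact ht
    rw [cs_of_ne ht, cs_of_ne ht']
    exact h.2 l

/-- Hypothesis (b). -/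
lemma three_hb {ρ : Fin 3 → R} (hρ : Function.Injective ρ) (i : Fin 3) (j k : S) (z : Tab r c)
    (h : outs (two ρ i) (cs (tri ρ) j k z) ≠ outs (two ρ i) z) :
    ∃ i', i' ≠ i ∧ outs (two ρ i') (cs (tri ρ) j k z) = outs (two ρ i') z := by
  by_cases ht : typ (tri ρ) z j = typ (tri ρ) z k
  swap
  · rw [cs_of_ne ht] at h
    exact absurd rfl h
  have hrow : ∀ i', z.1 (ρ i') j = z.1 (ρ i') k →
      outs (two ρ i') (cs (tri ρ) j k z) = outs (two ρ i') z := by
    intro i' hi'
    rw [outs_two_iff hρ]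
    refine ⟨outs_cs _ _ _ _, fun l => ?_⟩
    rw [cs_row ht (mem_tri ρ i')]
    by_cases hlj : l = j
    · rw [hlj, Equiv.swap_apply_left, hi']
    · by_cases hlk : l = k
      · rw [hlk, Equiv.swap_apply_right, hi']
      · rw [Equiv.swap_apply_of_ne_of_ne hlj hlk]
  have hne : z.1 (ρ i) j ≠ z.1 (ρ i) k := fun h' => h (hrow i h')
  obtain ⟨i1, hi1⟩ : ∃ i1, i1 ≠ i := exists_ne i
  obtain ⟨i2, hi2, h12⟩ := fin3_erase i i1 hi1
  have hi2' : i2 ≠ i := by
    have : i2 ∈ Finset.univ.erase i := by rw [hi2]; simp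
    exact Finset.ne_of_mem_erase this
  by_cases h1 : z.1 (ρ i1) j = z.1 (ρ i1) k
  · exact ⟨i1, hi1, hrow i1 h1⟩
  · refine ⟨i2, hi2', hrow i2 ?_⟩
    rw [typ_tri hρ hi2 h12, typ_tri hρ hi2 h12] at ht
    revert ht h1 hne
    cases z.1 (ρ i) j <;> cases z.1 (ρ i) k <;> cases z.1 (ρ i1) j <;> cases z.1 (ρ i1) k <;>
      cases z.1 (ρ i2) j <;> cases z.1 (ρ i2) k <;> simp

/-- A switch in two rows of the triple changes `pcount` by at most one. -/
lemma pcount_step {ρ : Fin 3 → R} (i : Fin 3) {a b : R} (ha : a ∈ tri ρ) (hb : b ∈ tri ρ)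
    (j k : S) (z : Tab r c) :
    outs (tri ρ) z = outs (tri ρ) (cs {a, b} j k z) ∧
      |pcount ρ i z - pcount ρ i (cs {a, b} j k z)| ≤ 1 := by
  have hsub : ({a, b} : Finset R) ⊆ tri ρ := by
    intro u hu
    rw [Finset.mem_insert, Finset.mem_singleton] at hu
    rcases hu with rfl | rfl
    · exact ha
    · exact hb
  have hout : outs (tri ρ) z = outs (tri ρ) (cs {a, b} j k z) := by
    have := outs_cs {a, b} j k z
    rw [outs_eq_iff] at this ⊢
    intro u hu l
    exact (this u (fun h => hu (hsub h)) l).symm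
  refine ⟨hout, ?_⟩
  set w := cs {a, b} j k z with hw
  by_cases ht : typ {a, b} z j = typ {a, b} z k
  swap
  · have : w = z := cs_of_ne ht
    rw [this]; simp
  by_cases hi : ρ i ∈ ({a, b} : Finset R)
  swap
  · have : cols ρ i 1 w = cols ρ i 1 z := by
      ext l
      rw [mem_cols, mem_cols, ← typ_congr hout]
      have h1 : w.1 (ρ i) l = z.1 (ρ i) l := by
        rw [hw, cs_of_eq ht, swapFun, if_neg hi]
      rw [h1]
    unfold pcount
    rw [this]; simp
  have hwr : ∀ l, w.1 (ρ i) l = z.1 (ρ i) (Equiv.swap j k l) := fun l => by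
    rw [hw, cs_row ht hi]
  have hmem : ∀ l, l ∈ cols ρ i 1 w ↔ typ (tri ρ) z l = 1 ∧ z.1 (ρ i) (Equiv.swap j k l) = true := by
    intro l
    rw [mem_cols, ← typ_congr hout, hwr]
  by_cases hjk : z.1 (ρ i) j = z.1 (ρ i) k
  · have : cols ρ i 1 w = cols ρ i 1 z := by
      ext l
      rw [hmem, mem_cols]
      have h1 : z.1 (ρ i) (Equiv.swap j k l) = z.1 (ρ i) l := by
        by_cases hlj : l = j
        · rw [hlj, Equiv.swap_apply_left, hjk]
        · by_cases hlk : l = k
          · rw [hlk, Equiv.swap_apply_right, hjk]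
          · rw [Equiv.swap_apply_of_ne_of_ne hlj hlk]
      rw [h1]
    unfold pcount
    rw [this]; simp
  -- one of the two columns gains, the other one loses
  have hbound : ∀ u v : S, z.1 (ρ i) u = true → z.1 (ρ i) v = false →
      (∀ l, z.1 (ρ i) (Equiv.swap j k l) = z.1 (ρ i) (Equiv.swap u v l)) →
      |pcount ρ i z - pcount ρ i w| ≤ 1 := by
    intro u v hu hv hswap
    have huv : u ≠ v := by
      intro h; rw [h, hv] at hu; exact Bool.false_ne_true hu
    have h1 : cols ρ i 1 w ⊆ insert v (cols ρ i 1 z) := by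
      intro l hl
      rw [hmem, hswap] at hl
      rw [Finset.mem_insert, mem_cols]
      by_cases hlv : l = v
      · exact Or.inl hlv
      · right
        by_cases hlu : l = u
        · exfalso
          rw [hlu, Equiv.swap_apply_left, hv] at hl
          exact Bool.false_ne_true hl.2
        · rw [Equiv.swap_apply_of_ne_of_ne hlu hlv] at hl
          exact hl
    have h2 : cols ρ i 1 z ⊆ insert u (cols ρ i 1 w) := by
      intro l hl
      rw [Finset.mem_insert, hmem, hswap]
      rw [mem_cols] at hl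
      by_cases hlu : l = u
      · exact Or.inl hlu
      · right
        by_cases hlv : l = v
        · exfalso
          rw [hlv, hv] at hl
          exact Bool.false_ne_true hl.2
        · rw [Equiv.swap_apply_of_ne_of_ne hlu hlv]
          exact hl
    have h3 := (Finset.card_le_card h1).trans (Finset.card_insert_le _ _)
    have h4 := (Finset.card_le_card h2).trans (Finset.card_insert_le _ _)
    unfold pcount
    rw [abs_le]
    constructor <;> omega
  cases hj : z.1 (ρ i) j
  · have hk : z.1 (ρ i) k = true := by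
      cases hk : z.1 (ρ i) k
      · rw [hj, hk] at hjk; exact absurd rfl hjk
      · rfl
    exact hbound k j hk hj (fun l => by rw [Equiv.swap_comm])
  · have hk : z.1 (ρ i) k = false := by
      cases hk : z.1 (ρ i) k
      · rfl
      · rw [hj, hk] at hjk; exact absurd rfl hjk
    exact hbound j k hj hk (fun l => rfl)

/-- Hypothesis (e). -/
lemma three_he {ρ : Fin 3 → R} (x y : Tab r c) (h : outs (tri ρ) x = outs (tri ρ) y) :
    Relation.ReflTransGen
      (fun z w : Tab r c => outs (tri ρ) z = outs (tri ρ) w ∧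
        ∀ i, |pcount ρ i z - pcount ρ i w| ≤ 1) x y := by
  have hc := conn_switch (tri ρ) x y h
  clear h
  induction hc with
  | refl => exact Relation.ReflTransGen.refl
  | tail _ hstep ih =>
    refine Relation.ReflTransGen.tail ih ?_
    obtain ⟨a, ha, b, hb, -, j, k, rfl⟩ := hstep
    exact ⟨(pcount_step 0 ha hb j k _).1, fun i => (pcount_step i ha hb j k _).2⟩

/-- Every column of type one has its one in exactly one of the three rows. -/
lemma pcount_sum {ρ : Fin 3 → R} (hρ : Function.Injective ρ) {i j k : Fin 3}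
    (h : Finset.univ.erase i = {j, k}) (hjk : j ≠ k) (z : Tab r c) :
    pcount ρ i z + (pcount ρ j z + pcount ρ k z)
      = ((Finset.univ.filter (fun l => typ (tri ρ) z l = 1)).card : ℤ) := by
  unfold pcount cols
  have : (Finset.univ.filter (fun l => typ (tri ρ) z l = 1 ∧ z.1 (ρ i) l = true)).card
      + ((Finset.univ.filter (fun l => typ (tri ρ) z l = 1 ∧ z.1 (ρ j) l = true)).card
        + (Finset.univ.filter (fun l => typ (tri ρ) z l = 1 ∧ z.1 (ρ k) l = true)).card)
      = (Finset.univ.filter (fun l => typ (tri ρ) z l = 1)).card := by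
    rw [Finset.card_filter, Finset.card_filter, Finset.card_filter, Finset.card_filter,
      ← Finset.sum_add_distrib, ← Finset.sum_add_distrib]
    refine Finset.sum_congr rfl (fun l _ => ?_)
    rw [typ_tri hρ h hjk]
    cases z.1 (ρ i) l <;> cases z.1 (ρ j) l <;> cases z.1 (ρ k) l <;> simp
  exact_mod_cast this

/-- The size of `ons` in terms of the types. -/
lemma ons_card_eq {ρ : Fin 3 → R} (hρ : Function.Injective ρ) {i j k : Fin 3}
    (h : Finset.univ.erase i = {j, k}) (hjk : j ≠ k) (z : Tab r c) :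
    r (ρ j) + (cols ρ i 2 z).card = (ons (ρ j) (ρ k) z).card
      + ((Finset.univ.filter (fun l => typ (tri ρ) z l = 3)).card
        + (Finset.univ.filter (fun l => typ (tri ρ) z l = 2)).card) := by
  rw [← z.2.1 (ρ j), cols, ons, Finset.card_filter, Finset.card_filter, Finset.card_filter,
    Finset.card_filter, ← Finset.sum_add_distrib, ← Finset.sum_add_distrib,
    ← Finset.sum_add_distrib]
  refine Finset.sum_congr rfl (fun l _ => ?_)
  rw [typ_tri hρ h hjk]
  cases z.1 (ρ i) l <;> cases z.1 (ρ j) l <;> cases z.1 (ρ k) l <;> simp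

/-- The columns of type one with a zero in row `ρ i`. -/
noncomputable def free1 (ρ : Fin 3 → R) (i : Fin 3) (x : Tab r c) : Finset S :=
  Finset.univ.filter (fun l => typ (tri ρ) x l = 1 ∧ x.1 (ρ i) l = false)

lemma mem_free1 {ρ : Fin 3 → R} {i : Fin 3} {x : Tab r c} {l : S} :
    l ∈ free1 ρ i x ↔ typ (tri ρ) x l = 1 ∧ x.1 (ρ i) l = false := by
  simp [free1]

lemma dif_eq_free {ρ : Fin 3 → R} (hρ : Function.Injective ρ) {i j k : Fin 3}
    (h : Finset.univ.erase i = {j, k}) (hjk : j ≠ k) (x : Tab r c) :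
    dif (ρ j) (ρ k) x = free1 ρ i x ∪ cols ρ i 2 x := by
  ext l
  rw [mem_dif, Finset.mem_union, mem_free1, mem_cols, typ_tri hρ h hjk]
  cases x.1 (ρ i) l <;> cases x.1 (ρ j) l <;> cases x.1 (ρ k) l <;> simp

/-- Hypothesis (d): the conditional laws along unit steps. -/
lemma three_hd {ρ : Fin 3 → R} (hρ : Function.Injective ρ) (i : Fin 3) (x x' : Tab r c)
    (hxx : outs (tri ρ) x = outs (tri ρ) x') (hp : pcount ρ i x' = pcount ρ i x + 1)
    (L : ℝ) (g : Fin 3 → Tab r c → ℝ)
    (hg1 : ∀ j y z, outs (tri ρ) y = outs (tri ρ) z → pcount ρ j y = pcount ρ j z → g j y = g j z)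
    (hg2 : ∀ j y z, outs (tri ρ) y = outs (tri ρ) z → pcount ρ j z = pcount ρ j y + 1 →
      |g j z - g j y| ≤ L) :
    |∑ j ∈ Finset.univ.erase i, (avg (outs (two ρ i)) (g j) x'
      - avg (outs (two ρ i)) (g j) x)| ≤ L := by
  -- normalize `x'`
  obtain ⟨y, hy1, hy2, hy3⟩ := exists_norm ρ i x _ x' hxx rfl
  have hgcs : ∀ j, ∀ a b w, g j (cs (tri ρ) a b w) = g j w := by
    intro j a b w
    exact hg1 j _ _ (outs_cs _ _ _ _) (pcount_cs ρ j a b w)
  have havgcs : ∀ j, ∀ a b w, avg (outs (two ρ i)) (g j) (cs (tri ρ) a b w)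
      = avg (outs (two ρ i)) (g j) w := by
    intro j a b w
    have hσ : ∀ u v : Tab r c, outs (two ρ i) u = outs (two ρ i) v ↔
        outs (two ρ i) (csPerm (tri ρ) a b u) = outs (two ρ i) (csPerm (tri ρ) a b v) := by
      intro u v
      constructor
      · exact three_ha hρ i a b u v
      · intro h
        have := three_ha hρ i a b _ _ h
        have e1 : cs (tri ρ) a b (csPerm (tri ρ) a b u) = u := cs_cs _ _ _ _
        have e2 : cs (tri ρ) a b (csPerm (tri ρ) a b v) = v := cs_cs _ _ _ _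
        rwa [e1, e2] at this
    have h1 := avg_comp_perm (outs (two ρ i)) (csPerm (tri ρ) a b) hσ (g j) w
    have h2 : (fun z : Tab r c => g j (csPerm (tri ρ) a b z)) = g j := by
      funext z; exact hgcs j a b z
    rw [h2] at h1
    exact h1
  have hyx : ∀ j, avg (outs (two ρ i)) (g j) y = avg (outs (two ρ i)) (g j) x' := by
    intro j
    exact hy2 (avg (outs (two ρ i)) (g j)) (havgcs j)
  have hpy : (cols ρ i 1 y).card = (cols ρ i 1 x).card + 1 := by
    have h1 : ((cols ρ i 1 y).card : ℝ) = ((cols ρ i 1 x').card : ℝ) :=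
      hy2 (fun w => ((cols ρ i 1 w).card : ℝ)) (fun j k w => by rw [cols_cs_card])
    have h2 : (cols ρ i 1 y).card = (cols ρ i 1 x').card := by exact_mod_cast h1
    unfold pcount at hp
    omega
  rw [Finset.sum_congr rfl (fun j _ => by rw [← hyx j])]
  clear hyx hy2 havgcs hp hxx
  -- types
  have h3card : (Finset.univ.filter (fun l => typ (tri ρ) x l = 3))
      = (Finset.univ.filter (fun l => typ (tri ρ) y l = 3)) :=
    Finset.filter_congr (fun l _ => by rw [typ_congr hy1 l])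
  have h2card : (Finset.univ.filter (fun l => typ (tri ρ) x l = 2))
      = (Finset.univ.filter (fun l => typ (tri ρ) y l = 2)) :=
    Finset.filter_congr (fun l _ => by rw [typ_congr hy1 l])
  have h1card : (Finset.univ.filter (fun l => typ (tri ρ) x l = 1))
      = (Finset.univ.filter (fun l => typ (tri ρ) y l = 1)) :=
    Finset.filter_congr (fun l _ => by rw [typ_congr hy1 l])
  have hx := cols_sum hρ i x
  have hy := cols_sum hρ i y
  rw [h3card] at hx
  have hp2 : (cols ρ i 2 x).card = (cols ρ i 2 y).card + 1 := by omega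
  have hs1 : cols ρ i 1 x ⊆ cols ρ i 1 y := norm_subset hy1 hy3 (by omega)
  have hs2 : cols ρ i 2 y ⊆ cols ρ i 2 x := norm_subset' hy1 hy3 (by omega)
  obtain ⟨u, hu1, hu2⟩ : ∃ u, u ∉ cols ρ i 1 x ∧ insert u (cols ρ i 1 x) = cols ρ i 1 y :=
    (Finset.exists_eq_insert_iff).mpr ⟨hs1, hpy.symm⟩
  obtain ⟨v, hv1, hv2⟩ : ∃ v, v ∉ cols ρ i 2 y ∧ insert v (cols ρ i 2 y) = cols ρ i 2 x :=
    (Finset.exists_eq_insert_iff).mpr ⟨hs2, hp2.symm⟩
  have hutype : typ (tri ρ) x u = 1 := by
    have : u ∈ cols ρ i 1 y := hu2 ▸ Finset.mem_insert_self _ _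
    rw [mem_cols, ← typ_congr hy1] at this
    exact this.1
  have hxu : x.1 (ρ i) u = false := by
    cases hxu : x.1 (ρ i) u
    · rfl
    · exact absurd (mem_cols.mpr ⟨hutype, hxu⟩) hu1
  have hvmem : v ∈ cols ρ i 2 x := hv2 ▸ Finset.mem_insert_self _ _
  have hvtype : typ (tri ρ) x v = 2 := (mem_cols.mp hvmem).1
  obtain ⟨j, hj⟩ : ∃ j, j ≠ i := exists_ne i
  obtain ⟨k, hk, hjk⟩ := fin3_erase i j hj
  have hρjk : ρ j ≠ ρ k := fun h => hjk (hρ h)
  rw [hk, Finset.sum_pair hjk, two_eq hk]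
  obtain ⟨G, hG1, hG2, hG3⟩ := avg_pair hρjk x (g j + g k)
  obtain ⟨G', hG1', hG2', hG3'⟩ := avg_pair hρjk y (g j + g k)
  have hcomb : avg (outs {ρ j, ρ k}) (g j) y - avg (outs {ρ j, ρ k}) (g j) x
      + (avg (outs {ρ j, ρ k}) (g k) y - avg (outs {ρ j, ρ k}) (g k) x)
      = -(avg (outs {ρ j, ρ k}) (g j + g k) x - avg (outs {ρ j, ρ k}) (g j + g k) y) := by
    rw [map_add]; simp only [Pi.add_apply]; ring
  rw [hcomb, abs_neg, hG3, hG3']
  -- the sets of the coupling lemma
  set U := free1 ρ i x with hU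
  set V := cols ρ i 2 x with hV
  have hUV : Disjoint U V := by
    rw [Finset.disjoint_left]
    intro l h1 h2
    rw [hU, mem_free1] at h1
    rw [hV, mem_cols] at h2
    omega
  have huU : u ∈ U := mem_free1.mpr ⟨hutype, hxu⟩
  have hdx : dif (ρ j) (ρ k) x = U ∪ V := dif_eq_free hρ hk hjk x
  have hfree : ∀ l, l ∈ free1 ρ i y ↔ l ∈ U ∧ l ≠ u := by
    intro l
    have h1 : l ∈ cols ρ i 1 y ↔ l = u ∨ l ∈ cols ρ i 1 x := by
      rw [← hu2, Finset.mem_insert]
    rw [mem_cols, mem_cols, ← typ_congr hy1] at h1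
    rw [hU, mem_free1, mem_free1, ← typ_congr hy1]
    by_cases hl : l = u
    · subst hl
      have h2 := h1.mpr (Or.inl rfl)
      rw [h2.2]
      simp
    · by_cases ht : typ (tri ρ) x l = 1
      · simp only [ht, hl, true_and, false_or] at h1
        simp only [ht, hl, true_and, ne_eq, not_false_eq_true, and_true]
        revert h1
        cases x.1 (ρ i) l <;> cases y.1 (ρ i) l <;> simp
      · simp [ht]
  have hcols2 : ∀ l, l ∈ cols ρ i 2 y ↔ l ∈ V ∧ l ≠ v := by
    intro l
    rw [← hv2, Finset.mem_insert]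
    constructor
    · intro h
      exact ⟨Or.inr h, fun h' => hv1 (h' ▸ h)⟩
    · rintro ⟨h | h, h'⟩
      · exact absurd h h'
      · exact h
  have huV : u ∉ V := Finset.disjoint_left.mp hUV huU
  have hvU : v ∉ U := fun h' => Finset.disjoint_left.mp hUV h' hvmem
  have hdy : dif (ρ j) (ρ k) y = (U ∪ V) \ {u, v} := by
    rw [dif_eq_free hρ hk hjk y]
    ext l
    rw [Finset.mem_union, hfree, hcols2, Finset.mem_sdiff, Finset.mem_union, Finset.mem_insert,
      Finset.mem_singleton, not_or]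
    constructor
    · rintro (⟨h1, h2⟩ | ⟨h1, h2⟩)
      · exact ⟨Or.inl h1, h2, fun h => hvU (h ▸ h1)⟩
      · exact ⟨Or.inr h1, fun h => huV (h ▸ h1), h2⟩
    · rintro ⟨h1 | h1, h2, h3⟩
      · exact Or.inl ⟨h1, h2⟩
      · exact Or.inr ⟨h1, h3⟩
  have hox := ons_card_eq hρ hk hjk x
  have hoy := ons_card_eq hρ hk hjk y
  rw [h3card, h2card, ← hV] at hox
  have hb : (ons (ρ j) (ρ k) x).card = (ons (ρ j) (ρ k) y).card + 1 := by omega
  have hbU : (ons (ρ j) (ρ k) y).card ≤ ((U ∪ V) \ {u, v}).card := by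
    rw [← hdy]; exact Finset.card_le_card (ons_subset_dif _ _ _)
  have huv : u ≠ v := fun h => huV (h ▸ hvmem)
  have hUVcard : ((U ∪ V) \ {u, v}).card + 2 = U.card + V.card := by
    rw [Finset.card_sdiff_of_subset, Finset.card_union_of_disjoint hUV, Finset.card_pair huv]
    · have h1 : 0 < U.card := Finset.card_pos.mpr ⟨u, huU⟩
      have h2 : 0 < V.card := Finset.card_pos.mpr ⟨v, hvmem⟩
      omega
    · intro l hl
      rw [Finset.mem_insert, Finset.mem_singleton] at hl
      rw [Finset.mem_union]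
      rcases hl with rfl | rfl
      · exact Or.inl huU
      · exact Or.inr hvmem
  have hbm : (ons (ρ j) (ρ k) y).card = (ons (ρ j) (ρ k) x).card - 1 := by omega
  rw [hdx, hdy, hbm]
  apply hyper_coupling U V hUV u v huU hvmem _ (by omega) (by omega)
  intro B hB B' hB' hBB
  obtain ⟨z, hz1, hz2⟩ := hG2 B (by rw [hdx]; exact hB)
  obtain ⟨w, hw1, hw2⟩ := hG2' B' (by rw [hdy, hbm]; exact hB')
  rw [← hz2, ← hw2, hG1 z hz1, hG1' w hw1]
  -- transport of the classes
  have hz1' : outs (two ρ i) z = outs (two ρ i) x := by rw [two_eq hk]; exact hz1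
  have hw1' : outs (two ρ i) w = outs (two ρ i) y := by rw [two_eq hk]; exact hw1
  rw [outs_two_iff hρ] at hz1' hw1'
  have hzw : outs (tri ρ) z = outs (tri ρ) w := by
    rw [hz1'.1, hw1'.1, hy1]
  have hpz : cols ρ j 1 z = B ∩ U := by
    ext l
    rw [mem_cols, Finset.mem_inter, ← hz2, mem_ons, hU, mem_free1, ← typ_congr hz1'.1, ← hz1'.2 l]
    rw [typ_tri hρ hk hjk]
    cases z.1 (ρ i) l <;> cases z.1 (ρ j) l <;> cases z.1 (ρ k) l <;> simp
  have hpw : cols ρ j 1 w = B' ∩ U := by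
    ext l
    have h1 : l ∈ B' → l ≠ u := by
      intro h h'
      rw [← hw2] at h
      have h2 := ons_subset_dif _ _ _ h
      have h3 : l ∈ dif (ρ j) (ρ k) y := by
        rw [← dif_congr hρjk hw1]; exact h2
      rw [hdy, Finset.mem_sdiff, Finset.mem_insert] at h3
      exact h3.2 (Or.inl h')
    have h2 : l ∈ B' ∩ U ↔ l ∈ B' ∧ l ∈ free1 ρ i y := by
      rw [Finset.mem_inter, hfree]
      constructor
      · rintro ⟨h3, h4⟩
        exact ⟨h3, h4, h1 h3⟩
      · rintro ⟨h3, h4, h5⟩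
        exact ⟨h3, h4⟩
    rw [h2, mem_cols, ← hw2, mem_ons, mem_free1, ← typ_congr hw1'.1, ← hw1'.2 l]
    rw [typ_tri hρ hk hjk]
    cases w.1 (ρ i) l <;> cases w.1 (ρ j) l <;> cases w.1 (ρ k) l <;> simp
  have hsz := pcount_sum hρ hk hjk z
  have hsw := pcount_sum hρ hk hjk w
  have hfil : (Finset.univ.filter (fun l => typ (tri ρ) z l = 1))
      = (Finset.univ.filter (fun l => typ (tri ρ) w l = 1)) :=
    Finset.filter_congr (fun l _ => by rw [typ_congr hzw l])
  rw [hfil] at hsz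
  have hiz : pcount ρ i z = ((cols ρ i 1 x).card : ℤ) := by
    unfold pcount
    have : cols ρ i 1 z = cols ρ i 1 x := by
      ext l; rw [mem_cols, mem_cols, ← typ_congr hz1'.1, hz1'.2 l]
    rw [this]
  have hiw : pcount ρ i w = ((cols ρ i 1 y).card : ℤ) := by
    unfold pcount
    have : cols ρ i 1 w = cols ρ i 1 y := by
      ext l; rw [mem_cols, mem_cols, ← typ_congr hw1'.1, hw1'.2 l]
    rw [this]
  have hjz : pcount ρ j z = ((B ∩ U).card : ℤ) := by unfold pcount; rw [hpz]
  have hjw : pcount ρ j w = ((B' ∩ U).card : ℤ) := by unfold pcount; rw [hpw]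
  simp only [Pi.add_apply]
  rcases hBB with h | h
  · have e1 : g j z = g j w := hg1 j z w hzw (by omega)
    have e2 : |g k z - g k w| ≤ L := hg2 k w z hzw.symm (by omega)
    rw [e1]
    have : g j w + g k z - (g j w + g k w) = g k z - g k w := by ring
    rw [this]; exact e2
  · have e1 : g k z = g k w := hg1 k z w hzw (by omega)
    have e2 : |g j z - g j w| ≤ L := hg2 j w z hzw.symm (by omega)
    rw [e1]
    have : g j z + g k w - (g j w + g k w) = g j z - g j w := by ring
    rw [this]; exact e2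

/-- The three-row lemma. -/
theorem three_row (ρ : Fin 3 → R) (hρ : Function.Injective ρ) (f : Tab r c → ℝ)
    (hf : avg (outs (tri ρ)) f = 0) :
    ∑ i, ip (avg (outs (two ρ i)) f) f ≤ 2 * ip f f := by
  refine three_key_lemma (fun i => outs (two ρ i)) (outs (tri ρ)) (pcount ρ)
    (fun i x y h => ((outs_two_iff hρ).mp h).1)
    {σ | ∃ j k, σ = csPerm (tri ρ) j k} ?_ ?_ ?_ ?_ ?_ ?_ hf
  · rintro σ ⟨j, k, rfl⟩ x
    exact cs_cs _ _ _ _
  · rintro σ ⟨j, k, rfl⟩ i x y h
    exact three_ha hρ i j k x y h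
  · rintro σ ⟨j, k, rfl⟩ z i h
    exact three_hb hρ i j k z h
  · intro i g h1 h2 x y h3 h4
    exact three_hc hρ i g h1 (fun j k x => h2 _ ⟨j, k, rfl⟩ x) x y h3 h4
  · intro i x x' h1 h2 L g h3 h4
    exact three_hd hρ i x x' h1 h2 L g h3 h4
  · intro x y h
    exact three_he x y h

lemma P_symm (a b : R) (f g : Tab r c → ℝ) : ip (P a b f) g = ip f (P a b g) := by
  rw [P_apply, P_apply, ip_sub_left, ip_sub_right, avg_symm]

lemma P_idem (a b : R) (f : Tab r c → ℝ) : P a b (P a b f) = P a b f := by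
  rw [P_apply a b (P a b f), P_apply, map_sub, avg_idem, sub_self, sub_zero]

lemma ip_P_self (a b : R) (f : Tab r c → ℝ) : ip (P a b f) f = ip (P a b f) (P a b f) := by
  rw [← P_symm, P_idem]

/-- The three-row lemma in cross form. -/
theorem three_row_cross (a b e : R) (hab : a ≠ b) (hbe : b ≠ e) (hae : a ≠ e) (f : Tab r c → ℝ) :
    0 ≤ ip (P a b f) (P b e f) + ip (P b e f) (P a e f) + ip (P a b f) (P a e f) := by
  obtain ⟨ρ, h0, h1, h2⟩ : ∃ ρ : Fin 3 → R, ρ 0 = a ∧ ρ 1 = b ∧ ρ 2 = e :=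
    ⟨![a, b, e], rfl, rfl, rfl⟩
  have hρ : Function.Injective ρ := by
    intro i j hij
    fin_cases i <;> fin_cases j <;> simp_all
  have ht0 : two ρ 0 = {b, e} := by
    rw [two_eq (show Finset.univ.erase (0 : Fin 3) = {1, 2} by decide), h1, h2]
  have ht1 : two ρ 1 = {a, e} := by
    rw [two_eq (show Finset.univ.erase (1 : Fin 3) = {0, 2} by decide), h0, h2]
  have ht2 : two ρ 2 = {a, b} := by
    rw [two_eq (show Finset.univ.erase (2 : Fin 3) = {0, 1} by decide), h0, h1]
  set y := f - avg (outs (tri ρ)) f with hy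
  have hy0 : avg (outs (tri ρ)) y = 0 := by rw [hy, map_sub, avg_idem, sub_self]
  have hfine : ∀ i, ∀ x z : Tab r c, outs (two ρ i) x = outs (two ρ i) z →
      outs (tri ρ) x = outs (tri ρ) z := fun i x z h => ((outs_two_iff hρ).mp h).1
  have hPy : ∀ i, ∀ u v : R, two ρ i = {u, v} → P u v f = P u v y := by
    intro i u v huv
    have h3 : avg (outs {u, v}) (avg (outs (tri ρ)) f) = avg (outs (tri ρ)) f := by
      apply avg_tower
      rw [← huv]
      exact hfine i
    rw [P_apply, P_apply, hy, map_sub, h3]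
    abel
  rw [hPy 2 a b ht2, hPy 0 b e ht0, hPy 1 a e ht1]
  have hmain := three_row ρ hρ y hy0
  rw [Fin.sum_univ_three, ht0, ht1, ht2] at hmain
  set X := P a b y with hX
  set Y := P b e y with hY
  set Z := P a e y with hZ
  have q1 : ip X y = ip X X := ip_P_self a b y
  have q2 : ip Y y = ip Y Y := ip_P_self b e y
  have q3 : ip Z y = ip Z Z := ip_P_self a e y
  have hX' : ip X y = ip y y - ip (avg (outs {a, b}) y) y := by
    rw [hX, P_apply, ip_sub_left]
  have hY' : ip Y y = ip y y - ip (avg (outs {b, e}) y) y := by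
    rw [hY, P_apply, ip_sub_left]
  have hZ' : ip Z y = ip y y - ip (avg (outs {a, e}) y) y := by
    rw [hZ, P_apply, ip_sub_left]
  have hK : ip (X + Y + Z) y = ip X y + ip Y y + ip Z y := by
    rw [ip_add_left, ip_add_left]
  have hKK : ip (X + Y + Z) (X + Y + Z)
      = ip X X + ip Y Y + ip Z Z + 2 * (ip X Y + ip Y Z + ip X Z) := by
    rw [ip_add_left, ip_add_left, ip_add_right, ip_add_right, ip_add_right, ip_add_right,
      ip_add_right, ip_add_right, ip_comm Y X, ip_comm Z X, ip_comm Z Y]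
    ring
  have hge : ip y y ≤ ip (X + Y + Z) y := by
    rw [hK, hX', hY', hZ']; linarith
  have hCS := ip_sq_le (X + Y + Z) y
  have hyy := ip_self_nonneg y
  have hle : ip (X + Y + Z) y ≤ ip (X + Y + Z) (X + Y + Z) := by
    rcases hyy.eq_or_lt with h | h
    · have : y = 0 := ip_self_eq_zero h.symm
      rw [this, ip_zero_right]
      exact ip_self_nonneg _
    · have hN := ip_self_nonneg (X + Y + Z)
      by_contra hcon
      push Not at hcon
      have hq : 0 < ip (X + Y + Z) y := lt_of_lt_of_le h hge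
      nlinarith [mul_le_mul_of_nonneg_left hge hN]
  rw [hK, hKK, q1, q2, q3] at hle
  linarith

end Vale.Agent.P335
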