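import Mathlib
import Vale.Agent.P335.Caputo
import Vale.Agent.P335.ThreeRow
import Vale.Agent.P335.Disj

/-!
# P335: Theorem A
-/

open Finset
open scoped Classical

namespace Vale.Agent.P335

variable {R S : Type*} [Fintype R] [Fintype S] {r : R → ℕ} {c : S → ℕ}

lemma P_pair_comm (a b : R) : (P a b : (Tab r c → ℝ) →ₗ[ℝ] (Tab r c → ℝ)) = P b a := by
  unfold P
  rw [Finset.pair_comm]

lemma ip_disj_nonneg (a b e g : R) (hab : a ≠ b) (heg : e ≠ g) (h1 : a ≠ e) (h2 : a ≠ g)
    (h3 : b ≠ e) (h4 : b ≠ g) (f : Tab r c → ℝ) : 0 ≤ ip (P a b f) (P e g f) := by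
  have h5 : ip (P a b (P e g f)) (P a b (P e g f)) = ip (P a b f) (P e g f) := by
    rw [P_symm, P_idem, P_comm_disj a b e g hab heg h1 h2 h3 h4, ← P_symm e g, P_idem, ip_comm]
  rw [← h5]
  exact ip_self_nonneg _

/-- The functions of mean zero. -/
noncomputable def meanZero (Ω : Type*) [Fintype Ω] : Submodule ℝ (Ω → ℝ) where
  carrier := {f | ∑ x, f x = 0}
  add_mem' {f g} hf hg := by
    have hf' : ∑ x, f x = 0 := hf
    have hg' : ∑ x, g x = 0 := hg
    show ∑ x, (f + g) x = 0
    simp only [Pi.add_apply, Finset.sum_add_distrib, hf', hg', add_zero]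
  zero_mem' := by
    show ∑ x, (0 : Ω → ℝ) x = 0
    simp
  smul_mem' a f hf := by
    have hf' : ∑ x, f x = 0 := hf
    show ∑ x, (a • f) x = 0
    simp only [Pi.smul_apply, smul_eq_mul, ← Finset.mul_sum, hf', mul_zero]

lemma mem_meanZero {Ω : Type*} [Fintype Ω] {f : Ω → ℝ} : f ∈ meanZero Ω ↔ ∑ x, f x = 0 := Iff.rfl

lemma sum_avg {Ω K : Type*} [Fintype Ω] (κ : Ω → K) (f : Ω → ℝ) :
    ∑ x, avg κ f x = ∑ x, f x := by
  have h1 : avg κ (fun _ => (1 : ℝ)) = fun _ => (1 : ℝ) := avg_of_meas (fun _ _ _ => rfl)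
  have h2 := avg_symm κ f (fun _ => (1 : ℝ))
  rw [h1] at h2
  simpa [ip] using h2

/-- Theorem A: gap of the row-pair resampling chain. -/
theorem rows_gap (f : Tab r c → ℝ) (hf : ∑ x, f x = 0) :
    2 * ip f f ≤ ∑ a, ∑ b, if a = b then 0 else ip (P a b f) f := by
  refine caputo (fun a b => P a b) (fun a b => P_pair_comm a b) (fun a b f g => P_symm a b f g)
    (fun a b f => P_idem a b f) (fun a b e hab hbe hae f => three_row_cross a b e hab hbe hae f)
    (fun a b e g hab heg h1 h2 h3 h4 f => ip_disj_nonneg a b e g hab heg h1 h2 h3 h4 f)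
    (meanZero (Tab r c)) ?_ ?_ (mem_meanZero.mpr hf)
  · intro a b f hf
    rw [mem_meanZero] at hf ⊢
    rw [P_apply]
    simp only [Pi.sub_apply, Finset.sum_sub_distrib]
    rw [sum_avg, hf, sub_self]
  · intro f hf hP
    rw [mem_meanZero] at hf
    have h1 : ∀ x y, f x = f y := by
      refine cs_invariant_const f (fun a b hab x y hxy => ?_)
      have h2 := hP a b hab
      simp only [P_apply] at h2
      have h3 : f = avg (outs {a, b}) f := sub_eq_zero.mp h2
      rw [h3]
      exact avg_meas _ _ hxy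
    funext x
    have h4 : ∑ y : Tab r c, f y = (Fintype.card (Tab r c) : ℝ) * f x := by
      rw [Finset.sum_congr rfl (fun y _ => h1 y x), Finset.sum_const, nsmul_eq_mul,
        Finset.card_univ]
    rw [h4] at hf
    rcases mul_eq_zero.mp hf with h5 | h5
    · exfalso
      have h6 : 0 < Fintype.card (Tab r c) := Fintype.card_pos_iff.mpr ⟨x⟩
      have h7 : (0 : ℝ) < (Fintype.card (Tab r c) : ℝ) := by exact_mod_cast h6
      exact h7.ne' h5
    · exact h5

end Vale.Agent.P335
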