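import Mathlib
import Vale.Agent.P335.Rows
import Vale.Agent.P335.PairFibre

/-!
# P335: Theorem B
-/

open Finset
open scoped Classical

namespace Vale.Agent.P335

section fibre

variable {R S : Type*} [Fintype R] [Fintype S] {r : R → ℕ} {c : S → ℕ}

lemma sum_le_of_fib {Ω K : Type*} [Fintype Ω] [Fintype K] (κ : Ω → K) (h1 h2 : Ω → ℝ)
    (H : ∀ x0, ∑ x ∈ fib κ x0, h1 x ≤ ∑ x ∈ fib κ x0, h2 x) : ∑ x, h1 x ≤ ∑ x, h2 x := by
  rw [← Finset.sum_fiberwise Finset.univ κ h1, ← Finset.sum_fiberwise Finset.univ κ h2]
  refine Finset.sum_le_sum fun v _ => ?_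
  by_cases hv : ∃ x0, κ x0 = v
  · obtain ⟨x0, rfl⟩ := hv
    exact H x0
  · have : (Finset.univ.filter fun x => κ x = v) = ∅ := by
      rw [Finset.filter_eq_empty_iff]
      intro x _ hx
      exact hv ⟨x, hx⟩
    rw [this]
    simp

/-- Row sums of the transposed two-row table. -/
def cTwo (a b : R) (x : Tab r c) : S → ℕ := fun j => (x.1 a j).toNat + (x.1 b j).toNat

/-- Column sums of the transposed two-row table. -/
def rTwo (r : R → ℕ) (a b : R) : Bool → ℕ := fun i => if i then r a else r b

/-- Swap of two rows of a table with equal row sums. -/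
noncomputable def rowSwap {R S : Type*} [Fintype R] [Fintype S] {r : R → ℕ} {c : S → ℕ}
    (j k : R) (x : Tab r c) : Tab r c :=
  if h : r j = r k then
    ⟨fun l i => x.1 (Equiv.swap j k l) i, by
      constructor
      · intro l
        rw [x.2.1]
        by_cases h1 : l = j
        · subst h1; rw [Equiv.swap_apply_left]; exact h.symm
        · by_cases h2 : l = k
          · subst h2; rw [Equiv.swap_apply_right]; exact h
          · rw [Equiv.swap_apply_of_ne_of_ne h1 h2]
      · intro i
        rw [← x.2.2 i]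
        exact Equiv.sum_comp (Equiv.swap j k) (fun l => (x.1 l i).toNat)⟩
  else x

lemma rowSwap_apply {R S : Type*} [Fintype R] [Fintype S] {r : R → ℕ} {c : S → ℕ}
    {j k : R} {x : Tab r c} (h : r j = r k) (l : R) (i : S) :
    (rowSwap j k x).1 l i = x.1 (Equiv.swap j k l) i := by
  simp [rowSwap, h]

lemma rowSwap_of_ne {R S : Type*} [Fintype R] [Fintype S] {r : R → ℕ} {c : S → ℕ}
    {j k : R} {x : Tab r c} (h : r j ≠ r k) : rowSwap j k x = x := by
  simp [rowSwap, h]

lemma rowSwap_rowSwap {R S : Type*} [Fintype R] [Fintype S] {r : R → ℕ} {c : S → ℕ}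
    (j k : R) (x : Tab r c) : rowSwap j k (rowSwap j k x) = x := by
  by_cases h : r j = r k
  · apply Tab.ext'
    intro a i
    rw [rowSwap_apply h, rowSwap_apply h, Equiv.swap_apply_self]
  · rw [rowSwap_of_ne h, rowSwap_of_ne h]

/-- In an `S × 2` table the fibre of two rows consists of the table and its row swap. -/
lemma fib_two {r : R → ℕ} {c : Bool → ℕ} {j k : R} (hjk : j ≠ k) (x y : Tab r c) :
    outs {j, k} y = outs {j, k} x ↔ y = x ∨ y = rowSwap j k x := by
  constructor
  · intro h
    have hs : ∀ i, (y.1 j i).toNat + (y.1 k i).toNat = (x.1 j i).toNat + (x.1 k i).toNat :=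
      fun i => pair_sum_congr hjk h i
    have hrj : (y.1 j true).toNat + (y.1 j false).toNat = (x.1 j true).toNat + (x.1 j false).toNat := by
      have h1 := y.2.1 j
      have h2 := x.2.1 j
      rw [Fintype.sum_bool] at h1 h2
      omega
    have hrk : (y.1 k true).toNat + (y.1 k false).toNat = (x.1 k true).toNat + (x.1 k false).toNat := by
      have h1 := y.2.1 k
      have h2 := x.2.1 k
      rw [Fintype.sum_bool] at h1 h2
      omega
    have hst := hs true
    have hsf := hs false
    by_cases hyx : y = x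
    · exact Or.inl hyx
    right
    have hne : ¬ (y.1 j true = x.1 j true ∧ y.1 j false = x.1 j false ∧
        y.1 k true = x.1 k true ∧ y.1 k false = x.1 k false) := by
      rintro ⟨h1, h2, h3, h4⟩
      apply hyx
      apply Tab.ext'
      intro l i
      by_cases hl : l ∈ ({j, k} : Finset R)
      · rw [Finset.mem_insert, Finset.mem_singleton] at hl
        rcases hl with rfl | rfl
        · cases i <;> assumption
        · cases i <;> assumption
      · exact outs_eq_iff.mp h l hl i
    have hrow : (x.1 j true).toNat + (x.1 j false).toNat = r j := by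
      have h2 := x.2.1 j
      rwa [Fintype.sum_bool] at h2
    have hrowk : (x.1 k true).toNat + (x.1 k false).toNat = r k := by
      have h2 := x.2.1 k
      rwa [Fintype.sum_bool] at h2
    have key : r j = r k ∧ y.1 j true = x.1 k true ∧ y.1 j false = x.1 k false ∧
        y.1 k true = x.1 j true ∧ y.1 k false = x.1 j false := by
      rw [← hrow, ← hrowk]
      revert hne hst hsf hrj hrk
      cases y.1 j true <;> cases y.1 j false <;> cases y.1 k true <;> cases y.1 k false <;>
        cases x.1 j true <;> cases x.1 j false <;> cases x.1 k true <;> cases x.1 k false <;> decide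
    obtain ⟨h0, h1, h2, h3, h4⟩ := key
    apply Tab.ext'
    intro l i
    rw [rowSwap_apply h0]
    by_cases hlj : l = j
    · subst hlj
      rw [Equiv.swap_apply_left]
      cases i <;> assumption
    · by_cases hlk : l = k
      · subst hlk
        rw [Equiv.swap_apply_right]
        cases i <;> assumption
      · rw [Equiv.swap_apply_of_ne_of_ne hlj hlk]
        exact outs_eq_iff.mp h l (by simp [hlj, hlk]) i
  · rintro (rfl | rfl)
    · rfl
    · rw [outs_eq_iff]
      intro l hl i
      by_cases h0 : r j = r k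
      · rw [rowSwap_apply h0, Equiv.swap_apply_of_ne_of_ne]
        · intro h1; exact hl (by simp [h1])
        · intro h1; exact hl (by simp [h1])
      · rw [rowSwap_of_ne h0]

lemma avg_two {r : R → ℕ} {c : Bool → ℕ} {j k : R} (hjk : j ≠ k) (g : Tab r c → ℝ) (x : Tab r c) :
    avg (outs {j, k}) g x = (g x + g (rowSwap j k x)) / 2 := by
  have hfib : fib (outs {j, k}) x = {x, rowSwap j k x} := by
    ext y
    rw [mem_fib, fib_two hjk, Finset.mem_insert, Finset.mem_singleton]
  rw [avg_apply, hfib]
  by_cases h : x = rowSwap j k x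
  · rw [← h]
    simp
  · rw [Finset.sum_pair h, Finset.card_pair h]
    norm_num

lemma P_two {r : R → ℕ} {c : Bool → ℕ} {j k : R} (hjk : j ≠ k) (g : Tab r c → ℝ) :
    ip (P j k g) g = 1 / 2 * ∑ x, (g x - g (rowSwap j k x)) * g x := by
  unfold ip
  rw [Finset.mul_sum]
  refine Finset.sum_congr rfl fun x _ => ?_
  rw [P_apply, Pi.sub_apply, avg_two hjk]
  ring

/-- Poincare inequality on `S × 2` tables. -/
lemma two_gap {r : R → ℕ} {c : Bool → ℕ} (g : Tab r c → ℝ) (μ : ℝ)
    (hμ : ∑ x, g x = (Fintype.card (Tab r c) : ℝ) * μ) :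
    4 * ∑ x, (g x - μ) * g x ≤ ∑ j, ∑ k, if j = k then 0 else
      ∑ x, (g x - g (rowSwap j k x)) * g x := by
  have h0 : ∑ x, (fun x => g x - μ) x = 0 := by
    simp only [Finset.sum_sub_distrib, hμ, Finset.sum_const, Finset.card_univ, nsmul_eq_mul]
    ring
  have h1 := rows_gap (fun x => g x - μ) h0
  have h2 : ip (fun x => g x - μ) (fun x => g x - μ) = ∑ x, (g x - μ) * g x := by
    unfold ip
    have : ∑ x, (g x - μ) * g x - ∑ x, (g x - μ) * (g x - μ) = μ * ∑ x, (g x - μ) := by
      rw [← Finset.sum_sub_distrib, Finset.mul_sum]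
      refine Finset.sum_congr rfl fun x _ => ?_
      ring
    have h3 : ∑ x, (g x - μ) = 0 := h0
    rw [h3, mul_zero] at this
    linarith
  have h3 : ∀ j k, (if j = k then (0 : ℝ) else ip (P j k (fun x => g x - μ)) (fun x => g x - μ)) =
      1 / 2 * (if j = k then 0 else ∑ x, (g x - g (rowSwap j k x)) * g x) := by
    intro j k
    by_cases hjk : j = k
    · simp [hjk]
    · rw [if_neg hjk, if_neg hjk, P_two hjk]
      congr 1
      have h4 : ∑ x, g (rowSwap j k x) = ∑ x, g x := by
        let e : Equiv.Perm (Tab r c) :=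
          { toFun := rowSwap j k
            invFun := rowSwap j k
            left_inv := rowSwap_rowSwap j k
            right_inv := rowSwap_rowSwap j k }
        exact Equiv.sum_comp e g
      have h5 : ∑ x, (g x - μ - (g (rowSwap j k x) - μ)) * (g x - μ) =
          ∑ x, (g x - g (rowSwap j k x)) * g x - μ * (∑ x, g x - ∑ x, g (rowSwap j k x)) := by
        rw [← Finset.sum_sub_distrib, Finset.mul_sum, ← Finset.sum_sub_distrib]
        refine Finset.sum_congr rfl fun x _ => ?_
        ring
      rw [h5, h4]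
      ring
  rw [h2] at h1
  simp_rw [h3, ← Finset.mul_sum] at h1
  linarith

/-- From the fibre of two rows to transposed two-row tables. -/
def toTwo {a b : R} (hab : a ≠ b) (x0 : Tab r c) (x : {x : Tab r c // outs {a, b} x = outs {a, b} x0}) :
    Tab (cTwo a b x0) (rTwo r a b) :=
  ⟨fun j i => if i then x.1.1 a j else x.1.1 b j, by
    constructor
    · intro j
      rw [Fintype.sum_bool]
      simp only [if_true, Bool.false_eq_true, if_false]
      exact pair_sum_congr hab x.2 j
    · intro i
      cases i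
      · simp only [Bool.false_eq_true, if_false, rTwo]
        exact x.1.2.1 b
      · simp only [if_true, rTwo]
        exact x.1.2.1 a⟩

/-- From transposed two-row tables to the fibre of two rows. -/
noncomputable def ofTwo {a b : R} (hab : a ≠ b) (x0 : Tab r c) (M : Tab (cTwo a b x0) (rTwo r a b)) :
    Tab r c :=
  ⟨fun a' j => if a' = a then M.1 j true else if a' = b then M.1 j false else x0.1 a' j, by
    constructor
    · intro a'
      by_cases h1 : a' = a
      · subst h1
        simp only [if_true]
        have := M.2.2 true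
        simpa [rTwo] using this
      · by_cases h2 : a' = b
        · subst h2
          simp only [h1, if_false, if_true]
          have := M.2.2 false
          simpa [rTwo] using this
        · simp only [h1, h2, if_false]
          exact x0.2.1 a'
    · intro j
      rw [← x0.2.2 j, ← Finset.sum_add_sum_compl ({a, b} : Finset R),
        ← Finset.sum_add_sum_compl ({a, b} : Finset R) (fun a' => (x0.1 a' j).toNat)]
      congr 1
      · rw [Finset.sum_pair hab, Finset.sum_pair hab]
        have := M.2.1 j
        rw [Fintype.sum_bool] at this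
        simp only [if_true, hab.symm, if_false]
        exact this
      · refine Finset.sum_congr rfl (fun a' ha' => ?_)
        rw [Finset.mem_compl, Finset.mem_insert, Finset.mem_singleton, not_or] at ha'
        simp only [ha'.1, ha'.2, if_false]⟩

lemma ofTwo_apply {a b : R} (hab : a ≠ b) (x0 : Tab r c) (M : Tab (cTwo a b x0) (rTwo r a b))
    (a' : R) (j : S) : (ofTwo hab x0 M).1 a' j =
      if a' = a then M.1 j true else if a' = b then M.1 j false else x0.1 a' j := rfl

lemma outs_ofTwo {a b : R} (hab : a ≠ b) (x0 : Tab r c) (M : Tab (cTwo a b x0) (rTwo r a b)) :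
    outs {a, b} (ofTwo hab x0 M) = outs {a, b} x0 := by
  rw [outs_eq_iff]
  intro a' ha' j
  rw [Finset.mem_insert, Finset.mem_singleton, not_or] at ha'
  rw [ofTwo_apply, if_neg ha'.1, if_neg ha'.2]

/-- The fibre of two rows as transposed two-row tables. -/
noncomputable def twoEquiv {a b : R} (hab : a ≠ b) (x0 : Tab r c) :
    Tab (cTwo a b x0) (rTwo r a b) ≃ {x : Tab r c // outs {a, b} x = outs {a, b} x0} where
  toFun M := ⟨ofTwo hab x0 M, outs_ofTwo hab x0 M⟩
  invFun := toTwo hab x0
  left_inv := by
    intro M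
    apply Tab.ext'
    intro j i
    cases i
    · simp [toTwo, ofTwo_apply, hab.symm]
    · simp [toTwo, ofTwo_apply]
  right_inv := by
    intro x
    apply Subtype.ext
    apply Tab.ext'
    intro a' j
    change (ofTwo hab x0 (toTwo hab x0 x)).1 a' j = x.1.1 a' j
    rw [ofTwo_apply]
    by_cases h1 : a' = a
    · subst h1
      simp [toTwo]
    · by_cases h2 : a' = b
      · subst h2
        simp [toTwo, h1]
      · rw [if_neg h1, if_neg h2]
        exact (outs_eq_iff.mp x.2 a' (by simp [h1, h2]) j).symm

lemma sum_fib_two {a b : R} (hab : a ≠ b) (x0 : Tab r c) (h : Tab r c → ℝ) :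
    ∑ x ∈ fib (outs {a, b}) x0, h x = ∑ M, h (ofTwo hab x0 M) := by
  have h1 : ∑ M, h (ofTwo hab x0 M) = ∑ x : {x : Tab r c // outs {a, b} x = outs {a, b} x0}, h x.1 :=
    Equiv.sum_comp (twoEquiv hab x0) (fun x => h x.1)
  rw [h1, fib]
  exact Finset.sum_subtype _ (fun x => by simp) h

lemma typ_pair {a b : R} (hab : a ≠ b) (x : Tab r c) (j : S) :
    typ {a, b} x j = cTwo a b x j := by
  unfold typ cTwo
  rw [Finset.sum_pair hab]

lemma ofTwo_rowSwap {a b : R} (hab : a ≠ b) (x0 : Tab r c) (j k : S)
    (M : Tab (cTwo a b x0) (rTwo r a b)) :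
    ofTwo hab x0 (rowSwap j k M) = cs {a, b} j k (ofTwo hab x0 M) := by
  have ht : ∀ l, typ {a, b} (ofTwo hab x0 M) l = cTwo a b x0 l := by
    intro l
    rw [typ_congr (outs_ofTwo hab x0 M), typ_pair hab]
  apply Tab.ext'
  intro a' l
  by_cases h : cTwo a b x0 j = cTwo a b x0 k
  · rw [cs_of_eq (by rw [ht, ht, h]), swapFun, ofTwo_apply]
    by_cases h1 : a' = a
    · subst h1
      simp [ofTwo_apply, rowSwap_apply h]
    · by_cases h2 : a' = b
      · subst h2
        simp [ofTwo_apply, rowSwap_apply h, h1]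
      · simp [ofTwo_apply, h1, h2]
  · rw [rowSwap_of_ne h, cs_of_ne (by rw [ht, ht]; exact h)]

/-- Fibre inequality. -/
lemma fib_gap {a b : R} (hab : a ≠ b) (x0 : Tab r c) (f : Tab r c → ℝ) :
    ∑ x ∈ fib (outs {a, b}) x0, 4 * (P a b f x * f x) ≤
      ∑ x ∈ fib (outs {a, b}) x0, ∑ j, ∑ k, if j = k then 0 else
        (f x - f (cs {a, b} j k x)) * f x := by
  have hcard : ((fib (outs {a, b}) x0).card : ℝ) = (Fintype.card (Tab (cTwo a b x0) (rTwo r a b)) : ℝ) := by
    have := sum_fib_two hab x0 (fun _ => (1 : ℝ))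
    simpa using this
  have hμ : ∑ M, f (ofTwo hab x0 M) =
      (Fintype.card (Tab (cTwo a b x0) (rTwo r a b)) : ℝ) * avg (outs {a, b}) f x0 := by
    rw [← sum_fib_two hab x0 f, sum_fib_eq, hcard, mul_comm]
  have h1 := two_gap (fun M => f (ofTwo hab x0 M)) _ hμ
  have h2 : ∑ x ∈ fib (outs {a, b}) x0, 4 * (P a b f x * f x) =
      4 * ∑ M, (f (ofTwo hab x0 M) - avg (outs {a, b}) f x0) * f (ofTwo hab x0 M) := by
    rw [← Finset.mul_sum, sum_fib_two hab x0 (fun x => P a b f x * f x)]
    congr 1
    refine Finset.sum_congr rfl fun M _ => ?_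
    rw [P_apply, Pi.sub_apply, avg_meas (outs {a, b}) f (outs_ofTwo hab x0 M)]
  have h3 : ∑ x ∈ fib (outs {a, b}) x0, (∑ j, ∑ k, if j = k then 0 else
        (f x - f (cs {a, b} j k x)) * f x) =
      ∑ j, ∑ k, if j = k then 0 else
      ∑ M, (f (ofTwo hab x0 M) - f (ofTwo hab x0 (rowSwap j k M))) * f (ofTwo hab x0 M) := by
    rw [Finset.sum_comm]
    refine Finset.sum_congr rfl fun j _ => ?_
    rw [Finset.sum_comm]
    refine Finset.sum_congr rfl fun k _ => ?_
    by_cases hjk : j = k
    · simp [hjk]
    · simp only [if_neg hjk]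
      rw [sum_fib_two hab x0 (fun x => (f x - f (cs {a, b} j k x)) * f x)]
      refine Finset.sum_congr rfl fun M _ => ?_
      rw [ofTwo_rowSwap]
  rw [h2, h3]
  exact h1

end fibre

variable {R S : Type*} [Fintype R] [Fintype S] {r : R → ℕ} {c : S → ℕ}

/-- Theorem B: gap of the switch chain on tables (sums over ordered pairs of rows and of columns,
each switch is counted four times). -/
theorem switch_gap (f : Tab r c → ℝ) (hf : ∑ x, f x = 0) :
    8 * ip f f ≤ ∑ a : R, ∑ b : R, ∑ j : S, ∑ k : S,
      if a = b ∨ j = k then 0 else ip (f - fun x => f (cs {a, b} j k x)) f := by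
  have h1 := rows_gap f hf
  have h2 : ∀ a b : R, 4 * (if a = b then 0 else ip (P a b f) f) ≤ ∑ j : S, ∑ k : S,
      if a = b ∨ j = k then 0 else ip (f - fun x => f (cs {a, b} j k x)) f := by
    intro a b
    by_cases hab : a = b
    · simp [hab]
    · rw [if_neg hab]
      have h3 := sum_le_of_fib (outs {a, b}) (fun x => 4 * (P a b f x * f x))
        (fun x => ∑ j : S, ∑ k : S, if j = k then 0 else (f x - f (cs {a, b} j k x)) * f x)
        (fun x0 => fib_gap hab x0 f)
      have h4 : ∑ x, 4 * (P a b f x * f x) = 4 * ip (P a b f) f := by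
        rw [← Finset.mul_sum]
        rfl
      have h5 : ∑ x, (∑ j : S, ∑ k : S, if j = k then 0 else (f x - f (cs {a, b} j k x)) * f x) =
          ∑ j : S, ∑ k : S,
            if a = b ∨ j = k then 0 else ip (f - fun x => f (cs {a, b} j k x)) f := by
        rw [Finset.sum_comm]
        refine Finset.sum_congr rfl fun j _ => ?_
        rw [Finset.sum_comm]
        refine Finset.sum_congr rfl fun k _ => ?_
        by_cases hjk : j = k
        · simp [hjk]
        · simp only [hjk, hab, or_self, if_false]
          rfl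
      rw [← h4, ← h5]
      exact h3
  calc 8 * ip f f = 4 * (2 * ip f f) := by ring
    _ ≤ 4 * ∑ a, ∑ b, if a = b then 0 else ip (P a b f) f := by linarith
    _ = ∑ a, ∑ b, 4 * (if a = b then 0 else ip (P a b f) f) := by
        rw [Finset.mul_sum]
        refine Finset.sum_congr rfl fun a _ => ?_
        rw [Finset.mul_sum]
    _ ≤ _ := Finset.sum_le_sum fun a _ => Finset.sum_le_sum fun b _ => h2 a b

/-- Theorem B in Dirichlet form. -/
theorem switch_gap_dirichlet (f : Tab r c → ℝ) (hf : ∑ x, f x = 0) :
    16 * ip f f ≤ ∑ a : R, ∑ b : R, ∑ j : S, ∑ k : S,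
      if a = b ∨ j = k then 0 else ∑ x, (f x - f (cs {a, b} j k x)) ^ 2 := by
  have h1 := switch_gap f hf
  have h2 : ∀ (a b : R) (j k : S), (if a = b ∨ j = k then (0 : ℝ) else
      ∑ x, (f x - f (cs {a, b} j k x)) ^ 2) =
      2 * (if a = b ∨ j = k then 0 else ip (f - fun x => f (cs {a, b} j k x)) f) := by
    intro a b j k
    by_cases h : a = b ∨ j = k
    · simp [h]
    · rw [if_neg h, if_neg h]
      have h3 : ∑ x, f (cs {a, b} j k x) ^ 2 = ∑ x, f x ^ 2 :=
        Equiv.sum_comp (csPerm {a, b} j k) (fun x => f x ^ 2)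
      have h4 : ∑ x, (f x - f (cs {a, b} j k x)) ^ 2 -
          2 * ip (f - fun x => f (cs {a, b} j k x)) f =
          ∑ x, f (cs {a, b} j k x) ^ 2 - ∑ x, f x ^ 2 := by
        unfold ip
        rw [Finset.mul_sum, ← Finset.sum_sub_distrib, ← Finset.sum_sub_distrib]
        refine Finset.sum_congr rfl fun x _ => ?_
        rw [Pi.sub_apply]
        ring
      rw [h3, sub_self] at h4
      linarith
  simp_rw [h2, ← Finset.mul_sum]
  linarith

end Vale.Agent.P335
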