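import Mathlib
import Vale.Agent.P335.Chain
import Vale.Agent.P335.SwitchGap

/-!
# P335: split degree vectors
-/

open Finset
open scoped Classical

namespace Vale.Agent.P335

lemma deg_sum {n : ℕ} (d : Fin n → ℕ) (H : Omega d) (v : Fin n) :
    ∑ u, (if H.1.Adj v u then (1 : ℕ) else 0) = d v := by
  rw [← H.2 v]
  have h : H.1.neighborSet v = ↑(Finset.univ.filter fun u => H.1.Adj v u) := by
    ext u
    simp
  rw [h, Set.ncard_coe_finset, Finset.card_filter]

lemma cut_identity {n : ℕ} (d : Fin n → ℕ) (H : Omega d) (X : Finset (Fin n)) :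
    ∑ p ∈ X ×ˢ X, (if H.1.Adj p.1 p.2 then (1 : ℕ) else 0) + ∑ v ∈ Xᶜ, d v =
      ∑ v ∈ X, d v + ∑ p ∈ Xᶜ ×ˢ Xᶜ, (if H.1.Adj p.1 p.2 then (1 : ℕ) else 0) := by
  have h1 : ∑ v ∈ X, d v = ∑ v ∈ X, ∑ u ∈ X, (if H.1.Adj v u then (1 : ℕ) else 0) +
      ∑ v ∈ X, ∑ u ∈ Xᶜ, (if H.1.Adj v u then (1 : ℕ) else 0) := by
    rw [← Finset.sum_add_distrib]
    refine Finset.sum_congr rfl fun v _ => ?_
    rw [Finset.sum_add_sum_compl, deg_sum]
  have h2 : ∑ v ∈ Xᶜ, d v = ∑ v ∈ Xᶜ, ∑ u ∈ X, (if H.1.Adj v u then (1 : ℕ) else 0) +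
      ∑ v ∈ Xᶜ, ∑ u ∈ Xᶜ, (if H.1.Adj v u then (1 : ℕ) else 0) := by
    rw [← Finset.sum_add_distrib]
    refine Finset.sum_congr rfl fun v _ => ?_
    rw [Finset.sum_add_sum_compl, deg_sum]
  have h3 : ∑ v ∈ X, ∑ u ∈ Xᶜ, (if H.1.Adj v u then (1 : ℕ) else 0) =
      ∑ v ∈ Xᶜ, ∑ u ∈ X, (if H.1.Adj v u then (1 : ℕ) else 0) := by
    rw [Finset.sum_comm]
    refine Finset.sum_congr rfl fun v _ => Finset.sum_congr rfl fun u _ => ?_
    rw [H.1.adj_comm]
  rw [Finset.sum_product, Finset.sum_product, h1, h2, h3]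
  ring

lemma split_all_finset {n : ℕ} (d : Fin n → ℕ) (G : Omega d) (X : Finset (Fin n))
    (h1 : ∀ u ∈ X, ∀ v ∈ X, u ≠ v → G.1.Adj u v) (h2 : ∀ u ∉ X, ∀ v ∉ X, ¬ G.1.Adj u v)
    (H : Omega d) :
    (∀ u ∈ X, ∀ v ∈ X, u ≠ v → H.1.Adj u v) ∧ (∀ u ∉ X, ∀ v ∉ X, ¬ H.1.Adj u v) := by
  have hG := cut_identity d G X
  have hH := cut_identity d H X
  have e1 : ∑ p ∈ X ×ˢ X, (if G.1.Adj p.1 p.2 then (1 : ℕ) else 0) =
      ∑ p ∈ X ×ˢ X, (if p.1 ≠ p.2 then (1 : ℕ) else 0) := by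
    refine Finset.sum_congr rfl fun p hp => ?_
    rw [Finset.mem_product] at hp
    by_cases hne : p.1 ≠ p.2
    · rw [if_pos hne, if_pos (h1 _ hp.1 _ hp.2 hne)]
    · rw [if_neg hne, if_neg]
      intro hadj
      exact hne hadj.ne
  have e2 : ∑ p ∈ Xᶜ ×ˢ Xᶜ, (if G.1.Adj p.1 p.2 then (1 : ℕ) else 0) = 0 := by
    refine Finset.sum_eq_zero fun p hp => ?_
    rw [Finset.mem_product, Finset.mem_compl, Finset.mem_compl] at hp
    rw [if_neg (h2 _ hp.1 _ hp.2)]
  have hle : ∀ p ∈ X ×ˢ X, (if H.1.Adj p.1 p.2 then (1 : ℕ) else 0) ≤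
      (if p.1 ≠ p.2 then (1 : ℕ) else 0) := by
    intro p _
    by_cases hadj : H.1.Adj p.1 p.2
    · rw [if_pos hadj, if_pos hadj.ne]
    · rw [if_neg hadj]
      exact Nat.zero_le _
  have e3 := Finset.sum_le_sum hle
  have e4 : ∑ p ∈ X ×ˢ X, (if H.1.Adj p.1 p.2 then (1 : ℕ) else 0) =
      ∑ p ∈ X ×ˢ X, (if p.1 ≠ p.2 then (1 : ℕ) else 0) := by omega
  have e5 : ∑ p ∈ Xᶜ ×ˢ Xᶜ, (if H.1.Adj p.1 p.2 then (1 : ℕ) else 0) = 0 := by omega
  constructor
  · intro u hu v hv huv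
    have := (Finset.sum_eq_sum_iff_of_le hle).1 e4 (u, v) (Finset.mem_product.2 ⟨hu, hv⟩)
    by_contra hadj
    simp [hadj, huv] at this
  · intro u hu v hv hadj
    have := (Finset.sum_eq_zero_iff.1 e5) (u, v)
      (Finset.mem_product.2 ⟨Finset.mem_compl.2 hu, Finset.mem_compl.2 hv⟩)
    simp [hadj] at this

/-- In a split degree vector every realization is split along the same partition. -/
theorem split_all {n : ℕ} (d : Fin n → ℕ) (G : Omega d) (X : Set (Fin n))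
    (h1 : ∀ u ∈ X, ∀ v ∈ X, u ≠ v → G.1.Adj u v) (h2 : ∀ u ∉ X, ∀ v ∉ X, ¬ G.1.Adj u v)
    (H : Omega d) :
    (∀ u ∈ X, ∀ v ∈ X, u ≠ v → H.1.Adj u v) ∧ (∀ u ∉ X, ∀ v ∉ X, ¬ H.1.Adj u v) := by
  have := split_all_finset d G (Finset.univ.filter (· ∈ X)) (by simpa using h1) (by simpa using h2) H
  simpa using this

section table

variable {n : ℕ} (d : Fin n → ℕ) (X : Finset (Fin n))

/-- The property that all realizations are split along `X`. -/
def AllSplit : Prop := ∀ H : Omega d,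
  (∀ u ∈ X, ∀ v ∈ X, u ≠ v → H.1.Adj u v) ∧ (∀ u ∉ X, ∀ v ∉ X, ¬ H.1.Adj u v)

/-- Row sums. -/
def rS : {v // v ∈ X} → ℕ := fun u => d u.1 - (X.card - 1)

/-- Column sums. -/
def cS : {v // v ∉ X} → ℕ := fun v => d v.1

variable {d X}

lemma sum_clique {H : SimpleGraph (Fin n)} (h1 : ∀ u ∈ X, ∀ v ∈ X, u ≠ v → H.Adj u v)
    (u : Fin n) (hu : u ∈ X) : ∑ v ∈ X, (if H.Adj u v then (1 : ℕ) else 0) = X.card - 1 := by
  have : ∀ v ∈ X, (if H.Adj u v then (1 : ℕ) else 0) = if v ∈ X.erase u then 1 else 0 := by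
    intro v hv
    by_cases huv : u = v
    · subst huv
      simp
    · rw [if_pos (h1 u hu v hv huv), if_pos (Finset.mem_erase.2 ⟨fun h => huv h.symm, hv⟩)]
  rw [Finset.sum_congr rfl this, Finset.sum_ite_mem, Finset.inter_eq_right.2 (Finset.erase_subset _ _),
    Finset.sum_const, smul_eq_mul, mul_one, Finset.card_erase_of_mem hu]

/-- The table of a realization. -/
noncomputable def toTab (hX : AllSplit d X) (H : Omega d) : Tab (rS d X) (cS d X) :=
  ⟨fun u v => decide (H.1.Adj u.1 v.1), by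
    obtain ⟨h1, h2⟩ := hX H
    constructor
    · intro u
      have h3 : ∑ v : {v // v ∉ X}, (decide (H.1.Adj u.1 v.1)).toNat =
          ∑ v ∈ Xᶜ, (if H.1.Adj u.1 v then (1 : ℕ) else 0) := by
        rw [Finset.sum_subtype Xᶜ (p := fun v => v ∉ X) (fun v => Finset.mem_compl)
          (fun v => if H.1.Adj u.1 v then (1 : ℕ) else 0)]
        refine Finset.sum_congr rfl fun v _ => ?_
        by_cases h : H.1.Adj u.1 v.1 <;> simp [h]
      have h4 := deg_sum d H u.1
      rw [← Finset.sum_add_sum_compl X, sum_clique h1 u.1 u.2] at h4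
      rw [h3, rS]
      omega
    · intro v
      have h3 : ∑ u : {v // v ∈ X}, (decide (H.1.Adj u.1 v.1)).toNat =
          ∑ u ∈ X, (if H.1.Adj v.1 u then (1 : ℕ) else 0) := by
        rw [Finset.sum_subtype X (p := fun v => v ∈ X) (fun v => Iff.rfl)
          (fun u => if H.1.Adj v.1 u then (1 : ℕ) else 0)]
        refine Finset.sum_congr rfl fun u _ => ?_
        rw [H.1.adj_comm]
        by_cases h : H.1.Adj v.1 u.1 <;> simp [h]
      have h4 := deg_sum d H v.1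
      rw [← Finset.sum_add_sum_compl X] at h4
      have h5 : ∑ u ∈ Xᶜ, (if H.1.Adj v.1 u then (1 : ℕ) else 0) = 0 := by
        refine Finset.sum_eq_zero fun u hu => ?_
        rw [if_neg (h2 _ v.2 _ (Finset.mem_compl.1 hu))]
      rw [h3, cS]
      omega⟩

/-- The graph of a table. -/
def tabGraph (X : Finset (Fin n)) (M : {v // v ∈ X} → {v // v ∉ X} → Bool) : SimpleGraph (Fin n) where
  Adj u v := (u ∈ X ∧ v ∈ X ∧ u ≠ v) ∨ (∃ hu : u ∈ X, ∃ hv : v ∉ X, M ⟨u, hu⟩ ⟨v, hv⟩ = true) ∨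
    (∃ hv : v ∈ X, ∃ hu : u ∉ X, M ⟨v, hv⟩ ⟨u, hu⟩ = true)
  symm := ⟨by
    intro u v h
    rcases h with ⟨h1, h2, h3⟩ | ⟨h1, h2, h3⟩ | ⟨h1, h2, h3⟩
    · exact Or.inl ⟨h2, h1, h3.symm⟩
    · exact Or.inr (Or.inr ⟨h1, h2, h3⟩)
    · exact Or.inr (Or.inl ⟨h1, h2, h3⟩)⟩
  loopless := ⟨by
    intro u h
    rcases h with ⟨h1, h2, h3⟩ | ⟨h1, h2, h3⟩ | ⟨h1, h2, h3⟩
    · exact h3 rfl
    · exact h2 h1
    · exact h2 h1⟩

lemma tabGraph_adj_in {M : {v // v ∈ X} → {v // v ∉ X} → Bool} {u v : Fin n} (hu : u ∈ X)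
    (hv : v ∈ X) : (tabGraph X M).Adj u v ↔ u ≠ v := by
  simp only [tabGraph, hu, hv, true_and, not_true_eq_false, IsEmpty.exists_iff, exists_false, or_false]

lemma tabGraph_adj_out {M : {v // v ∈ X} → {v // v ∉ X} → Bool} {u v : Fin n} (hu : u ∉ X)
    (hv : v ∉ X) : ¬ (tabGraph X M).Adj u v := by
  simp [tabGraph, hu, hv]

lemma tabGraph_adj {M : {v // v ∈ X} → {v // v ∉ X} → Bool} {u v : Fin n} (hu : u ∈ X)
    (hv : v ∉ X) : (tabGraph X M).Adj u v ↔ M ⟨u, hu⟩ ⟨v, hv⟩ = true := by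
  simp [tabGraph, hu, hv]

/-- A graph which is split along `X` is determined by its table. -/
lemma split_ext {G H : SimpleGraph (Fin n)} (h1 : ∀ u ∈ X, ∀ v ∈ X, (G.Adj u v ↔ H.Adj u v))
    (h2 : ∀ u ∉ X, ∀ v ∉ X, (G.Adj u v ↔ H.Adj u v))
    (h3 : ∀ u ∈ X, ∀ v ∉ X, (G.Adj u v ↔ H.Adj u v)) : G = H := by
  ext u v
  by_cases hu : u ∈ X <;> by_cases hv : v ∈ X
  · exact h1 u hu v hv
  · exact h3 u hu v hv
  · rw [G.adj_comm, H.adj_comm]
    exact h3 v hv u hu
  · exact h2 u hu v hv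

lemma adj_split (hX : AllSplit d X) (H : Omega d) : H.1 = tabGraph X (toTab hX H).1 := by
  obtain ⟨h1, h2⟩ := hX H
  refine split_ext (X := X) ?_ ?_ ?_
  · intro u hu v hv
    rw [tabGraph_adj_in hu hv]
    exact ⟨fun h => h.ne, fun h => h1 u hu v hv h⟩
  · intro u hu v hv
    exact ⟨fun h => absurd h (h2 u hu v hv), fun h => absurd h (tabGraph_adj_out hu hv)⟩
  · intro u hu v hv
    rw [tabGraph_adj hu hv]
    simp [toTab]

/-- The realization of a table. -/
noncomputable def ofTab (hX : AllSplit d X) (G0 : Omega d) (M : Tab (rS d X) (cS d X)) : Omega d :=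
  ⟨tabGraph X M.1, by
    intro v
    have h : (tabGraph X M.1).neighborSet v =
        ↑(Finset.univ.filter fun u => (tabGraph X M.1).Adj v u) := by
      ext u
      simp
    rw [h, Set.ncard_coe_finset, Finset.card_filter, ← Finset.sum_add_sum_compl X]
    by_cases hv : v ∈ X
    · rw [sum_clique (fun u hu w hw huw => (tabGraph_adj_in hu hw).2 huw) v hv]
      have h3 : ∑ u ∈ Xᶜ, (if (tabGraph X M.1).Adj v u then (1 : ℕ) else 0) =
          ∑ u : {v // v ∉ X}, (M.1 ⟨v, hv⟩ u).toNat := by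
        rw [Finset.sum_subtype Xᶜ (p := fun v => v ∉ X) (fun v => Finset.mem_compl)
          (fun u => if (tabGraph X M.1).Adj v u then (1 : ℕ) else 0)]
        refine Finset.sum_congr rfl fun u _ => ?_
        simp only [tabGraph_adj hv u.2]
        cases M.1 ⟨v, hv⟩ ⟨u.1, u.2⟩ <;> simp
      rw [h3, M.2.1, rS]
      have h4 := deg_sum d G0 v
      rw [← Finset.sum_add_sum_compl X, sum_clique (hX G0).1 v hv] at h4
      show X.card - 1 + (d v - (X.card - 1)) = d v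
      omega
    · have h3 : ∑ u ∈ Xᶜ, (if (tabGraph X M.1).Adj v u then (1 : ℕ) else 0) = 0 := by
        refine Finset.sum_eq_zero fun u hu => ?_
        rw [if_neg (tabGraph_adj_out hv (Finset.mem_compl.1 hu))]
      have h4 : ∑ u ∈ X, (if (tabGraph X M.1).Adj v u then (1 : ℕ) else 0) =
          ∑ u : {v // v ∈ X}, (M.1 u ⟨v, hv⟩).toNat := by
        rw [Finset.sum_subtype X (p := fun v => v ∈ X) (fun v => Iff.rfl)
          (fun u => if (tabGraph X M.1).Adj v u then (1 : ℕ) else 0)]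
        refine Finset.sum_congr rfl fun u _ => ?_
        rw [(tabGraph X M.1).adj_comm]
        simp only [tabGraph_adj u.2 hv]
        cases M.1 ⟨u.1, u.2⟩ ⟨v, hv⟩ <;> simp
      rw [h3, h4, M.2.2, cS]
      rfl⟩

/-- Realizations of a split degree vector are tables. -/
noncomputable def splitEquiv (hX : AllSplit d X) (G0 : Omega d) : Omega d ≃ Tab (rS d X) (cS d X) where
  toFun := toTab hX
  invFun := ofTab hX G0
  left_inv H := Subtype.ext (adj_split hX H).symm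
  right_inv M := by
    apply Tab.ext'
    intro u v
    simp only [toTab, ofTab, tabGraph_adj u.2 v.2]
    cases M.1 ⟨u.1, u.2⟩ ⟨v.1, v.2⟩ <;> simp

end table

section pairs

variable {n : ℕ}

lemma pair_ne {a b j k : Fin n} (hab : a ≠ b) (hjk : j ≠ k) (hak : a ≠ k) :
    ({s(a, j), s(b, k)} : Finset (Sym2 (Fin n))) ≠ {s(a, k), s(b, j)} := by
  intro h
  have h1 : s(a, j) ∈ ({s(a, k), s(b, j)} : Finset (Sym2 (Fin n))) := by
    rw [← h]
    simp
  rw [Finset.mem_insert, Finset.mem_singleton, Sym2.eq_iff, Sym2.eq_iff] at h1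
  rcases h1 with (⟨_, h1⟩ | ⟨h1, _⟩) | (⟨h1, _⟩ | ⟨h1, h2⟩)
  · exact hjk h1
  · exact hak h1
  · exact hab h1
  · exact hab (h1.trans h2)

/-- A sum over a finite set which is mapped with fibres of size at most four. -/
lemma sum_le_four {α β : Type*} (Q : Finset α) (T : Finset β) (φ : α → β) (g : β → ℝ)
    (hg : ∀ t, 0 ≤ g t) (hφ : ∀ q ∈ Q, φ q ∈ T)
    (hfib : ∀ q₀ ∈ Q, (Q.filter fun q => φ q = φ q₀).card ≤ 4) :
    ∑ q ∈ Q, g (φ q) ≤ 4 * ∑ t ∈ T, g t := by
  rw [← Finset.sum_fiberwise_of_maps_to hφ, Finset.mul_sum]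
  refine Finset.sum_le_sum fun t _ => ?_
  have h1 : ∑ q ∈ Q with φ q = t, g (φ q) = ((Q.filter fun q => φ q = t).card : ℝ) * g t := by
    rw [Finset.sum_congr rfl (g := fun _ => g t), Finset.sum_const, nsmul_eq_mul]
    intro q hq
    rw [(Finset.mem_filter.1 hq).2]
  rw [h1]
  refine mul_le_mul_of_nonneg_right ?_ (hg t)
  by_cases hne : (Q.filter fun q => φ q = t).Nonempty
  · obtain ⟨q₀, hq₀⟩ := hne
    rw [Finset.mem_filter] at hq₀
    have := hfib q₀ hq₀.1
    rw [hq₀.2] at this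
    exact_mod_cast this
  · rw [Finset.not_nonempty_iff_eq_empty] at hne
    rw [hne]
    norm_num

end pairs

section moves

variable {R S : Type*} [Fintype R] [Fintype S] {r : R → ℕ} {c : S → ℕ}

/-- The move of rows `a, b` and columns `j, k`. -/
noncomputable def mv (a b : R) (j k : S) (x : Tab r c) : Tab r c :=
  if a = b ∨ j = k then x else cs {a, b} j k x

lemma switch_gap_mv (f : Tab r c → ℝ) (hf : ∑ x, f x = 0) :
    16 * ip f f ≤ ∑ x, ∑ q : (R × R) × (S × S),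
      (f x - f (mv q.1.1 q.1.2 q.2.1 q.2.2 x)) ^ 2 := by
  refine (switch_gap_dirichlet f hf).trans (le_of_eq ?_)
  have hR : ∑ x, ∑ q : (R × R) × (S × S), (f x - f (mv q.1.1 q.1.2 q.2.1 q.2.2 x)) ^ 2 =
      ∑ a, ∑ b, ∑ j, ∑ k, ∑ x, (f x - f (mv a b j k x)) ^ 2 := by
    rw [Finset.sum_comm]
    rw [Fintype.sum_prod_type]
    rw [Fintype.sum_prod_type]
    refine Finset.sum_congr rfl fun a _ => Finset.sum_congr rfl fun b _ => ?_
    rw [Fintype.sum_prod_type]
  rw [hR]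
  refine Finset.sum_congr rfl fun a _ => Finset.sum_congr rfl fun b _ => ?_
  refine Finset.sum_congr rfl fun j _ => Finset.sum_congr rfl fun k _ => ?_
  by_cases h : a = b ∨ j = k
  · rw [if_pos h]
    symm
    refine Finset.sum_eq_zero fun x _ => ?_
    simp [mv, h]
  · rw [if_neg h]
    refine Finset.sum_congr rfl fun x _ => ?_
    simp [mv, h]

/-- Description of an effective move. -/
lemma mv_effective {a b : R} {j k : S} {x : Tab r c} (h : mv a b j k x ≠ x) :
    a ≠ b ∧ j ≠ k ∧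
      ((x.1 a j = true ∧ x.1 b k = true ∧ x.1 a k = false ∧ x.1 b j = false) ∨
        (x.1 a j = false ∧ x.1 b k = false ∧ x.1 a k = true ∧ x.1 b j = true)) ∧
      (mv a b j k x).1 a j = x.1 a k ∧ (mv a b j k x).1 a k = x.1 a j ∧
      (mv a b j k x).1 b j = x.1 b k ∧ (mv a b j k x).1 b k = x.1 b j ∧
      (∀ u l, u ≠ a → u ≠ b → (mv a b j k x).1 u l = x.1 u l) ∧
      (∀ u l, l ≠ j → l ≠ k → (mv a b j k x).1 u l = x.1 u l) := by
  have h0 : ¬ (a = b ∨ j = k) := by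
    intro h1
    exact h (by simp [mv, h1])
  have hmv : mv a b j k x = cs {a, b} j k x := by simp [mv, h0]
  rw [hmv] at h ⊢
  have htyp : typ {a, b} x j = typ {a, b} x k := by
    by_contra hne
    exact h (cs_of_ne hne)
  have hin : ∀ u l, u ∈ ({a, b} : Finset R) → (cs {a, b} j k x).1 u l = x.1 u (Equiv.swap j k l) := by
    intro u l hu
    rw [cs_of_eq htyp, swapFun, if_pos hu]
  have hout : ∀ u l, u ∉ ({a, b} : Finset R) → (cs {a, b} j k x).1 u l = x.1 u l := by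
    intro u l hu
    rw [cs_of_eq htyp, swapFun, if_neg hu]
  have ha : a ∈ ({a, b} : Finset R) := by simp
  have hb : b ∈ ({a, b} : Finset R) := by simp
  have hoth : ∀ u l, l ≠ j → l ≠ k → (cs {a, b} j k x).1 u l = x.1 u l := by
    intro u l hj hk
    by_cases hu : u ∈ ({a, b} : Finset R)
    · rw [hin u l hu, Equiv.swap_apply_of_ne_of_ne hj hk]
    · exact hout u l hu
  have hne : ¬ (x.1 a j = x.1 a k ∧ x.1 b j = x.1 b k) := by
    rintro ⟨h1, h2⟩
    apply h
    apply Tab.ext'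
    intro u v
    by_cases hu : u ∈ ({a, b} : Finset R)
    · rw [hin u v hu]
      rw [Finset.mem_insert, Finset.mem_singleton] at hu
      by_cases hvj : v = j
      · subst hvj
        rw [Equiv.swap_apply_left]
        rcases hu with rfl | rfl
        · exact h1.symm
        · exact h2.symm
      · by_cases hvk : v = k
        · subst hvk
          rw [Equiv.swap_apply_right]
          rcases hu with rfl | rfl
          · exact h1
          · exact h2
        · rw [Equiv.swap_apply_of_ne_of_ne hvj hvk]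
    · exact hout u v hu
  refine ⟨fun h1 => h0 (Or.inl h1), fun h1 => h0 (Or.inr h1), ?_, ?_, ?_, ?_, ?_, ?_, hoth⟩
  · unfold typ at htyp
    rw [Finset.sum_pair (fun h1 => h0 (Or.inl h1)), Finset.sum_pair (fun h1 => h0 (Or.inl h1))] at htyp
    revert htyp hne
    cases x.1 a j <;> cases x.1 a k <;> cases x.1 b j <;> cases x.1 b k <;> simp
  · rw [hin a j ha, Equiv.swap_apply_left]
  · rw [hin a k ha, Equiv.swap_apply_right]
  · rw [hin b j hb, Equiv.swap_apply_left]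
  · rw [hin b k hb, Equiv.swap_apply_right]
  · intro u l h1 h2
    exact hout u l (by simp [h1, h2])

end moves

section gap

variable {n : ℕ} {d : Fin n → ℕ} {X : Finset (Fin n)}

lemma toTab_apply (hX : AllSplit d X) (G : Omega d) (u : {v // v ∈ X}) (v : {v // v ∉ X}) :
    (toTab hX G).1 u v = decide (G.1.Adj u.1 v.1) := rfl

/-- Switches realize table moves. -/
lemma switch_eq_tab (hX : AllSplit d X) (G : Omega d) (M : Tab (rS d X) (cS d X))
    (a b : {v // v ∈ X}) (j k : {v // v ∉ X})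
    (hab : a ≠ b) (hjk : j ≠ k) (h1 : G.1.Adj a j) (h2 : G.1.Adj b k) (h3 : ¬ G.1.Adj a k)
    (h4 : ¬ G.1.Adj b j) (m1 : M.1 a j = false) (m2 : M.1 a k = true) (m3 : M.1 b j = true)
    (m4 : M.1 b k = false) (m5 : ∀ u l, u ≠ a → u ≠ b → M.1 u l = (toTab hX G).1 u l)
    (m6 : ∀ u l, l ≠ j → l ≠ k → M.1 u l = (toTab hX G).1 u l) :
    switch G.1 {s(a.1, j.1), s(b.1, k.1)} {s(a.1, k.1), s(b.1, j.1)} = tabGraph X M.1 := by
  have hab' : a.1 ≠ b.1 := fun h => hab (Subtype.ext h)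
  have hjk' : j.1 ≠ k.1 := fun h => hjk (Subtype.ext h)
  unfold switch
  rw [if_pos]
  swap
  · constructor
    · intro e he
      rw [Finset.mem_insert, Finset.mem_singleton] at he
      rcases he with rfl | rfl
      · exact h1
      · exact h2
    · intro e he
      rw [Finset.mem_insert, Finset.mem_singleton] at he
      rcases he with rfl | rfl
      · exact h3
      · exact h4
  obtain ⟨hX1, hX2⟩ := hX G
  refine split_ext (X := X) ?_ ?_ ?_
  · intro u hu v hv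
    rw [tabGraph_adj_in hu hv, SimpleGraph.fromEdgeSet_adj]
    constructor
    · exact fun h => h.2
    · intro huv
      refine ⟨Or.inl ⟨hX1 u hu v hv huv, ?_⟩, huv⟩
      intro hmem
      simp only [Finset.coe_insert, Finset.coe_singleton, Set.mem_insert_iff, Set.mem_singleton_iff,
        Sym2.eq_iff] at hmem
      rcases hmem with (⟨_, h⟩ | ⟨h, _⟩) | (⟨_, h⟩ | ⟨h, _⟩)
      · exact j.2 (h ▸ hv)
      · exact j.2 (h ▸ hu)
      · exact k.2 (h ▸ hv)
      · exact k.2 (h ▸ hu)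
  · intro u hu v hv
    refine iff_of_false ?_ (tabGraph_adj_out hu hv)
    rw [SimpleGraph.fromEdgeSet_adj]
    rintro ⟨h | h, _⟩
    · exact hX2 u hu v hv h.1
    · simp only [Finset.coe_insert, Finset.coe_singleton, Set.mem_insert_iff, Set.mem_singleton_iff,
        Sym2.eq_iff] at h
      rcases h with (⟨h, _⟩ | ⟨_, h⟩) | (⟨h, _⟩ | ⟨_, h⟩)
      · exact hu (h ▸ a.2)
      · exact hv (h ▸ a.2)
      · exact hu (h ▸ b.2)
      · exact hv (h ▸ b.2)
  · intro u hu v hv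
    have huv : u ≠ v := fun h => hv (h ▸ hu)
    have hva : v ≠ a.1 := fun h => hv (h ▸ a.2)
    have hvb : v ≠ b.1 := fun h => hv (h ▸ b.2)
    have huj : u ≠ j.1 := fun h => j.2 (h ▸ hu)
    have huk : u ≠ k.1 := fun h => k.2 (h ▸ hu)
    have hL : (SimpleGraph.fromEdgeSet (G.1.edgeSet \
        (({s(a.1, j.1), s(b.1, k.1)} : Finset (Sym2 (Fin n))) : Set (Sym2 (Fin n))) ∪
        (({s(a.1, k.1), s(b.1, j.1)} : Finset (Sym2 (Fin n))) : Set (Sym2 (Fin n))))).Adj u v ↔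
        (G.1.Adj u v ∧ ¬ ((u = a.1 ∧ v = j.1) ∨ (u = b.1 ∧ v = k.1))) ∨
          ((u = a.1 ∧ v = k.1) ∨ (u = b.1 ∧ v = j.1)) := by
      rw [SimpleGraph.fromEdgeSet_adj]
      simp only [Finset.coe_insert, Finset.coe_singleton, Set.mem_union, Set.mem_sdiff,
        SimpleGraph.mem_edgeSet, Set.mem_insert_iff, Set.mem_singleton_iff, Sym2.eq_iff, huj, huk,
        false_and, or_false, ne_eq, huv, not_false_eq_true, and_true]
    rw [hL, tabGraph_adj hu hv]
    by_cases hu' : u = a.1 ∨ u = b.1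
    · by_cases hv' : v = j.1 ∨ v = k.1
      · rcases hu' with rfl | rfl <;> rcases hv' with rfl | rfl
        · rw [Subtype.coe_eta, Subtype.coe_eta, m1]
          simp [hab', hjk']
        · rw [Subtype.coe_eta, Subtype.coe_eta, m2]
          simp
        · rw [Subtype.coe_eta, Subtype.coe_eta, m3]
          simp
        · rw [Subtype.coe_eta, Subtype.coe_eta, m4]
          simp [hab'.symm, hjk'.symm]
      · push Not at hv'
        rw [m6 _ _ (fun h => hv'.1 (congrArg Subtype.val h)) (fun h => hv'.2 (congrArg Subtype.val h)),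
          toTab_apply]
        simp [hv'.1, hv'.2]
    · push Not at hu'
      rw [m5 _ _ (fun h => hu'.1 (congrArg Subtype.val h)) (fun h => hu'.2 (congrArg Subtype.val h)),
        toTab_apply]
      simp [hu'.1, hu'.2]

/-- The contribution of one target graph. -/
noncomputable def wgt (f : Omega d → ℝ) (G : Omega d) (K : SimpleGraph (Fin n)) : ℝ :=
  ∑ H : Omega d, (if K = H.1 then 1 else 0) * (f G - f H) ^ 2

lemma wgt_nonneg (f : Omega d → ℝ) (G : Omega d) (K : SimpleGraph (Fin n)) : 0 ≤ wgt f G K :=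
  Finset.sum_nonneg fun H _ => mul_nonneg (by split_ifs <;> norm_num) (sq_nonneg _)

lemma wgt_self (f : Omega d → ℝ) (G H : Omega d) : wgt f G H.1 = (f G - f H) ^ 2 := by
  unfold wgt
  rw [Finset.sum_eq_single H]
  · simp
  · intro K _ hK
    rw [if_neg, zero_mul]
    intro h
    exact hK (Subtype.ext h.symm)
  · intro h
    exact absurd (Finset.mem_univ H) h

/-- All choices of a four-set and of a pair of perfect matchings. -/
noncomputable def choices (n : ℕ) :
    Finset (Σ _ : Finset (Fin n), Finset (Sym2 (Fin n)) × Finset (Sym2 (Fin n))) :=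
  ((Finset.univ : Finset (Fin n)).powersetCard 4).sigma fun S => pmPairs S

lemma row_dirichlet (f : Omega d → ℝ) (G : Omega d) :
    ∑ H, switchChain d G H * (f G - f H) ^ 2 =
      1 / (12 * (n.choose 4 : ℝ)) * ∑ s ∈ choices n, wgt f G (switch G.1 s.2.1 s.2.2) := by
  have h1 : ∀ H : Omega d, switchChain d G H * (f G - f H) ^ 2 =
      ∑ S ∈ (Finset.univ : Finset (Fin n)).powersetCard 4, ∑ p ∈ pmPairs S,
        1 / (12 * (n.choose 4 : ℝ)) * ((if switch G.1 p.1 p.2 = H.1 then 1 else 0) *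
          (f G - f H) ^ 2) := by
    intro H
    unfold switchChain
    have h2 : (1 / 2 : ℝ) * (if G = H then 1 else 0) * (f G - f H) ^ 2 = 0 := by
      by_cases h : G = H
      · subst h
        simp
      · simp [h]
    rw [add_mul, h2, zero_add, mul_assoc, Finset.sum_mul, Finset.mul_sum]
    refine Finset.sum_congr rfl fun S hS => ?_
    rw [pmPairs_card S (Finset.mem_powersetCard.1 hS).2, Finset.mul_sum, Finset.sum_mul,
      Finset.mul_sum]
    refine Finset.sum_congr rfl fun p _ => ?_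
    push_cast
    have : (1 : ℝ) / (12 * (n.choose 4 : ℝ)) = 1 / 2 * (1 / (n.choose 4 : ℝ)) * (1 / 6) := by
      rw [one_div_mul_one_div, one_div_mul_one_div]
      congr 1
      ring
    rw [this]
    ring
  simp_rw [h1]
  rw [Finset.sum_comm, choices, Finset.sum_sigma, Finset.mul_sum]
  refine Finset.sum_congr rfl fun S _ => ?_
  rw [Finset.sum_comm, Finset.mul_sum]
  refine Finset.sum_congr rfl fun p _ => ?_
  rw [wgt, Finset.mul_sum]

lemma quad_mem {a b j k : Fin n} (hab : a ≠ b) (hjk : j ≠ k) (haj : a ≠ j) (hak : a ≠ k)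
    (hbj : b ≠ j) (hbk : b ≠ k) :
    ({s(a, j), s(b, k)}, {s(a, k), s(b, j)}) ∈ pmPairs ({a, j, b, k} : Finset (Fin n)) := by
  rw [mem_pmPairs]
  refine ⟨isPM_pair haj hab hak hbj.symm hjk hbk rfl, ?_, pair_ne hab hjk hak⟩
  refine isPM_pair hak hab haj hbk.symm hjk.symm hbj ?_
  ext v
  simp only [Finset.mem_insert, Finset.mem_singleton]
  tauto

/-- The choice belonging to an effective move. -/
noncomputable def chc (G : SimpleGraph (Fin n))
    (q : ({v // v ∈ X} × {v // v ∈ X}) × ({v // v ∉ X} × {v // v ∉ X})) :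
    Σ _ : Finset (Fin n), Finset (Sym2 (Fin n)) × Finset (Sym2 (Fin n)) :=
  ⟨{q.1.1.1, q.2.1.1, q.1.2.1, q.2.2.1},
    if G.Adj q.1.1 q.2.1 then
      ({s(q.1.1.1, q.2.1.1), s(q.1.2.1, q.2.2.1)}, {s(q.1.1.1, q.2.2.1), s(q.1.2.1, q.2.1.1)})
    else
      ({s(q.1.1.1, q.2.2.1), s(q.1.2.1, q.2.1.1)}, {s(q.1.1.1, q.2.1.1), s(q.1.2.1, q.2.2.1)})⟩

/-- An effective move is a choice. -/
lemma chc_mem (hX : AllSplit d X) (G : Omega d)
    (q : ({v // v ∈ X} × {v // v ∈ X}) × ({v // v ∉ X} × {v // v ∉ X}))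
    (h : mv q.1.1 q.1.2 q.2.1 q.2.2 (toTab hX G) ≠ toTab hX G) : chc G.1 q ∈ choices n := by
  obtain ⟨hab, hjk, -⟩ := mv_effective h
  have hab' : q.1.1.1 ≠ q.1.2.1 := fun h => hab (Subtype.ext h)
  have hjk' : q.2.1.1 ≠ q.2.2.1 := fun h => hjk (Subtype.ext h)
  have hin : ∀ (u : {v // v ∈ X}) (v : {v // v ∉ X}), u.1 ≠ v.1 := by
    intro u v h
    exact v.2 (h ▸ u.2)
  rw [choices, Finset.mem_sigma, Finset.mem_powersetCard]
  refine ⟨⟨Finset.subset_univ _, ?_⟩, ?_⟩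
  · simp only [chc]
    rw [Finset.card_insert_of_notMem, Finset.card_insert_of_notMem, Finset.card_pair (hin _ _)]
    · simp only [Finset.mem_insert, Finset.mem_singleton, not_or]
      exact ⟨(hin _ _).symm, hjk'⟩
    · simp only [Finset.mem_insert, Finset.mem_singleton, not_or]
      exact ⟨hin _ _, hab', hin _ _⟩
  · by_cases hadj : G.1.Adj q.1.1 q.2.1
    · simp only [chc, if_pos hadj]
      exact quad_mem hab' hjk' (hin _ _) (hin _ _) (hin _ _) (hin _ _)
    · simp only [chc, if_neg hadj]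
      have := quad_mem (n := n) hab' hjk'.symm (hin q.1.1 q.2.2) (hin _ _) (hin _ _) (hin _ _)
      have hS : ({q.1.1.1, q.2.1.1, q.1.2.1, q.2.2.1} : Finset (Fin n)) =
          {q.1.1.1, q.2.2.1, q.1.2.1, q.2.1.1} := by
        ext v
        simp only [Finset.mem_insert, Finset.mem_singleton]
        tauto
      rw [hS]
      exact this

/-- The value of an effective move. -/
lemma chc_val (hX : AllSplit d X) (G0 G : Omega d) (f : Omega d → ℝ)
    (q : ({v // v ∈ X} × {v // v ∈ X}) × ({v // v ∉ X} × {v // v ∉ X}))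
    (h : mv q.1.1 q.1.2 q.2.1 q.2.2 (toTab hX G) ≠ toTab hX G) :
    wgt f G (switch G.1 (chc G.1 q).2.1 (chc G.1 q).2.2) =
      (f G - f (ofTab hX G0 (mv q.1.1 q.1.2 q.2.1 q.2.2 (toTab hX G)))) ^ 2 := by
  obtain ⟨hab, hjk, hst, e1, e2, e3, e4, e5, e6⟩ := mv_effective h
  rw [← wgt_self]
  congr 1
  change _ = tabGraph X _
  rcases hst with ⟨s1, s2, s3, s4⟩ | ⟨s1, s2, s3, s4⟩
  · rw [s3] at e1
    rw [s1] at e2
    rw [s2] at e3
    rw [s4] at e4
    rw [toTab_apply, decide_eq_true_iff] at s1 s2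
    rw [toTab_apply, decide_eq_false_iff_not] at s3 s4
    simp only [chc, if_pos s1]
    exact switch_eq_tab hX G _ _ _ _ _ hab hjk s1 s2 s3 s4 e1 e2 e3 e4 e5 e6
  · rw [s3] at e1
    rw [s1] at e2
    rw [s2] at e3
    rw [s4] at e4
    rw [toTab_apply, decide_eq_true_iff] at s3 s4
    rw [toTab_apply, decide_eq_false_iff_not] at s1 s2
    simp only [chc, if_neg s1]
    exact switch_eq_tab hX G _ _ _ _ _ hab hjk.symm s3 s4 s1 s2 e2 e1 e4 e3 e5
      (fun u l h1 h2 => e6 u l h2 h1)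

/-- At most four moves belong to one choice. -/
lemma chc_fib (G : SimpleGraph (Fin n))
    (Q : Finset (({v // v ∈ X} × {v // v ∈ X}) × ({v // v ∉ X} × {v // v ∉ X})))
    (q₀ : ({v // v ∈ X} × {v // v ∈ X}) × ({v // v ∉ X} × {v // v ∉ X}))
    (hQ : ∀ q ∈ Q, (q.1.1 ≠ q.1.2 ∧ q.2.1 ≠ q.2.2) ∧ chc G q = chc G q₀) :
    Q.card ≤ 4 := by
  obtain ⟨⟨a, b⟩, ⟨j, k⟩⟩ := q₀
  refine (Finset.card_le_card (t := {((a, b), (j, k)), ((a, b), (k, j)), ((b, a), (j, k)),
    ((b, a), (k, j))}) ?_).trans Finset.card_le_four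
  intro q hq
  obtain ⟨⟨hne1, hne2⟩, hq2⟩ := hQ q hq
  obtain ⟨⟨a', b'⟩, ⟨j', k'⟩⟩ := q
  simp only at hne1 hne2
  have hS : ({a'.1, j'.1, b'.1, k'.1} : Finset (Fin n)) = {a.1, j.1, b.1, k.1} :=
    congrArg Sigma.fst hq2
  have hrow : ∀ u : {v // v ∈ X}, u.1 ∈ ({a'.1, j'.1, b'.1, k'.1} : Finset (Fin n)) → u = a ∨ u = b := by
    intro u hu
    rw [hS] at hu
    simp only [Finset.mem_insert, Finset.mem_singleton] at hu
    rcases hu with h | h | h | h
    · exact Or.inl (Subtype.ext h)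
    · exact absurd (h ▸ u.2) j.2
    · exact Or.inr (Subtype.ext h)
    · exact absurd (h ▸ u.2) k.2
  have hcol : ∀ u : {v // v ∉ X}, u.1 ∈ ({a'.1, j'.1, b'.1, k'.1} : Finset (Fin n)) → u = j ∨ u = k := by
    intro u hu
    rw [hS] at hu
    simp only [Finset.mem_insert, Finset.mem_singleton] at hu
    rcases hu with h | h | h | h
    · exact absurd a.2 (h ▸ u.2)
    · exact Or.inl (Subtype.ext h)
    · exact absurd b.2 (h ▸ u.2)
    · exact Or.inr (Subtype.ext h)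
  have ha := hrow a' (by simp)
  have hb := hrow b' (by simp)
  have hj := hcol j' (by simp)
  have hk := hcol k' (by simp)
  simp only [Finset.mem_insert, Finset.mem_singleton, Prod.mk.injEq]
  rcases ha with rfl | rfl <;> rcases hb with rfl | rfl <;> rcases hj with rfl | rfl <;>
    rcases hk with rfl | rfl <;> simp_all

/-- The move as a function on the realizations. -/
noncomputable def gmv (hX : AllSplit d X) (G0 G : Omega d)
    (q : ({v // v ∈ X} × {v // v ∈ X}) × ({v // v ∉ X} × {v // v ∉ X})) : Omega d :=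
  ofTab hX G0 (mv q.1.1 q.1.2 q.2.1 q.2.2 (toTab hX G))

/-- The move is effective. -/
def Eff (hX : AllSplit d X) (G : Omega d)
    (q : ({v // v ∈ X} × {v // v ∈ X}) × ({v // v ∉ X} × {v // v ∉ X})) : Prop :=
  mv q.1.1 q.1.2 q.2.1 q.2.2 (toTab hX G) ≠ toTab hX G

lemma gmv_not_eff (hX : AllSplit d X) (G0 G : Omega d)
    (q : ({v // v ∈ X} × {v // v ∈ X}) × ({v // v ∉ X} × {v // v ∉ X})) (h : ¬ Eff hX G q) :
    gmv hX G0 G q = G := by
  unfold Eff at h
  rw [not_not] at h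
  rw [gmv, h]
  exact (splitEquiv hX G0).symm_apply_apply G

/-- Abstract counting of a sum over moves. -/
lemma sum_eff_le {α β : Type*} [Fintype α] (T : Finset β) (E : α → Prop) (φ : α → β) (g : β → ℝ)
    (h : α → ℝ) (h0 : ∀ q, ¬ E q → h q = 0) (h1 : ∀ q, E q → h q = g (φ q))
    (hg : ∀ t, 0 ≤ g t) (hφ : ∀ q, E q → φ q ∈ T)
    (hfib : ∀ q₀, ∀ F : Finset α, (∀ q ∈ F, E q ∧ φ q = φ q₀) → F.card ≤ 4) :
    ∑ q, h q ≤ 4 * ∑ t ∈ T, g t := by
  have e1 : ∑ q, h q = ∑ q ∈ Finset.univ.filter E, h q := by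
    rw [Finset.sum_filter]
    refine Finset.sum_congr rfl fun q _ => ?_
    by_cases hq : E q
    · rw [if_pos hq]
    · rw [if_neg hq, h0 q hq]
  have e2 : ∑ q ∈ Finset.univ.filter E, h q = ∑ q ∈ Finset.univ.filter E, g (φ q) := by
    refine Finset.sum_congr rfl fun q hq => ?_
    exact h1 q (Finset.mem_filter.1 hq).2
  rw [e1, e2]
  refine sum_le_four _ T φ g hg ?_ ?_
  · intro q hq
    exact hφ q (Finset.mem_filter.1 hq).2
  · intro q₀ _
    refine hfib q₀ _ ?_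
    intro q hq
    rw [Finset.mem_filter, Finset.mem_filter] at hq
    exact ⟨hq.1.2, hq.2⟩

lemma row_moves_le (hX : AllSplit d X) (G0 G : Omega d) (f : Omega d → ℝ) :
    ∑ q : ({v // v ∈ X} × {v // v ∈ X}) × ({v // v ∉ X} × {v // v ∉ X}),
      (f G - f (gmv hX G0 G q)) ^ 2 ≤
      4 * ∑ s ∈ choices n, wgt f G (switch G.1 s.2.1 s.2.2) := by
  refine sum_eff_le (choices n) (Eff hX G) (chc G.1)
    (fun s => wgt f G (switch G.1 s.2.1 s.2.2)) _ ?_ ?_ ?_ ?_ ?_
  · intro q hq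
    rw [gmv_not_eff hX G0 G q hq]
    ring
  · intro q hq
    exact (chc_val hX G0 G f q hq).symm
  · intro t
    exact wgt_nonneg f G _
  · intro q hq
    exact chc_mem hX G q hq
  · intro q₀ F hF
    refine chc_fib G.1 F q₀ ?_
    intro q hq
    obtain ⟨h3, h4⟩ := hF q hq
    obtain ⟨h1, h2, -⟩ := mv_effective h3
    exact ⟨⟨h1, h2⟩, h4⟩

lemma total_moves (hX : AllSplit d X) (G0 : Omega d) (f : Omega d → ℝ) (hf : ∑ x, f x = 0) :
    16 * ip f f ≤ ∑ G : Omega d,
      ∑ q : ({v // v ∈ X} × {v // v ∈ X}) × ({v // v ∉ X} × {v // v ∉ X}),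
      (f G - f (gmv hX G0 G q)) ^ 2 := by
  have hf' : ∑ M, f (ofTab hX G0 M) = 0 := by
    rw [← hf]
    exact Equiv.sum_comp (splitEquiv hX G0).symm f
  have hip : ip (fun M => f (ofTab hX G0 M)) (fun M => f (ofTab hX G0 M)) = ip f f :=
    Equiv.sum_comp (splitEquiv hX G0).symm (fun x => f x * f x)
  have hgap := switch_gap_mv (fun M => f (ofTab hX G0 M)) hf'
  rw [hip, ← Equiv.sum_comp (splitEquiv hX G0)] at hgap
  refine hgap.trans (le_of_eq ?_)
  refine Finset.sum_congr rfl fun G _ => Finset.sum_congr rfl fun q _ => ?_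
  have h1 : ofTab hX G0 ((splitEquiv hX G0) G) = G := (splitEquiv hX G0).symm_apply_apply G
  have h2 : ((splitEquiv hX G0) G) = toTab hX G := rfl
  simp only [gmv]
  rw [h1, h2]

lemma total_choices (hX : AllSplit d X) (G0 : Omega d) (f : Omega d → ℝ) (hf : ∑ x, f x = 0) :
    4 * ip f f ≤ ∑ G : Omega d, ∑ s ∈ choices n, wgt f G (switch G.1 s.2.1 s.2.2) := by
  have h1 := (total_moves hX G0 f hf).trans
    (Finset.sum_le_sum fun G _ => row_moves_le hX G0 G f)
  rw [← Finset.mul_sum] at h1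
  linarith

/-- Gap of the switch chain for split degree vectors. -/
theorem split_gap {n : ℕ} (hn : 4 ≤ n) (d : Fin n → ℕ) (hd : IsSplitVector d)
    (f : Omega d → ℝ) (hf : ∑ x, f x = 0) :
    ip ((switchChain d).mulVec f) f ≤ (1 - 1 / (6 * (n.choose 4 : ℝ))) * ip f f := by
  obtain ⟨G0, X', h1, h2⟩ := hd
  obtain ⟨X, hX⟩ : ∃ X : Finset (Fin n), AllSplit d X := by
    refine ⟨Finset.univ.filter (· ∈ X'), ?_⟩
    intro H
    have := split_all d G0 X' h1 h2 H
    simpa using this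
  have hC : (0 : ℝ) < (n.choose 4 : ℝ) := by
    exact_mod_cast Nat.choose_pos hn
  have hdir := switchChain_dirichlet hn d f
  have h8 := total_choices hX G0 f hf
  have hrow : ∑ G, ∑ H, switchChain d G H * (f G - f H) ^ 2 =
      1 / (12 * (n.choose 4 : ℝ)) * ∑ G : Omega d, ∑ s ∈ choices n,
        wgt f G (switch G.1 s.2.1 s.2.2) := by
    rw [Finset.mul_sum]
    exact Finset.sum_congr rfl fun G _ => row_dirichlet f G
  rw [hrow] at hdir
  have h5 : (1 : ℝ) / (6 * (n.choose 4 : ℝ)) * ip f f ≤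
      1 / 2 * (1 / (12 * (n.choose 4 : ℝ)) * ∑ G : Omega d, ∑ s ∈ choices n,
        wgt f G (switch G.1 s.2.1 s.2.2)) := by
    have h6 : (1 : ℝ) / (6 * (n.choose 4 : ℝ)) * ip f f =
        1 / 2 * (1 / (12 * (n.choose 4 : ℝ)) * (4 * ip f f)) := by
      field_simp
      ring
    rw [h6]
    have h7 : (0 : ℝ) < 1 / (12 * (n.choose 4 : ℝ)) := by positivity
    have h9 := mul_le_mul_of_nonneg_left h8 h7.le
    linarith
  rw [sub_mul, one_mul]
  linarith

end gap

end Vale.Agent.P335
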