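import Mathlib
import Vale.Agent.P335.SplitGap
import Vale.Agent.P335.GComm

/-!
# P335, general case: counting ordered quadruples
-/

open Finset
open scoped Classical

namespace Vale.Agent.P335

variable {n : ℕ}

/-- The pair of matchings of an ordered quadruple. -/
noncomputable def qpair (u v y z : Fin n) : Finset (Sym2 (Fin n)) × Finset (Sym2 (Fin n)) :=
  ({s(u, y), s(v, z)}, {s(u, z), s(v, y)})

/-- The choice of an ordered quadruple. -/
noncomputable def qch (q : Fin n × Fin n × Fin n × Fin n) :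
    (Σ _ : Finset (Fin n), Finset (Sym2 (Fin n)) × Finset (Sym2 (Fin n))) :=
  ⟨{q.1, q.2.1, q.2.2.1, q.2.2.2}, qpair q.1 q.2.1 q.2.2.1 q.2.2.2⟩

lemma qch_mem {q : Fin n × Fin n × Fin n × Fin n} (h : Dist4 q.1 q.2.1 q.2.2.1 q.2.2.2) :
    qch q ∈ choices n := by
  obtain ⟨u, v, y, z⟩ := q
  obtain ⟨huv, hyz, huy, huz, hvy, hvz⟩ := h
  simp only at huv hyz huy huz hvy hvz
  unfold choices qch
  rw [Finset.mem_sigma]
  constructor
  · rw [Finset.mem_powersetCard]
    refine ⟨Finset.subset_univ _, ?_⟩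
    rw [Finset.card_eq_four]
    exact ⟨u, v, y, z, huv, huy, huz, hvy, hvz, hyz, rfl⟩
  · show qpair u v y z ∈ pmPairs {u, v, y, z}
    rw [mem_pmPairs]
    refine ⟨?_, ?_, ?_⟩
    · exact isPM_pair huy huv huz hvy.symm hyz hvz
        (by ext a; simp only [Finset.mem_insert, Finset.mem_singleton]; tauto)
    · exact isPM_pair huz huv huy hvz.symm hyz.symm hvy
        (by ext a; simp only [Finset.mem_insert, Finset.mem_singleton]; tauto)
    · exact pair_ne huv hyz huz

lemma qch_inj {q q' : Fin n × Fin n × Fin n × Fin n} (h : Dist4 q.1 q.2.1 q.2.2.1 q.2.2.2)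
    (h' : Dist4 q'.1 q'.2.1 q'.2.2.1 q'.2.2.2) (he : qch q = qch q') (h1 : q.1 = q'.1) :
    q = q' := by
  obtain ⟨u, v, y, z⟩ := q
  obtain ⟨u', v', y', z'⟩ := q'
  obtain ⟨huv, hyz, huy, huz, hvy, hvz⟩ := h
  obtain ⟨huv', hyz', huy', huz', hvy', hvz'⟩ := h'
  simp only at huv hyz huy huz hvy hvz huv' hyz' huy' huz' hvy' hvz' h1
  subst h1
  have hp : qpair u v y z = qpair u v' y' z' := by
    have := congrArg (fun t => t.2) he
    exact this
  unfold qpair at hp
  rw [Prod.mk.injEq] at hp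
  obtain ⟨hp1, hp2⟩ := hp
  have e1 : s(u, y') ∈ ({s(u, y), s(v, z)} : Finset (Sym2 (Fin n))) := by rw [hp1]; simp
  have e2 : s(u, z') ∈ ({s(u, z), s(v, y)} : Finset (Sym2 (Fin n))) := by rw [hp2]; simp
  have e3 : s(v', z') ∈ ({s(u, y), s(v, z)} : Finset (Sym2 (Fin n))) := by rw [hp1]; simp
  have hy : y' = y := by
    rw [Finset.mem_insert, Finset.mem_singleton, Sym2.eq_iff, Sym2.eq_iff] at e1
    rcases e1 with (⟨-, h2⟩ | ⟨h2, h3⟩) | (⟨h2, -⟩ | ⟨h2, -⟩)
    · exact h2
    · exact absurd h2 huy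
    · exact absurd h2 huv
    · exact absurd h2 huz
  have hz : z' = z := by
    rw [Finset.mem_insert, Finset.mem_singleton, Sym2.eq_iff, Sym2.eq_iff] at e2
    rcases e2 with (⟨-, h2⟩ | ⟨h2, h3⟩) | (⟨h2, -⟩ | ⟨h2, -⟩)
    · exact h2
    · exact absurd h2 huz
    · exact absurd h2 huv
    · exact absurd h2 huy
  subst hy hz
  have hv : v' = v := by
    rw [Finset.mem_insert, Finset.mem_singleton, Sym2.eq_iff, Sym2.eq_iff] at e3
    rcases e3 with (⟨-, h2⟩ | ⟨-, h2⟩) | (⟨h2, -⟩ | ⟨-, h2⟩)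
    · exact absurd h2.symm hyz
    · exact absurd h2.symm huz
    · exact h2
    · exact absurd h2.symm hvz
  rw [hv]

/-- Ordered quadruples of distinct vertices cover every pair of matchings at most four times. -/
theorem quad_count (Φ : Finset (Sym2 (Fin n)) × Finset (Sym2 (Fin n)) → ℝ) (hΦ : ∀ p, 0 ≤ Φ p) :
    ∑ u : Fin n, ∑ v : Fin n, ∑ y : Fin n, ∑ z : Fin n,
      (if Dist4 u v y z then Φ (qpair u v y z) else 0) ≤ 4 * ∑ s ∈ choices n, Φ s.2 := by
  have h1 : ∑ u : Fin n, ∑ v : Fin n, ∑ y : Fin n, ∑ z : Fin n,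
      (if Dist4 u v y z then Φ (qpair u v y z) else 0)
      = ∑ q : Fin n × Fin n × Fin n × Fin n,
          (if Dist4 q.1 q.2.1 q.2.2.1 q.2.2.2 then Φ (qch q).2 else 0) := by
    rw [Fintype.sum_prod_type]
    refine Finset.sum_congr rfl (fun u _ => ?_)
    rw [Fintype.sum_prod_type]
    refine Finset.sum_congr rfl (fun v _ => ?_)
    rw [Fintype.sum_prod_type]
    rfl
  rw [h1]
  refine sum_eff_le (choices n) (fun q => Dist4 q.1 q.2.1 q.2.2.1 q.2.2.2) qch
    (fun s => Φ s.2) _ ?_ ?_ (fun s => hΦ s.2) ?_ ?_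
  · intro q hq
    exact if_neg hq
  · intro q hq
    exact if_pos hq
  · intro q hq
    exact qch_mem hq
  · intro q₀ F hF
    by_cases hne : F.Nonempty
    · obtain ⟨q1, hq1⟩ := hne
      have hc : (F.image (fun q : Fin n × Fin n × Fin n × Fin n => q.1)).card
          ≤ (qch q₀).1.card := by
        apply Finset.card_le_card
        intro u hu
        obtain ⟨q, hq, rfl⟩ := Finset.mem_image.mp hu
        rw [← (hF q hq).2]
        show q.1 ∈ ({q.1, q.2.1, q.2.2.1, q.2.2.2} : Finset (Fin n))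
        simp
      rw [Finset.card_image_of_injOn] at hc
      · refine hc.trans ?_
        have h3 := qch_mem (hF q1 hq1).1
        rw [(hF q1 hq1).2] at h3
        unfold choices at h3
        rw [Finset.mem_sigma, Finset.mem_powersetCard] at h3
        exact h3.1.2.le
      · intro q hq q' hq' h
        have hq1 := hF q (Finset.mem_coe.mp hq)
        have hq2 := hF q' (Finset.mem_coe.mp hq')
        exact qch_inj hq1.1 hq2.1 (hq1.2.trans hq2.2.symm) h
    · rw [Finset.not_nonempty_iff_eq_empty] at hne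
      rw [hne]; simp

end Vale.Agent.P335
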