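import Mathlib
import Vale.Agent.P335.GDefs

/-!
# P335, general case: the operators `M_{pq}`
-/

open Finset
open scoped Classical

namespace Vale.Agent.P335

variable {V : Type*} [Fintype V] {d : V → ℕ}

/-- Key of the pair `u, v` together with the information whether the switch on `{u,v} × {w,x}` is
available. -/
noncomputable def akey (u v w x : V) (G : Gr d) : ((V → V → Bool) × (V → ℕ)) × Prop :=
  (pkey u v G, act u v w x G)

/-- `M_{pq} f`: on the graphs where the switch on `{u,v} × {w,x}` is available, the average of `f`
over the graphs with this property in the fibre of the pair `u, v`; zero elsewhere. -/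
noncomputable def Mop (u v w x : V) (f : Gr d → ℝ) : Gr d → ℝ :=
  fun G => if act u v w x G then avg (akey u v w x) f G else 0

end Vale.Agent.P335
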