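import Mathlib
import Vale.Agent.P335.Avg
import Vale.Agent.P335.Spectral
import Vale.Agent.P335.ThreeKey

/-!
# P335: the maximum principle on a pair fibre, abstract version

A `JModel` is a finite set fibred over keys `κ`, every point having a Boolean coordinate `ρ` on the
exclusive columns, with transpositions `T w x` exchanging opposite coordinates.
-/

open Finset
open scoped Classical

set_option linter.unusedSectionVars false

namespace Vale.Agent.P335

/-- Abstract pair fibres. -/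
structure JModel (Ω V K : Type*) where
  κ : Ω → K
  ρ : Ω → V → Bool
  exc : V → Ω → Prop
  T : V → V → Ω → Ω
  hext : ∀ y y', κ y = κ y' → ρ y = ρ y' → y = y'
  hexc : ∀ c y y', κ y = κ y' → (exc c y ↔ exc c y')
  hκT : ∀ w x y, κ (T w x y) = κ y
  hρT : ∀ w x y c, ρ (T w x y) c
    = if (w ≠ x ∧ exc w y ∧ exc x y ∧ ρ y w ≠ ρ y x) ∧ (c = w ∨ c = x) then !ρ y c else ρ y c
  hconn : ∀ f : Ω → ℝ, (∀ w x y, f (T w x y) = f y) → ∀ y y', κ y = κ y' → f y = f y'

namespace JModel

variable {Ω V K : Type*} (J : JModel Ω V K)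

/-- The transposition `w x` is active. -/
def act (w x : V) (y : Ω) : Prop := w ≠ x ∧ J.exc w y ∧ J.exc x y ∧ J.ρ y w ≠ J.ρ y x

lemma ρT (w x : V) (y : Ω) (c : V) :
    J.ρ (J.T w x y) c = if J.act w x y ∧ (c = w ∨ c = x) then !J.ρ y c else J.ρ y c := by
  by_cases h : (w ≠ x ∧ J.exc w y ∧ J.exc x y ∧ J.ρ y w ≠ J.ρ y x) ∧ (c = w ∨ c = x)
  · rw [J.hρT, if_pos h, if_pos (show J.act w x y ∧ (c = w ∨ c = x) from h)]
  · rw [J.hρT, if_neg h, if_neg (show ¬ (J.act w x y ∧ (c = w ∨ c = x)) from h)]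

lemma T_of_not {w x : V} {y : Ω} (h : ¬ J.act w x y) : J.T w x y = y := by
  apply J.hext _ _ (J.hκT w x y)
  funext c
  rw [ρT, if_neg]
  tauto

lemma excT (c w x : V) (y : Ω) : J.exc c (J.T w x y) ↔ J.exc c y :=
  J.hexc c _ _ (J.hκT w x y)

lemma ρT_left {w x : V} {y : Ω} (h : J.act w x y) : J.ρ (J.T w x y) w = !J.ρ y w := by
  rw [ρT, if_pos ⟨h, Or.inl rfl⟩]

lemma ρT_right {w x : V} {y : Ω} (h : J.act w x y) : J.ρ (J.T w x y) x = !J.ρ y x := by
  rw [ρT, if_pos ⟨h, Or.inr rfl⟩]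

lemma ρT_other {w x : V} (y : Ω) {c : V} (h1 : c ≠ w) (h2 : c ≠ x) :
    J.ρ (J.T w x y) c = J.ρ y c := by
  rw [ρT, if_neg]
  tauto

lemma act_T {w x : V} {y : Ω} (h : J.act w x y) : J.act w x (J.T w x y) := by
  refine ⟨h.1, (J.excT _ _ _ _).mpr h.2.1, (J.excT _ _ _ _).mpr h.2.2.1, ?_⟩
  rw [ρT_left J h, ρT_right J h]
  have := h.2.2.2
  revert this
  cases J.ρ y w <;> cases J.ρ y x <;> simp

lemma T_T (w x : V) (y : Ω) : J.T w x (J.T w x y) = y := by
  by_cases h : J.act w x y
  · apply J.hext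
    · rw [J.hκT, J.hκT]
    · funext c
      rw [ρT, ρT]
      by_cases hc : c = w ∨ c = x
      · rw [if_pos ⟨J.act_T h, hc⟩, if_pos ⟨h, hc⟩, Bool.not_not]
      · rw [if_neg (fun h' => hc h'.2), if_neg (fun h' => hc h'.2)]
  · rw [T_of_not J h, T_of_not J h]

lemma act_symm {w x : V} {y : Ω} : J.act w x y ↔ J.act x w y := by
  unfold act
  constructor <;> rintro ⟨h1, h2, h3, h4⟩ <;> exact ⟨h1.symm, h3, h2, h4.symm⟩

lemma T_symm (w x : V) (y : Ω) : J.T w x y = J.T x w y := by
  apply J.hext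
  · rw [J.hκT, J.hκT]
  · funext c
    rw [ρT, ρT]
    by_cases h : J.act w x y ∧ (c = w ∨ c = x)
    · rw [if_pos h, if_pos ⟨J.act_symm.mp h.1, h.2.symm⟩]
    · rw [if_neg h, if_neg]
      rintro ⟨h1, h2⟩
      exact h ⟨J.act_symm.mpr h1, h2.symm⟩

lemma T_self (w : V) (y : Ω) : J.T w w y = y := J.T_of_not (fun h => h.1 rfl)

/-- The transposition as a permutation. -/
def perm (w x : V) : Equiv.Perm Ω where
  toFun := J.T w x
  invFun := J.T w x
  left_inv := J.T_T w x
  right_inv := J.T_T w x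

/-- Key including activity. -/
def ak (w x : V) (y : Ω) : K × Prop := (J.κ y, J.act w x y)

variable [Fintype Ω]

/-- The operator: average of `g` over the active points of the fibre, at active points. -/
noncomputable def M (w x : V) (g : Ω → ℝ) : Ω → ℝ :=
  fun y => if J.act w x y then avg (J.ak w x) g y else 0

lemma M_symm_args (w x : V) (g : Ω → ℝ) : J.M w x g = J.M x w g := by
  have h : J.ak w x = J.ak x w := by
    funext y
    unfold ak
    rw [Prod.mk.injEq]
    exact ⟨rfl, propext J.act_symm⟩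
  funext y
  unfold M
  rw [h]
  by_cases h1 : J.act w x y
  · rw [if_pos h1, if_pos (J.act_symm.mp h1)]
  · rw [if_neg h1, if_neg (fun h2 => h1 (J.act_symm.mpr h2))]

/-- Linear version. -/
noncomputable def Mlin (w x : V) : (Ω → ℝ) →ₗ[ℝ] (Ω → ℝ) where
  toFun := J.M w x
  map_add' f g := by
    funext y
    unfold M
    by_cases h : J.act w x y
    · simp only [Pi.add_apply, if_pos h, map_add]
    · simp only [Pi.add_apply, if_neg h, add_zero]
  map_smul' a f := by
    funext y
    unfold M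
    by_cases h : J.act w x y
    · simp only [Pi.smul_apply, if_pos h, map_smul, RingHom.id_apply]
    · simp only [Pi.smul_apply, if_neg h, smul_zero]

lemma Mlin_apply (w x : V) (g : Ω → ℝ) : J.Mlin w x g = J.M w x g := rfl

end JModel

/-- Pulling out a measurable factor. -/
lemma avg_mul_meas {Ω K : Type*} [Fintype Ω] (κ : Ω → K) (c g : Ω → ℝ)
    (hc : ∀ x y, κ x = κ y → c x = c y) (x : Ω) :
    avg κ (fun y => c y * g y) x = c x * avg κ g x := by
  rw [avg_apply, avg_apply, mul_div_assoc', Finset.mul_sum]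
  congr 1
  exact Finset.sum_congr rfl (fun y hy => by rw [hc y x (mem_fib.mp hy)])

namespace JModel

variable {Ω V K : Type*} (J : JModel Ω V K) [Fintype Ω]

lemma M_eq_mul (w x : V) (g : Ω → ℝ) :
    J.M w x g = fun y => (if J.act w x y then (1:ℝ) else 0) * avg (J.ak w x) g y := by
  funext y
  unfold M
  by_cases h : J.act w x y
  · rw [if_pos h, if_pos h, one_mul]
  · rw [if_neg h, if_neg h, zero_mul]

lemma ind_meas (w x : V) (y z : Ω) (h : J.ak w x y = J.ak w x z) :
    (if J.act w x y then (1:ℝ) else 0) = if J.act w x z then (1:ℝ) else 0 := by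
  unfold ak at h
  rw [Prod.mk.injEq] at h
  rw [h.2]

lemma M_self_adj (w x : V) (g k : Ω → ℝ) : ip (J.M w x g) k = ip g (J.M w x k) := by
  have h1 : ip (J.M w x g) k
      = ip (avg (J.ak w x) g) (fun y => (if J.act w x y then (1:ℝ) else 0) * k y) := by
    rw [M_eq_mul]
    unfold ip
    exact Finset.sum_congr rfl (fun y _ => by ring)
  rw [h1, avg_symm, M_eq_mul]
  congr 1
  funext y
  rw [avg_mul_meas _ _ _ (J.ind_meas w x)]

lemma M_idem (w x : V) (g : Ω → ℝ) : J.M w x (J.M w x g) = J.M w x g := by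
  funext y
  have h1 : avg (J.ak w x) (J.M w x g) y
      = (if J.act w x y then (1:ℝ) else 0) * avg (J.ak w x) g y := by
    rw [M_eq_mul, avg_mul_meas _ _ _ (J.ind_meas w x), avg_idem]
  by_cases h : J.act w x y
  · have e1 : J.M w x (J.M w x g) y = avg (J.ak w x) (J.M w x g) y := by
      show (if J.act w x y then avg (J.ak w x) (J.M w x g) y else 0) = _
      rw [if_pos h]
    have e2 : J.M w x g y = avg (J.ak w x) g y := by
      show (if J.act w x y then avg (J.ak w x) g y else 0) = _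
      rw [if_pos h]
    rw [e1, e2, h1, if_pos h, one_mul]
  · have e1 : J.M w x (J.M w x g) y = 0 := by
      show (if J.act w x y then avg (J.ak w x) (J.M w x g) y else 0) = _
      rw [if_neg h]
    have e2 : J.M w x g y = 0 := by
      show (if J.act w x y then avg (J.ak w x) g y else 0) = _
      rw [if_neg h]
    rw [e1, e2]

lemma ip_M_self (w x : V) (g : Ω → ℝ) : ip (J.M w x g) (J.M w x g) = ip (J.M w x g) g := by
  rw [M_self_adj, M_idem, ← M_self_adj]

lemma ip_comp (w x : V) (g k : Ω → ℝ) :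
    ip (fun y => g (J.T w x y)) k = ip g (fun y => k (J.T w x y)) := by
  unfold ip
  rw [← Equiv.sum_comp (J.perm w x) (fun y => g (J.T w x y) * k y)]
  refine Finset.sum_congr rfl (fun y _ => ?_)
  show g (J.T w x (J.T w x y)) * k (J.T w x y) = g y * k (J.T w x y)
  rw [T_T]

lemma ip_comp_comp (w x : V) (g : Ω → ℝ) :
    ip (fun y => g (J.T w x y)) (fun y => g (J.T w x y)) = ip g g := by
  rw [ip_comp]
  congr 1
  funext y
  rw [T_T]

lemma quarter_form (w x : V) (g : Ω → ℝ) :
    (1 / 4) * ip (g - fun y => g (J.T w x y)) (g - fun y => g (J.T w x y))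
      = (1 / 2) * ip (g - fun y => g (J.T w x y)) g := by
  have h1 := J.ip_comp_comp w x g
  simp only [ip_sub_left, ip_sub_right]
  rw [h1, ip_comm g (fun y => g (J.T w x y))]
  ring

variable [Fintype V]

/-- The form of the lemma as a linear operator. -/
noncomputable def N : (Ω → ℝ) →ₗ[ℝ] (Ω → ℝ) :=
  ∑ w, ∑ x, ((1 / 2 : ℝ) • (LinearMap.id - LinearMap.funLeft ℝ ℝ (J.T w x)) - J.Mlin w x)

lemma N_apply (g : Ω → ℝ) (y : Ω) :
    J.N g y = ∑ w, ∑ x, ((1 / 2) * (g y - g (J.T w x y)) - J.M w x g y) := by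
  unfold N
  simp only [LinearMap.sum_apply, Finset.sum_apply, LinearMap.sub_apply, LinearMap.smul_apply,
    Pi.sub_apply, Pi.smul_apply, LinearMap.id_apply, LinearMap.funLeft_apply, smul_eq_mul,
    Mlin_apply]

lemma N_eq (g : Ω → ℝ) :
    J.N g = ∑ w, ∑ x, ((1 / 2 : ℝ) • (g - fun y => g (J.T w x y)) - J.M w x g) := by
  funext y
  rw [N_apply]
  simp only [Finset.sum_apply, Pi.sub_apply, Pi.smul_apply, smul_eq_mul]

lemma ip_N (g k : Ω → ℝ) : ip (J.N g) k
    = ∑ w, ∑ x, ((1 / 2) * ip (g - fun y => g (J.T w x y)) k - ip (J.M w x g) k) := by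
  rw [N_eq, ip_sum_left]
  refine Finset.sum_congr rfl (fun w _ => ?_)
  rw [ip_sum_left]
  refine Finset.sum_congr rfl (fun x _ => ?_)
  rw [ip_sub_left, ip_smul_left]

lemma N_symm (g k : Ω → ℝ) : ip (J.N g) k = ip g (J.N k) := by
  rw [ip_N, ip_comm g (J.N k), ip_N]
  refine Finset.sum_congr rfl (fun w _ => Finset.sum_congr rfl (fun x _ => ?_))
  rw [ip_sub_left, ip_sub_left, ip_comp, M_self_adj, ip_comm g k, ip_comm g (J.M w x k),
    ip_comm g (fun y => k (J.T w x y))]

/-- At an extremal pair: the terms with one index in `{a, b}`. -/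
lemma half_bound {g : Ω → ℝ} {L : ℝ} (hL : ∀ w x y, |g y - g (J.T w x y)| ≤ L) {a b c : V}
    (hab : a ≠ b) (hac : a ≠ c) (hbc : b ≠ c) {z z' : Ω} (hκ : J.κ z = J.κ z')
    (hb : J.exc b z) (h1 : J.act a c z) (h2 : J.act b c z') :
    |avg (J.ak a c) g z - avg (J.ak b c) g z'| ≤ (1 / 2) * L := by
  set F := fib (J.ak a c) z with hF
  have hmemF : ∀ y, y ∈ F ↔ J.κ y = J.κ z ∧ J.act a c y := by
    intro y
    rw [hF, mem_fib]
    unfold ak
    rw [Prod.mk.injEq]
    constructor
    · rintro ⟨h3, h4⟩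
      exact ⟨h3, h4.symm ▸ h1⟩
    · rintro ⟨h3, h4⟩
      exact ⟨h3, propext ⟨fun _ => h1, fun _ => h4⟩⟩
  have hmemF' : ∀ y, y ∈ fib (J.ak b c) z' ↔ J.κ y = J.κ z ∧ J.act b c y := by
    intro y
    rw [mem_fib]
    unfold ak
    rw [Prod.mk.injEq, hκ]
    constructor
    · rintro ⟨h3, h4⟩
      exact ⟨h3, h4.symm ▸ h2⟩
    · rintro ⟨h3, h4⟩
      exact ⟨h3, propext ⟨fun _ => h2, fun _ => h4⟩⟩
  have hexcb : ∀ y, J.κ y = J.κ z → J.exc b y := fun y hy => (J.hexc b y z hy).mpr hb
  -- `T a b` exchanges the two sets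
  have hmap1 : ∀ y, J.κ y = J.κ z → J.act a c y → J.act b c (J.T a b y) := by
    intro y hy hact
    refine ⟨hbc, (J.excT _ _ _ _).mpr (hexcb y hy), (J.excT _ _ _ _).mpr hact.2.2.1, ?_⟩
    rw [J.ρT_other y hac.symm hbc.symm]
    by_cases h3 : J.act a b y
    · rw [J.ρT_right h3]
      have h4 := h3.2.2.2
      have h5 := hact.2.2.2
      revert h4 h5
      cases J.ρ y a <;> cases J.ρ y b <;> cases J.ρ y c <;> simp
    · rw [J.T_of_not h3]
      have h4 : J.ρ y a = J.ρ y b := by
        by_contra h5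
        exact h3 ⟨hab, hact.2.1, hexcb y hy, h5⟩
      rw [← h4]
      exact hact.2.2.2
  have hmap2 : ∀ y, J.κ y = J.κ z → J.act b c y → J.act a c (J.T a b y) := by
    intro y hy hact
    have hexca : J.exc a y := (J.hexc a y z hy).mpr h1.2.1
    refine ⟨hac, (J.excT _ _ _ _).mpr hexca, (J.excT _ _ _ _).mpr hact.2.2.1, ?_⟩
    rw [J.ρT_other y hac.symm hbc.symm]
    by_cases h3 : J.act a b y
    · rw [J.ρT_left h3]
      have h4 := h3.2.2.2
      have h5 := hact.2.2.2
      revert h4 h5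
      cases J.ρ y a <;> cases J.ρ y b <;> cases J.ρ y c <;> simp
    · rw [J.T_of_not h3]
      have h4 : J.ρ y a = J.ρ y b := by
        by_contra h5
        exact h3 ⟨hab, hexca, hact.2.1, h5⟩
      rw [h4]
      exact hact.2.2.2
  have hcardeq : (fib (J.ak b c) z').card = F.card := by
    symm
    refine Finset.card_bij (fun y _ => J.T a b y) ?_ ?_ ?_
    · intro y hy
      rw [hmemF] at hy
      rw [hmemF']
      exact ⟨(J.hκT _ _ _).trans hy.1, hmap1 y hy.1 hy.2⟩
    · intro y _ y' _ h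
      rw [← J.T_T a b y, h, J.T_T]
    · intro y hy
      rw [hmemF'] at hy
      refine ⟨J.T a b y, ?_, J.T_T a b y⟩
      rw [hmemF]
      exact ⟨(J.hκT _ _ _).trans hy.1, hmap2 y hy.1 hy.2⟩
  have hsumeq : ∑ y ∈ fib (J.ak b c) z', g y = ∑ y ∈ F, g (J.T a b y) := by
    symm
    refine Finset.sum_bij (fun y _ => J.T a b y) ?_ ?_ ?_ ?_
    · intro y hy
      rw [hmemF] at hy
      rw [hmemF']
      exact ⟨(J.hκT _ _ _).trans hy.1, hmap1 y hy.1 hy.2⟩
    · intro y _ y' _ h
      rw [← J.T_T a b y, h, J.T_T]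
    · intro y hy
      rw [hmemF'] at hy
      refine ⟨J.T a b y, ?_, J.T_T a b y⟩
      rw [hmemF]
      exact ⟨(J.hκT _ _ _).trans hy.1, hmap2 y hy.1 hy.2⟩
    · intro y _
      rfl
  have hcpos : (0:ℝ) < (F.card : ℝ) := fib_card_pos _ _
  -- the differences
  set δ : Ω → ℝ := fun y => g y - g (J.T a b y) with hδ
  have hswap : ∑ y ∈ F, δ (J.T a c y) = ∑ y ∈ F, δ y := by
    refine Finset.sum_bij (fun y _ => J.T a c y) ?_ ?_ ?_ ?_
    · intro y hy
      rw [hmemF] at hy ⊢
      exact ⟨(J.hκT _ _ _).trans hy.1, J.act_T hy.2⟩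
    · intro y _ y' _ h
      rw [← J.T_T a c y, h, J.T_T]
    · intro y hy
      rw [hmemF] at hy
      refine ⟨J.T a c y, ?_, J.T_T a c y⟩
      rw [hmemF]
      exact ⟨(J.hκT _ _ _).trans hy.1, J.act_T hy.2⟩
    · intro y _
      rfl
  have hpair : ∀ y ∈ F, |δ y + δ (J.T a c y)| ≤ L := by
    intro y hy
    rw [hmemF] at hy
    by_cases h3 : J.act a b y
    · have h4 : ¬ J.act a b (J.T a c y) := by
        rintro ⟨-, -, -, h5⟩
        rw [J.ρT_left hy.2, J.ρT_other y hab.symm hbc] at h5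
        have h6 := h3.2.2.2
        revert h5 h6
        cases J.ρ y a <;> cases J.ρ y b <;> simp
      have h5 : δ (J.T a c y) = 0 := by
        simp only [hδ]; rw [J.T_of_not h4, sub_self]
      rw [h5, add_zero]
      exact hL a b y
    · have h5 : δ y = 0 := by
        simp only [hδ]; rw [J.T_of_not h3, sub_self]
      rw [h5, zero_add]
      exact hL a b _
  have hfin : |∑ y ∈ F, δ y| ≤ (F.card : ℝ) * ((1 / 2) * L) := by
    have h3 : 2 * ∑ y ∈ F, δ y = ∑ y ∈ F, (δ y + δ (J.T a c y)) := by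
      rw [Finset.sum_add_distrib, hswap]; ring
    have h4 : |∑ y ∈ F, (δ y + δ (J.T a c y))| ≤ (F.card : ℝ) * L := by
      refine (Finset.abs_sum_le_sum_abs _ _).trans ?_
      refine (Finset.sum_le_sum hpair).trans ?_
      rw [Finset.sum_const, nsmul_eq_mul]
    rw [← h3, abs_mul, abs_of_pos (by norm_num : (0:ℝ) < 2)] at h4
    linarith
  have hval : avg (J.ak a c) g z - avg (J.ak b c) g z' = (∑ y ∈ F, δ y) / (F.card : ℝ) := by
    rw [avg_apply, avg_apply, hcardeq, hsumeq, ← hF, ← sub_div, ← Finset.sum_sub_distrib]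
  rw [hval, abs_div, abs_of_pos hcpos, div_le_iff₀ hcpos]
  linarith

/-- The value of the operator `M` at an active and at an inactive point. -/
lemma M_of_act {w x : V} {y : Ω} (h : J.act w x y) (g : Ω → ℝ) :
    J.M w x g y = avg (J.ak w x) g y := by
  show (if J.act w x y then avg (J.ak w x) g y else 0) = _
  rw [if_pos h]

lemma M_of_not {w x : V} {y : Ω} (h : ¬ J.act w x y) (g : Ω → ℝ) : J.M w x g y = 0 := by
  show (if J.act w x y then avg (J.ak w x) g y else 0) = _
  rw [if_neg h]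

lemma M_congr {w x : V} {y y' : Ω} (h : J.κ y = J.κ y') (h2 : J.act w x y ↔ J.act w x y')
    (g : Ω → ℝ) : J.M w x g y = J.M w x g y' := by
  by_cases h3 : J.act w x y
  · rw [J.M_of_act h3, J.M_of_act (h2.mp h3)]
    apply avg_meas
    unfold ak
    rw [h, propext h2]
  · rw [J.M_of_not h3, J.M_of_not (fun h4 => h3 (h2.mpr h4))]

/-- The maximum principle. -/
lemma max_principle {g : Ω → ℝ} {L : ℝ} (hL : ∀ w x y, |g y - g (J.T w x y)| ≤ L) {a b : V}
    {z : Ω} (hz : J.act a b z) (hzL : g z - g (J.T a b z) = L) :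
    2 * L ≤ J.N g z - J.N g (J.T a b z) := by
  obtain ⟨z', hz'⟩ : ∃ z', z' = J.T a b z := ⟨_, rfl⟩
  rw [← hz'] at hzL ⊢
  have hκ : J.κ z' = J.κ z := by rw [hz']; exact J.hκT a b z
  have hab : a ≠ b := hz.1
  have hza : J.ρ z' a = !J.ρ z a := by rw [hz']; exact J.ρT_left hz
  have hzb : J.ρ z' b = !J.ρ z b := by rw [hz']; exact J.ρT_right hz
  have hzc : ∀ c, c ≠ a → c ≠ b → J.ρ z' c = J.ρ z c := fun c h1 h2 => by
    rw [hz']; exact J.ρT_other z h1 h2
  have hexc : ∀ c, J.exc c z' ↔ J.exc c z := fun c => by rw [hz']; exact J.excT c a b z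
  have hzab : J.ρ z a ≠ J.ρ z b := hz.2.2.2
  have hactz' : J.act a b z' := by rw [hz']; exact J.act_T hz
  have hTz' : J.T a b z' = z := by rw [hz']; exact J.T_T a b z
  have hL0 : 0 ≤ L := (abs_nonneg _).trans (hL a b z)
  set t : V → V → ℝ := fun w x =>
    (1 / 2) * ((g z - g (J.T w x z)) - (g z' - g (J.T w x z')))
      - (J.M w x g z - J.M w x g z') with ht
  have hN : J.N g z - J.N g z' = ∑ w, ∑ x, t w x := by
    rw [N_apply, N_apply, ← Finset.sum_sub_distrib]
    refine Finset.sum_congr rfl (fun w _ => ?_)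
    rw [← Finset.sum_sub_distrib]
    refine Finset.sum_congr rfl (fun x _ => ?_)
    simp only [ht]; ring
  have htsymm : ∀ w x, t w x = t x w := by
    intro w x
    simp only [ht]
    rw [J.T_symm w x z, J.T_symm w x z', J.M_symm_args w x]
  have htself : ∀ w, t w w = 0 := by
    intro w
    simp only [ht]
    rw [J.T_self, J.T_self, J.M_of_not (fun h => h.1 rfl), J.M_of_not (fun h => h.1 rfl)]
    ring
  have htab : t a b = L := by
    simp only [ht]
    rw [hTz', ← hz', J.M_congr (w := a) (x := b) hκ.symm ⟨fun _ => hactz', fun _ => hz⟩ g]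
    linarith
  have htdisj : ∀ w x, w ≠ a → w ≠ b → x ≠ a → x ≠ b → 0 ≤ t w x := by
    intro w x h1 h2 h3 h4
    have hiff : J.act w x z ↔ J.act w x z' := by
      unfold act
      rw [hexc, hexc, hzc w h1 h2, hzc x h3 h4]
    have hcomm : J.T w x z' = J.T a b (J.T w x z) := by
      have hiff2 : J.act a b (J.T w x z) := by
        refine ⟨hab, (J.excT _ _ _ _).mpr hz.2.1, (J.excT _ _ _ _).mpr hz.2.2.1, ?_⟩
        rw [J.ρT_other z h1.symm h3.symm, J.ρT_other z h2.symm h4.symm]
        exact hzab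
      apply J.hext
      · rw [J.hκT, J.hκT, J.hκT, hκ]
      · funext c
        by_cases hca : c = a
        · rw [hca, J.ρT_left hiff2, J.ρT_other z' h1.symm h3.symm, J.ρT_other z h1.symm h3.symm, hza]
        · by_cases hcb : c = b
          · rw [hcb, J.ρT_right hiff2, J.ρT_other z' h2.symm h4.symm,
              J.ρT_other z h2.symm h4.symm, hzb]
          · rw [J.ρT_other _ hca hcb, J.ρT, J.ρT, hzc c hca hcb]
            by_cases h5 : J.act w x z ∧ (c = w ∨ c = x)
            · rw [if_pos h5, if_pos ⟨hiff.mp h5.1, h5.2⟩]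
            · rw [if_neg h5, if_neg (fun h6 => h5 ⟨hiff.mpr h6.1, h6.2⟩)]
    have hM : J.M w x g z = J.M w x g z' := J.M_congr hκ.symm hiff g
    have h5 := (abs_le.mp (hL a b (J.T w x z))).2
    simp only [ht]
    rw [hM, hcomm]
    linarith
  have htc : ∀ c, c ≠ a → c ≠ b → 0 ≤ t a c + t b c := by
    intro c hca hcb
    by_cases he : J.exc c z
    swap
    · have he' : ¬ J.exc c z' := fun h => he ((hexc c).mp h)
      simp only [ht]
      rw [J.T_of_not (w := a) (x := c) (y := z) (fun h => he h.2.2.1),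
        J.T_of_not (w := b) (x := c) (y := z) (fun h => he h.2.2.1),
        J.T_of_not (w := a) (x := c) (y := z') (fun h => he' h.2.2.1),
        J.T_of_not (w := b) (x := c) (y := z') (fun h => he' h.2.2.1),
        J.M_of_not (w := a) (x := c) (y := z) (fun h => he h.2.2.1),
        J.M_of_not (w := b) (x := c) (y := z) (fun h => he h.2.2.1),
        J.M_of_not (w := a) (x := c) (y := z') (fun h => he' h.2.2.1),
        J.M_of_not (w := b) (x := c) (y := z') (fun h => he' h.2.2.1)]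
      simp
    have he' : J.exc c z' := (hexc c).mpr he
    by_cases hside : J.ρ z c = J.ρ z b
    · -- `c` is on the side of `b`
      have a1 : J.act a c z := ⟨hca.symm, hz.2.1, he, by rw [hside]; exact hzab⟩
      have a2 : ¬ J.act b c z := fun h => h.2.2.2 hside.symm
      have a3 : ¬ J.act a c z' := by
        intro h
        apply h.2.2.2
        rw [hza, hzc c hca hcb, hside]
        revert hzab
        cases J.ρ z a <;> cases J.ρ z b <;> simp
      have a4 : J.act b c z' := by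
        refine ⟨hcb.symm, (hexc b).mpr hz.2.2.1, he', ?_⟩
        rw [hzb, hzc c hca hcb, hside]
        cases J.ρ z b <;> simp
      have hy : J.T b c z' = J.T a c z := by
        apply J.hext
        · rw [J.hκT, J.hκT, hκ]
        · funext e
          by_cases hea : e = a
          · rw [hea, J.ρT_left a1, J.ρT_other z' hab hca.symm, hza]
          · by_cases heb : e = b
            · rw [heb, J.ρT_left a4, J.ρT_other z hab.symm hcb.symm, hzb, Bool.not_not]
            · by_cases hec : e = c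
              · rw [hec, J.ρT_right a4, J.ρT_right a1, hzc c hca hcb]
              · rw [J.ρT_other z' heb hec, J.ρT_other z hea hec, hzc e hea heb]
      have hh := J.half_bound hL hab hca.symm hcb.symm hκ.symm hz.2.2.1 a1 a4
      have hh2 := (abs_le.mp hh).2
      simp only [ht]
      rw [J.T_of_not a2, J.T_of_not a3, hy, J.M_of_act a1, J.M_of_not a2, J.M_of_not a3,
        J.M_of_act a4]
      linarith
    · -- `c` is on the side of `a`
      have hside' : J.ρ z c = J.ρ z a := by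
        revert hside hzab
        cases J.ρ z a <;> cases J.ρ z b <;> cases J.ρ z c <;> simp
      have a1 : J.act b c z := ⟨hcb.symm, hz.2.2.1, he, fun h => hside h.symm⟩
      have a2 : ¬ J.act a c z := fun h => h.2.2.2 hside'.symm
      have a3 : ¬ J.act b c z' := by
        intro h
        apply h.2.2.2
        rw [hzb, hzc c hca hcb, hside']
        revert hzab
        cases J.ρ z a <;> cases J.ρ z b <;> simp
      have a4 : J.act a c z' := by
        refine ⟨hca.symm, (hexc a).mpr hz.2.1, he', ?_⟩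
        rw [hza, hzc c hca hcb, hside']
        cases J.ρ z a <;> simp
      have hy : J.T a c z' = J.T b c z := by
        apply J.hext
        · rw [J.hκT, J.hκT, hκ]
        · funext e
          by_cases hea : e = a
          · rw [hea, J.ρT_left a4, J.ρT_other z hab hca.symm, hza, Bool.not_not]
          · by_cases heb : e = b
            · rw [heb, J.ρT_left a1, J.ρT_other z' hab.symm hcb.symm, hzb]
            · by_cases hec : e = c
              · rw [hec, J.ρT_right a4, J.ρT_right a1, hzc c hca hcb]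
              · rw [J.ρT_other z' hea hec, J.ρT_other z heb hec, hzc e hea heb]
      have hh := J.half_bound hL hab.symm hcb.symm hca.symm hκ.symm hz.2.1 a1 a4
      have hh2 := (abs_le.mp hh).2
      simp only [ht]
      rw [J.T_of_not a2, J.T_of_not a3, hy, J.M_of_act a1, J.M_of_not a2, J.M_of_not a3,
        J.M_of_act a4]
      linarith
  -- the total
  have hsplit : ∑ w, ∑ x, t w x
      = (t a a + t a b + (t b a + t b b)) + ∑ x ∈ ({a, b} : Finset V)ᶜ, (t a x + t b x)
        + (∑ w ∈ ({a, b} : Finset V)ᶜ, (t w a + t w b)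
          + ∑ w ∈ ({a, b} : Finset V)ᶜ, ∑ x ∈ ({a, b} : Finset V)ᶜ, t w x) := by
    rw [← Finset.sum_add_sum_compl ({a, b} : Finset V), Finset.sum_pair hab,
      ← Finset.sum_add_sum_compl ({a, b} : Finset V) (fun x => t a x),
      ← Finset.sum_add_sum_compl ({a, b} : Finset V) (fun x => t b x), Finset.sum_pair hab,
      Finset.sum_pair hab, Finset.sum_add_distrib, ← Finset.sum_add_distrib
      (f := fun w => t w a + t w b)]
    have h3 : ∑ w ∈ ({a, b} : Finset V)ᶜ, ∑ x, t w x
        = ∑ w ∈ ({a, b} : Finset V)ᶜ, (t w a + t w b + ∑ x ∈ ({a, b} : Finset V)ᶜ, t w x) := by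
      refine Finset.sum_congr rfl (fun w _ => ?_)
      rw [← Finset.sum_add_sum_compl ({a, b} : Finset V), Finset.sum_pair hab]
    rw [h3]
    ring
  have hmem : ∀ w ∈ ({a, b} : Finset V)ᶜ, w ≠ a ∧ w ≠ b := by
    intro w hw
    rw [Finset.mem_compl, Finset.mem_insert, Finset.mem_singleton, not_or] at hw
    exact hw
  have p1 : 0 ≤ ∑ x ∈ ({a, b} : Finset V)ᶜ, (t a x + t b x) :=
    Finset.sum_nonneg (fun x hx => htc x (hmem x hx).1 (hmem x hx).2)
  have p2 : 0 ≤ ∑ w ∈ ({a, b} : Finset V)ᶜ, (t w a + t w b) := by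
    refine Finset.sum_nonneg (fun x hx => ?_)
    rw [htsymm x a, htsymm x b]
    exact htc x (hmem x hx).1 (hmem x hx).2
  have p3 : 0 ≤ ∑ w ∈ ({a, b} : Finset V)ᶜ, ∑ x ∈ ({a, b} : Finset V)ᶜ, t w x :=
    Finset.sum_nonneg (fun w hw => Finset.sum_nonneg (fun x hx =>
      htdisj w x (hmem w hw).1 (hmem w hw).2 (hmem x hx).1 (hmem x hx).2))
  rw [hN, hsplit, htself a, htself b, htsymm b a, htab]
  linarith

/-- The abstract form of the inequality. -/
theorem main_ineq (g : Ω → ℝ) (hg : avg J.κ g = 0) :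
    (∑ w, ∑ x, ip (J.M w x g) (J.M w x g)) + 2 * ip g g
      ≤ ∑ w, ∑ x, (1 / 4) * ip (g - fun y => g (J.T w x y)) (g - fun y => g (J.T w x y)) := by
  have hform : (∑ w, ∑ x, (1 / 4) * ip (g - fun y => g (J.T w x y)) (g - fun y => g (J.T w x y)))
      - ∑ w, ∑ x, ip (J.M w x g) (J.M w x g) = ip (J.N g) g := by
    rw [ip_N, ← Finset.sum_sub_distrib]
    refine Finset.sum_congr rfl (fun w _ => ?_)
    rw [← Finset.sum_sub_distrib]
    refine Finset.sum_congr rfl (fun x _ => ?_)
    rw [quarter_form, ip_M_self]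
  suffices h : 2 * ip g g ≤ ip (J.N g) g by linarith
  by_cases hg0 : g = 0
  · rw [hg0]; simp [ip_zero_right]
  set P : (Ω → ℝ) →ₗ[ℝ] (Ω → ℝ) := LinearMap.id - avg J.κ with hP
  have hPa : ∀ k, P k = k - avg J.κ k := fun k => rfl
  have hPs : ∀ k l, ip (P k) l = ip k (P l) := by
    intro k l
    rw [hPa, hPa, ip_sub_left, ip_sub_right, avg_symm]
  set W : Submodule ℝ (Ω → ℝ) := LinearMap.ker (avg J.κ) with hW
  have hmem : ∀ {k : Ω → ℝ}, k ∈ W ↔ avg J.κ k = 0 := by
    intro k; rw [hW, LinearMap.mem_ker]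
  have hPW : ∀ k ∈ W, P k = k := by
    intro k hk
    rw [hPa, hmem.mp hk, sub_zero]
  have hTs : ∀ k l, ip ((P ∘ₗ J.N ∘ₗ P) k) l = ip k ((P ∘ₗ J.N ∘ₗ P) l) := by
    intro k l
    simp only [LinearMap.comp_apply]
    rw [hPs, N_symm, hPs]
  have hTW : ∀ k ∈ W, (P ∘ₗ J.N ∘ₗ P) k ∈ W := by
    intro k _
    rw [hmem]
    simp only [LinearMap.comp_apply]
    rw [hPa (J.N (P k)), map_sub, avg_idem, sub_self]
  obtain ⟨Λ, f, hfW, hf0, hTf, hmin⟩ := exists_min_eigen (P ∘ₗ J.N ∘ₗ P) hTs W hTW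
    ⟨g, hmem.mpr hg, hg0⟩
  have hNf : ∀ y y', J.κ y = J.κ y' → J.N f y - J.N f y' = Λ * (f y - f y') := by
    intro y y' hyy
    have h1 : ∀ y, J.N f y - avg J.κ (J.N f) y = Λ * f y := by
      intro y
      have h2 := congrFun hTf y
      simp only [LinearMap.comp_apply, hPW f hfW] at h2
      rw [hPa, Pi.sub_apply, Pi.smul_apply, smul_eq_mul] at h2
      exact h2
    have h2 := h1 y
    have h3 := h1 y'
    have h4 := avg_meas J.κ (J.N f) hyy
    linarith
  -- the maximal difference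
  obtain ⟨L, hL0, hLle, hLat⟩ := exists_max_with_zero
    (fun q : V × V × Ω => |f q.2.2 - f (J.T q.1 q.2.1 q.2.2)|)
  have hLle' : ∀ w x y, |f y - f (J.T w x y)| ≤ L := fun w x y => hLle (w, x, y)
  have hLne : L ≠ 0 := by
    intro h
    apply hf0
    have hinv : ∀ w x y, f (J.T w x y) = f y := by
      intro w x y
      have := hLle' w x y
      rw [h] at this
      exact (sub_eq_zero.mp (abs_nonpos_iff.mp this)).symm
    have h1 : avg J.κ f = f := avg_of_meas (fun x y hxy => J.hconn f hinv x y hxy)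
    rw [← h1, hmem.mp hfW]
  have hLpos : 0 < L := lt_of_le_of_ne hL0 (Ne.symm hLne)
  obtain ⟨a, b, z, hact, hzL⟩ : ∃ a b z, J.act a b z ∧ f z - f (J.T a b z) = L := by
    rcases hLat with h | ⟨⟨a, b, y⟩, hy⟩
    · exact absurd h hLne
    simp only at hy
    have hact : J.act a b y := by
      by_contra h
      rw [J.T_of_not h, sub_self, abs_zero] at hy
      exact hLne hy.symm
    rcases abs_choice (f y - f (J.T a b y)) with h | h
    · exact ⟨a, b, y, hact, by rw [← h, hy]⟩
    · refine ⟨a, b, J.T a b y, J.act_T hact, ?_⟩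
      rw [J.T_T, ← hy, h]; ring
  have hmp := J.max_principle hLle' hact hzL
  rw [hNf z _ (J.hκT a b z).symm, hzL] at hmp
  have hΛ : 2 ≤ Λ := by
    by_contra hcon
    push Not at hcon
    nlinarith
  have hgmin := hmin g (hmem.mpr hg)
  have hcomp : ip ((P ∘ₗ J.N ∘ₗ P) g) g = ip (J.N g) g := by
    simp only [LinearMap.comp_apply]
    rw [hPs, hPW g (hmem.mpr hg)]
  rw [hcomp] at hgmin
  exact (mul_le_mul_of_nonneg_right hΛ (ip_self_nonneg g)).trans hgmin

end JModel

end Vale.Agent.P335
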