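import Mathlib
import Vale.Agent.P335.Spectral
import Vale.Agent.P335.Lipschitz
import Vale.Agent.P335.JModel
import Vale.Agent.P335.GMop
import Vale.Agent.P335.GKey

/-!
# P335, general case: the maximum principle inside a pair fibre
-/

open Finset
open scoped Classical

namespace Vale.Agent.P335

variable {V : Type*} [Fintype V] {d : V → ℕ}

/-- `c` is an exclusive neighbour of `u, v`. -/
def gexc (u v c : V) (y : Gr d) : Prop := c ≠ u ∧ c ≠ v ∧ y.1 v c = !y.1 u c

lemma pkey_eq_iff {u v : V} {x y : Gr d} :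
    pkey u v x = pkey u v y ↔
      (∀ a b, ¬ inB u v (Finset.univ \ {u, v}) a b → x.1 a b = y.1 a b) ∧
      ∀ l, l ≠ u → l ≠ v →
        (x.1 u l).toNat + (x.1 v l).toNat = (y.1 u l).toNat + (y.1 v l).toNat := by
  unfold pkey
  rw [key_eq_iff]
  constructor
  · rintro ⟨h1, h2⟩
    exact ⟨h1, fun l h3 h4 => h2 l (by simp [h3, h4])⟩
  · rintro ⟨h1, h2⟩
    refine ⟨h1, fun l hl => h2 l ?_ ?_⟩
    · rintro rfl; simp at hl
    · rintro rfl; simp at hl

lemma act_iff_gexc {u v : V} (huv : u ≠ v) (w x : V) (y : Gr d) :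
    act u v w x y ↔ (w ≠ x ∧ gexc u v w y ∧ gexc u v x y ∧ y.1 u w ≠ y.1 u x) := by
  unfold act gexc
  constructor
  · rintro ⟨⟨-, h2, h3, h4, h5, h6⟩, h7, h8, h9⟩
    refine ⟨h2, ⟨h3.symm, h5.symm, h7⟩, ⟨h4.symm, h6.symm, ?_⟩, ?_⟩
    · rw [h9, h8, Bool.not_not]
    · rw [h8]; cases y.1 u w <;> simp
  · rintro ⟨h1, ⟨h2, h3, h4⟩, ⟨h5, h6, h7⟩, h8⟩
    have h9 : y.1 u x = !y.1 u w := by
      revert h8
      cases y.1 u w <;> cases y.1 u x <;> simp
    refine ⟨⟨huv, h1, h2.symm, h5.symm, h3.symm, h6.symm⟩, h4, h9, ?_⟩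
    rw [h7, h9, Bool.not_not]

/-- The model of a pair fibre. -/
noncomputable def gmodel {u v : V} (huv : u ≠ v) :
    JModel (Gr d) V ((V → V → Bool) × (V → ℕ)) where
  κ := pkey u v
  ρ y := y.1 u
  exc c y := gexc u v c y
  T w x y := sw u v w x y
  hext := by
    intro y y' h1 h2
    rw [pkey_eq_iff] at h1
    have hu : ∀ c, y.1 u c = y'.1 u c := fun c => congrFun h2 c
    have hv : ∀ c, y.1 v c = y'.1 v c := by
      intro c
      by_cases hcu : c = u
      · rw [hcu, y.symm' v u, y'.symm' v u, hu]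
      · by_cases hcv : c = v
        · rw [hcv, y.irrefl', y'.irrefl']
        · have h3 := h1.2 c hcu hcv
          rw [hu c] at h3
          revert h3
          cases y'.1 u c <;> cases y.1 v c <;> cases y'.1 v c <;> simp
    apply Gr.ext'
    intro a b
    by_cases hB : inB u v (Finset.univ \ {u, v}) a b
    · unfold inB at hB
      rcases hB with ⟨rfl | rfl, -⟩ | ⟨rfl | rfl, -⟩
      · exact hu b
      · exact hv b
      · rw [y.symm' a b, y'.symm' a b]; exact hu a
      · rw [y.symm' a b, y'.symm' a b]; exact hv a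
    · exact h1.1 a b hB
  hexc := by
    intro c y y' h
    rw [pkey_eq_iff] at h
    unfold gexc
    constructor
    · rintro ⟨h1, h2, h3⟩
      refine ⟨h1, h2, ?_⟩
      have h4 := h.2 c h1 h2
      rw [h3] at h4
      revert h4
      cases y.1 u c <;> cases y'.1 u c <;> cases y'.1 v c <;> simp
    · rintro ⟨h1, h2, h3⟩
      refine ⟨h1, h2, ?_⟩
      have h4 := h.2 c h1 h2
      rw [h3] at h4
      revert h4
      cases y'.1 u c <;> cases y.1 u c <;> cases y.1 v c <;> simp
  hκT := by
    intro w x y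
    by_cases h : act u v w x y
    · obtain ⟨⟨-, -, h3, h4, h5, h6⟩, -⟩ := id h
      unfold pkey
      exact key_sw (by simp) (by simp) (by simp [h3.symm, h5.symm]) (by simp [h4.symm, h6.symm]) y
    · rw [sw_of_not_act h]
  hρT := by
    intro w x y c
    by_cases h : act u v w x y
    · have h' := (act_iff_gexc huv w x y).mp h
      obtain ⟨⟨-, -, h3, h4, -, -⟩, -⟩ := id h
      rw [sw_apply_of_act h]
      have hQ : inQ u v w x u c ↔ (c = w ∨ c = x) := by
        unfold inQ
        constructor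
        · rintro (⟨-, h5⟩ | ⟨h5 | h5, -⟩)
          · exact h5
          · exact absurd h5 h3
          · exact absurd h5 h4
        · intro h5; exact Or.inl ⟨Or.inl rfl, h5⟩
      by_cases hc : c = w ∨ c = x
      · rw [if_pos (hQ.mpr hc), if_pos ⟨h', hc⟩]
      · rw [if_neg (fun h5 => hc (hQ.mp h5)), if_neg (fun h5 => hc h5.2)]
    · have h' : ¬ (w ≠ x ∧ gexc u v w y ∧ gexc u v x y ∧ y.1 u w ≠ y.1 u x) :=
        fun h5 => h ((act_iff_gexc huv w x y).mpr h5)
      rw [sw_of_not_act h, if_neg (fun h5 => h' h5.1)]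
  hconn := by
    intro f hf y y' h
    exact key_connect huv (C := Finset.univ \ {u, v}) (by simp) (by simp) f
      (fun w _ x _ y => hf w x y) y y' h

lemma Mop_eq {u v : V} (huv : u ≠ v) (w x : V) (f : Gr d → ℝ) :
    Mop u v w x f = (gmodel huv).M w x f := by
  have hact : ∀ G : Gr d, act u v w x G ↔ (gmodel huv).act w x G := fun G =>
    act_iff_gexc huv w x G
  have hkey : (akey u v w x : Gr d → _) = (gmodel huv).ak w x := by
    funext G
    show (pkey u v G, act u v w x G) = (pkey u v G, (gmodel huv).act w x G)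
    rw [propext (hact G)]
  funext G
  by_cases h : act u v w x G
  · have e1 : Mop u v w x f G = avg (akey u v w x) f G := by
      show (if act u v w x G then avg (akey u v w x) f G else 0) = _
      rw [if_pos h]
    rw [e1, (gmodel huv).M_of_act ((hact G).mp h), hkey]
  · have e1 : Mop u v w x f G = 0 := by
      show (if act u v w x G then avg (akey u v w x) f G else 0) = _
      rw [if_neg h]
    rw [e1, (gmodel huv).M_of_not (fun h' => h ((hact G).mpr h'))]

/-- (I2) For a fixed pair `u, v`. -/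
theorem lip_ineq {u v : V} (huv : u ≠ v) (f : Gr d → ℝ) :
    (∑ w, ∑ x, ip (Mop u v w x (PG u v f)) (Mop u v w x (PG u v f))) + 2 * ip (PG u v f) f
      ≤ ∑ w, ∑ x, (1 / 4) * ip (f - fun G => f (sw u v w x G)) (f - fun G => f (sw u v w x G)) := by
  set g := PG u v f with hg
  have hgk : avg (gmodel (d := d) huv).κ g = 0 := by
    show avg (pkey u v) g = 0
    rw [hg, PG_apply, map_sub, avg_idem, sub_self]
  have hgg : ip g f = ip g g := by
    have h1 : ip g (avg (pkey u v) f) = 0 := by
      rw [← avg_symm]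
      have : avg (pkey u v) g = 0 := hgk
      rw [this, ip_zero_left]
    have h2 : ip g g = ip g f - ip g (avg (pkey u v) f) := by
      rw [← ip_sub_right]
      rfl
    rw [h2, h1, sub_zero]
  have hdiff : ∀ w x, (f - fun G => f (sw u v w x G)) = g - fun G => g ((gmodel huv).T w x G) := by
    intro w x
    funext G
    show f G - f (sw u v w x G) = g G - g (sw u v w x G)
    have h1 : avg (pkey u v) f (sw u v w x G) = avg (pkey u v) f G :=
      avg_meas _ _ ((gmodel (d := d) huv).hκT w x G)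
    rw [hg, PG_apply, Pi.sub_apply, Pi.sub_apply, h1]
    ring
  have hmain := (gmodel (d := d) huv).main_ineq g hgk
  rw [hgg]
  have e1 : ∀ w x, ip (Mop u v w x g) (Mop u v w x g)
      = ip ((gmodel huv).M w x g) ((gmodel huv).M w x g) := by
    intro w x; rw [Mop_eq huv]
  have e2 : (∑ w, ∑ x, ip (Mop u v w x g) (Mop u v w x g))
      = ∑ w, ∑ x, ip ((gmodel huv).M w x g) ((gmodel huv).M w x g) :=
    Finset.sum_congr rfl (fun w _ => Finset.sum_congr rfl (fun x _ => e1 w x))
  have e3 : (∑ w, ∑ x, (1 / 4) * ip (f - fun G => f (sw u v w x G)) (f - fun G => f (sw u v w x G)))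
      = ∑ w, ∑ x, (1 / 4) * ip (g - fun G => g ((gmodel huv).T w x G))
          (g - fun G => g ((gmodel huv).T w x G)) :=
    Finset.sum_congr rfl (fun w _ => Finset.sum_congr rfl (fun x _ => by rw [hdiff w x]))
  rw [e2, e3]
  exact hmain

end Vale.Agent.P335
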