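import Mathlib
import Vale.Agent.P335.GComm

/-!
# P335, general case: the odd sector of two disjoint pairs
-/

open Finset

namespace Vale.Agent.P335

lemma bool_special : ∀ a b a' b' c e c' e' : Bool, a ≠ a' → b = b' → c ≠ c' → e = e' →
    a.toNat + b.toNat = c.toNat + e.toNat → a'.toNat + b'.toNat = c'.toNat + e'.toNat →
    a = c ∧ a' = c' ∧ b = e := by
  decide

end Vale.Agent.P335

open scoped Classical

namespace Vale.Agent.P335

variable {V : Type*} [Fintype V] {d : V → ℕ}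

/-- The odd sector: the block `{u, v} × {w, x}` has an odd number of edges. -/
def oddB (u v w x : V) (G : Gr d) : Prop :=
  ((G.1 u w).toNat + (G.1 u x).toNat + (G.1 v w).toNat + (G.1 v x).toNat) % 2 = 1

lemma oddB_exch {u v w x : V} (G : Gr d) : oddB w x u v G ↔ oddB u v w x G := by
  unfold oddB
  rw [G.symm' w u, G.symm' w v, G.symm' x u, G.symm' x v]
  have : ((G.1 u w).toNat + (G.1 v w).toNat + (G.1 u x).toNat + (G.1 v x).toNat)
      = ((G.1 u w).toNat + (G.1 u x).toNat + (G.1 v w).toNat + (G.1 v x).toNat) := by ring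
  rw [this]

lemma oddB_congr {u v w x : V} (h : Dist4 u v w x) {p q : Gr d} (hk : pkey u v p = pkey u v q) :
    oddB u v w x p ↔ oddB u v w x q := by
  obtain ⟨huv, hwx, huw, hux, hvw, hvx⟩ := h
  have hk' := key_eq_iff.mp hk
  have h1 := hk'.2 w (mem_compl2.mpr ⟨huw.symm, hvw.symm⟩)
  have h2 := hk'.2 x (mem_compl2.mpr ⟨hux.symm, hvx.symm⟩)
  unfold oddB
  have : ((p.1 u w).toNat + (p.1 u x).toNat + (p.1 v w).toNat + (p.1 v x).toNat)
      = ((q.1 u w).toNat + (q.1 u x).toNat + (q.1 v w).toNat + (q.1 v x).toNat) := by omega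
  rw [this]

lemma oddB_congr' {u v w x : V} (h : Dist4 u v w x) {p q : Gr d} (hk : pkey w x p = pkey w x q) :
    oddB u v w x p ↔ oddB u v w x q := by
  rw [← oddB_exch, ← oddB_exch q]
  exact oddB_congr h.exch hk

/-- Modified key: the pair key on the odd sector, the graph itself elsewhere. -/
noncomputable def okey (u v w x : V) (a b : V) (G : Gr d) :
    ((V → V → Bool) × (V → ℕ)) ⊕ (Gr d) :=
  if oddB u v w x G then Sum.inl (pkey a b G) else Sum.inr G

lemma okey_eq_iff {u v w x a b : V} {p q : Gr d} :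
    okey u v w x a b p = okey u v w x a b q ↔
      (oddB u v w x p ∧ oddB u v w x q ∧ pkey a b p = pkey a b q) ∨
      (¬ oddB u v w x p ∧ ¬ oddB u v w x q ∧ p = q) := by
  unfold okey
  by_cases hp : oddB u v w x p <;> by_cases hq : oddB u v w x q <;> simp [hp, hq]

/-- The restriction of a function to the odd sector. -/
noncomputable def ores (u v w x : V) (f : Gr d → ℝ) : Gr d → ℝ :=
  fun G => if oddB u v w x G then f G else 0

lemma avg_okey_ores {u v w x a b : V}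
    (hinv : ∀ p q : Gr d, pkey a b p = pkey a b q → (oddB u v w x p ↔ oddB u v w x q))
    (f : Gr d → ℝ) : avg (okey u v w x a b) (ores u v w x f) = ores u v w x (avg (pkey a b) f) := by
  funext G
  unfold ores
  by_cases hG : oddB u v w x G
  · rw [if_pos hG]
    have hfib : fib (okey u v w x a b) G = fib (pkey a b) G := by
      ext q
      rw [mem_fib, mem_fib, okey_eq_iff]
      constructor
      · rintro (⟨-, -, h⟩ | ⟨-, h, -⟩)
        · exact h
        · exact absurd hG h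
      · intro h
        exact Or.inl ⟨(hinv _ _ h).mpr hG, hG, h⟩
    rw [avg_apply, avg_apply, hfib]
    congr 1
    refine Finset.sum_congr rfl (fun q hq => ?_)
    rw [if_pos ((hinv _ _ (mem_fib.mp hq)).mpr hG)]
  · rw [if_neg hG]
    have hfib : fib (okey u v w x a b) G = {G} := by
      ext q
      rw [mem_fib, okey_eq_iff, Finset.mem_singleton]
      constructor
      · rintro (⟨-, h, -⟩ | ⟨-, -, h⟩)
        · exact absurd h hG
        · exact h
      · rintro rfl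
        exact Or.inr ⟨hG, hG, rfl⟩
    rw [avg_apply, hfib, Finset.sum_singleton, if_neg hG, zero_div]

/-- The special exchange: on the odd sector, swap the column of the exclusive row with column `b`. -/
noncomputable def spec (u v w x b : V) (G : Gr d) : Gr d :=
  if oddB u v w x G then (if G.1 u w ≠ G.1 u x then sw w x u b G else sw w x v b G) else G

lemma pkey_wx_sw {u v w x : V} {i b : V} (hwx : w ≠ x) (hi : i ≠ w ∧ i ≠ x) (hb : b ≠ w ∧ b ≠ x)
    (G : Gr d) : pkey w x (sw w x i b G) = pkey w x G :=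
  key_sw (by simp) (by simp) (mem_compl2.mpr hi) (mem_compl2.mpr hb) G

lemma pkey_wx_spec {u v w x b : V} (h : Dist4 u v w x) (hb : b ∈ C4 u v w x) (G : Gr d) :
    pkey w x (spec u v w x b G) = pkey w x G := by
  obtain ⟨huv, hwx, huw, hux, hvw, hvx⟩ := h
  rw [mem_C4] at hb
  unfold spec
  split_ifs
  · exact pkey_wx_sw (u := u) (v := v) hwx ⟨huw, hux⟩ ⟨hb.2.2.1, hb.2.2.2⟩ G
  · exact pkey_wx_sw (u := u) (v := v) hwx ⟨hvw, hvx⟩ ⟨hb.2.2.1, hb.2.2.2⟩ G
  · rfl

/-- Row values in a switch `sw w x i b`. -/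
lemma sw_row {w x i b j : V} (hwi : w ≠ i) (hxi : x ≠ i) (hjw : j ≠ w) (hjx : j ≠ x) (hjb : j ≠ b)
    (G : Gr d) (c : V) :
    (sw w x i b G).1 j c = if act w x i b G ∧ j = i ∧ (c = w ∨ c = x) then !G.1 j c else G.1 j c := by
  by_cases ha : act w x i b G
  · rw [sw_apply_of_act ha]
    have hQ : inQ w x i b j c ↔ (j = i ∧ (c = w ∨ c = x)) := by
      unfold inQ
      constructor
      · rintro (⟨h1 | h1, -⟩ | ⟨h1 | h1, h2⟩)
        · exact absurd h1 hjw
        · exact absurd h1 hjx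
        · exact ⟨h1, h2⟩
        · exact absurd h1 hjb
      · rintro ⟨h1, h2⟩
        exact Or.inr ⟨Or.inl h1, h2⟩
    by_cases h1 : j = i ∧ (c = w ∨ c = x)
    · rw [if_pos (hQ.mpr h1), if_pos ⟨ha, h1⟩]
    · rw [if_neg (fun h' => h1 (hQ.mp h')), if_neg (fun h' => h1 h'.2)]
  · rw [sw_of_not_act ha, if_neg (fun h' => ha h'.1)]

/-- The value of the row inequality `G u w ≠ G u x` is not changed by `spec`. -/
lemma spec_cond {u v w x b : V} (h : Dist4 u v w x) (hb : b ∈ C4 u v w x) (G : Gr d) :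
    (spec u v w x b G).1 u w ≠ (spec u v w x b G).1 u x ↔ G.1 u w ≠ G.1 u x := by
  obtain ⟨huv, hwx, huw, hux, hvw, hvx⟩ := h
  rw [mem_C4] at hb
  unfold spec
  split_ifs with h1 h2
  · rw [sw_row huw.symm hux.symm huw hux hb.1.symm, sw_row huw.symm hux.symm huw hux hb.1.symm]
    by_cases ha : act w x u b G
    · rw [if_pos ⟨ha, rfl, Or.inl rfl⟩, if_pos ⟨ha, rfl, Or.inr rfl⟩]
      cases G.1 u w <;> cases G.1 u x <;> simp
    · rw [if_neg (fun h' => ha h'.1), if_neg (fun h' => ha h'.1)]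
  · rw [sw_row hvw.symm hvx.symm huw hux hb.1.symm, sw_row hvw.symm hvx.symm huw hux hb.1.symm,
      if_neg (fun h' => huv h'.2.1), if_neg (fun h' => huv h'.2.1)]
  · exact Iff.rfl

lemma spec_spec {u v w x b : V} (h : Dist4 u v w x) (hb : b ∈ C4 u v w x) (G : Gr d) :
    spec u v w x b (spec u v w x b G) = G := by
  have h1 : oddB u v w x (spec u v w x b G) ↔ oddB u v w x G :=
    oddB_congr' h (pkey_wx_spec h hb G)
  have h2 := spec_cond h hb G
  by_cases ho : oddB u v w x G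
  · by_cases hc : G.1 u w ≠ G.1 u x
    · have e1 : spec u v w x b G = sw w x u b G := by
        unfold spec; rw [if_pos ho, if_pos hc]
      rw [e1] at h1 h2 ⊢
      unfold spec
      rw [if_pos (h1.mpr ho), if_pos (h2.mpr hc), sw_sw]
    · have e1 : spec u v w x b G = sw w x v b G := by
        unfold spec; rw [if_pos ho, if_neg hc]
      rw [e1] at h1 h2 ⊢
      unfold spec
      rw [if_pos (h1.mpr ho), if_neg (fun h' => hc (h2.mp h')), sw_sw]
  · have e1 : spec u v w x b G = G := by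
      unfold spec; rw [if_neg ho]
    rw [e1, e1]

/-- `spec` as a permutation. -/
noncomputable def specPerm {u v w x b : V} (h : Dist4 u v w x) (hb : b ∈ C4 u v w x) :
    Equiv.Perm (Gr d) where
  toFun := spec u v w x b
  invFun := spec u v w x b
  left_inv := spec_spec h hb
  right_inv := spec_spec h hb

lemma sum_uv {u v i i' : V} (h : (i = u ∧ i' = v) ∨ (i = v ∧ i' = u)) (F : V → ℕ) :
    F u + F v = F i + F i' := by
  rcases h with ⟨h1, h2⟩ | ⟨h1, h2⟩
  · rw [h1, h2]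
  · rw [h1, h2, add_comm]

/-- Description of the special switch on the odd sector. -/
lemma spec_desc {u v w x b : V} (huv : u ≠ v) (G : Gr d) (hG : oddB u v w x G) :
    ∃ i i', ((i = u ∧ i' = v) ∨ (i = v ∧ i' = u)) ∧ i ≠ i' ∧ G.1 i w ≠ G.1 i x ∧
      G.1 i' w = G.1 i' x ∧ spec u v w x b G = sw w x i b G := by
  by_cases hc : G.1 u w ≠ G.1 u x
  · refine ⟨u, v, Or.inl ⟨rfl, rfl⟩, huv, hc, ?_, ?_⟩
    · unfold oddB at hG
      cases h1 : G.1 u w <;> cases h2 : G.1 u x <;> cases h3 : G.1 v w <;>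
        cases h4 : G.1 v x <;> simp [h1, h2, h3, h4] at hG hc ⊢
    · unfold spec
      rw [if_pos hG, if_pos hc]
  · have hc' : G.1 u w = G.1 u x := not_not.mp hc
    refine ⟨v, u, Or.inr ⟨rfl, rfl⟩, huv.symm, ?_, hc', ?_⟩
    · intro h5
      unfold oddB at hG
      rw [hc', h5] at hG
      omega
    · unfold spec
      rw [if_pos hG, if_neg hc]

lemma not_inB_univ {u v a c : V} (hac : ¬ inB u v (Finset.univ \ {u, v}) a c) :
    (a ≠ u ∧ a ≠ v ∧ c ≠ u ∧ c ≠ v) ∨ ((a = u ∨ a = v) ∧ (c = u ∨ c = v)) := by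
  unfold inB at hac
  rw [mem_compl2, mem_compl2] at hac
  by_cases h1 : a = u ∨ a = v
  · by_cases h2 : c = u ∨ c = v
    · exact Or.inr ⟨h1, h2⟩
    · push Not at h2
      exact absurd (Or.inl ⟨h1, h2⟩) hac
  · by_cases h2 : c = u ∨ c = v
    · push Not at h1
      exact absurd (Or.inr ⟨h2, h1⟩) hac
    · push Not at h1 h2
      exact Or.inl ⟨h1.1, h1.2, h2.1, h2.2⟩

lemma inQ_special {u v w x b i j a c : V} (h : Dist4 u v w x) (hi : i = u ∨ i = v)
    (hj : j = u ∨ j = v)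
    (hout : (a ≠ u ∧ a ≠ v ∧ c ≠ u ∧ c ≠ v) ∨ ((a = u ∨ a = v) ∧ (c = u ∨ c = v))) :
    inQ w x i b a c ↔ inQ w x j b a c := by
  obtain ⟨huv, hwx, huw, hux, hvw, hvx⟩ := h
  rcases hout with ⟨h1, h2, h3, h4⟩ | ⟨h1, h2⟩
  · have hai : a ≠ i := by rcases hi with e | e <;> rw [e] <;> assumption
    have haj : a ≠ j := by rcases hj with e | e <;> rw [e] <;> assumption
    have hci : c ≠ i := by rcases hi with e | e <;> rw [e] <;> assumption
    have hcj : c ≠ j := by rcases hj with e | e <;> rw [e] <;> assumption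
    unfold inQ
    simp only [hai, haj, hci, hcj, false_or]
  · have haw : a ≠ w ∧ a ≠ x := by
      rcases h1 with e | e <;> rw [e]
      · exact ⟨huw, hux⟩
      · exact ⟨hvw, hvx⟩
    have hcw' : c ≠ w ∧ c ≠ x := by
      rcases h2 with e | e <;> rw [e]
      · exact ⟨huw, hux⟩
      · exact ⟨hvw, hvx⟩
    unfold inQ
    simp only [haw.1, haw.2, hcw'.1, hcw'.2, false_and, and_false, or_self]

/-- Two special switches with matching values give the same key. -/
lemma key_special {u v w x b i i' j j' : V} (h : Dist4 u v w x) (hb : b ∈ C4 u v w x)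
    {p q : Gr d} (hk : pkey u v p = pkey u v q)
    (hi : (i = u ∧ i' = v) ∨ (i = v ∧ i' = u)) (hj : (j = u ∧ j' = v) ∨ (j = v ∧ j' = u))
    (hii : i ≠ i') (hjj : j ≠ j') (v1 : p.1 i w = q.1 j w) (v2 : p.1 i x = q.1 j x)
    (v3 : p.1 i' w = q.1 j' w) (v4 : p.1 i' x = q.1 j' x)
    (ha : act w x i b p) (ha' : act w x j b q) :
    pkey u v (sw w x i b p) = pkey u v (sw w x j b q) := by
  have hd := h
  obtain ⟨huv, hwx, huw, hux, hvw, hvx⟩ := h
  obtain ⟨hbu, hbv, hbw, hbx⟩ := mem_C4.mp hb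
  have hk' := key_eq_iff.mp hk
  have hiw : i ≠ w ∧ i ≠ x ∧ i' ≠ w ∧ i' ≠ x ∧ i ≠ b ∧ i' ≠ b := by
    rcases hi with ⟨h1, h2⟩ | ⟨h1, h2⟩ <;> rw [h1, h2]
    · exact ⟨huw, hux, hvw, hvx, hbu.symm, hbv.symm⟩
    · exact ⟨hvw, hvx, huw, hux, hbv.symm, hbu.symm⟩
  have hjw : j ≠ w ∧ j ≠ x ∧ j' ≠ w ∧ j' ≠ x ∧ j ≠ b ∧ j' ≠ b := by
    rcases hj with ⟨h1, h2⟩ | ⟨h1, h2⟩ <;> rw [h1, h2]
    · exact ⟨huw, hux, hvw, hvx, hbu.symm, hbv.symm⟩
    · exact ⟨hvw, hvx, huw, hux, hbv.symm, hbu.symm⟩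
  obtain ⟨i1, i2, i3, i4, i5, i6⟩ := hiw
  obtain ⟨j1, j2, j3, j4, j5, j6⟩ := hjw
  unfold pkey
  rw [key_eq_iff]
  refine ⟨fun a c hac => ?_, fun l hl => ?_⟩
  · rw [sw_apply_of_act ha, sw_apply_of_act ha', hk'.1 a c hac]
    have hQQ : inQ w x i b a c ↔ inQ w x j b a c :=
      inQ_special hd (by rcases hi with ⟨e, -⟩ | ⟨e, -⟩; exacts [Or.inl e, Or.inr e])
        (by rcases hj with ⟨e, -⟩ | ⟨e, -⟩; exacts [Or.inl e, Or.inr e]) (not_inB_univ hac)
    by_cases h5 : inQ w x i b a c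
    · rw [if_pos h5, if_pos (hQQ.mp h5)]
    · rw [if_neg h5, if_neg (fun h' => h5 (hQQ.mpr h'))]
  · have hcl := hk'.2 l hl
    rw [sum_uv hi (fun a => ((sw w x i b p).1 a l).toNat),
      sum_uv hj (fun a => ((sw w x j b q).1 a l).toNat)]
    rw [sum_uv hi (fun a => (p.1 a l).toNat), sum_uv hj (fun a => (q.1 a l).toNat)] at hcl
    have e2 : (sw w x i b p).1 i' l = p.1 i' l := by
      rw [sw_row i1.symm i2.symm i3 i4 i6 p l, if_neg (fun h' => hii h'.2.1.symm)]
    have e4 : (sw w x j b q).1 j' l = q.1 j' l := by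
      rw [sw_row j1.symm j2.symm j3 j4 j6 q l, if_neg (fun h' => hjj h'.2.1.symm)]
    have e1 := sw_row i1.symm i2.symm i1 i2 i5 p l
    have e3 := sw_row j1.symm j2.symm j1 j2 j5 q l
    rw [e1, e2, e3, e4]
    by_cases hlw : l = w ∨ l = x
    · rw [if_pos ⟨ha, rfl, hlw⟩, if_pos ⟨ha', rfl, hlw⟩]
      rcases hlw with e | e
      · rw [e, v1, v3]
      · rw [e, v2, v4]
    · rw [if_neg (fun h' => hlw h'.2.2), if_neg (fun h' => hlw h'.2.2)]
      exact hcl

/-- `spec` respects the fibres of the pair `u, v` on the odd sector. -/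
lemma spec_congr {u v w x b : V} (h : Dist4 u v w x) (hb : b ∈ C4 u v w x) {p q : Gr d}
    (hp : oddB u v w x p) (hq : oddB u v w x q) (hk : pkey u v p = pkey u v q) :
    pkey u v (spec u v w x b p) = pkey u v (spec u v w x b q) := by
  have hd := h
  obtain ⟨huv, hwx, huw, hux, hvw, hvx⟩ := h
  obtain ⟨hbu, hbv, hbw, hbx⟩ := mem_C4.mp hb
  have hk' := key_eq_iff.mp hk
  have hcw := hk'.2 w (mem_compl2.mpr ⟨huw.symm, hvw.symm⟩)
  have hcx := hk'.2 x (mem_compl2.mpr ⟨hux.symm, hvx.symm⟩)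
  have hnB : ∀ a c, a ≠ u → a ≠ v → c ≠ u → c ≠ v → ¬ inB u v (Finset.univ \ {u, v}) a c := by
    intro a c h1 h2 h3 h4 h5
    unfold inB at h5
    rcases h5 with ⟨h6 | h6, -⟩ | ⟨h6 | h6, -⟩
    · exact h1 h6
    · exact h2 h6
    · exact h3 h6
    · exact h4 h6
  have ewb : p.1 w b = q.1 w b := hk'.1 _ _ (hnB _ _ huw.symm hvw.symm hbu hbv)
  have exb : p.1 x b = q.1 x b := hk'.1 _ _ (hnB _ _ hux.symm hvx.symm hbu hbv)
  obtain ⟨i, i', hi, hii, hpi, hpo, hpe⟩ := spec_desc (b := b) huv p hp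
  obtain ⟨j, j', hj, hjj, hqj, hqo, hqe⟩ := spec_desc (b := b) huv q hq
  rw [sum_uv hi (fun a => (p.1 a w).toNat), sum_uv hj (fun a => (q.1 a w).toNat)] at hcw
  rw [sum_uv hi (fun a => (p.1 a x).toNat), sum_uv hj (fun a => (q.1 a x).toNat)] at hcx
  obtain ⟨v1, v2, v3⟩ := bool_special _ _ _ _ _ _ _ _ hpi hpo hqj hqo hcw hcx
  have v4 : p.1 i' x = q.1 j' x := by rw [← hpo, v3, hqo]
  have hiw : i ≠ w ∧ i ≠ x ∧ i ≠ b := by
    rcases hi with ⟨h1, h2⟩ | ⟨h1, h2⟩ <;> rw [h1]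
    · exact ⟨huw, hux, hbu.symm⟩
    · exact ⟨hvw, hvx, hbv.symm⟩
  have hjw : j ≠ w ∧ j ≠ x ∧ j ≠ b := by
    rcases hj with ⟨h1, h2⟩ | ⟨h1, h2⟩ <;> rw [h1]
    · exact ⟨huw, hux, hbu.symm⟩
    · exact ⟨hvw, hvx, hbv.symm⟩
  have hact : act w x i b p ↔ act w x j b q := by
    unfold act
    rw [p.symm' w i, p.symm' x i, q.symm' w j, q.symm' x j, v1, v2, ewb, exb]
    constructor
    · rintro ⟨-, h2⟩
      exact ⟨⟨hwx, hjw.2.2, hjw.1.symm, hbw.symm, hjw.2.1.symm, hbx.symm⟩, h2⟩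
    · rintro ⟨-, h2⟩
      exact ⟨⟨hwx, hiw.2.2, hiw.1.symm, hbw.symm, hiw.2.1.symm, hbx.symm⟩, h2⟩
  rw [hpe, hqe]
  by_cases ha : act w x i b p
  swap
  · rw [sw_of_not_act ha, sw_of_not_act (fun h' => ha (hact.mpr h')), hk]
  exact key_special hd hb hk hi hj hii hjj v1 v2 v3 v4 ha (hact.mp ha)

lemma notB_of_C4 {u v w x y z : V} (h : Dist4 u v w x)
    (hy : y ≠ u ∧ y ≠ v ∧ y ≠ w ∧ y ≠ x) (hz : z ≠ u ∧ z ≠ v ∧ z ≠ w ∧ z ≠ x) (C : Finset V)
    (a c : V) (hac : inQ w x y z a c) : ¬ inB u v C a c := by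
  obtain ⟨huv, hwx, huw, hux, hvw, hvx⟩ := h
  intro hB
  unfold inQ at hac
  unfold inB at hB
  rcases hac with ⟨ha, hb⟩ | ⟨ha, hb⟩ <;> rcases ha with rfl | rfl <;> rcases hb with rfl | rfl <;>
    rcases hB with ⟨h1 | h1, -⟩ | ⟨h1 | h1, -⟩ <;> subst h1 <;> simp_all

/-- The switch `sw w x y z` restricted to the odd sector. -/
noncomputable def osw (u v w x y z : V) (G : Gr d) : Gr d :=
  if oddB u v w x G then sw w x y z G else G

lemma osw_osw {u v w x y z : V} (h : Dist4 u v w x) (hy : y ∈ C4 u v w x) (hz : z ∈ C4 u v w x)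
    (G : Gr d) : osw u v w x y z (osw u v w x y z G) = G := by
  rw [mem_C4] at hy hz
  obtain ⟨huv, hwx, huw, hux, hvw, hvx⟩ := id h
  have h1 : oddB u v w x (sw w x y z G) ↔ oddB u v w x G :=
    oddB_congr' h (pkey_wx_sw (u := u) (v := v) hwx ⟨hy.2.2.1, hy.2.2.2⟩ ⟨hz.2.2.1, hz.2.2.2⟩ G)
  unfold osw
  by_cases ho : oddB u v w x G
  · rw [if_pos ho, if_pos (h1.mpr ho), sw_sw]
  · rw [if_neg ho, if_neg ho]

/-- `osw` as a permutation. -/
noncomputable def oswPerm {u v w x y z : V} (h : Dist4 u v w x) (hy : y ∈ C4 u v w x)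
    (hz : z ∈ C4 u v w x) : Equiv.Perm (Gr d) where
  toFun := osw u v w x y z
  invFun := osw u v w x y z
  left_inv := osw_osw h hy hz
  right_inv := osw_osw h hy hz

/-- The permutations used on the odd sector. -/
def oddSet {u v w x : V} (h : Dist4 u v w x) : Set (Equiv.Perm (Gr d)) :=
  {σ | (∃ y, ∃ hy : y ∈ C4 u v w x, ∃ z, ∃ hz : z ∈ C4 u v w x, σ = oswPerm h hy hz) ∨
    (∃ b, ∃ hb : b ∈ C4 u v w x, σ = specPerm h hb)}

lemma oddSet_key {u v w x : V} (h : Dist4 u v w x) (σ : Equiv.Perm (Gr d))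
    (hσ : σ ∈ oddSet h) (G : Gr d) :
    okey u v w x w x (σ G) = okey u v w x w x G := by
  rw [okey_eq_iff]
  have hd := h
  obtain ⟨huv, hwx, huw, hux, hvw, hvx⟩ := h
  rcases hσ with ⟨y, hy, z, hz, rfl⟩ | ⟨b, hb, rfl⟩
  · have hy' := mem_C4.mp hy
    have hz' := mem_C4.mp hz
    show (oddB u v w x (osw u v w x y z G) ∧ _ ∧ pkey w x (osw u v w x y z G) = _) ∨
      (¬ oddB u v w x (osw u v w x y z G) ∧ _ ∧ osw u v w x y z G = G)
    have h1 := pkey_wx_sw (u := u) (v := v) hwx ⟨hy'.2.2.1, hy'.2.2.2⟩ ⟨hz'.2.2.1, hz'.2.2.2⟩ G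
    unfold osw
    by_cases ho : oddB u v w x G
    · rw [if_pos ho]
      exact Or.inl ⟨(oddB_congr' hd h1).mpr ho, ho, h1⟩
    · rw [if_neg ho]
      exact Or.inr ⟨ho, ho, rfl⟩
  · show (oddB u v w x (spec u v w x b G) ∧ _ ∧ pkey w x (spec u v w x b G) = _) ∨
      (¬ oddB u v w x (spec u v w x b G) ∧ _ ∧ spec u v w x b G = G)
    have h1 := pkey_wx_spec hd hb G
    by_cases ho : oddB u v w x G
    · exact Or.inl ⟨(oddB_congr' hd h1).mpr ho, ho, h1⟩
    · have h2 : spec u v w x b G = G := by unfold spec; rw [if_neg ho]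
      rw [h2]
      exact Or.inr ⟨ho, ho, rfl⟩

lemma oddSet_rel {u v w x : V} (h : Dist4 u v w x) (σ : Equiv.Perm (Gr d))
    (hσ : σ ∈ oddSet h) (p q : Gr d) :
    okey u v w x u v p = okey u v w x u v q ↔ okey u v w x u v (σ p) = okey u v w x u v (σ q) := by
  have hd := h
  obtain ⟨huv, hwx, huw, hux, hvw, hvx⟩ := h
  have hodd : ∀ G, oddB u v w x (σ G) ↔ oddB u v w x G := by
    intro G
    have h1 := okey_eq_iff.mp (oddSet_key hd σ hσ G)
    rcases h1 with ⟨h1, h2, -⟩ | ⟨h1, h2, -⟩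
    · exact ⟨fun _ => h2, fun _ => h1⟩
    · exact ⟨fun h3 => absurd h3 h1, fun h3 => absurd h3 h2⟩
  have hinv : ∀ G, σ (σ G) = G := by
    rcases hσ with ⟨y, hy, z, hz, rfl⟩ | ⟨b, hb, rfl⟩
    · exact fun G => osw_osw hd hy hz G
    · exact fun G => spec_spec hd hb G
  have himp : ∀ p q : Gr d, okey u v w x u v p = okey u v w x u v q →
      okey u v w x u v (σ p) = okey u v w x u v (σ q) := by
    intro p q hpq
    rw [okey_eq_iff] at hpq ⊢
    rcases hpq with ⟨hp, hq, hk⟩ | ⟨hp, hq, hk⟩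
    · refine Or.inl ⟨(hodd p).mpr hp, (hodd q).mpr hq, ?_⟩
      rcases hσ with ⟨y, hy, z, hz, rfl⟩ | ⟨b, hb, rfl⟩
      · have hy' := mem_C4.mp hy
        have hz' := mem_C4.mp hz
        show pkey u v (osw u v w x y z p) = pkey u v (osw u v w x y z q)
        unfold osw
        rw [if_pos hp, if_pos hq]
        exact key_sw_congr (notB_of_C4 hd hy' hz' _) hk
      · exact spec_congr hd hb hp hq hk
    · exact Or.inr ⟨fun h3 => hp ((hodd p).mp h3), fun h3 => hq ((hodd q).mp h3), by rw [hk]⟩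
  constructor
  · exact himp p q
  · intro hpq
    have := himp _ _ hpq
    rwa [hinv, hinv] at this

lemma act_row {w x i z : V} {G : Gr d} (ha : act w x i z G) : G.1 i w ≠ G.1 i x := by
  intro h
  have h1 : G.1 x i = !G.1 w i := ha.2.1
  rw [G.symm' i w, G.symm' i x, h1] at h
  cases h2 : G.1 w i <;> rw [h2] at h <;> simp at h

/-- On the odd sector `spec` performs every available switch of `w, x` with a column in `{u, v}`. -/
lemma spec_eq_sw {u v w x b i : V} (hi : i = u ∨ i = v) {G : Gr d} (hG : oddB u v w x G)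
    (ha : act w x i b G) : spec u v w x b G = sw w x i b G := by
  have h1 := act_row ha
  unfold spec
  rw [if_pos hG]
  rcases hi with e | e
  · rw [e] at h1 ⊢
    rw [if_pos h1]
  · rw [e] at h1 ⊢
    rw [if_neg]
    intro h2
    unfold oddB at hG
    cases h3 : G.1 u w <;> cases h4 : G.1 u x <;> cases h5 : G.1 v w <;>
      cases h6 : G.1 v x <;> simp [h3, h4, h5, h6] at hG h1 h2

lemma not_act_of_odd {u v w x y z : V} (hy : y = u ∨ y = v) (hz : z = u ∨ z = v) {G : Gr d}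
    (hG : oddB u v w x G) : ¬ act w x y z G := by
  intro ha
  have hyz : y ≠ z := ha.1.2.1
  have h1 := act_row ha
  have h2 := act_row (act_swap_right.mp ha)
  have h3 : G.1 u w ≠ G.1 u x ∧ G.1 v w ≠ G.1 v x := by
    rcases hy with e | e <;> rcases hz with e' | e'
    · exact absurd (e.trans e'.symm) hyz
    · rw [e] at h1; rw [e'] at h2; exact ⟨h1, h2⟩
    · rw [e] at h1; rw [e'] at h2; exact ⟨h2, h1⟩
    · exact absurd (e.trans e'.symm) hyz
  unfold oddB at hG
  obtain ⟨h4, h5⟩ := h3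
  cases h6 : G.1 u w <;> cases h7 : G.1 u x <;> cases h8 : G.1 v w <;>
    cases h9 : G.1 v x <;> simp [h6, h7, h8, h9] at hG h4 h5

lemma oddSet_inv {u v w x : V} (h : Dist4 u v w x) (g : Gr d → ℝ)
    (hg : ∀ σ ∈ oddSet h, ∀ G, g (σ G) = g G) (y z : V) (hy : y ≠ w ∧ y ≠ x) (hz : z ≠ w ∧ z ≠ x)
    (G : Gr d) (hG : oddB u v w x G) : g (sw w x y z G) = g G := by
  by_cases ha : act w x y z G
  swap
  · rw [sw_of_not_act ha]
  have hcase : ∀ c : V, c ≠ w ∧ c ≠ x → (c = u ∨ c = v) ∨ c ∈ C4 u v w x := by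
    intro c hc
    rw [mem_C4]
    by_cases h1 : c = u
    · exact Or.inl (Or.inl h1)
    · by_cases h2 : c = v
      · exact Or.inl (Or.inr h2)
      · exact Or.inr ⟨h1, h2, hc.1, hc.2⟩
  rcases hcase y hy with hy1 | hy1 <;> rcases hcase z hz with hz1 | hz1
  · exact absurd ha (not_act_of_odd hy1 hz1 hG)
  · rw [← spec_eq_sw hy1 hG ha]
    exact hg _ (Or.inr ⟨z, hz1, rfl⟩) G
  · rw [sw_swap_right, ← spec_eq_sw hz1 hG (act_swap_right.mp ha)]
    exact hg _ (Or.inr ⟨y, hy1, rfl⟩) G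
  · have h1 := hg _ (Or.inl ⟨y, hy1, z, hz1, rfl⟩) G
    have h2 : (oswPerm h hy1 hz1) G = sw w x y z G := by
      show osw u v w x y z G = _
      unfold osw
      rw [if_pos hG]
    rwa [h2] at h1

lemma oddSet_meas {u v w x : V} (h : Dist4 u v w x) (g : Gr d → ℝ)
    (hg : ∀ σ ∈ oddSet h, ∀ G, g (σ G) = g G) (p q : Gr d)
    (hpq : okey u v w x w x p = okey u v w x w x q) : g p = g q := by
  rw [okey_eq_iff] at hpq
  rcases hpq with ⟨hp, hq, hk⟩ | ⟨-, -, hk⟩
  swap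
  · rw [hk]
  obtain ⟨huv, hwx, huw, hux, hvw, hvx⟩ := id h
  have h1 : ores u v w x g p = ores u v w x g q := by
    refine key_connect hwx (C := Finset.univ \ {w, x}) (by simp) (by simp) _ ?_ p q hk
    intro y hy z hz G
    rw [mem_compl2] at hy hz
    have h2 : oddB u v w x (sw w x y z G) ↔ oddB u v w x G :=
      oddB_congr' h (pkey_wx_sw (u := u) (v := v) hwx hy hz G)
    unfold ores
    by_cases hG : oddB u v w x G
    · rw [if_pos hG, if_pos (h2.mpr hG), oddSet_inv h g hg y z hy hz G hG]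
    · rw [if_neg hG, if_neg (fun h3 => hG (h2.mp h3))]
  unfold ores at h1
  rwa [if_pos hp, if_pos hq] at h1

/-- On the odd sector the two pair operators commute, hence their product is nonnegative. -/
theorem odd_nonneg {u v w x : V} (h : Dist4 u v w x) (f : Gr d → ℝ) :
    0 ≤ ∑ G : Gr d, if oddB u v w x G then PG u v f G * PG w x f G else 0 := by
  have hc : ∀ f : Gr d → ℝ, avg (okey u v w x u v) (avg (okey u v w x w x) f)
      = avg (okey u v w x w x) (avg (okey u v w x u v) f) :=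
    fun f => avg_comm_of_perm _ _ (oddSet h) (oddSet_key h) (oddSet_meas h) (oddSet_rel h) f
  have h1 := ip_nonneg_of_comm _ _ hc (ores u v w x f)
  rw [avg_okey_ores (fun p q hk => oddB_congr h hk), avg_okey_ores (fun p q hk => oddB_congr' h hk)]
    at h1
  refine le_trans h1 (le_of_eq ?_)
  unfold ip
  refine Finset.sum_congr rfl (fun G _ => ?_)
  simp only [Pi.sub_apply, PG_apply, ores]
  by_cases hG : oddB u v w x G
  · simp only [hG, if_true]
  · simp only [hG, if_false, sub_self, zero_mul]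

end Vale.Agent.P335
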