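import Mathlib
import Vale.Agent.P335.GComm
import Vale.Agent.P335.GOdd
import Vale.Agent.P335.GMop

/-!
# P335, general case: the inequality for two disjoint pairs
-/

open Finset

namespace Vale.Agent.P335

lemma bool_block : ∀ a b c e : Bool, ¬ (a = c ∧ b = e) → ¬ (a = b ∧ c = e) →
    ¬ ((a.toNat + b.toNat + c.toNat + e.toNat) % 2 = 1) → (c = !a ∧ b = !a ∧ e = a) := by
  decide

end Vale.Agent.P335

open scoped Classical

namespace Vale.Agent.P335

section abstract_part

variable {Ω : Type*} [Fintype Ω] {K : Type*}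

lemma ip_split (κ : Ω → K) (a b : Ω → ℝ) :
    ip a b = ip (avg κ a) (avg κ b) + ip (a - avg κ a) (b - avg κ b) := by
  have h1 : ip (avg κ a) (avg κ b) = ip (avg κ a) b := by
    rw [← avg_symm, avg_idem]
  have h2 : ip a (avg κ b) = ip (avg κ a) b := (avg_symm κ a b).symm
  rw [ip_sub_left, ip_sub_right, ip_sub_right, h1, h2]
  ring

lemma ip_avg_avg_le (κ : Ω → K) (f : Ω → ℝ) : ip (avg κ f) (avg κ f) ≤ ip f f := by
  rw [← ip_avg_self]; exact ip_avg_self_le κ f

lemma ip_compl_self (κ : Ω → K) (f : Ω → ℝ) :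
    ip f (f - avg κ f) = ip (f - avg κ f) (f - avg κ f) := by
  rw [ip_sub_left, ip_sub_right (avg κ f), ← ip_avg_self κ f]
  have : ip (avg κ f) f = ip (avg κ f) f := rfl
  ring

/-- Composition with an involution. -/
lemma ip_comp_invol (σ : Equiv.Perm Ω) (a b : Ω → ℝ) :
    ip (fun x => a (σ x)) (fun x => b (σ x)) = ip a b := by
  unfold ip
  exact Equiv.sum_comp σ (fun x => a x * b x)

lemma ip_comp_swap (σ : Equiv.Perm Ω) (hσ : ∀ x, σ (σ x) = x) (a b : Ω → ℝ) :
    ip (fun x => a (σ x)) b = ip a (fun x => b (σ x)) := by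
  have h := ip_comp_invol σ (fun x => a (σ x)) b
  simp only [hσ] at h
  exact h.symm

lemma ip_quarter (σ : Equiv.Perm Ω) (hσ : ∀ x, σ (σ x) = x) (a b : Ω → ℝ) :
    ip a b = (1 / 4) * ip (a - fun x => a (σ x)) (b - fun x => b (σ x))
      + (1 / 4) * ip (a + fun x => a (σ x)) (b + fun x => b (σ x)) := by
  simp only [ip_sub_left, ip_sub_right, ip_add_left, ip_add_right]
  rw [ip_comp_invol, ip_comp_swap σ hσ a b]
  ring

/-- `|f - f ∘ σ|² ≤ 4 |f|²`. -/
lemma ip_diff_le (σ : Equiv.Perm Ω) (hσ : ∀ x, σ (σ x) = x) (f : Ω → ℝ) :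
    (1 / 4) * ip (f - fun x => f (σ x)) (f - fun x => f (σ x)) ≤ ip f f := by
  have h1 := ip_quarter σ hσ f f
  have h2 := ip_self_nonneg (f + fun x => f (σ x))
  linarith

end abstract_part

variable {V : Type*} [Fintype V] {d : V → ℕ}

/-- Restriction to the graphs on which the switch is available. -/
noncomputable def Jr (u v w x : V) (g : Gr d → ℝ) : Gr d → ℝ :=
  fun G => if act u v w x G then g G else 0

/-- Composition with the switch. -/
noncomputable def Tr (u v w x : V) (g : Gr d → ℝ) : Gr d → ℝ :=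
  fun G => g (sw u v w x G)

lemma act_sw_iff {u v w x : V} {G : Gr d} : act u v w x (sw u v w x G) ↔ act u v w x G := by
  constructor
  · intro h
    have := act_sw h
    rwa [sw_sw] at this
  · exact act_sw

lemma akey_of_key {u v w x : V} (h : Dist4 u v w x) {p q : Gr d}
    (hk : key u v (C4 u v w x) p = key u v (C4 u v w x) q) :
    akey u v w x p = akey u v w x q := by
  unfold akey
  rw [pkey_of_key h hk, propext (act_congr_A h hk)]

lemma akey_sw {u v w x : V} (h : Dist4 u v w x) (G : Gr d) :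
    akey u v w x (sw u v w x G) = akey u v w x G := by
  unfold akey
  rw [pkey_sw h, propext act_sw_iff]

lemma akey_eq_iff {u v w x : V} {p q : Gr d} :
    akey u v w x p = akey u v w x q ↔ pkey u v p = pkey u v q ∧ (act u v w x p ↔ act u v w x q) := by
  unfold akey
  rw [Prod.mk.injEq, eq_iff_iff]

/-- If two graphs in the same pair fibre have the same block row `u`, the finer keys agree. -/
lemma key_of_pkey_block {u v w x : V} (h : Dist4 u v w x) {p q : Gr d}
    (hk : pkey u v p = pkey u v q) (h1 : p.1 u w = q.1 u w) (h2 : p.1 u x = q.1 u x) :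
    key u v (C4 u v w x) p = key u v (C4 u v w x) q := by
  obtain ⟨huv, hwx, huw, hux, hvw, hvx⟩ := h
  have hk' := key_eq_iff.mp hk
  have h3 : p.1 v w = q.1 v w := by
    have h5 := hk'.2 w (mem_compl2.mpr ⟨huw.symm, hvw.symm⟩)
    rw [h1] at h5
    have h6 : (p.1 v w).toNat = (q.1 v w).toNat := by omega
    cases h7 : p.1 v w <;> cases h8 : q.1 v w <;> simp [h7, h8] at h6 ⊢
  have h4 : p.1 v x = q.1 v x := by
    have h5 := hk'.2 x (mem_compl2.mpr ⟨hux.symm, hvx.symm⟩)
    rw [h2] at h5
    have h6 : (p.1 v x).toNat = (q.1 v x).toNat := by omega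
    cases h7 : p.1 v x <;> cases h8 : q.1 v x <;> simp [h7, h8] at h6 ⊢
  have hent : ∀ a b, (a = u ∨ a = v) → b ∉ C4 u v w x → b ≠ u → b ≠ v → p.1 a b = q.1 a b := by
    intro a b ha hb hbu hbv
    have hb5 : b = w ∨ b = x := by
      by_contra hcon
      push Not at hcon
      exact hb (mem_C4.mpr ⟨hbu, hbv, hcon.1, hcon.2⟩)
    rcases ha with rfl | rfl <;> rcases hb5 with rfl | rfl <;> assumption
  rw [key_eq_iff]
  refine ⟨fun a b hab => ?_, fun l hl => ?_⟩
  · by_cases hB : inB u v (Finset.univ \ {u, v}) a b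
    · unfold inB at hB hab
      rcases hB with ⟨ha, hb⟩ | ⟨hb, ha⟩
      · rw [mem_compl2] at hb
        exact hent a b ha (fun hb4 => hab (Or.inl ⟨ha, hb4⟩)) hb.1 hb.2
      · rw [mem_compl2] at ha
        rw [p.symm' a b, q.symm' a b]
        exact hent b a hb (fun ha4 => hab (Or.inr ⟨hb, ha4⟩)) ha.1 ha.2
    · exact hk'.1 a b hB
  · rw [mem_C4] at hl
    exact hk'.2 l (mem_compl2.mpr ⟨hl.1, hl.2.1⟩)

/-- `M` is the symmetrized restriction of `A`. -/
lemma Mop_eq_half {u v w x : V} (h : Dist4 u v w x) (g : Gr d → ℝ) :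
    Mop u v w x g = (1 / 2 : ℝ) • (Jr u v w x (avg (key u v (C4 u v w x)) g)
      + Tr u v w x (Jr u v w x (avg (key u v (C4 u v w x)) g))) := by
  set A := avg (key (d := d) u v (C4 u v w x)) with hA
  set k : Gr d → ℝ := (1 / 2 : ℝ) • (Jr u v w x (A g) + Tr u v w x (Jr u v w x (A g))) with hk
  have hkT : ∀ G, k (sw u v w x G) = k G := by
    intro G
    simp only [hk, Pi.smul_apply, Pi.add_apply, Tr, sw_sw]
    ring
  -- measurability
  have hkA : ∀ p q, key u v (C4 u v w x) p = key u v (C4 u v w x) q → k p = k q := by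
    intro p q hpq
    have h1 : Jr u v w x (A g) p = Jr u v w x (A g) q := by
      unfold Jr
      rw [propext (act_congr_A h hpq), hA, avg_meas _ g hpq]
    have hpq' : key u v (C4 u v w x) (sw u v w x p) = key u v (C4 u v w x) (sw u v w x q) :=
      key_sw_congr (block_not_inB h) hpq
    have h2 : Jr u v w x (A g) (sw u v w x p) = Jr u v w x (A g) (sw u v w x q) := by
      unfold Jr
      rw [propext (act_congr_A h hpq'), hA, avg_meas _ g hpq']
    simp only [hk, Pi.smul_apply, Pi.add_apply, Tr, h1, h2]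
  have hmeas : ∀ p q, akey u v w x p = akey u v w x q → k p = k q := by
    intro p q hpq
    rw [akey_eq_iff] at hpq
    obtain ⟨hpq, hact⟩ := hpq
    by_cases hp : act u v w x p
    · have hq := hact.mp hp
      by_cases h1 : p.1 u w = q.1 u w
      · refine hkA p q (key_of_pkey_block h hpq h1 ?_)
        rw [hp.2.2.1, hq.2.2.1, h1]
      · rw [← hkT p]
        have hs := act_sw hp
        have h2 : (sw u v w x p).1 u w = !p.1 u w := by
          rw [sw_apply_of_act hp, if_pos (by unfold inQ; tauto)]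
        refine hkA _ q (key_of_pkey_block h ?_ ?_ ?_)
        · rw [pkey_sw h, hpq]
        · rw [h2]
          cases h3 : p.1 u w <;> cases h4 : q.1 u w <;> simp [h3, h4] at h1 ⊢
        · rw [hs.2.2.1, hq.2.2.1, h2]
          cases h3 : p.1 u w <;> cases h4 : q.1 u w <;> simp [h3, h4] at h1 ⊢
    · have hq : ¬ act u v w x q := fun h' => hp (hact.mpr h')
      simp only [hk, Pi.smul_apply, Pi.add_apply, Tr, Jr]
      rw [if_neg hp, if_neg hq, if_neg (fun h' => hp (act_sw_iff.mp h')),
        if_neg (fun h' => hq (act_sw_iff.mp h'))]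
  have h5 : avg (akey u v w x) k = k := avg_of_meas hmeas
  -- averages of the pieces
  have hJ : ∀ g' : Gr d → ℝ, avg (akey u v w x) (Jr u v w x g')
      = Jr u v w x (avg (akey u v w x) g') := by
    intro g'
    funext G
    unfold Jr
    by_cases hG : act u v w x G
    · rw [if_pos hG, avg_apply, avg_apply]
      congr 1
      refine Finset.sum_congr rfl (fun q hq => ?_)
      rw [if_pos ((akey_eq_iff.mp (mem_fib.mp hq)).2.mpr hG)]
    · rw [if_neg hG, avg_apply, Finset.sum_eq_zero, zero_div]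
      intro q hq
      rw [if_neg (fun h' => hG ((akey_eq_iff.mp (mem_fib.mp hq)).2.mp h'))]
  have hT : ∀ g' : Gr d → ℝ, avg (akey u v w x) (Tr u v w x g') = avg (akey u v w x) g' := by
    intro g'
    funext G
    have h1 := avg_comp_perm (akey u v w x) (swPerm u v w x)
      (fun p q => by rw [swPerm_apply, swPerm_apply, akey_sw h, akey_sw h]) g' G
    have h2 : avg (akey u v w x) g' (swPerm u v w x G) = avg (akey u v w x) g' G :=
      avg_meas _ _ (akey_sw h G)
    rw [h2] at h1
    rw [h1]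
    rfl
  have hAk : avg (akey u v w x) (A g) = avg (akey u v w x) g :=
    avg_tower' (fun p q hpq => akey_of_key h hpq) g
  have h6 : avg (akey u v w x) k = Jr u v w x (avg (akey u v w x) g) := by
    rw [hk, map_smul, map_add, hT, hJ, hAk]
    funext G
    simp only [Pi.smul_apply, Pi.add_apply, smul_eq_mul]
    ring
  rw [← h5, h6]
  rfl

/-- The block is determined by the key of `B`, so `Jr` commutes with `B`. -/
lemma Jr_B {u v w x : V} (h : Dist4 u v w x) (g : Gr d → ℝ) :
    avg (key w x (C4 u v w x)) (Jr u v w x g) = Jr u v w x (avg (key w x (C4 u v w x)) g) := by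
  have hact : ∀ p q : Gr d, key w x (C4 u v w x) p = key w x (C4 u v w x) q →
      (act u v w x p ↔ act u v w x q) := by
    intro p q hpq
    rw [← C4_exch] at hpq
    rw [act_exchange, act_congr_A h.exch hpq, act_exchange]
  funext G
  unfold Jr
  by_cases hG : act u v w x G
  · rw [if_pos hG, avg_apply, avg_apply]
    congr 1
    refine Finset.sum_congr rfl (fun q hq => ?_)
    rw [if_pos ((hact _ _ (mem_fib.mp hq)).mpr hG)]
  · rw [if_neg hG, avg_apply, Finset.sum_eq_zero, zero_div]
    intro q hq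
    rw [if_neg (fun h' => hG ((hact _ _ (mem_fib.mp hq)).mp h'))]

lemma Tr_B {u v w x : V} (h : Dist4 u v w x) (g : Gr d → ℝ) :
    avg (key w x (C4 u v w x)) (Tr u v w x g) = Tr u v w x (avg (key w x (C4 u v w x)) g) := by
  have h1 := comm_TA h.exch g
  rw [C4_exch] at h1
  have h2 : ∀ k : Gr d → ℝ, (fun G => k (sw w x u v G)) = Tr u v w x k := by
    intro k
    funext G
    unfold Tr
    rw [sw_exchange u v w x]
  rw [h2] at h1
  rw [h1]
  exact h2 _

/-- Bound for the symmetric part. -/
lemma sym_bound {u v w x : V} (h : Dist4 u v w x) (g : Gr d → ℝ) :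
    (1 / 4) * ip (Jr u v w x (avg (key w x (C4 u v w x)) (avg (key u v (C4 u v w x)) g))
        + Tr u v w x (Jr u v w x (avg (key w x (C4 u v w x)) (avg (key u v (C4 u v w x)) g))))
      (Jr u v w x (avg (key w x (C4 u v w x)) (avg (key u v (C4 u v w x)) g))
        + Tr u v w x (Jr u v w x (avg (key w x (C4 u v w x)) (avg (key u v (C4 u v w x)) g))))
      ≤ ip (Mop u v w x g) (Mop u v w x g) := by
  set A := avg (key (d := d) u v (C4 u v w x)) with hA
  set B := avg (key (d := d) w x (C4 u v w x)) with hB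
  have h1 : Jr u v w x (B (A g)) + Tr u v w x (Jr u v w x (B (A g)))
      = (2 : ℝ) • B (Mop u v w x g) := by
    rw [Mop_eq_half h, map_smul, map_add, hB, Tr_B h, Jr_B h, smul_smul]
    norm_num
    rfl
  rw [h1, ip_smul_left, ip_smul_right]
  have h2 := ip_avg_avg_le (key (d := d) w x (C4 u v w x)) (Mop u v w x g)
  linarith

lemma Jr_of_act {u v w x : V} {g : Gr d → ℝ} {G : Gr d} (h : act u v w x G) :
    Jr u v w x g G = g G := if_pos h

lemma Jr_of_not_act {u v w x : V} {g : Gr d → ℝ} {G : Gr d} (h : ¬ act u v w x G) :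
    Jr u v w x g G = 0 := if_neg h

lemma Jr_exch (u v w x : V) (g : Gr d → ℝ) : Jr w x u v g = Jr u v w x g := by
  funext G
  unfold Jr
  rw [propext (act_exchange (u := w) (v := x) (y := u) (z := v) (x := G))]

lemma Tr_exch (u v w x : V) (g : Gr d → ℝ) : Tr w x u v g = Tr u v w x g := by
  funext G
  unfold Tr
  rw [sw_exchange u v w x]

/-- The core inequality for functions measurable with respect to the block. -/
lemma core_ineq {u v w x : V} (h : Dist4 u v w x) (φ : Gr d → ℝ)
    (hA : avg (key u v (C4 u v w x)) φ = φ) (hB : avg (key w x (C4 u v w x)) φ = φ) :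
    ip (Jr u v w x (PG u v φ)) (Jr u v w x (PG w x φ)) ≤ ip (PG u v φ) (PG w x φ) := by
  have hodd := odd_nonneg h φ
  have h1 : ip (PG u v φ) (PG w x φ) = ip (Jr u v w x (PG u v φ)) (Jr u v w x (PG w x φ))
      + ∑ G : Gr d, if oddB u v w x G then PG u v φ G * PG w x φ G else 0 := by
    unfold ip
    rw [← Finset.sum_add_distrib]
    refine Finset.sum_congr rfl (fun G _ => ?_)
    unfold Jr
    by_cases ha : act u v w x G
    · rw [if_pos ha, if_pos ha, if_neg, add_zero]
      intro ho
      unfold oddB at ho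
      rw [ha.2.1, ha.2.2.1, ha.2.2.2] at ho
      cases h2 : G.1 u w <;> simp [h2] at ho
    · rw [if_neg ha, if_neg ha, mul_zero, zero_add]
      by_cases ho : oddB u v w x G
      · rw [if_pos ho]
      · rw [if_neg ho]
        by_cases hc : G.1 u w = G.1 v w ∧ G.1 u x = G.1 v x
        · have h2 : PG u v φ G = 0 := by
            rw [PG_apply, Pi.sub_apply, E_eq_A h φ G hc.1 hc.2, hA, sub_self]
          rw [h2, zero_mul]
        · by_cases hr : G.1 u w = G.1 u x ∧ G.1 v w = G.1 v x
          · have h2 : PG w x φ G = 0 := by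
              rw [PG_apply, Pi.sub_apply, E_eq_A h.exch φ G ?_ ?_, C4_exch, hB, sub_self]
              · rw [G.symm' w u, G.symm' x u]; exact hr.1
              · rw [G.symm' w v, G.symm' x v]; exact hr.2
            rw [h2, mul_zero]
          · exfalso
            obtain ⟨b1, b2, b3⟩ := bool_block _ _ _ _ hc hr ho
            exact ha ⟨⟨h.1, h.2.1, h.2.2.1, h.2.2.2.1, h.2.2.2.2.1, h.2.2.2.2.2⟩, b1, b2, b3⟩
  linarith

/-- (I1) -/
theorem pair_ineq {u v w x : V} (h : Dist4 u v w x) (f : Gr d → ℝ) :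
    (1 / 4) * ip (f - fun G => f (sw u v w x G)) (f - fun G => f (sw u v w x G))
      - (1 / 2) * ip (Mop u v w x (PG u v f)) (Mop u v w x (PG u v f))
      - (1 / 2) * ip (Mop w x u v (PG w x f)) (Mop w x u v (PG w x f))
      ≤ ip (PG u v f) (PG w x f) := by
  have hσ : ∀ G : Gr d, swPerm u v w x (swPerm u v w x G) = G := fun G => sw_sw u v w x G
  -- the operators
  set E : (Gr d → ℝ) →ₗ[ℝ] (Gr d → ℝ) := avg (pkey u v) with hEdef
  set F : (Gr d → ℝ) →ₗ[ℝ] (Gr d → ℝ) := avg (pkey w x) with hFdef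
  set A : (Gr d → ℝ) →ₗ[ℝ] (Gr d → ℝ) := avg (key u v (C4 u v w x)) with hAdef
  set B : (Gr d → ℝ) →ₗ[ℝ] (Gr d → ℝ) := avg (key w x (C4 u v w x)) with hBdef
  have hEA : ∀ g, E (A g) = E g := fun g => tower_EA h g
  have hAE : ∀ g, A (E g) = E g := fun g => tower_AE h g
  have hFB : ∀ g, F (B g) = F g := by
    intro g
    have := tower_EA h.exch g
    rwa [C4_exch] at this
  have hBF : ∀ g, B (F g) = F g := by
    intro g
    have := tower_AE h.exch g
    rwa [C4_exch] at this
  have hAB : ∀ g, A (B g) = B (A g) := fun g => comm_AB h g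
  have hEB : ∀ g, E (B g) = B (E g) := fun g => comm_EB h g
  have hFA : ∀ g, F (A g) = A (F g) := by
    intro g
    have := comm_EB h.exch g
    rwa [C4_exch] at this
  have hTE : ∀ g, Tr u v w x (E g) = E g := by
    intro g; funext G; exact comm_TE h g G
  have hTF : ∀ g, Tr u v w x (F g) = F g := by
    intro g
    rw [← Tr_exch]
    funext G; exact comm_TE h.exch g G
  have hTA : ∀ g, A (Tr u v w x g) = Tr u v w x (A g) := fun g => comm_TA h g
  have hTB : ∀ g, B (Tr u v w x g) = Tr u v w x (B g) := fun g => Tr_B h g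
  have hTsub : ∀ g k : Gr d → ℝ, Tr u v w x (g - k) = Tr u v w x g - Tr u v w x k := by
    intro g k; funext G; rfl
  have hAA : ∀ g, A (A g) = A g := fun g => avg_idem _ g
  have hBB : ∀ g, B (B g) = B g := fun g => avg_idem _ g
  have hPG1 : ∀ g, PG u v g = g - E g := fun g => rfl
  have hPG2 : ∀ g, PG w x g = g - F g := fun g => rfl
  -- D-contraction
  have hcontr : ∀ g : Gr d → ℝ, (1 / 4) * ip (g - Tr u v w x g) (g - Tr u v w x g) ≤ ip g g :=
    fun g => ip_diff_le (swPerm u v w x) hσ g
  set g := f - A f with hg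
  set k := A f - B (A f) with hk
  set φ := B (A f) with hφ
  -- step 1
  have s1 : ip (PG u v f) (PG w x f) = ip (PG u v (A f)) (PG w x (A f)) + ip g (g - F g) := by
    rw [ip_split (key u v (C4 u v w x)) (PG u v f) (PG w x f)]
    have e1 : A (PG u v f) = PG u v (A f) := by
      rw [hPG1, hPG1, map_sub, hAE, hEA]
    have e2 : A (PG w x f) = PG w x (A f) := by
      rw [hPG2, hPG2, map_sub, hFA]
    have e3 : PG u v f - A (PG u v f) = g := by
      rw [e1, hPG1, hPG1, hEA, hg]; abel
    have e4 : PG w x f - A (PG w x f) = g - F g := by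
      rw [e2, hPG2, hPG2, hg, map_sub]; abel
    rw [← hAdef, e3, e4, e1, e2]
  have s1' : (1 / 4) * ip (g - Tr u v w x g) (g - Tr u v w x g) ≤ ip g (g - F g) := by
    rw [hFdef, ip_compl_self, ← hFdef]
    have e1 := hcontr (g - F g)
    rw [hTsub, hTF] at e1
    have e2 : g - F g - (Tr u v w x g - F g) = g - Tr u v w x g := by abel
    rwa [e2] at e1
  -- step 2
  have s2 : ip (PG u v (A f)) (PG w x (A f)) = ip (PG u v φ) (PG w x φ) + ip (k - E k) k := by
    rw [ip_split (key w x (C4 u v w x)) (PG u v (A f)) (PG w x (A f))]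
    have e1 : B (PG u v (A f)) = PG u v φ := by
      rw [hPG1, hPG1, map_sub, ← hEB]
    have e2 : B (PG w x (A f)) = PG w x φ := by
      rw [hPG2, hPG2, map_sub, hBF, hφ, hFB]
    have e3 : PG u v (A f) - B (PG u v (A f)) = k - E k := by
      rw [e1, hPG1, hPG1, hk, map_sub]; abel
    have e4 : PG w x (A f) - B (PG w x (A f)) = k := by
      rw [e2, hPG2, hPG2, hφ, hFB, hk]; abel
    rw [← hBdef, e3, e4, e1, e2]
  have s2' : (1 / 4) * ip (k - Tr u v w x k) (k - Tr u v w x k) ≤ ip (k - E k) k := by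
    have e0 : ip (k - E k) k = ip (k - E k) (k - E k) := by
      rw [ip_comm (k - E k) k]
      exact ip_compl_self _ k
    rw [e0]
    have e1 := hcontr (k - E k)
    rw [hTsub, hTE] at e1
    have e2 : k - E k - (Tr u v w x k - E k) = k - Tr u v w x k := by abel
    rwa [e2] at e1
  -- step 3
  have s3 : ip (f - Tr u v w x f) (f - Tr u v w x f)
      = ip (g - Tr u v w x g) (g - Tr u v w x g) + ip (k - Tr u v w x k) (k - Tr u v w x k)
        + ip (φ - Tr u v w x φ) (φ - Tr u v w x φ) := by
    rw [ip_split (key u v (C4 u v w x)) (f - Tr u v w x f) (f - Tr u v w x f)]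
    have e1 : A (f - Tr u v w x f) = A f - Tr u v w x (A f) := by rw [map_sub, hTA]
    have e2 : f - Tr u v w x f - A (f - Tr u v w x f) = g - Tr u v w x g := by
      rw [e1, hg, hTsub]; abel
    rw [← hAdef, e2, e1,
      ip_split (key w x (C4 u v w x)) (A f - Tr u v w x (A f)) (A f - Tr u v w x (A f))]
    have e3 : B (A f - Tr u v w x (A f)) = φ - Tr u v w x φ := by rw [map_sub, hTB]
    have e4 : A f - Tr u v w x (A f) - B (A f - Tr u v w x (A f)) = k - Tr u v w x k := by
      rw [e3, hk, hTsub, hφ]; abel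
    rw [← hBdef, e4, e3]
    ring
  -- step 4
  have hAφ : A φ = φ := by rw [hφ, hAB, hAA]
  have hBφ : B φ = φ := by rw [hφ, hBB]
  have s4 := core_ineq h φ hAφ hBφ
  set a := Jr u v w x (PG u v φ) with ha
  set b := Jr u v w x (PG w x φ) with hb
  have ea : PG u v φ = B (A (PG u v f)) := by
    rw [hPG1, hPG1, map_sub, hAE, map_sub, ← hEB, hφ]
    rw [hEB, hEB, hEA]
  have eb : PG w x φ = A (B (PG w x f)) := by
    rw [hPG2, hPG2, map_sub, hBF, map_sub, hφ, hFB, hFA, hAB]
  have s5 := ip_quarter (swPerm u v w x) hσ a b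
  have ediff : ∀ (c : Gr d → ℝ), (∀ G, c (sw u v w x G) = c G) →
      Jr u v w x (φ - c) - (fun G => Jr u v w x (φ - c) (swPerm u v w x G)) = φ - Tr u v w x φ := by
    intro c hc
    funext G
    show Jr u v w x (φ - c) G - Jr u v w x (φ - c) (sw u v w x G) = φ G - φ (sw u v w x G)
    by_cases hG : act u v w x G
    · rw [Jr_of_act hG, Jr_of_act (act_sw hG)]
      simp only [Pi.sub_apply]
      rw [hc G]
      ring
    · rw [Jr_of_not_act hG, Jr_of_not_act (fun h' => hG (act_sw_iff.mp h')), sw_of_not_act hG]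
      ring
  have s6 : a - (fun G => a (swPerm u v w x G)) = φ - Tr u v w x φ :=
    ediff (E φ) (fun G => congrFun (hTE φ) G)
  have s7 : b - (fun G => b (swPerm u v w x G)) = φ - Tr u v w x φ :=
    ediff (F φ) (fun G => congrFun (hTF φ) G)
  rw [s6, s7] at s5
  have s8 : (1 / 4) * ip (a + fun G => a (swPerm u v w x G)) (a + fun G => a (swPerm u v w x G))
      ≤ ip (Mop u v w x (PG u v f)) (Mop u v w x (PG u v f)) := by
    have := sym_bound h (PG u v f)
    rw [← hAdef, ← hBdef, ← ea] at this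
    exact this
  have s9 : (1 / 4) * ip (b + fun G => b (swPerm u v w x G)) (b + fun G => b (swPerm u v w x G))
      ≤ ip (Mop w x u v (PG w x f)) (Mop w x u v (PG w x f)) := by
    have := sym_bound h.exch (PG w x f)
    rw [C4_exch, Jr_exch, Tr_exch, ← hAdef, ← hBdef, ← eb] at this
    exact this
  have s10 : 0 ≤ ip ((a + fun G => a (swPerm u v w x G)) + (b + fun G => b (swPerm u v w x G)))
      ((a + fun G => a (swPerm u v w x G)) + (b + fun G => b (swPerm u v w x G))) :=
    ip_self_nonneg _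
  rw [ip_add_left (a + fun G => a (swPerm u v w x G)), ip_add_right (a + fun G => a (swPerm u v w x G)),
    ip_add_right (b + fun G => b (swPerm u v w x G)),
    ip_comm (b + fun G => b (swPerm u v w x G)) (a + fun G => a (swPerm u v w x G))] at s10
  have s11 : ip (f - fun G => f (sw u v w x G)) (f - fun G => f (sw u v w x G))
      = ip (f - Tr u v w x f) (f - Tr u v w x f) := rfl
  rw [s11, s3, s1, s2]
  linarith

end Vale.Agent.P335
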