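import Mathlib
import Vale.Agent.P335.ThreeRow
import Vale.Agent.P335.GDefs

/-!
# P335, general case: three vertices

The graphs which agree with a given graph outside a triple of vertices (and have the same numbers of
neighbours in the triple) are the tables with three rows, one column for every other vertex, and one
more column whose entry in row `i` is the negation of the opposite inner edge.
-/

open Finset
open scoped Classical

namespace Vale.Agent.P335

/-- Transfer of averages along an injection which is onto the fibres. -/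
lemma avg_transfer {Ω Ω' K K' : Type*} [Fintype Ω] [Fintype Ω'] (ψ : Ω' → Ω)
    (hinj : Function.Injective ψ) (κ : Ω → K) (κ' : Ω' → K')
    (hκ : ∀ T T', κ' T = κ' T' ↔ κ (ψ T) = κ (ψ T')) (T : Ω')
    (hfib : ∀ x, κ x = κ (ψ T) → ∃ T', ψ T' = x) (f : Ω → ℝ) :
    avg κ f (ψ T) = avg κ' (fun T => f (ψ T)) T := by
  have h1 : fib κ (ψ T) = (fib κ' T).map ⟨ψ, hinj⟩ := by
    ext x
    rw [Finset.mem_map, mem_fib]
    constructor
    · intro hx
      obtain ⟨T', rfl⟩ := hfib x hx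
      exact ⟨T', mem_fib.mpr ((hκ T' T).mpr hx), rfl⟩
    · rintro ⟨T', hT', rfl⟩
      exact (hκ T' T).mp (mem_fib.mp hT')
  rw [avg_apply, avg_apply, h1, Finset.sum_map, Finset.card_map]
  rfl

lemma third_eq : ∀ i j k : Fin 3, i ≠ j → i ≠ k → j ≠ k → -(j + k) = i := by decide

lemma third_steps : ∀ i j k : Fin 3, i ≠ j → k ≠ i → k ≠ j →
    (k + 1 = i ∧ k + 2 = j) ∨ (k + 1 = j ∧ k + 2 = i) := by decide

lemma fin3_steps : ∀ i : Fin 3, i ≠ i + 1 ∧ i ≠ i + 2 ∧ i + 1 ≠ i + 2 := by decide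

lemma exists_third : ∀ j k : Fin 3, j ≠ k → ∃ i, i ≠ j ∧ i ≠ k := by decide

lemma third_cases : ∀ i j k l : Fin 3, i ≠ j → i ≠ k → j ≠ k → l = i ∨ l = j ∨ l = k := by decide

lemma sum_three {i j k : Fin 3} (hij : i ≠ j) (hik : i ≠ k) (hjk : j ≠ k) (F : Fin 3 → ℕ) :
    ∑ a, F a = F i + (F j + F k) := by
  have huniv : (Finset.univ : Finset (Fin 3)) = {i, j, k} := by
    ext a
    simp only [Finset.mem_univ, Finset.mem_insert, Finset.mem_singleton, true_iff]
    exact third_cases i j k a hij hik hjk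
  rw [huniv, Finset.sum_insert (by simp [hij, hik]), Finset.sum_pair hjk]

set_option linter.unusedSectionVars false

variable {V : Type*} [Fintype V] {d : V → ℕ}

lemma mem_tri_iff {ρ : Fin 3 → V} {p : V} : p ∈ tri ρ ↔ ∃ i, ρ i = p := by
  simp [tri]

/-- The key of the triple. -/
noncomputable def tkey (ρ : Fin 3 → V) (x : Gr d) : (V → V → Bool) × (V → ℕ) :=
  (fun a b => if a ∈ tri ρ ∨ b ∈ tri ρ then false else x.1 a b,
   fun y => if y ∈ tri ρ then 0 else ∑ i, (x.1 (ρ i) y).toNat)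

lemma tkey_eq_iff {ρ : Fin 3 → V} {x y : Gr d} :
    tkey ρ x = tkey ρ y ↔ (∀ a b, a ∉ tri ρ → b ∉ tri ρ → x.1 a b = y.1 a b) ∧
      ∀ l, l ∉ tri ρ → ∑ i, (x.1 (ρ i) l).toNat = ∑ i, (y.1 (ρ i) l).toNat := by
  unfold tkey
  rw [Prod.mk.injEq]
  constructor
  · rintro ⟨h1, h2⟩
    refine ⟨fun a b ha hb => ?_, fun l hl => ?_⟩
    · have := congrFun (congrFun h1 a) b
      simpa [ha, hb] using this
    · have := congrFun h2 l
      simpa [hl] using this
  · rintro ⟨h1, h2⟩
    refine ⟨?_, ?_⟩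
    · funext a b
      by_cases hab : a ∈ tri ρ ∨ b ∈ tri ρ
      · simp [hab]
      · rw [not_or] at hab
        simp [hab.1, hab.2, h1 a b hab.1 hab.2]
    · funext l
      by_cases hl : l ∈ tri ρ
      · simp [hl]
      · simp only [hl, if_false]; exact h2 l hl

/-- The number of inner edges of the triple. -/
def kk (ρ : Fin 3 → V) (x : Gr d) : ℕ :=
  (x.1 (ρ 0) (ρ 1)).toNat + (x.1 (ρ 1) (ρ 2)).toNat + (x.1 (ρ 0) (ρ 2)).toNat

/-- The table of a graph. -/
noncomputable def tmat (ρ : Fin 3 → V) (x : Gr d) : Fin 3 → Option V → Bool :=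
  fun i o => match o with
    | none => !x.1 (ρ (i + 1)) (ρ (i + 2))
    | some y => if y ∈ tri ρ then false else x.1 (ρ i) y

lemma sum_tri {ρ : Fin 3 → V} (hρ : Function.Injective ρ) (F : V → ℕ) :
    ∑ y ∈ tri ρ, F y = F (ρ 0) + F (ρ 1) + F (ρ 2) := by
  unfold tri
  rw [Finset.sum_image (fun a _ b _ hab => hρ hab), Fin.sum_univ_three]

lemma row_tri {ρ : Fin 3 → V} (hρ : Function.Injective ρ) (x : Gr d) (p : V) :
    (x.1 p (ρ 0)).toNat + (x.1 p (ρ 1)).toNat + (x.1 p (ρ 2)).toNat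
      + ∑ y ∈ (tri ρ)ᶜ, (x.1 p y).toNat = d p := by
  rw [← x.2.2.2 p, ← Finset.sum_add_sum_compl (tri ρ), sum_tri hρ]

lemma tmat_some_sum (ρ : Fin 3 → V) (x : Gr d) (i : Fin 3) :
    ∑ y, (tmat ρ x i (some y)).toNat = ∑ y ∈ (tri ρ)ᶜ, (x.1 (ρ i) y).toNat := by
  rw [← Finset.sum_add_sum_compl (tri ρ)]
  have h1 : ∑ y ∈ tri ρ, (tmat ρ x i (some y)).toNat = 0 := by
    refine Finset.sum_eq_zero (fun y hy => ?_)
    simp [tmat, hy]
  have h2 : ∑ y ∈ (tri ρ)ᶜ, (tmat ρ x i (some y)).toNat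
      = ∑ y ∈ (tri ρ)ᶜ, (x.1 (ρ i) y).toNat := by
    refine Finset.sum_congr rfl (fun y hy => ?_)
    simp [tmat, Finset.mem_compl.mp hy]
  rw [h1, h2, zero_add]

lemma tmat_row {ρ : Fin 3 → V} (hρ : Function.Injective ρ) (x : Gr d) (i : Fin 3) :
    ∑ o, (tmat ρ x i o).toNat + kk ρ x = d (ρ i) + 1 := by
  rw [Fintype.sum_option, tmat_some_sum]
  have h1 := row_tri hρ x (ρ i)
  have hi := x.irrefl' (ρ i)
  unfold kk
  have hs1 := x.symm' (ρ 1) (ρ 0)
  have hs2 := x.symm' (ρ 2) (ρ 0)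
  have hs3 := x.symm' (ρ 2) (ρ 1)
  fin_cases i
  · have e1 : tmat ρ x 0 none = !x.1 (ρ 1) (ρ 2) := rfl
    simp only [Fin.zero_eta, Fin.isValue] at h1 hi ⊢
    rw [e1]
    rw [hi] at h1
    revert h1
    cases x.1 (ρ 0) (ρ 1) <;> cases x.1 (ρ 1) (ρ 2) <;> cases x.1 (ρ 0) (ρ 2) <;>
      simp <;> omega
  · have e1 : tmat ρ x 1 none = !x.1 (ρ 2) (ρ 0) := rfl
    simp only [Fin.mk_one, Fin.isValue] at h1 hi ⊢
    rw [e1, hs2]
    rw [hi, hs1] at h1
    revert h1
    cases x.1 (ρ 0) (ρ 1) <;> cases x.1 (ρ 1) (ρ 2) <;> cases x.1 (ρ 0) (ρ 2) <;>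
      simp <;> omega
  · have e1 : tmat ρ x 2 none = !x.1 (ρ 0) (ρ 1) := rfl
    simp only [Fin.reduceFinMk, Fin.isValue] at h1 hi ⊢
    rw [e1]
    rw [hi, hs2, hs3] at h1
    revert h1
    cases x.1 (ρ 0) (ρ 1) <;> cases x.1 (ρ 1) (ρ 2) <;> cases x.1 (ρ 0) (ρ 2) <;>
      simp <;> omega

lemma kk_sum {ρ : Fin 3 → V} (hρ : Function.Injective ρ) (x : Gr d) :
    (∑ y ∈ (tri ρ)ᶜ, ∑ i, (x.1 (ρ i) y).toNat) + 2 * kk ρ x = d (ρ 0) + d (ρ 1) + d (ρ 2) := by
  have h0 := row_tri hρ x (ρ 0)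
  have h1 := row_tri hρ x (ρ 1)
  have h2 := row_tri hρ x (ρ 2)
  have hs1 := x.symm' (ρ 1) (ρ 0)
  have hs2 := x.symm' (ρ 2) (ρ 0)
  have hs3 := x.symm' (ρ 2) (ρ 1)
  rw [x.irrefl'] at h0 h1 h2
  rw [hs1] at h1
  rw [hs2, hs3] at h2
  have h3 : ∑ y ∈ (tri ρ)ᶜ, ∑ i, (x.1 (ρ i) y).toNat
      = ∑ y ∈ (tri ρ)ᶜ, (x.1 (ρ 0) y).toNat + ∑ y ∈ (tri ρ)ᶜ, (x.1 (ρ 1) y).toNat
        + ∑ y ∈ (tri ρ)ᶜ, (x.1 (ρ 2) y).toNat := by
    rw [← Finset.sum_add_distrib, ← Finset.sum_add_distrib]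
    exact Finset.sum_congr rfl (fun y _ => Fin.sum_univ_three _)
  rw [h3]
  unfold kk
  simp only [Bool.toNat_false] at h0 h1 h2
  omega

lemma kk_congr {ρ : Fin 3 → V} (hρ : Function.Injective ρ) {x y : Gr d}
    (h : tkey ρ x = tkey ρ y) : kk ρ x = kk ρ y := by
  have h1 := kk_sum hρ x
  have h2 := kk_sum hρ y
  rw [tkey_eq_iff] at h
  have h3 : ∑ l ∈ (tri ρ)ᶜ, ∑ i, (x.1 (ρ i) l).toNat = ∑ l ∈ (tri ρ)ᶜ, ∑ i, (y.1 (ρ i) l).toNat :=
    Finset.sum_congr rfl (fun l hl => h.2 l (Finset.mem_compl.mp hl))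
  omega

lemma tmat_none_sum (ρ : Fin 3 → V) (x : Gr d) :
    ∑ i, (tmat ρ x i none).toNat + kk ρ x = 3 := by
  have e0 : tmat ρ x 0 none = !x.1 (ρ 1) (ρ 2) := rfl
  have e1 : tmat ρ x 1 none = !x.1 (ρ 2) (ρ 0) := rfl
  have e2 : tmat ρ x 2 none = !x.1 (ρ 0) (ρ 1) := rfl
  rw [Fin.sum_univ_three, e0, e1, e2, x.symm' (ρ 2) (ρ 0)]
  unfold kk
  cases x.1 (ρ 0) (ρ 1) <;> cases x.1 (ρ 1) (ρ 2) <;> cases x.1 (ρ 0) (ρ 2) <;> simp

/-- Row sums of the table of `x`. -/
noncomputable def trow (ρ : Fin 3 → V) (x : Gr d) (i : Fin 3) : ℕ := ∑ o, (tmat ρ x i o).toNat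

/-- Column sums of the table of `x`. -/
noncomputable def tcol (ρ : Fin 3 → V) (x : Gr d) (o : Option V) : ℕ := ∑ i, (tmat ρ x i o).toNat

lemma tmat_margins {ρ : Fin 3 → V} (hρ : Function.Injective ρ) {x x0 : Gr d}
    (h : tkey ρ x = tkey ρ x0) :
    (∀ i, ∑ o, (tmat ρ x i o).toNat = trow ρ x0 i) ∧
      (∀ o, ∑ i, (tmat ρ x i o).toNat = tcol ρ x0 o) := by
  have hk := kk_congr hρ h
  constructor
  · intro i
    have h1 := tmat_row hρ x i
    have h2 := tmat_row hρ x0 i
    unfold trow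
    omega
  · intro o
    unfold tcol
    cases o with
    | none =>
      have h1 := tmat_none_sum ρ x
      have h2 := tmat_none_sum ρ x0
      omega
    | some y =>
      by_cases hy : y ∈ tri ρ
      · simp [tmat, hy]
      · rw [tkey_eq_iff] at h
        have := h.2 y hy
        simpa [tmat, hy] using this

/-- The graph of a table (as a matrix), over a base graph `x0`. -/
noncomputable def gmat (ρ : Fin 3 → V) (x0 : Gr d) (T : Fin 3 → Option V → Bool) : V → V → Bool :=
  fun p q =>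
    if p ∈ tri ρ then
      (if q ∈ tri ρ then
        (if p = q then false else !T (-(Function.invFun ρ p + Function.invFun ρ q)) none)
      else T (Function.invFun ρ p) (some q))
    else
      (if q ∈ tri ρ then T (Function.invFun ρ q) (some p) else x0.1 p q)

lemma gmat_inner {ρ : Fin 3 → V} (hρ : Function.Injective ρ) (x0 : Gr d)
    (T : Fin 3 → Option V → Bool) {i j k : Fin 3} (hij : i ≠ j) (hik : i ≠ k) (hjk : j ≠ k) :
    gmat ρ x0 T (ρ j) (ρ k) = !T i none := by
  unfold gmat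
  rw [if_pos (mem_tri ρ j), if_pos (mem_tri ρ k), if_neg (fun h => hjk (hρ h)),
    Function.leftInverse_invFun hρ j, Function.leftInverse_invFun hρ k, third_eq i j k hij hik hjk]

lemma gmat_self {ρ : Fin 3 → V} (x0 : Gr d) (T : Fin 3 → Option V → Bool) (i : Fin 3) :
    gmat ρ x0 T (ρ i) (ρ i) = false := by
  unfold gmat
  rw [if_pos (mem_tri ρ i), if_pos (mem_tri ρ i), if_pos rfl]

lemma gmat_row {ρ : Fin 3 → V} (hρ : Function.Injective ρ) (x0 : Gr d)
    (T : Fin 3 → Option V → Bool) (i : Fin 3) {q : V} (hq : q ∉ tri ρ) :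
    gmat ρ x0 T (ρ i) q = T i (some q) := by
  unfold gmat
  rw [if_pos (mem_tri ρ i), if_neg hq, Function.leftInverse_invFun hρ i]

lemma gmat_col {ρ : Fin 3 → V} (hρ : Function.Injective ρ) (x0 : Gr d)
    (T : Fin 3 → Option V → Bool) (i : Fin 3) {q : V} (hq : q ∉ tri ρ) :
    gmat ρ x0 T q (ρ i) = T i (some q) := by
  unfold gmat
  rw [if_neg hq, if_pos (mem_tri ρ i), Function.leftInverse_invFun hρ i]

lemma gmat_out {ρ : Fin 3 → V} (x0 : Gr d) (T : Fin 3 → Option V → Bool) {p q : V}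
    (hp : p ∉ tri ρ) (hq : q ∉ tri ρ) : gmat ρ x0 T p q = x0.1 p q := by
  unfold gmat
  rw [if_neg hp, if_neg hq]

lemma gmat_symm {ρ : Fin 3 → V} (hρ : Function.Injective ρ) (x0 : Gr d)
    (T : Fin 3 → Option V → Bool) (p q : V) : gmat ρ x0 T p q = gmat ρ x0 T q p := by
  by_cases hp : p ∈ tri ρ
  · obtain ⟨i, rfl⟩ := mem_tri_iff.mp hp
    by_cases hq : q ∈ tri ρ
    · obtain ⟨j, rfl⟩ := mem_tri_iff.mp hq
      by_cases hij : i = j
      · rw [hij]
      · obtain ⟨k, hk1, hk2⟩ := exists_third i j hij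
        rw [gmat_inner hρ x0 T hk1 hk2 hij, gmat_inner hρ x0 T hk2 hk1 (Ne.symm hij)]
    · rw [gmat_row hρ x0 T i hq, gmat_col hρ x0 T i hq]
  · by_cases hq : q ∈ tri ρ
    · obtain ⟨j, rfl⟩ := mem_tri_iff.mp hq
      rw [gmat_row hρ x0 T j hp, gmat_col hρ x0 T j hp]
    · rw [gmat_out x0 T hp hq, gmat_out x0 T hq hp, x0.symm' p q]

lemma gmat_irrefl {ρ : Fin 3 → V} (x0 : Gr d) (T : Fin 3 → Option V → Bool) (p : V) :
    gmat ρ x0 T p p = false := by
  by_cases hp : p ∈ tri ρ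
  · obtain ⟨i, rfl⟩ := mem_tri_iff.mp hp
    exact gmat_self x0 T i
  · rw [gmat_out x0 T hp hp, x0.irrefl' p]

lemma tab_col_some_tri {ρ : Fin 3 → V} {x0 : Gr d} (T : Tab (trow ρ x0) (tcol ρ x0)) {y : V}
    (hy : y ∈ tri ρ) (i : Fin 3) : T.1 i (some y) = false := by
  have h1 := T.2.2 (some y)
  have h2 : tcol ρ x0 (some y) = 0 := by
    unfold tcol
    simp [tmat, hy]
  rw [h2, Finset.sum_eq_zero_iff] at h1
  have h3 := h1 i (Finset.mem_univ i)
  revert h3
  cases T.1 i (some y) <;> simp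

lemma gmat_sum {ρ : Fin 3 → V} (hρ : Function.Injective ρ) (x0 : Gr d)
    (T : Tab (trow ρ x0) (tcol ρ x0)) (p : V) : ∑ q, (gmat ρ x0 T.1 p q).toNat = d p := by
  rw [← Finset.sum_add_sum_compl (tri ρ), sum_tri hρ]
  by_cases hp : p ∈ tri ρ
  · obtain ⟨i, rfl⟩ := mem_tri_iff.mp hp
    have h1 : ∑ q ∈ (tri ρ)ᶜ, (gmat ρ x0 T.1 (ρ i) q).toNat = ∑ q, (T.1 i (some q)).toNat := by
      rw [← Finset.sum_add_sum_compl (tri ρ) (fun q => (T.1 i (some q)).toNat)]
      have h2 : ∑ q ∈ tri ρ, (T.1 i (some q)).toNat = 0 :=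
        Finset.sum_eq_zero (fun q hq => by rw [tab_col_some_tri T hq i]; rfl)
      rw [h2, zero_add]
      exact Finset.sum_congr rfl (fun q hq => by rw [gmat_row hρ x0 _ i (Finset.mem_compl.mp hq)])
    have h3 := T.2.1 i
    rw [Fintype.sum_option] at h3
    have h4 := tmat_row hρ x0 i
    have h5 := tmat_none_sum ρ x0
    have h6 := T.2.2 none
    rw [Fin.sum_univ_three] at h6
    have h7 : trow ρ x0 i = ∑ o, (tmat ρ x0 i o).toNat := rfl
    have h8 : tcol ρ x0 none = ∑ i, (tmat ρ x0 i none).toNat := rfl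
    rw [h1]
    have hself := gmat_self (ρ := ρ) x0 T.1 i
    fin_cases i
    · simp only [Fin.zero_eta, Fin.isValue] at h3 h4 h7 hself ⊢
      rw [hself, gmat_inner hρ x0 T.1 (i := 2) (j := 0) (k := 1) (by decide) (by decide) (by decide),
        gmat_inner hρ x0 T.1 (i := 1) (j := 0) (k := 2) (by decide) (by decide) (by decide)]
      revert h3 h6
      cases T.1 0 none <;> cases T.1 1 none <;> cases T.1 2 none <;> simp <;> omega
    · simp only [Fin.mk_one, Fin.isValue] at h3 h4 h7 hself ⊢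
      rw [hself, gmat_inner hρ x0 T.1 (i := 2) (j := 1) (k := 0) (by decide) (by decide) (by decide),
        gmat_inner hρ x0 T.1 (i := 0) (j := 1) (k := 2) (by decide) (by decide) (by decide)]
      revert h3 h6
      cases T.1 0 none <;> cases T.1 1 none <;> cases T.1 2 none <;> simp <;> omega
    · simp only [Fin.reduceFinMk, Fin.isValue] at h3 h4 h7 hself ⊢
      rw [hself, gmat_inner hρ x0 T.1 (i := 1) (j := 2) (k := 0) (by decide) (by decide) (by decide),
        gmat_inner hρ x0 T.1 (i := 0) (j := 2) (k := 1) (by decide) (by decide) (by decide)]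
      revert h3 h6
      cases T.1 0 none <;> cases T.1 1 none <;> cases T.1 2 none <;> simp <;> omega
  · have h1 : ∑ q ∈ (tri ρ)ᶜ, (gmat ρ x0 T.1 p q).toNat = ∑ q ∈ (tri ρ)ᶜ, (x0.1 p q).toNat :=
      Finset.sum_congr rfl (fun q hq => by rw [gmat_out x0 _ hp (Finset.mem_compl.mp hq)])
    have h2 := row_tri hρ x0 p
    have h3 := T.2.2 (some p)
    have h4 : tcol ρ x0 (some p)
        = (x0.1 (ρ 0) p).toNat + (x0.1 (ρ 1) p).toNat + (x0.1 (ρ 2) p).toNat := by
      unfold tcol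
      rw [Fin.sum_univ_three]
      simp [tmat, hp]
    rw [h4, Fin.sum_univ_three] at h3
    rw [h1, gmat_col hρ x0 _ 0 hp, gmat_col hρ x0 _ 1 hp, gmat_col hρ x0 _ 2 hp, h3, ← h2,
      x0.symm' p (ρ 0), x0.symm' p (ρ 1), x0.symm' p (ρ 2)]

/-- The graph of a table. -/
noncomputable def gph {ρ : Fin 3 → V} (hρ : Function.Injective ρ) (x0 : Gr d)
    (T : Tab (trow ρ x0) (tcol ρ x0)) : Gr d :=
  ⟨gmat ρ x0 T.1, gmat_symm hρ x0 T.1, gmat_irrefl x0 T.1, gmat_sum hρ x0 T⟩

lemma gph_val {ρ : Fin 3 → V} (hρ : Function.Injective ρ) (x0 : Gr d)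
    (T : Tab (trow ρ x0) (tcol ρ x0)) : (gph hρ x0 T).1 = gmat ρ x0 T.1 := rfl

lemma tkey_gph {ρ : Fin 3 → V} (hρ : Function.Injective ρ) (x0 : Gr d)
    (T : Tab (trow ρ x0) (tcol ρ x0)) : tkey ρ (gph hρ x0 T) = tkey ρ x0 := by
  rw [tkey_eq_iff, gph_val]
  constructor
  · intro a b ha hb
    exact gmat_out x0 T.1 ha hb
  · intro l hl
    have h1 := T.2.2 (some l)
    have h2 : tcol ρ x0 (some l) = ∑ i, (x0.1 (ρ i) l).toNat := by
      unfold tcol
      simp [tmat, hl]
    rw [← h2, ← h1]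
    exact Finset.sum_congr rfl (fun i _ => by rw [gmat_row hρ x0 _ i hl])

lemma gph_surj {ρ : Fin 3 → V} (hρ : Function.Injective ρ) (x0 x : Gr d)
    (h : tkey ρ x = tkey ρ x0) : ∃ T, gph hρ x0 T = x := by
  obtain ⟨T, hT⟩ : ∃ T : Tab (trow ρ x0) (tcol ρ x0), T.1 = tmat ρ x :=
    ⟨⟨tmat ρ x, tmat_margins hρ h⟩, rfl⟩
  refine ⟨T, ?_⟩
  apply Gr.ext'
  intro p q
  rw [gph_val, hT]
  rw [tkey_eq_iff] at h
  by_cases hp : p ∈ tri ρ
  · obtain ⟨i, rfl⟩ := mem_tri_iff.mp hp
    by_cases hq : q ∈ tri ρ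
    · obtain ⟨j, rfl⟩ := mem_tri_iff.mp hq
      by_cases hij : i = j
      · rw [hij, gmat_self, x.irrefl']
      · obtain ⟨k, hk1, hk2⟩ := exists_third i j hij
        rw [gmat_inner hρ x0 _ hk1 hk2 hij]
        show (!(!x.1 (ρ (k + 1)) (ρ (k + 2)))) = x.1 (ρ i) (ρ j)
        rw [Bool.not_not]
        have h3 : (k + 1 = i ∧ k + 2 = j) ∨ (k + 1 = j ∧ k + 2 = i) :=
          third_steps i j k hij hk1 hk2
        rcases h3 with ⟨h4, h5⟩ | ⟨h4, h5⟩
        · rw [h4, h5]
        · rw [h4, h5, x.symm' (ρ j) (ρ i)]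
    · rw [gmat_row hρ x0 _ i hq]
      simp [tmat, hq]
  · by_cases hq : q ∈ tri ρ
    · obtain ⟨j, rfl⟩ := mem_tri_iff.mp hq
      rw [gmat_col hρ x0 _ j hp, x.symm' p (ρ j)]
      simp [tmat, hp]
    · rw [gmat_out x0 _ hp hq, h.1 p q hp hq]

lemma gph_inj {ρ : Fin 3 → V} (hρ : Function.Injective ρ) (x0 : Gr d) :
    Function.Injective (gph hρ x0) := by
  intro T T' h
  have hv : ∀ p q, gmat ρ x0 T.1 p q = gmat ρ x0 T'.1 p q := by
    intro p q
    rw [← gph_val hρ, ← gph_val hρ, h]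
  apply Tab.ext'
  intro i o
  cases o with
  | none =>
    have h1 := hv (ρ (i + 1)) (ρ (i + 2))
    obtain ⟨e1, e2, e3⟩ := fin3_steps i
    rw [gmat_inner hρ x0 _ e1 e2 e3, gmat_inner hρ x0 _ e1 e2 e3] at h1
    revert h1
    cases T.1 i none <;> cases T'.1 i none <;> simp
  | some y =>
    by_cases hy : y ∈ tri ρ
    · rw [tab_col_some_tri T hy i, tab_col_some_tri T' hy i]
    · have h1 := hv (ρ i) y
      rwa [gmat_row hρ x0 _ i hy, gmat_row hρ x0 _ i hy] at h1

/-- The fibres of a pair of vertices are the fibres of the two rows. -/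
lemma pkey_gph {ρ : Fin 3 → V} (hρ : Function.Injective ρ) (x0 : Gr d)
    (T T' : Tab (trow ρ x0) (tcol ρ x0)) {i j k : Fin 3} (hij : i ≠ j) (hik : i ≠ k)
    (hjk : j ≠ k) :
    outs {j, k} T = outs {j, k} T' ↔
      pkey (ρ j) (ρ k) (gph hρ x0 T) = pkey (ρ j) (ρ k) (gph hρ x0 T') := by
  have hrow : outs {j, k} T = outs {j, k} T' ↔ ∀ o, T.1 i o = T'.1 i o := by
    rw [outs_eq_iff]
    constructor
    · intro h o
      exact h i (by simp [hij, hik]) o
    · intro h a ha o
      rcases third_cases i j k a hij hik hjk with h1 | h1 | h1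
      · rw [h1]; exact h o
      · exact absurd (by simp [h1]) ha
      · exact absurd (by simp [h1]) ha
  rw [hrow]
  unfold pkey
  rw [key_eq_iff, gph_val, gph_val]
  have hjk' : ρ j ≠ ρ k := fun h => hjk (hρ h)
  have hij' : ρ i ≠ ρ j := fun h => hij (hρ h)
  have hik' : ρ i ≠ ρ k := fun h => hik (hρ h)
  constructor
  · intro h
    constructor
    · intro p q hpq
      by_cases hp : p ∈ tri ρ
      · obtain ⟨a, rfl⟩ := mem_tri_iff.mp hp
        by_cases hq : q ∈ tri ρ
        · obtain ⟨b, rfl⟩ := mem_tri_iff.mp hq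
          by_cases hab : a = b
          · rw [hab, gmat_self, gmat_self]
          · obtain ⟨e, he1, he2⟩ := exists_third a b hab
            rw [gmat_inner hρ x0 _ he1 he2 hab, gmat_inner hρ x0 _ he1 he2 hab]
            by_cases hei : e = i
            · rw [hei, h]
            · exfalso
              apply hpq
              unfold inB
              rcases third_cases i j k a hij hik hjk with h1 | h1 | h1
              · right
                rcases third_cases i j k b hij hik hjk with h2 | h2 | h2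
                · exact absurd (h1.trans h2.symm) hab
                · refine ⟨Or.inl (by rw [h2]), ?_⟩
                  rw [h1]; simp [hij', hik']
                · refine ⟨Or.inr (by rw [h2]), ?_⟩
                  rw [h1]; simp [hij', hik']
              · rcases third_cases i j k b hij hik hjk with h2 | h2 | h2
                · left
                  refine ⟨Or.inl (by rw [h1]), ?_⟩
                  rw [h2]; simp [hij', hik']
                · exact absurd (h1.trans h2.symm) hab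
                · exfalso
                  rcases third_cases i j k e hij hik hjk with h3 | h3 | h3
                  · exact hei h3
                  · exact he1 (h3.trans h1.symm)
                  · exact he2 (h3.trans h2.symm)
              · rcases third_cases i j k b hij hik hjk with h2 | h2 | h2
                · left
                  refine ⟨Or.inr (by rw [h1]), ?_⟩
                  rw [h2]; simp [hij', hik']
                · exfalso
                  rcases third_cases i j k e hij hik hjk with h3 | h3 | h3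
                  · exact hei h3
                  · exact he2 (h3.trans h2.symm)
                  · exact he1 (h3.trans h1.symm)
                · exact absurd (h1.trans h2.symm) hab
        · rw [gmat_row hρ x0 _ a hq, gmat_row hρ x0 _ a hq]
          rcases third_cases i j k a hij hik hjk with h1 | h1 | h1
          · rw [h1, h]
          · exfalso
            apply hpq
            left
            refine ⟨Or.inl (by rw [h1]), ?_⟩
            have hq1 : q ≠ ρ j := fun h2 => hq (h2 ▸ mem_tri ρ j)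
            have hq2 : q ≠ ρ k := fun h2 => hq (h2 ▸ mem_tri ρ k)
            simp [hq1, hq2]
          · exfalso
            apply hpq
            left
            refine ⟨Or.inr (by rw [h1]), ?_⟩
            have hq1 : q ≠ ρ j := fun h2 => hq (h2 ▸ mem_tri ρ j)
            have hq2 : q ≠ ρ k := fun h2 => hq (h2 ▸ mem_tri ρ k)
            simp [hq1, hq2]
      · by_cases hq : q ∈ tri ρ
        · obtain ⟨b, rfl⟩ := mem_tri_iff.mp hq
          rw [gmat_col hρ x0 _ b hp, gmat_col hρ x0 _ b hp]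
          have hp1 : p ≠ ρ j := fun h2 => hp (h2 ▸ mem_tri ρ j)
          have hp2 : p ≠ ρ k := fun h2 => hp (h2 ▸ mem_tri ρ k)
          rcases third_cases i j k b hij hik hjk with h1 | h1 | h1
          · rw [h1, h]
          · exfalso
            apply hpq
            right
            refine ⟨Or.inl (by rw [h1]), ?_⟩
            simp [hp1, hp2]
          · exfalso
            apply hpq
            right
            refine ⟨Or.inr (by rw [h1]), ?_⟩
            simp [hp1, hp2]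
        · rw [gmat_out x0 _ hp hq, gmat_out x0 _ hp hq]
    · intro l hl
      have hl1 : l ≠ ρ j := by rintro rfl; simp at hl
      have hl2 : l ≠ ρ k := by rintro rfl; simp at hl
      by_cases hlt : l ∈ tri ρ
      · obtain ⟨a, rfl⟩ := mem_tri_iff.mp hlt
        rcases third_cases i j k a hij hik hjk with h1 | h1 | h1
        · rw [h1]
          rw [gmat_inner hρ x0 _ hjk.symm hik.symm hij.symm,
            gmat_inner hρ x0 _ hjk.symm hik.symm hij.symm,
            gmat_inner hρ x0 _ hjk hij.symm hik.symm,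
            gmat_inner hρ x0 _ hjk hij.symm hik.symm]
          have e1 := T.2.2 none
          have e2 := T'.2.2 none
          rw [sum_three hij hik hjk] at e1 e2
          rw [h none] at e1
          revert e1 e2
          cases T'.1 i none <;> cases T.1 j none <;> cases T.1 k none <;> cases T'.1 j none <;>
            cases T'.1 k none <;> simp <;> omega
        · exact absurd (by rw [h1]) hl1
        · exact absurd (by rw [h1]) hl2
      · rw [gmat_row hρ x0 _ j hlt, gmat_row hρ x0 _ k hlt, gmat_row hρ x0 _ j hlt,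
          gmat_row hρ x0 _ k hlt]
        have e1 := T.2.2 (some l)
        have e2 := T'.2.2 (some l)
        rw [sum_three hij hik hjk] at e1 e2
        rw [h (some l)] at e1
        omega
  · rintro ⟨h1, -⟩ o
    cases o with
    | none =>
      have h2 := h1 (ρ j) (ρ k) (by
        unfold inB
        rintro (⟨-, h3⟩ | ⟨-, h3⟩) <;> simp at h3)
      rw [gmat_inner hρ x0 _ hij hik hjk, gmat_inner hρ x0 _ hij hik hjk] at h2
      revert h2
      cases T.1 i none <;> cases T'.1 i none <;> simp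
    | some y =>
      by_cases hy : y ∈ tri ρ
      · rw [tab_col_some_tri T hy i, tab_col_some_tri T' hy i]
      · have hy1 : y ≠ ρ j := fun h2 => hy (h2 ▸ mem_tri ρ j)
        have hy2 : y ≠ ρ k := fun h2 => hy (h2 ▸ mem_tri ρ k)
        have h2 := h1 (ρ i) y (by
          unfold inB
          rintro (⟨h3 | h3, -⟩ | ⟨h3 | h3, -⟩)
          · exact hij' h3
          · exact hik' h3
          · exact hy1 h3
          · exact hy2 h3)
        rwa [gmat_row hρ x0 _ i hy, gmat_row hρ x0 _ i hy] at h2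

/-- A function with nonnegative fibre sums has a nonnegative sum. -/
lemma sum_nonneg_of_fib {Ω K : Type*} [Fintype Ω] (κ : Ω → K) (H : Ω → ℝ)
    (h : ∀ x0, 0 ≤ ∑ x ∈ fib κ x0, H x) : 0 ≤ ∑ x, H x := by
  have h1 : ip (avg κ H) (fun _ => 1) = ip H (avg κ (fun _ => 1)) := avg_symm κ H _
  have h2 : avg κ (fun _ : Ω => (1:ℝ)) = fun _ => 1 := avg_of_meas (fun _ _ _ => rfl)
  rw [h2] at h1
  simp only [ip, mul_one] at h1
  rw [← h1]
  refine Finset.sum_nonneg (fun x _ => ?_)
  rw [avg_apply]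
  exact div_nonneg (h x) (fib_card_pos κ x).le

lemma tkey_of_pkey {ρ : Fin 3 → V} (hρ : Function.Injective ρ) {i j k : Fin 3} (hij : i ≠ j)
    (hik : i ≠ k) (hjk : j ≠ k) {x y : Gr d} (h : pkey (ρ j) (ρ k) x = pkey (ρ j) (ρ k) y) :
    tkey ρ x = tkey ρ y := by
  have hij' : ρ i ≠ ρ j := fun h => hij (hρ h)
  have hik' : ρ i ≠ ρ k := fun h => hik (hρ h)
  unfold pkey at h
  rw [key_eq_iff] at h
  rw [tkey_eq_iff]
  have hne : ∀ l, l ∉ tri ρ → l ≠ ρ j ∧ l ≠ ρ k := by
    intro l hl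
    exact ⟨fun h2 => hl (h2 ▸ mem_tri ρ j), fun h2 => hl (h2 ▸ mem_tri ρ k)⟩
  constructor
  · intro a b ha hb
    apply h.1
    unfold inB
    rintro (⟨h3 | h3, -⟩ | ⟨h3 | h3, -⟩)
    · exact (hne a ha).1 h3
    · exact (hne a ha).2 h3
    · exact (hne b hb).1 h3
    · exact (hne b hb).2 h3
  · intro l hl
    rw [sum_three hij hik hjk, sum_three hij hik hjk]
    have h1 : x.1 (ρ i) l = y.1 (ρ i) l := by
      apply h.1
      unfold inB
      rintro (⟨h3 | h3, -⟩ | ⟨h3 | h3, -⟩)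
      · exact hij' h3
      · exact hik' h3
      · exact (hne l hl).1 h3
      · exact (hne l hl).2 h3
    have h2 := h.2 l (by simp [(hne l hl).1, (hne l hl).2])
    rw [h1, h2]

/-- The pair operators of a graph are the row pair operators of the table. -/
lemma PG_gph {ρ : Fin 3 → V} (hρ : Function.Injective ρ) (x0 : Gr d)
    (T : Tab (trow ρ x0) (tcol ρ x0)) {i j k : Fin 3} (hij : i ≠ j) (hik : i ≠ k)
    (hjk : j ≠ k) (f : Gr d → ℝ) :
    PG (ρ j) (ρ k) f (gph hρ x0 T) = P j k (fun T' => f (gph hρ x0 T')) T := by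
  have hinst : (fun (a b : Fin 3) => Classical.propDecidable (a = b)) = instDecidableEqFin 3 :=
    Subsingleton.elim _ _
  rw [PG_apply, P_apply, Pi.sub_apply, Pi.sub_apply, hinst]
  congr 1
  refine avg_transfer (gph hρ x0) (gph_inj hρ x0) (pkey (ρ j) (ρ k)) (outs {j, k})
    (fun T T' => pkey_gph hρ x0 T T' hij hik hjk) T ?_ f
  intro x hx
  exact gph_surj hρ x0 x ((tkey_of_pkey hρ hij hik hjk hx).trans (tkey_gph hρ x0 T))

/-- The three-vertex inequality. -/
theorem tri_ineq {a b e : V} (hab : a ≠ b) (hbe : b ≠ e) (hae : a ≠ e) (f : Gr d → ℝ) :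
    0 ≤ ip (PG a b f) (PG b e f) + ip (PG b e f) (PG a e f) + ip (PG a b f) (PG a e f) := by
  obtain ⟨ρ, h0, h1, h2⟩ : ∃ ρ : Fin 3 → V, ρ 0 = a ∧ ρ 1 = b ∧ ρ 2 = e :=
    ⟨![a, b, e], rfl, rfl, rfl⟩
  have hρ : Function.Injective ρ := by
    intro i j hij
    fin_cases i <;> fin_cases j <;> simp_all
  set H : Gr d → ℝ := fun x => PG a b f x * PG b e f x + PG b e f x * PG a e f x
    + PG a b f x * PG a e f x with hH
  have hsum : ip (PG a b f) (PG b e f) + ip (PG b e f) (PG a e f) + ip (PG a b f) (PG a e f)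
      = ∑ x, H x := by
    unfold ip
    rw [← Finset.sum_add_distrib, ← Finset.sum_add_distrib]
  rw [hsum]
  apply sum_nonneg_of_fib (tkey ρ)
  intro x0
  have hbij : ∑ x ∈ fib (tkey ρ) x0, H x = ∑ T, H (gph hρ x0 T) := by
    symm
    refine Finset.sum_bij (fun T _ => gph hρ x0 T) ?_ ?_ ?_ ?_
    · intro T _
      rw [mem_fib]
      exact tkey_gph hρ x0 T
    · intro T _ T' _ h
      exact gph_inj hρ x0 h
    · intro x hx
      rw [mem_fib] at hx
      obtain ⟨T, hT⟩ := gph_surj hρ x0 x hx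
      exact ⟨T, Finset.mem_univ _, hT⟩
    · intro T _
      rfl
  rw [hbij]
  have hcross := three_row_cross (r := trow ρ x0) (c := tcol ρ x0) (0 : Fin 3) 1 2 (by decide)
    (by decide) (by decide) (fun T' => f (gph hρ x0 T'))
  have hval : ∀ T, H (gph hρ x0 T)
      = P 0 1 (fun T' => f (gph hρ x0 T')) T * P 1 2 (fun T' => f (gph hρ x0 T')) T
        + P 1 2 (fun T' => f (gph hρ x0 T')) T * P 0 2 (fun T' => f (gph hρ x0 T')) T
        + P 0 1 (fun T' => f (gph hρ x0 T')) T * P 0 2 (fun T' => f (gph hρ x0 T')) T := by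
    intro T
    have e1 := PG_gph hρ x0 T (i := 2) (j := 0) (k := 1) (by decide) (by decide) (by decide) f
    have e2 := PG_gph hρ x0 T (i := 0) (j := 1) (k := 2) (by decide) (by decide) (by decide) f
    have e3 := PG_gph hρ x0 T (i := 1) (j := 0) (k := 2) (by decide) (by decide) (by decide) f
    rw [h0, h1] at e1
    rw [h1, h2] at e2
    rw [h0, h2] at e3
    simp only [hH]
    rw [e1, e2, e3]
  rw [Finset.sum_congr rfl (fun T _ => hval T), Finset.sum_add_distrib, Finset.sum_add_distrib]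
  exact hcross

end Vale.Agent.P335
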