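import Mathlib
import Vale.Agent.P335.Caputo2
import Vale.Agent.P335.Rows
import Vale.Agent.P335.GTri
import Vale.Agent.P335.GConn
import Vale.Agent.P335.GPairIneq
import Vale.Agent.P335.GLip

/-!
# P335, general case: the spectral gap
-/

open Finset
open scoped Classical

namespace Vale.Agent.P335

/-- Averages only depend on the partition into fibres. -/
lemma avg_congr_iff {Ω K K' : Type*} [Fintype Ω] (κ : Ω → K) (κ' : Ω → K')
    (h : ∀ x y, κ x = κ y ↔ κ' x = κ' y) : avg κ = avg κ' := by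
  apply LinearMap.ext
  intro f
  funext x
  have h1 : fib κ x = fib κ' x := by
    ext y
    rw [mem_fib, mem_fib, h]
  rw [avg_apply, avg_apply, h1]

variable {V : Type*} [Fintype V] {d : V → ℕ}

lemma PG_comm (u v : V) : (PG u v : (Gr d → ℝ) →ₗ[ℝ] (Gr d → ℝ)) = PG v u := by
  unfold PG
  congr 1
  apply avg_congr_iff
  have h : ∀ (u v : V) (x y : Gr d), pkey u v x = pkey u v y → pkey v u x = pkey v u y := by
    intro u v x y hxy
    rw [pkey_eq_iff] at hxy ⊢
    refine ⟨fun a b hab => hxy.1 a b (fun hB => hab ?_), fun l h1 h2 => ?_⟩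
    · have : (Finset.univ \ {u, v} : Finset V) = Finset.univ \ {v, u} := by
        rw [Finset.pair_comm]
      rw [this] at hB
      unfold inB at hB ⊢
      tauto
    · have := hxy.2 l h2 h1
      omega
  intro x y
  exact ⟨h u v x y, h v u x y⟩

lemma PG_symm (u v : V) (f g : Gr d → ℝ) : ip (PG u v f) g = ip f (PG u v g) := by
  rw [PG_apply, PG_apply, ip_sub_left, ip_sub_right, avg_symm]

lemma PG_idem (u v : V) (f : Gr d → ℝ) : PG u v (PG u v f) = PG u v f := by
  rw [PG_apply u v (PG u v f), PG_apply, map_sub, avg_idem, sub_self, sub_zero]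

lemma pkey_sw' {u v w x : V} (G : Gr d) : pkey u v (sw u v w x G) = pkey u v G := by
  by_cases h : act u v w x G
  · obtain ⟨⟨-, -, h3, h4, h5, h6⟩, -⟩ := id h
    unfold pkey
    exact key_sw (by simp) (by simp) (by simp [h3.symm, h5.symm]) (by simp [h4.symm, h6.symm]) G
  · rw [sw_of_not_act h]

/-- Weights of the switches in the forms. -/
noncomputable def QA (f : Gr d → ℝ) (a b c e : V) : ℝ :=
  (1 / 4) * ip (f - fun G => f (sw a b c e G)) (f - fun G => f (sw a b c e G))

/-- Weights of the `M` operators. -/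
noncomputable def QB (f : Gr d → ℝ) (a b c e : V) : ℝ :=
  ip (Mop a b c e (PG a b f)) (Mop a b c e (PG a b f))

lemma QA_of_not (f : Gr d → ℝ) {a b c e : V} (h : ¬ Dist4 a b c e) : QA f a b c e = 0 := by
  unfold QA
  have h1 : (f - fun G => f (sw a b c e G)) = 0 := by
    funext G
    have : sw a b c e G = G := sw_of_not_act (fun h' => h h'.1)
    simp [this]
  rw [h1, ip_zero_left, mul_zero]

lemma QB_of_not (f : Gr d → ℝ) {a b c e : V} (h : ¬ Dist4 a b c e) : QB f a b c e = 0 := by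
  unfold QB
  have h1 : Mop a b c e (PG a b f) = 0 := by
    funext G
    show (if act a b c e G then avg (akey a b c e) (PG a b f) G else 0) = 0
    rw [if_neg (fun h' => h h'.1)]
  rw [h1, ip_zero_left]

lemma QB_nonneg (f : Gr d → ℝ) (a b c e : V) : 0 ≤ QB f a b c e := ip_self_nonneg _

/-- The maximum principle, summed over one pair. -/
lemma lip_sum (f : Gr d → ℝ) (u v : V) :
    2 * (if u = v then 0 else ip (PG u v f) f) ≤ ∑ w, ∑ x, (QA f u v w x - QB f u v w x) := by
  by_cases huv : u = v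
  · rw [if_pos huv, mul_zero]
    refine Finset.sum_nonneg (fun w _ => Finset.sum_nonneg (fun x _ => ?_))
    rw [QA_of_not f (fun h => h.1 huv), QB_of_not f (fun h => h.1 huv), sub_self]
  · rw [if_neg huv]
    have h := lip_ineq huv f
    simp only [Finset.sum_sub_distrib]
    unfold QA QB
    linarith

/-- Gap of the pair resampling operators. -/
theorem pairs_gap (f : Gr d → ℝ) (hf : ∑ x, f x = 0) :
    4 * ip f f ≤ ∑ a, ∑ b, if a = b then 0 else ip (PG a b f) f := by
  refine caputo2 (fun a b => PG a b) (fun a b => PG_comm a b) (fun a b f g => PG_symm a b f g)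
    (fun a b f => PG_idem a b f) (fun a b e hab hbe hae f => tri_ineq hab hbe hae f) ?_
    (meanZero (Gr d)) ?_ ?_ (mem_meanZero.mpr hf)
  · intro f
    have h1 : ∀ a b c e : V, QA f a b c e - (1 / 2) * QB f a b c e - (1 / 2) * QB f c e a b
        ≤ if a ≠ b ∧ c ≠ e ∧ a ≠ c ∧ a ≠ e ∧ b ≠ c ∧ b ≠ e then
          ip (PG a b f) (PG c e f) else 0 := by
      intro a b c e
      by_cases h : Dist4 a b c e
      · have h' : a ≠ b ∧ c ≠ e ∧ a ≠ c ∧ a ≠ e ∧ b ≠ c ∧ b ≠ e := h
        rw [if_pos h']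
        exact pair_ineq h f
      · have h' : ¬ (a ≠ b ∧ c ≠ e ∧ a ≠ c ∧ a ≠ e ∧ b ≠ c ∧ b ≠ e) := h
        rw [if_neg h', QA_of_not f h, QB_of_not f h, QB_of_not f (fun h'' => h h''.exch)]
        norm_num
    have h2 : ∑ a, ∑ b, ∑ c, ∑ e, (QA f a b c e - (1 / 2) * QB f a b c e - (1 / 2) * QB f c e a b)
        ≤ ∑ a, ∑ b, ∑ c, ∑ e, if a ≠ b ∧ c ≠ e ∧ a ≠ c ∧ a ≠ e ∧ b ≠ c ∧ b ≠ e then
          ip (PG a b f) (PG c e f) else 0 :=
      Finset.sum_le_sum (fun a _ => Finset.sum_le_sum (fun b _ => Finset.sum_le_sum (fun c _ =>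
        Finset.sum_le_sum (fun e _ => h1 a b c e))))
    have hre : ∑ a, ∑ b, ∑ c, ∑ e, QB f c e a b = ∑ a, ∑ b, ∑ c, ∑ e, QB f a b c e := by
      calc ∑ a, ∑ b, ∑ c, ∑ e, QB f c e a b
          = ∑ a, ∑ c, ∑ b, ∑ e, QB f c e a b :=
            Finset.sum_congr rfl (fun a _ => Finset.sum_comm)
        _ = ∑ c, ∑ a, ∑ b, ∑ e, QB f c e a b := Finset.sum_comm
        _ = ∑ c, ∑ a, ∑ e, ∑ b, QB f c e a b :=
            Finset.sum_congr rfl (fun c _ => Finset.sum_congr rfl (fun a _ => Finset.sum_comm))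
        _ = ∑ c, ∑ e, ∑ a, ∑ b, QB f c e a b :=
            Finset.sum_congr rfl (fun c _ => Finset.sum_comm)
    have h3 : ∑ a, ∑ b, ∑ c, ∑ e, (QA f a b c e - (1 / 2) * QB f a b c e - (1 / 2) * QB f c e a b)
        = ∑ a, ∑ b, ∑ c, ∑ e, (QA f a b c e - QB f a b c e) := by
      simp only [Finset.sum_sub_distrib, ← Finset.mul_sum]
      rw [hre]
      ring
    have h4 : 2 * (∑ a, ∑ b, if a = b then 0 else ip (PG a b f) f)
        ≤ ∑ a, ∑ b, ∑ c, ∑ e, (QA f a b c e - QB f a b c e) := by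
      rw [Finset.mul_sum]
      refine Finset.sum_le_sum (fun a _ => ?_)
      rw [Finset.mul_sum]
      exact Finset.sum_le_sum (fun b _ => lip_sum f a b)
    rw [← h3] at h4
    exact h4.trans h2
  · intro a b f hf
    rw [mem_meanZero] at hf ⊢
    show ∑ x, (f - avg (pkey a b) f) x = 0
    simp only [Pi.sub_apply, Finset.sum_sub_distrib]
    rw [sum_avg, hf, sub_zero]
  · intro f hf hP
    rw [mem_meanZero] at hf
    have hinv : ∀ u v y z x, f (sw u v y z x) = f x := by
      intro u v y z x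
      by_cases huv : u = v
      · rw [sw_of_not_act (fun h => h.1.1 huv)]
      · have h2 : f = avg (pkey u v) f := by
          have h3 : f - avg (pkey u v) f = 0 := hP u v huv
          exact sub_eq_zero.mp h3
        rw [h2]
        exact avg_meas _ f (pkey_sw' x)
    have hconst : ∀ x y, f x = f y := fun x y => gr_connected f hinv x y
    funext x
    have h4 : ∑ y, f y = (Fintype.card (Gr d) : ℝ) * f x := by
      rw [Finset.sum_congr rfl (fun y _ => hconst y x), Finset.sum_const, nsmul_eq_mul,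
        Finset.card_univ]
    rw [hf] at h4
    have h5 : (0:ℝ) < (Fintype.card (Gr d) : ℝ) := by
      exact_mod_cast Fintype.card_pos_iff.mpr ⟨x⟩
    have h6 : f x = 0 := by
      rcases mul_eq_zero.mp h4.symm with h | h
      · exact absurd h h5.ne'
      · exact h
    exact h6

/-- Gap of the switch chain (Dirichlet form over ordered quadruples). -/
theorem graph_gap (f : Gr d → ℝ) (hf : ∑ x, f x = 0) :
    32 * ip f f ≤ ∑ u, ∑ v, ∑ y, ∑ z, ∑ x : Gr d, (f x - f (sw u v y z x)) ^ 2 := by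
  have h1 := pairs_gap f hf
  have h2 : 2 * (∑ a, ∑ b, if a = b then 0 else ip (PG a b f) f)
      ≤ ∑ a, ∑ b, ∑ c, ∑ e, QA f a b c e := by
    rw [Finset.mul_sum]
    refine Finset.sum_le_sum (fun a _ => ?_)
    rw [Finset.mul_sum]
    refine Finset.sum_le_sum (fun b _ => (lip_sum f a b).trans ?_)
    refine Finset.sum_le_sum (fun c _ => Finset.sum_le_sum (fun e _ => ?_))
    have := QB_nonneg f a b c e
    linarith
  have h3 : ∑ a, ∑ b, ∑ c, ∑ e, QA f a b c e
      = (1 / 4) * ∑ u, ∑ v, ∑ y, ∑ z, ∑ x : Gr d, (f x - f (sw u v y z x)) ^ 2 := by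
    rw [Finset.mul_sum]
    refine Finset.sum_congr rfl (fun a _ => ?_)
    rw [Finset.mul_sum]
    refine Finset.sum_congr rfl (fun b _ => ?_)
    rw [Finset.mul_sum]
    refine Finset.sum_congr rfl (fun c _ => ?_)
    rw [Finset.mul_sum]
    refine Finset.sum_congr rfl (fun e _ => ?_)
    unfold QA ip
    congr 1
    refine Finset.sum_congr rfl (fun x _ => ?_)
    simp only [Pi.sub_apply]
    ring
  rw [h3] at h2
  linarith

end Vale.Agent.P335
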