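import Mathlib
import Vale.Agent.P335.SplitGap
import Vale.Agent.P335.GDefs

/-!
# P335, general case: realizations as symmetric Boolean matrices, and switches
-/

open Finset
open scoped Classical

namespace Vale.Agent.P335

variable {n : ℕ} {d : Fin n → ℕ}

/-- The adjacency matrix of a realization. -/
noncomputable def toGr (G : Omega d) : Gr d :=
  ⟨fun a b => decide (G.1.Adj a b), by
    refine ⟨fun a b => ?_, fun a => ?_, fun a => ?_⟩
    · by_cases h : G.1.Adj a b
      · simp [h, h.symm]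
      · have h' : ¬ G.1.Adj b a := fun h' => h h'.symm
        simp [h, h']
    · simp
    · rw [← deg_sum d G a]
      refine Finset.sum_congr rfl (fun b _ => ?_)
      by_cases h : G.1.Adj a b <;> simp [h]⟩

lemma toGr_apply (G : Omega d) (a b : Fin n) : (toGr G).1 a b = decide (G.1.Adj a b) := rfl

/-- The graph of a symmetric Boolean matrix. -/
def matGraph (x : Gr d) : SimpleGraph (Fin n) where
  Adj a b := x.1 a b = true
  symm := ⟨by
    intro a b h
    rw [x.symm' b a]
    exact h⟩
  loopless := ⟨by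
    intro a h
    rw [x.irrefl' a] at h
    exact Bool.noConfusion h⟩

/-- The realization of a symmetric Boolean matrix. -/
noncomputable def ofGr (x : Gr d) : Omega d :=
  ⟨matGraph x, by
    intro v
    have h : (matGraph x).neighborSet v = ↑(Finset.univ.filter fun u => x.1 v u = true) := by
      ext u
      simp [matGraph]
    rw [h, Set.ncard_coe_finset, Finset.card_filter, ← x.2.2.2 v]
    refine Finset.sum_congr rfl (fun u _ => ?_)
    cases x.1 v u <;> simp⟩

lemma ofGr_adj (x : Gr d) (a b : Fin n) : (ofGr x).1.Adj a b ↔ x.1 a b = true := Iff.rfl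

/-- Realizations are symmetric Boolean matrices. -/
noncomputable def omegaEquiv (d : Fin n → ℕ) : Omega d ≃ Gr d where
  toFun := toGr
  invFun := ofGr
  left_inv G := by
    apply Subtype.ext
    ext a b
    rw [ofGr_adj, toGr_apply, decide_eq_true_iff]
  right_inv x := by
    apply Gr.ext'
    intro a b
    rw [toGr_apply]
    by_cases h : x.1 a b = true
    · rw [h, decide_eq_true_iff, ofGr_adj, h]
    · have h2 : x.1 a b = false := by simpa using h
      rw [h2, decide_eq_false_iff_not, ofGr_adj, h2]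
      simp

lemma omegaEquiv_apply (G : Omega d) : omegaEquiv d G = toGr G := rfl

lemma omegaEquiv_symm_apply (x : Gr d) : (omegaEquiv d).symm x = ofGr x := rfl

/-- The switch of the problem is the switch of matrices (one orientation). -/
lemma switch_eq_ofGr {u v y z : Fin n} (hne : u ≠ v ∧ y ≠ z ∧ u ≠ y ∧ u ≠ z ∧ v ≠ y ∧ v ≠ z)
    (G : Omega d) (h1 : G.1.Adj u y) (h2 : G.1.Adj v z) (h3 : ¬ G.1.Adj u z) (h4 : ¬ G.1.Adj v y) :
    switch G.1 {s(u, y), s(v, z)} {s(u, z), s(v, y)} = (ofGr (sw u v y z (toGr G))).1 := by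
  have hact : act u v y z (toGr G) := by
    refine ⟨hne, ?_, ?_, ?_⟩
    · rw [toGr_apply, toGr_apply]; simp [h1, h4]
    · rw [toGr_apply, toGr_apply]; simp [h1, h3]
    · rw [toGr_apply, toGr_apply]; simp [h1, h2]
  obtain ⟨huv, hyz, huy, huz, hvy, hvz⟩ := hne
  have hc : (∀ e ∈ ({s(u, y), s(v, z)} : Finset (Sym2 (Fin n))), e ∈ G.1.edgeSet) ∧
      (∀ e ∈ ({s(u, z), s(v, y)} : Finset (Sym2 (Fin n))), e ∉ G.1.edgeSet) := by
    constructor
    · intro e he
      simp only [Finset.mem_insert, Finset.mem_singleton] at he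
      rcases he with rfl | rfl
      · exact h1
      · exact h2
    · intro e he
      simp only [Finset.mem_insert, Finset.mem_singleton] at he
      rcases he with rfl | rfl
      · exact h3
      · exact h4
  ext a b
  rw [switch_adj hc, ofGr_adj, sw_apply_of_act hact, toGr_apply]
  simp only [Finset.mem_insert, Finset.mem_singleton, Sym2.eq_iff]
  by_cases hQ : inQ u v y z a b
  · rw [if_pos hQ]
    have hadj : ∀ p q, G.1.Adj p q ↔ G.1.Adj q p := fun p q => G.1.adj_comm p q
    unfold inQ at hQ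
    rcases hQ with ⟨ha | ha, hb | hb⟩ | ⟨ha | ha, hb | hb⟩ <;> subst ha <;> subst hb
    · simp [h1, huv, hyz]
      tauto
    · simp [h3, huz]
    · simp [h4, hvy]
    · simp [h2, huv.symm, hyz.symm]
      tauto
    · simp [h1.symm, huv, hyz]
      tauto
    · have h4' : ¬ G.1.Adj a b := fun h => h4 h.symm
      simp [h4', hvy.symm]
    · have h3' : ¬ G.1.Adj a b := fun h => h3 h.symm
      simp [h3', huz.symm]
    · simp [h2.symm, huv.symm, hyz.symm]
      tauto
  · rw [if_neg hQ, decide_eq_true_iff]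
    have hQ' := hQ
    unfold inQ at hQ'
    constructor
    · rintro ⟨⟨h5, h6⟩ | h5, h7⟩
      · exact h5
      · exfalso
        tauto
    · intro h5
      refine ⟨Or.inl ⟨h5, ?_⟩, h5.ne⟩
      intro h6
      tauto

/-- One switch of matrices is bounded by the two switches of the problem. -/
lemma sw_le_wgt {u v y z : Fin n} (hne : u ≠ v ∧ y ≠ z ∧ u ≠ y ∧ u ≠ z ∧ v ≠ y ∧ v ≠ z)
    (f : Omega d → ℝ) (G : Omega d) :
    (f G - f (ofGr (sw u v y z (toGr G)))) ^ 2 ≤
      wgt f G (switch G.1 {s(u, y), s(v, z)} {s(u, z), s(v, y)}) +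
      wgt f G (switch G.1 {s(u, z), s(v, y)} {s(u, y), s(v, z)}) := by
  by_cases hact : act u v y z (toGr G)
  · obtain ⟨-, e1, e2, e3⟩ := hact
    rw [toGr_apply, toGr_apply] at e1 e2 e3
    by_cases h1 : G.1.Adj u y
    · have h4 : ¬ G.1.Adj v y := by simpa [h1] using e1
      have h3 : ¬ G.1.Adj u z := by simpa [h1] using e2
      have h2 : G.1.Adj v z := by simpa [h1] using e3
      rw [switch_eq_ofGr hne G h1 h2 h3 h4, wgt_self]
      have := wgt_nonneg f G (switch G.1 {s(u, z), s(v, y)} {s(u, y), s(v, z)})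
      linarith
    · have h4 : G.1.Adj v y := by simpa [h1] using e1
      have h3 : G.1.Adj u z := by simpa [h1] using e2
      have h2 : ¬ G.1.Adj v z := by simpa [h1] using e3
      have hne' : u ≠ v ∧ z ≠ y ∧ u ≠ z ∧ u ≠ y ∧ v ≠ z ∧ v ≠ y :=
        ⟨hne.1, hne.2.1.symm, hne.2.2.2.1, hne.2.2.1, hne.2.2.2.2.2, hne.2.2.2.2.1⟩
      rw [switch_eq_ofGr hne' G h3 h4 h1 h2, wgt_self, sw_swap_right u v y z]
      have := wgt_nonneg f G (switch G.1 {s(u, y), s(v, z)} {s(u, z), s(v, y)})
      linarith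
  · rw [sw_of_not_act hact]
    have h0 : ofGr (toGr G) = G := (omegaEquiv d).symm_apply_apply G
    rw [h0, sub_self]
    have h5 := wgt_nonneg f G (switch G.1 {s(u, y), s(v, z)} {s(u, z), s(v, y)})
    have h6 := wgt_nonneg f G (switch G.1 {s(u, z), s(v, y)} {s(u, y), s(v, z)})
    nlinarith

/-- Quadruples which are not distinct contribute nothing. -/
lemma sw_degenerate {u v y z : Fin n} (hne : ¬ (u ≠ v ∧ y ≠ z ∧ u ≠ y ∧ u ≠ z ∧ v ≠ y ∧ v ≠ z))
    (f : Omega d → ℝ) (G : Omega d) :
    (f G - f (ofGr (sw u v y z (toGr G)))) ^ 2 = 0 := by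
  have h1 : ¬ act u v y z (toGr G) := fun h => hne h.1
  have h0 : ofGr (toGr G) = G := (omegaEquiv d).symm_apply_apply G
  rw [sw_of_not_act h1, h0, sub_self]
  norm_num

end Vale.Agent.P335
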