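import Mathlib
import Vale.Agent.P335.Chain
import Vale.Agent.P335.GMain
import Vale.Agent.P335.GCount
import Vale.Agent.P335.GTransfer

/-!
# P335, general case: transfer to the switch chain of the problem
-/

open Finset
open scoped Classical

namespace Vale.Agent.P335

variable {n : ℕ}

lemma qpair_swap (u v y z : Fin n) : qpair u v z y = ((qpair u v y z).2, (qpair u v y z).1) := rfl

lemma dist4_swap {u v y z : Fin n} : Dist4 u v z y ↔ Dist4 u v y z := by
  unfold Dist4
  constructor <;> rintro ⟨h1, h2, h3, h4, h5, h6⟩ <;> exact ⟨h1, h2.symm, h4, h3, h6, h5⟩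

/-- A switch is dominated by the two corresponding choices. -/
lemma sq_sw_le {d : Fin n → ℕ} (f : Omega d → ℝ) (G : Omega d) (u v y z : Fin n) :
    (f G - f ((omegaEquiv d).symm (sw u v y z (omegaEquiv d G)))) ^ 2 ≤
      if Dist4 u v y z then wgt f G (switch G.1 (qpair u v y z).1 (qpair u v y z).2)
        + wgt f G (switch G.1 (qpair u v y z).2 (qpair u v y z).1) else 0 := by
  by_cases h : Dist4 u v y z
  · rw [if_pos h]
    exact sw_le_wgt h f G
  · rw [if_neg h]
    exact (sw_degenerate h f G).le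

/-- The contributions of all choices dominate the variance. -/
lemma total_choices_all (d : Fin n → ℕ) (f : Omega d → ℝ) (hf : ∑ x, f x = 0) :
    4 * ip f f ≤ ∑ G : Omega d, ∑ s ∈ choices n, wgt f G (switch G.1 s.2.1 s.2.2) := by
  set g : Gr d → ℝ := fun x => f ((omegaEquiv d).symm x) with hg
  have hg0 : ∑ x, g x = 0 := by
    rw [← hf]
    exact Equiv.sum_comp (omegaEquiv d).symm f
  have hgg : ip g g = ip f f := by
    unfold ip
    exact Equiv.sum_comp (omegaEquiv d).symm (fun G => f G * f G)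
  have hgap := graph_gap g hg0
  rw [hgg] at hgap
  have hre : ∑ u, ∑ v, ∑ y, ∑ z, ∑ x : Gr d, (g x - g (sw u v y z x)) ^ 2
      = ∑ G : Omega d, ∑ u, ∑ v, ∑ y, ∑ z,
          (f G - f ((omegaEquiv d).symm (sw u v y z (omegaEquiv d G)))) ^ 2 := by
    have h1 : ∀ u v y z, ∑ x : Gr d, (g x - g (sw u v y z x)) ^ 2
        = ∑ G : Omega d, (f G - f ((omegaEquiv d).symm (sw u v y z (omegaEquiv d G)))) ^ 2 := by
      intro u v y z
      rw [← Equiv.sum_comp (omegaEquiv d) (fun x => (g x - g (sw u v y z x)) ^ 2)]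
      refine Finset.sum_congr rfl (fun G _ => ?_)
      simp only [hg]
      rw [Equiv.symm_apply_apply]
    calc ∑ u, ∑ v, ∑ y, ∑ z, ∑ x : Gr d, (g x - g (sw u v y z x)) ^ 2
        = ∑ u, ∑ v, ∑ y, ∑ z, ∑ G : Omega d,
            (f G - f ((omegaEquiv d).symm (sw u v y z (omegaEquiv d G)))) ^ 2 :=
          Finset.sum_congr rfl (fun u _ => Finset.sum_congr rfl (fun v _ =>
            Finset.sum_congr rfl (fun y _ => Finset.sum_congr rfl (fun z _ => h1 u v y z))))
      _ = ∑ u, ∑ v, ∑ y, ∑ G : Omega d, ∑ z,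
            (f G - f ((omegaEquiv d).symm (sw u v y z (omegaEquiv d G)))) ^ 2 :=
          Finset.sum_congr rfl (fun u _ => Finset.sum_congr rfl (fun v _ =>
            Finset.sum_congr rfl (fun y _ => Finset.sum_comm)))
      _ = ∑ u, ∑ v, ∑ G : Omega d, ∑ y, ∑ z,
            (f G - f ((omegaEquiv d).symm (sw u v y z (omegaEquiv d G)))) ^ 2 :=
          Finset.sum_congr rfl (fun u _ => Finset.sum_congr rfl (fun v _ => Finset.sum_comm))
      _ = ∑ u, ∑ G : Omega d, ∑ v, ∑ y, ∑ z,
            (f G - f ((omegaEquiv d).symm (sw u v y z (omegaEquiv d G)))) ^ 2 :=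
          Finset.sum_congr rfl (fun u _ => Finset.sum_comm)
      _ = _ := Finset.sum_comm
  rw [hre] at hgap
  have hG : ∀ G : Omega d, ∑ u, ∑ v, ∑ y, ∑ z,
      (f G - f ((omegaEquiv d).symm (sw u v y z (omegaEquiv d G)))) ^ 2
      ≤ 8 * ∑ s ∈ choices n, wgt f G (switch G.1 s.2.1 s.2.2) := by
    intro G
    set Φ : Finset (Sym2 (Fin n)) × Finset (Sym2 (Fin n)) → ℝ :=
      fun p => wgt f G (switch G.1 p.1 p.2) with hΦ
    have h1 : ∑ u, ∑ v, ∑ y, ∑ z,
        (f G - f ((omegaEquiv d).symm (sw u v y z (omegaEquiv d G)))) ^ 2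
        ≤ ∑ u, ∑ v, ∑ y, ∑ z, ((if Dist4 u v y z then Φ (qpair u v y z) else 0)
          + (if Dist4 u v z y then Φ (qpair u v z y) else 0)) := by
      refine Finset.sum_le_sum (fun u _ => Finset.sum_le_sum (fun v _ =>
        Finset.sum_le_sum (fun y _ => Finset.sum_le_sum (fun z _ => ?_))))
      refine (sq_sw_le f G u v y z).trans (le_of_eq ?_)
      by_cases h : Dist4 u v y z
      · rw [if_pos h, if_pos h, if_pos (dist4_swap.mpr h)]
        rfl
      · rw [if_neg h, if_neg h, if_neg (fun h' => h (dist4_swap.mp h')), add_zero]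
    have h2 : ∑ u, ∑ v, ∑ y, ∑ z, ((if Dist4 u v y z then Φ (qpair u v y z) else 0)
          + (if Dist4 u v z y then Φ (qpair u v z y) else 0))
        = 2 * ∑ u, ∑ v, ∑ y, ∑ z, (if Dist4 u v y z then Φ (qpair u v y z) else 0) := by
      simp only [Finset.sum_add_distrib]
      have h3 : ∑ u, ∑ v, ∑ y, ∑ z, (if Dist4 u v z y then Φ (qpair u v z y) else 0)
          = ∑ u, ∑ v, ∑ y, ∑ z, (if Dist4 u v y z then Φ (qpair u v y z) else 0) :=
        Finset.sum_congr rfl (fun u _ => Finset.sum_congr rfl (fun v _ => Finset.sum_comm))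
      rw [h3]; ring
    have h4 := quad_count Φ (fun p => wgt_nonneg f G _)
    rw [h2] at h1
    linarith
  have htot := Finset.sum_le_sum (fun G (_ : G ∈ (Finset.univ : Finset (Omega d))) => hG G)
  rw [← Finset.mul_sum] at htot
  linarith

/-- Gap of the switch chain for all degree vectors. -/
theorem omega_gap {n : ℕ} (hn : 4 ≤ n) (d : Fin n → ℕ) (f : Omega d → ℝ) (hf : ∑ x, f x = 0) :
    ip ((switchChain d).mulVec f) f ≤ (1 - 1 / (6 * (n.choose 4 : ℝ))) * ip f f := by
  have hC : (0 : ℝ) < (n.choose 4 : ℝ) := by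
    exact_mod_cast Nat.choose_pos hn
  have hdir := switchChain_dirichlet hn d f
  have h8 := total_choices_all d f hf
  have hrow : ∑ G, ∑ H, switchChain d G H * (f G - f H) ^ 2 =
      1 / (12 * (n.choose 4 : ℝ)) * ∑ G : Omega d, ∑ s ∈ choices n,
        wgt f G (switch G.1 s.2.1 s.2.2) := by
    rw [Finset.mul_sum]
    exact Finset.sum_congr rfl fun G _ => row_dirichlet f G
  rw [hrow] at hdir
  have h5 : (1 : ℝ) / (6 * (n.choose 4 : ℝ)) * ip f f ≤
      1 / 2 * (1 / (12 * (n.choose 4 : ℝ)) * ∑ G : Omega d, ∑ s ∈ choices n,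
        wgt f G (switch G.1 s.2.1 s.2.2)) := by
    have h6 : (1 : ℝ) / (6 * (n.choose 4 : ℝ)) * ip f f =
        1 / 2 * (1 / (12 * (n.choose 4 : ℝ)) * (4 * ip f f)) := by
      field_simp
      ring
    rw [h6]
    have h7 : (0 : ℝ) < 1 / (12 * (n.choose 4 : ℝ)) := by positivity
    have h9 := mul_le_mul_of_nonneg_left h8 h7.le
    linarith
  rw [sub_mul, one_mul]
  linarith

end Vale.Agent.P335
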