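import Mathlib
import Vale.Agent.P335.Avg

/-!
# P335: from a spectral gap to total variation
-/

open Finset
open scoped Classical

namespace Vale.Agent.P335

variable {Ω : Type*} [Fintype Ω]

lemma ip_mulVec_symm (M : Matrix Ω Ω ℝ) (hsymm : ∀ x y, M x y = M y x) (f g : Ω → ℝ) :
    ip (M.mulVec f) g = ip f (M.mulVec g) := by
  unfold ip Matrix.mulVec dotProduct
  simp only [Finset.sum_mul, Finset.mul_sum]
  rw [Finset.sum_comm]
  refine Finset.sum_congr rfl (fun x _ => Finset.sum_congr rfl (fun y _ => ?_))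
  rw [hsymm y x]; ring

/-- Cauchy–Schwarz for the form of `M`. -/
lemma ip_mulVec_contract (M : Matrix Ω Ω ℝ) (hsymm : ∀ x y, M x y = M y x)
    (hpos : ∀ f : Ω → ℝ, 0 ≤ ip (M.mulVec f) f)
    (hle : ∀ f : Ω → ℝ, ip (M.mulVec f) f ≤ ip f f) (f : Ω → ℝ) :
    ip (M.mulVec f) (M.mulVec f) ≤ ip (M.mulVec f) f := by
  set g := M.mulVec f with hg
  have hB : ∀ s : ℝ, 0 ≤ ip (M.mulVec g) g * (s * s) + (2 * ip g g) * s + ip g f := by
    intro s
    have h1 := hpos (f + s • g)
    rw [Matrix.mulVec_add, Matrix.mulVec_smul, ← hg] at h1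
    simp only [ip_add_left, ip_add_right, ip_smul_left, ip_smul_right] at h1
    have h2 : ip (M.mulVec g) f = ip g g := by rw [ip_mulVec_symm M hsymm g f]
    rw [h2] at h1
    linarith
  have hdisc := discrim_le_zero hB
  unfold discrim at hdisc
  have hgg := ip_self_nonneg g
  have hle' := hle g
  have hgf : 0 ≤ ip g f := hpos f
  by_contra hcon
  push Not at hcon
  have hgpos : 0 < ip g g := lt_of_le_of_lt hgf hcon
  nlinarith [mul_le_mul_of_nonneg_right hle' hgf]

/-- A symmetric stochastic matrix with `0 ≤ P` and `P ≤ 1 - γ` on mean-zero functions mixes. -/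
theorem mixing_of_gap [Nonempty Ω] (M : Matrix Ω Ω ℝ) (hsymm : ∀ x y, M x y = M y x)
    (hrow : ∀ x, ∑ y, M x y = 1)
    (γ : ℝ) (hγ0 : 0 ≤ γ) (hγ1 : γ ≤ 1)
    (hpos : ∀ f : Ω → ℝ, 0 ≤ ip (M.mulVec f) f)
    (hle : ∀ f : Ω → ℝ, ip (M.mulVec f) f ≤ ip f f)
    (hgap : ∀ f : Ω → ℝ, ∑ x, f x = 0 → ip (M.mulVec f) f ≤ (1 - γ) * ip f f)
    (t : ℕ) (x : Ω) :
    (∑ y, |(M ^ t) x y - 1 / (Fintype.card Ω : ℝ)|) ^ 2 ≤ (Fintype.card Ω : ℝ) * (1 - γ) ^ t := by
  have hN : (0:ℝ) < (Fintype.card Ω : ℝ) := by exact_mod_cast Fintype.card_pos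
  set F : ℕ → Ω → ℝ := fun t y => (M ^ t) x y - 1 / (Fintype.card Ω : ℝ) with hF
  have hstep : ∀ t, F (t + 1) = M.mulVec (F t) := by
    intro t
    funext y
    have h1 : (M ^ (t + 1)) x y = ∑ z, M y z * (M ^ t) x z := by
      rw [pow_succ, Matrix.mul_apply]
      exact Finset.sum_congr rfl (fun z _ => by rw [hsymm y z, mul_comm])
    have h2 : M.mulVec (F t) y = ∑ z, M y z * (M ^ t) x z
        - (∑ z, M y z) * (1 / (Fintype.card Ω : ℝ)) := by
      simp only [Matrix.mulVec, dotProduct, hF]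
      rw [Finset.sum_mul, ← Finset.sum_sub_distrib]
      exact Finset.sum_congr rfl (fun z _ => by ring)
    rw [h2, hrow, ← h1, one_mul]
  have hmean : ∀ t, ∑ y, F t y = 0 := by
    intro t
    induction t with
    | zero =>
      simp only [hF, pow_zero, Finset.sum_sub_distrib, Matrix.one_apply, Finset.sum_ite_eq,
        Finset.mem_univ, if_true, Finset.sum_const, nsmul_eq_mul, Finset.card_univ]
      field_simp
      norm_num
    | succ t ih =>
      rw [hstep]
      have h3 : ∑ y, M.mulVec (F t) y = ∑ z, (∑ y, M z y) * F t z := by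
        simp only [Matrix.mulVec, dotProduct]
        rw [Finset.sum_comm]
        refine Finset.sum_congr rfl (fun z _ => ?_)
        rw [Finset.sum_mul]
        exact Finset.sum_congr rfl (fun y _ => by rw [hsymm y z])
      rw [h3, Finset.sum_congr rfl (fun z _ => by rw [hrow z, one_mul]), ih]
  have hdecay : ∀ t, ip (F t) (F t) ≤ (1 - γ) ^ t := by
    intro t
    induction t with
    | zero =>
      have h4 : ip (F 0) (F 0) = ∑ y, (if x = y then (1:ℝ) else 0)
          - (1 / (Fintype.card Ω : ℝ)) * ∑ y, (if x = y then (1:ℝ) else 0)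
          - (1 / (Fintype.card Ω : ℝ)) * ∑ y, F 0 y := by
        unfold ip
        rw [Finset.mul_sum, Finset.mul_sum, ← Finset.sum_sub_distrib, ← Finset.sum_sub_distrib]
        refine Finset.sum_congr rfl (fun y _ => ?_)
        simp only [hF, pow_zero, Matrix.one_apply]
        by_cases h : x = y
        · simp [h]; ring
        · simp [h]
      rw [h4, hmean 0]
      simp only [Finset.sum_ite_eq, Finset.mem_univ, if_true, mul_zero, sub_zero, pow_zero, mul_one]
      have : 0 ≤ 1 / (Fintype.card Ω : ℝ) := by positivity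
      linarith
    | succ t ih =>
      rw [hstep]
      calc ip (M.mulVec (F t)) (M.mulVec (F t)) ≤ ip (M.mulVec (F t)) (F t) :=
            ip_mulVec_contract M hsymm hpos hle (F t)
        _ ≤ (1 - γ) * ip (F t) (F t) := hgap (F t) (hmean t)
        _ ≤ (1 - γ) * (1 - γ) ^ t := mul_le_mul_of_nonneg_left ih (by linarith)
        _ = (1 - γ) ^ (t + 1) := by ring
  have hCS : (∑ y, |F t y|) ^ 2 ≤ (Fintype.card Ω : ℝ) * ip (F t) (F t) := by
    have h5 := Finset.sum_mul_sq_le_sq_mul_sq (Finset.univ : Finset Ω) (fun _ => (1:ℝ))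
      (fun y => |F t y|)
    simp only [one_mul, one_pow, Finset.sum_const, nsmul_eq_mul, mul_one, Finset.card_univ,
      sq_abs] at h5
    unfold ip
    calc (∑ y, |F t y|) ^ 2 ≤ (Fintype.card Ω : ℝ) * ∑ y, F t y ^ 2 := h5
      _ = (Fintype.card Ω : ℝ) * ∑ y, F t y * F t y := by
          congr 1
          exact Finset.sum_congr rfl (fun y _ => by ring)
  exact hCS.trans (mul_le_mul_of_nonneg_left (hdecay t) hN.le)

end Vale.Agent.P335
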