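import Mathlib
import Vale.Agent.P335.Chain
import Vale.Agent.P335.Mixing

/-!
# P335: mixing time from the gap
-/

open Finset
open scoped Classical

namespace Vale.Agent.P335

theorem card_Omega_le {n : ℕ} (d : Fin n → ℕ) : Fintype.card (Omega d) ≤ 2 ^ (n.choose 2) := by
  have h1 : Fintype.card ({e : Sym2 (Fin n) // ¬ e.IsDiag} → Bool) = 2 ^ (n.choose 2) := by
    rw [Fintype.card_fun, Fintype.card_bool, Sym2.card_subtype_not_diag, Fintype.card_fin]
  rw [← h1]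
  refine Fintype.card_le_of_injective
    (fun (G : Omega d) (e : {e : Sym2 (Fin n) // ¬ e.IsDiag}) => decide (e.1 ∈ G.1.edgeSet)) ?_
  intro G H h
  apply Subtype.ext
  apply SimpleGraph.edgeSet_injective
  ext e
  by_cases he : e.IsDiag
  · constructor
    · intro h'; exact absurd he (G.1.not_isDiag_of_mem_edgeSet h')
    · intro h'; exact absurd he (H.1.not_isDiag_of_mem_edgeSet h')
  · have := congrFun h ⟨e, he⟩
    simpa using this

/-- A gap `1 / (6 * C(n,4))` gives mixing time at most `n ^ 6`. -/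
theorem tMix_le_of_gap {n : ℕ} (hn : 4 ≤ n) (d : Fin n → ℕ) (hne : Nonempty (Omega d))
    (hgap : ∀ f : Omega d → ℝ, ∑ x, f x = 0 →
      ip ((switchChain d).mulVec f) f ≤ (1 - 1 / (6 * (n.choose 4 : ℝ))) * ip f f) :
    (mixedTimes d).Nonempty ∧ tMix d ≤ n ^ 6 := by
  have hmem : n ^ 6 ∈ mixedTimes d := by
    intro G
    have hC : (0:ℝ) < (n.choose 4 : ℝ) := by exact_mod_cast Nat.choose_pos hn
    have hC1 : (1:ℝ) ≤ (n.choose 4 : ℝ) := by exact_mod_cast Nat.choose_pos hn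
    set γ : ℝ := 1 / (6 * (n.choose 4 : ℝ)) with hγ
    have hγ0 : 0 ≤ γ := by positivity
    have hγ1 : γ ≤ 1 := by
      rw [hγ, div_le_one (by positivity)]; linarith
    have hmain := mixing_of_gap (switchChain d) (switchChain_symm d) (switchChain_row hn d) γ hγ0 hγ1
      (switchChain_pos hn d) (switchChain_le hn d) hgap (n ^ 6) G
    have hn0 : (4:ℝ) ≤ (n : ℝ) := by exact_mod_cast hn
    -- the exponent
    have hCle : (n.choose 4 : ℝ) ≤ (n : ℝ) ^ 4 / 24 := by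
      have := Nat.choose_le_pow_div (α := ℝ) 4 n
      have h24 : ((4).factorial : ℝ) = 24 := by norm_num [Nat.factorial]
      rwa [h24] at this
    have hγn : 4 * (n : ℝ) ^ 2 ≤ γ * ((n ^ 6 : ℕ) : ℝ) := by
      rw [hγ, div_mul_eq_mul_div, one_mul, le_div_iff₀ (by positivity)]
      push_cast
      have : 4 * (n : ℝ) ^ 2 * (6 * (n.choose 4 : ℝ)) ≤ 4 * (n : ℝ) ^ 2 * (6 * ((n : ℝ) ^ 4 / 24)) := by
        gcongr
      calc 4 * (n : ℝ) ^ 2 * (6 * (n.choose 4 : ℝ)) ≤ 4 * (n : ℝ) ^ 2 * (6 * ((n : ℝ) ^ 4 / 24)) := this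
        _ = (n : ℝ) ^ 6 := by ring
    have hexp : (1 - γ) ^ (n ^ 6) ≤ Real.exp (-(4 * (n : ℝ) ^ 2)) := by
      have h1 : 1 - γ ≤ Real.exp (-γ) := by
        have := Real.add_one_le_exp (-γ); linarith
      calc (1 - γ) ^ (n ^ 6) ≤ (Real.exp (-γ)) ^ (n ^ 6) :=
            pow_le_pow_left₀ (by linarith) h1 _
        _ = Real.exp (((n ^ 6 : ℕ) : ℝ) * (-γ)) := (Real.exp_nat_mul _ _).symm
        _ ≤ Real.exp (-(4 * (n : ℝ) ^ 2)) := by
            apply Real.exp_le_exp.mpr; linarith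
    have hexp2 : Real.exp (-(4 * (n : ℝ) ^ 2)) ≤ ((2:ℝ) ^ (4 * n ^ 2))⁻¹ := by
      rw [Real.exp_neg]
      apply inv_anti₀ (by positivity)
      have h2 : (2:ℝ) ≤ Real.exp 1 := by
        have := Real.add_one_le_exp (1:ℝ); linarith
      calc (2:ℝ) ^ (4 * n ^ 2) ≤ (Real.exp 1) ^ (4 * n ^ 2) := pow_le_pow_left₀ (by norm_num) h2 _
        _ = Real.exp (((4 * n ^ 2 : ℕ) : ℝ) * 1) := (Real.exp_nat_mul _ _).symm
        _ = Real.exp (4 * (n : ℝ) ^ 2) := by push_cast; ring_nf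
    have hcard : (Fintype.card (Omega d) : ℝ) ≤ (2:ℝ) ^ (n.choose 2) := by
      exact_mod_cast card_Omega_le d
    have hch : n.choose 2 + 2 ≤ 4 * n ^ 2 := by
      have h3 : n.choose 2 ≤ n ^ 2 := Nat.choose_le_pow n 2
      nlinarith
    have hfin : (Fintype.card (Omega d) : ℝ) * (1 - γ) ^ (n ^ 6) ≤ (1 / 2) ^ 2 := by
      calc (Fintype.card (Omega d) : ℝ) * (1 - γ) ^ (n ^ 6)
          ≤ (2:ℝ) ^ (n.choose 2) * ((2:ℝ) ^ (4 * n ^ 2))⁻¹ := by
            apply mul_le_mul hcard (hexp.trans hexp2) (pow_nonneg (by linarith) _) (by positivity)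
        _ ≤ (1 / 2) ^ 2 := by
            rw [← div_eq_mul_inv, div_le_iff₀ (by positivity)]
            have : (2:ℝ) ^ (n.choose 2) * 4 ≤ (2:ℝ) ^ (4 * n ^ 2) := by
              calc (2:ℝ) ^ (n.choose 2) * 4 = (2:ℝ) ^ (n.choose 2 + 2) := by ring
                _ ≤ (2:ℝ) ^ (4 * n ^ 2) := pow_le_pow_right₀ (by norm_num) hch
            linarith
    have hsq := hmain.trans hfin
    have habs := abs_le_of_sq_le_sq hsq (by norm_num : (0:ℝ) ≤ 1 / 2)
    have hle := (abs_le.mp habs).2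
    unfold tvDist
    linarith
  exact ⟨⟨_, hmem⟩, Nat.sInf_le hmem⟩

end Vale.Agent.P335
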